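import Crest.Agent.R245.Germ

/-!
# R245 Bd: the calculus of word bounds (TASK)
Every proof is an induction on `k` generalizing the functions and constants, using the
`=ᶠ[𝓝 p]` rules of `Germ.lean` and `Bd.congr`.
-/

set_option autoImplicit false
open scoped ComplexConjugate ContDiff Topology
open Complex (I)
open Filter

namespace Crest.Agent.R245

variable {ν : E → ℝ} {p : E} {k : ℕ} {F G : E → ℂ} {K L : ℝ}

theorem Bd.val (h : Bd ν p k F K) : ‖F p‖ ≤ K := by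
  cases k with
  | zero => exact h
  | succ k => exact h.1

theorem Bd.nonneg (h : Bd ν p k F K) : 0 ≤ K := (norm_nonneg _).trans h.val

theorem bd_succ : Bd ν p (k + 1) F K ↔ ‖F p‖ ≤ K ∧ Bd1 ν p k F K := Iff.rfl

theorem Bd.congr (h : Bd ν p k F K) (e : F =ᶠ[𝓝 p] G) : Bd ν p k G K := by
  induction k generalizing F G K with
  | zero => exact (e.eq_of_nhds ▸ h.val : ‖G p‖ ≤ K)
  | succ k ih => exact ⟨e.eq_of_nhds ▸ h.1, fun v => ih (h.2 v) (pd_congr e v)⟩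

theorem Bd1.congr (h : Bd1 ν p k F K) (e : F =ᶠ[𝓝 p] G) : Bd1 ν p k G K := by
  exact fun v => (h v).congr (pd_congr e v)

theorem Bd.mono (hν : ∀ v, 0 ≤ ν v) (h : Bd ν p k F K) (hK : K ≤ L) : Bd ν p k F L := by
  induction k generalizing F K L with
  | zero => exact le_trans h hK
  | succ k ih =>
    exact ⟨h.1.trans hK, fun v => ih (h.2 v) (mul_le_mul_of_nonneg_right hK (hν v))⟩

theorem Bd1.mono (hν : ∀ v, 0 ≤ ν v) (h : Bd1 ν p k F K) (hK : K ≤ L) : Bd1 ν p k F L := by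
  exact fun v => (h v).mono hν (mul_le_mul_of_nonneg_right hK (hν v))

theorem Bd.of_succ (h : Bd ν p (k + 1) F K) : Bd ν p k F K := by
  induction k generalizing F K with
  | zero => exact h.1
  | succ k ih => exact ⟨h.1, fun v => ih (h.2 v)⟩

theorem Bd.of_le {k' : ℕ} (h : Bd ν p k F K) (hk : k' ≤ k) : Bd ν p k' F K := by
  induction hk with
  | refl => exact h
  | step _ ih => exact ih h.of_succ

theorem Bd1.of_le {k' : ℕ} (h : Bd1 ν p k F K) (hk : k' ≤ k) : Bd1 ν p k' F K := by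
  exact fun v => (h v).of_le hk

/-- change of seminorm -/
theorem Bd.change {ν' : E → ℝ} (hν' : ∀ v, 0 ≤ ν' v) {r : ℝ} (hr : 1 ≤ r)
    (hle : ∀ v, ν v ≤ r * ν' v) (h : Bd ν p k F K) : Bd ν' p k F (K * r ^ k) := by
  induction k generalizing F K with
  | zero => simpa [Bd] using h
  | succ k ih =>
    have hK := h.nonneg
    have hrk : 0 ≤ r ^ k := by positivity
    refine ⟨h.1.trans (le_mul_of_one_le_right hK (one_le_pow₀ hr)), fun v =>
      (ih (h.2 v)).mono hν' ?_⟩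
    calc K * ν v * r ^ k ≤ K * (r * ν' v) * r ^ k := by gcongr; exact hle v
      _ = _ := by ring

/-- change of seminorm with a gain `r₀` in the first letter -/
theorem Bd1.change {ν' : E → ℝ} (hν : ∀ v, 0 ≤ ν v) (hν' : ∀ v, 0 ≤ ν' v) {r₀ r : ℝ}
    (hr : 1 ≤ r) (hK : 0 ≤ K) (hle₀ : ∀ v, ν v ≤ r₀ * ν' v) (hle : ∀ v, ν v ≤ r * ν' v)
    (h : Bd1 ν p k F K) : Bd1 ν' p k F (K * r₀ * r ^ k) := by
  intro v
  have hrk : 0 ≤ r ^ k := by positivity
  refine ((h v).change hν' hr hle).mono hν' ?_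
  have _ := hν v
  calc K * ν v * r ^ k ≤ K * (r₀ * ν' v) * r ^ k := by gcongr; exact hle₀ v
    _ = _ := by ring

theorem bd_zero : Bd ν p k (fun _ => 0) 0 := by
  induction k with
  | zero => simp [Bd]
  | succ k ih => exact ⟨by simp, fun v => by rw [pd_const, zero_mul]; exact ih⟩

theorem bd_const (hν : ∀ v, 0 ≤ ν v) (c : ℂ) : Bd ν p k (fun _ => c) ‖c‖ := by
  cases k with
  | zero => exact le_rfl
  | succ k =>
    refine ⟨le_rfl, fun v => ?_⟩
    rw [pd_const]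
    exact bd_zero.mono hν (mul_nonneg (norm_nonneg _) (hν v))

theorem bd1_const (c : ℂ) : Bd1 ν p k (fun _ => c) 0 := by
  intro v
  rw [pd_const, zero_mul]
  exact bd_zero

theorem Bd.add (hF : Sm F p) (hG : Sm G p) (h : Bd ν p k F K) (h' : Bd ν p k G L) :
    Bd ν p k (fun z => F z + G z) (K + L) := by
  induction k generalizing F G K L with
  | zero => exact (norm_add_le _ _).trans (add_le_add h h')
  | succ k ih =>
    refine ⟨(norm_add_le _ _).trans (add_le_add h.1 h'.1), fun v => ?_⟩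
    rw [add_mul]
    exact (ih (hF.pd v) (hG.pd v) (h.2 v) (h'.2 v)).congr (pd_add hF hG v).symm

theorem Bd1.add (hF : Sm F p) (hG : Sm G p) (h : Bd1 ν p k F K) (h' : Bd1 ν p k G L) :
    Bd1 ν p k (fun z => F z + G z) (K + L) := by
  intro v
  rw [add_mul]
  exact (Bd.add (hF.pd v) (hG.pd v) (h v) (h' v)).congr (pd_add hF hG v).symm

theorem Bd.const_mul (hF : Sm F p) (c : ℂ) (h : Bd ν p k F K) :
    Bd ν p k (fun z => c * F z) (‖c‖ * K) := by
  have h0 : ∀ {F : E → ℂ} {K : ℝ}, ‖F p‖ ≤ K → ‖c * F p‖ ≤ ‖c‖ * K := fun h => by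
    rw [norm_mul]; exact mul_le_mul_of_nonneg_left h (norm_nonneg _)
  induction k generalizing F K with
  | zero => exact h0 h
  | succ k ih =>
    refine ⟨h0 h.1, fun v => ?_⟩
    rw [mul_assoc]
    exact (ih (hF.pd v) (h.2 v)).congr (pd_const_mul hF c v).symm

theorem Bd1.const_mul (hF : Sm F p) (c : ℂ) (h : Bd1 ν p k F K) :
    Bd1 ν p k (fun z => c * F z) (‖c‖ * K) := by
  intro v
  rw [mul_assoc]
  exact (Bd.const_mul (hF.pd v) c (h v)).congr (pd_const_mul hF c v).symm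

theorem Bd1.add_const (c : ℂ) (h : Bd1 ν p k F K) : Bd1 ν p k (fun z => F z + c) K := by
  intro v
  have : pd v (fun z => F z + c) = pd v F := by
    funext z
    simp only [pd, fderiv_add_const]
  rw [this]
  exact h v

theorem Bd.conj (hF : Sm F p) (h : Bd ν p k F K) : Bd ν p k (fun z => conj (F z)) K := by
  induction k generalizing F K with
  | zero => exact (Complex.norm_conj _).le.trans h
  | succ k ih =>
    exact ⟨(Complex.norm_conj _).le.trans h.1, fun v =>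
      (ih (hF.pd v) (h.2 v)).congr (pd_conj hF v).symm⟩

theorem Bd1.sum {ι : Type*} (s : Finset ι) {f : ι → E → ℂ} {c : ι → ℝ}
    (hf : ∀ i ∈ s, Sm (f i) p) (h : ∀ i ∈ s, Bd1 ν p k (f i) (c i)) :
    Bd1 ν p k (fun z => ∑ i ∈ s, f i z) (∑ i ∈ s, c i) := by
  classical
  induction s using Finset.induction_on with
  | empty => simpa using bd1_const (0 : ℂ)
  | insert a s ha ih =>
    simp only [Finset.sum_insert ha]
    exact Bd1.add (hf a (Finset.mem_insert_self _ _))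
      (ContDiffAt.sum fun i hi => hf i (Finset.mem_insert_of_mem hi))
      (h a (Finset.mem_insert_self _ _))
      (ih (fun i hi => hf i (Finset.mem_insert_of_mem hi))
        fun i hi => h i (Finset.mem_insert_of_mem hi))

/-- Leibniz rule: `pd v (F G) = pd v F * G + F * pd v G`, each bounded by `2^k K L ν v` -/
theorem Bd.mul (hν : ∀ v, 0 ≤ ν v) (hF : Sm F p) (hG : Sm G p) (h : Bd ν p k F K)
    (h' : Bd ν p k G L) : Bd ν p k (fun z => F z * G z) (2 ^ k * (K * L)) := by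
  have _ := hν
  have h0 : ∀ {F G : E → ℂ} {K L : ℝ}, ‖F p‖ ≤ K → ‖G p‖ ≤ L → ‖F p * G p‖ ≤ K * L :=
    fun h h' => by
      rw [norm_mul]; exact mul_le_mul h h' (norm_nonneg _) ((norm_nonneg _).trans h)
  induction k generalizing F G K L with
  | zero => simpa [Bd] using h0 h h'
  | succ k ih =>
    refine ⟨(h0 h.1 h'.1).trans (le_mul_of_one_le_left (mul_nonneg h.nonneg h'.nonneg)
      (one_le_pow₀ one_le_two)), fun v => ?_⟩
    have h1 := Bd.add ((hF.pd v).mul hG) (hF.mul (hG.pd v))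
      (ih (hF.pd v) hG (h.2 v) h'.of_succ) (ih hF (hG.pd v) h.of_succ (h'.2 v))
    have h2 : 2 ^ (k + 1) * (K * L) * ν v = 2 ^ k * (K * ν v * L) + 2 ^ k * (K * (L * ν v)) := by
      ring
    rw [h2]
    exact h1.congr (pd_mul hF hG v).symm

/-- real affine functions -/
theorem bd1_affine (hν : ∀ v, 0 ≤ ν v) (l : E →L[ℝ] ℂ) (c : ℂ) (hK : 0 ≤ K)
    (hl : ∀ v, ‖l v‖ ≤ K * ν v) : Bd1 ν p k (fun z => l z + c) K := by
  intro v
  have _ := hK
  have : pd v (fun z => l z + c) = fun _ => l v := by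
    funext z
    simp only [pd, fderiv_add_const, ContinuousLinearMap.fderiv]
  rw [this]
  exact (bd_const hν _).mono hν (hl v)

theorem BdAux.deriv_sm {f : ℝ → ℝ} {x : ℝ} (hf : ContDiffAt ℝ ∞ f x) :
    ContDiffAt ℝ ∞ (deriv f) x := hf.derivWithin (by simp)

theorem BdAux.comp_step (hν : ∀ v, 0 ≤ ν v) {t : E → ℝ} {f : ℝ → ℝ} (ht : ContDiffAt ℝ ∞ t p)
    (hf : ContDiffAt ℝ ∞ f (t p)) (h : Bd1 ν p k (cx t) K) {M : ℝ}
    (hM : Bd ν p k (cx fun z => deriv f (t z)) M) :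
    Bd1 ν p k (cx fun z => f (t z)) (2 ^ k * (M * K)) := by
  intro v
  have h1 := Bd.mul hν (sm_cx ((BdAux.deriv_sm hf).comp p ht)) ((sm_cx ht).pd v) hM (h v)
  rw [show 2 ^ k * (M * K) * ν v = 2 ^ k * (M * (K * ν v)) by ring]
  exact h1.congr (pd_comp ht hf v).symm

theorem BdAux.comp (hν : ∀ v, 0 ≤ ν v) {t : E → ℝ} (ht : ContDiffAt ℝ ∞ t p)
    (h : Bd1 ν p 3 (cx t) K) (hK : 1 ≤ K) {B : ℝ} : ∀ k, k ≤ 4 → ∀ f : ℝ → ℝ,
    ContDiffAt ℝ ∞ f (t p) → (∀ j, j ≤ k → |iteratedDeriv j f (t p)| ≤ B) →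
    Bd ν p k (cx fun z => f (t z)) ((∏ i ∈ Finset.range k, (2 : ℝ) ^ i) * B * K ^ k) := by
  intro k
  induction k with
  | zero =>
    intro _ f _ hB
    simpa [Bd, cx] using hB 0 le_rfl
  | succ k ih =>
    intro hk f hf hB
    have h0 : |f (t p)| ≤ B := by simpa using hB 0 (Nat.zero_le _)
    have hB0 : 0 ≤ B := (abs_nonneg _).trans h0
    refine bd_succ.2 ⟨?_, ?_⟩
    · have h1 : (1 : ℝ) ≤ ∏ i ∈ Finset.range (k + 1), (2 : ℝ) ^ i :=
        Finset.one_le_prod fun i _ => one_le_pow₀ one_le_two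
      have h2 : (1 : ℝ) ≤ K ^ (k + 1) := one_le_pow₀ hK
      simp only [cx, Complex.norm_real, Real.norm_eq_abs]
      calc _ ≤ 1 * B * 1 := by simpa using h0
        _ ≤ _ := by gcongr
    · have h1 := BdAux.comp_step hν ht hf (h.of_le (by omega : k ≤ 3))
        (ih (by omega) (deriv f) (BdAux.deriv_sm hf) fun j hj => by
          rw [← iteratedDeriv_succ']; exact hB _ (by omega))
      rw [Finset.prod_range_succ]
      convert h1 using 1
      ring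

/-- Composition with a real function. Prove by induction on `k ≤ 4`, for all `f`:
if `|f^{(j)} (t p)| ≤ B` for `j ≤ k` then `Bd ν p k (f ∘ t) (c k * B * K ^ k)` with `c 0 = 1`,
`c (k+1) = 2 ^ k * c k` (`pd_comp`, `Bd.mul`, `iteratedDeriv_succ'`); then apply one more step to
`deriv f`; `c 4 = 64`. -/
theorem Bd1.comp (hν : ∀ v, 0 ≤ ν v) {t : E → ℝ} {f : ℝ → ℝ} (ht : ContDiffAt ℝ ∞ t p)
    (hf : ContDiffAt ℝ ∞ f (t p)) (h : Bd1 ν p 3 (cx t) K) (hK : 1 ≤ K) {B : ℝ}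
    (hB : ∀ j, 1 ≤ j → j ≤ 4 → |iteratedDeriv j f (t p)| ≤ B) :
    Bd1 ν p 3 (cx fun z => f (t z)) (64 * B * K ^ 4) := by
  have h1 := BdAux.comp_step hν ht hf h
    (BdAux.comp hν ht h hK (B := B) 3 (by norm_num) (deriv f) (BdAux.deriv_sm hf) fun j hj => by
      rw [← iteratedDeriv_succ']; exact hB _ (by omega) (by omega))
  convert h1 using 1
  simp only [Finset.prod_range_succ, Finset.prod_range_zero]
  ring

section affine
variable {V : Type} [NormedAddCommGroup V] [NormedSpace ℝ V]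

theorem BdAux.pd_aff (l : E →L[ℝ] V) (c : V) {g : V → ℝ} (hg : ContDiffAt ℝ ∞ g (l p + c))
    (v : E) : pd v (cx fun z => g (l z + c)) =ᶠ[𝓝 p]
      cx fun z => (fun s => fderiv ℝ g s (l v)) (l z + c) := by
  have h1 : ∀ᶠ s in 𝓝 (l p + c), ContDiffAt ℝ 1 g s :=
    (hg.of_le (by simp)).eventually (by simp)
  have h2 : ContinuousAt (fun z => l z + c) p := by fun_prop
  filter_upwards [h2.eventually h1] with z hz
  have h3 : HasFDerivAt (fun z => l z + c) l z := l.hasFDerivAt.add_const c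
  have h4 := Complex.ofRealCLM.hasFDerivAt.comp z
    ((hz.differentiableAt one_ne_zero).hasFDerivAt.comp z h3)
  exact congrArg (fun L : E →L[ℝ] ℂ => L v) h4.fderiv

theorem BdAux.dir_sm {g : V → ℝ} {x : V} (hg : ContDiffAt ℝ ∞ g x) (w : V) :
    ContDiffAt ℝ ∞ (fun s => fderiv ℝ g s w) x :=
  (hg.fderiv_right (m := ∞) (by simp)).clm_apply contDiffAt_const

theorem BdAux.dir_le {g : V → ℝ} {x : V} (hg : ContDiffAt ℝ ∞ g x) (w : V) (j : ℕ) :
    ‖iteratedFDeriv ℝ j (fun s => fderiv ℝ g s w) x‖ ≤ ‖w‖ * ‖iteratedFDeriv ℝ (j + 1) g x‖ := by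
  rw [← norm_iteratedFDeriv_fderiv]
  exact norm_iteratedFDeriv_clm_apply_const (hg.fderiv_right (m := ∞) (by simp))
    (by exact_mod_cast le_top)

theorem BdAux.aff (hν : ∀ v, 0 ≤ ν v) (l : E →L[ℝ] V) (c : V) {R : ℝ}
    (hl : ∀ v, ‖l v‖ ≤ R * ν v) : ∀ (k : ℕ) (g : V → ℝ) (C : ℝ), ContDiffAt ℝ ∞ g (l p + c) →
    (∀ j, j ≤ k → ‖iteratedFDeriv ℝ j g (l p + c)‖ ≤ C) →
    Bd ν p k (cx fun z => g (l z + c)) (C * max 1 R ^ k) := by
  intro k
  induction k with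
  | zero =>
    intro g C _ hC
    simpa [Bd, cx] using hC 0 le_rfl
  | succ k ih =>
    intro g C hg hC
    have h0 : |g (l p + c)| ≤ C := by simpa using hC 0 (Nat.zero_le _)
    have hC0 : 0 ≤ C := (abs_nonneg _).trans h0
    refine ⟨?_, fun v => ?_⟩
    · simp only [cx, Complex.norm_real, Real.norm_eq_abs]
      exact h0.trans (le_mul_of_one_le_right hC0 (one_le_pow₀ (le_max_left _ _)))
    · have h1 := ih _ (‖l v‖ * C) (BdAux.dir_sm hg (l v)) fun j hj =>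
        (BdAux.dir_le hg (l v) j).trans
          (mul_le_mul_of_nonneg_left (hC _ (by omega)) (norm_nonneg _))
      refine (h1.congr (BdAux.pd_aff l c hg v).symm).mono hν ?_
      have h2 : ‖l v‖ ≤ max 1 R * ν v :=
        (hl v).trans (mul_le_mul_of_nonneg_right (le_max_right _ _) (hν v))
      calc ‖l v‖ * C * max 1 R ^ k ≤ max 1 R * ν v * C * max 1 R ^ k := by gcongr
        _ = _ := by ring

theorem BdAux.aff1 (hν : ∀ v, 0 ≤ ν v) (l : E →L[ℝ] V) (c : V) {g : V → ℝ}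
    (hg : ContDiffAt ℝ ∞ g (l p + c)) {R C : ℝ} (hl : ∀ v, ‖l v‖ ≤ R * ν v)
    (hC : ∀ j, 1 ≤ j → j ≤ 4 → ‖iteratedFDeriv ℝ j g (l p + c)‖ ≤ C) :
    Bd1 ν p 3 (cx fun z => g (l z + c)) (C * R * max 1 R ^ 3) := by
  intro v
  have hC0 : 0 ≤ C := (norm_nonneg _).trans (hC 1 le_rfl (by norm_num))
  have h1 := BdAux.aff hν l c hl 3 _ (‖l v‖ * C) (BdAux.dir_sm hg (l v)) fun j hj =>
    (BdAux.dir_le hg (l v) j).trans
      (mul_le_mul_of_nonneg_left (hC _ (by omega) (by omega)) (norm_nonneg _))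
  refine (h1.congr (BdAux.pd_aff l c hg v).symm).mono hν ?_
  calc ‖l v‖ * C * max 1 R ^ 3 ≤ R * ν v * C * max 1 R ^ 3 := by gcongr; exact hl v
    _ = _ := by ring

end affine

/-- Pull-back by a real affine map `E → ℂ`. `pd v (g ∘ ℓ) = (fun s => fderiv ℝ g s (l v)) ∘ ℓ` near
`p`; induction on the order for maps `g : ℂ → ℝ` with
`‖iteratedFDeriv ℝ j (fun s => fderiv ℝ g s w) s₀‖ ≤ ‖w‖ * ‖iteratedFDeriv ℝ (j+1) g s₀‖`
(`norm_iteratedFDeriv_fderiv`, `norm_iteratedFDeriv_clm_apply_const` or their `Within`/`At`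
versions on a neighbourhood where `g` is `C⁵`). -/
theorem bd1_comp_affine (hν : ∀ v, 0 ≤ ν v) (l : E →L[ℝ] ℂ) (c : ℂ) {g : ℂ → ℝ}
    (hg : ContDiffAt ℝ ∞ g (l p + c)) {R C : ℝ} (hR : 0 ≤ R) (hl : ∀ v, ‖l v‖ ≤ R * ν v)
    (hC : ∀ j, 1 ≤ j → j ≤ 4 → ‖iteratedFDeriv ℝ j g (l p + c)‖ ≤ C) :
    Bd1 ν p 3 (cx fun z => g (l z + c)) (C * R * max 1 R ^ 3) := by
  have _ := hR
  exact BdAux.aff1 hν l c hg hl hC

/-- the same for a real affine function `E → ℝ` and `f : ℝ → ℝ` (this keeps a small `R`) -/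
theorem bd1_comp_affine_real (hν : ∀ v, 0 ≤ ν v) (l : E →L[ℝ] ℝ) (c : ℝ) {f : ℝ → ℝ}
    (hf : ContDiffAt ℝ ∞ f (l p + c)) {R C : ℝ} (hR : 0 ≤ R) (hl : ∀ v, |l v| ≤ R * ν v)
    (hC : ∀ j, 1 ≤ j → j ≤ 4 → |iteratedDeriv j f (l p + c)| ≤ C) :
    Bd1 ν p 3 (cx fun z => f (l z + c)) (C * R * max 1 R ^ 3) := by
  have _ := hR
  exact BdAux.aff1 hν l c hf hl fun j h1 h2 => by
    rw [norm_iteratedFDeriv_eq_norm_iteratedDeriv]; exact hC j h1 h2

/-- `Dh A F = (pd A F - I pd (I•A) F)/2` and `ν (I • A) = ν A` -/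
theorem Bd.Dh (hI : ∀ v, ν (I • v) = ν v) (hF : Sm F p) (h : Bd1 ν p k F K) (A : E) :
    Bd ν p k (Dh A F) (K * ν A) := by
  have h1 := Bd.add (contDiffAt_const.mul (hF.pd A)) (contDiffAt_const.mul (hF.pd (I • A)))
    (Bd.const_mul (hF.pd A) (1 / 2) (h A)) (Bd.const_mul (hF.pd (I • A)) (-I / 2) (h (I • A)))
  convert h1 using 1
  · funext z
    simp only [R245.Dh]
    ring
  · rw [hI]
    simp
    ring

theorem Bd.Db (hI : ∀ v, ν (I • v) = ν v) (hF : Sm F p) (h : Bd1 ν p k F K) (A : E) :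
    Bd ν p k (Db A F) (K * ν A) := by
  have h1 := Bd.add (contDiffAt_const.mul (hF.pd A)) (contDiffAt_const.mul (hF.pd (I • A)))
    (Bd.const_mul (hF.pd A) (1 / 2) (h A)) (Bd.const_mul (hF.pd (I • A)) (I / 2) (h (I • A)))
  convert h1 using 1
  · funext z
    simp only [R245.Db]
    ring
  · rw [hI]
    simp
    ring

/-- bounds on the jet (`jetAt_of`, `Bd.Dh`, `Bd.Db`) -/
theorem Bd1.jet (hI : ∀ v, ν (I • v) = ν v) {f : E → ℝ} (hf : ContDiffAt ℝ ∞ f p)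
    (h : Bd1 ν p 3 (cx f) K) :
    (∀ A, ‖(jetAt f p).h1 A‖ ≤ K * ν A) ∧ (∀ A C, ‖(jetAt f p).h20 A C‖ ≤ K * (ν A * ν C)) ∧
    (∀ A B, ‖(jetAt f p).h2 A B‖ ≤ K * (ν A * ν B)) ∧
    (∀ A C B, ‖(jetAt f p).h3 A C B‖ ≤ K * (ν A * ν C * ν B)) ∧
    ∀ A C B D, ‖(jetAt f p).h4 A C B D‖ ≤ K * (ν A * ν C * ν B * ν D) := by
  have hJ := jetAt_of hf
  have hs := sm_cx hf
  refine ⟨fun A => ?_, fun A C => ?_, fun A B => ?_, fun A C B => ?_, fun A C B D => ?_⟩
  · rw [hJ.e1]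
    exact (Bd.Dh hI hs h A).val
  · rw [hJ.e20]
    exact (Bd.Dh hI (hs.Dh C) (bd_succ.1 (Bd.Dh hI hs h C)).2 A).val.trans (le_of_eq (by ring))
  · rw [hJ.e2]
    exact (Bd.Dh hI (hs.Db B) (bd_succ.1 (Bd.Db hI hs h B)).2 A).val.trans (le_of_eq (by ring))
  · rw [hJ.e3]
    exact (Bd.Dh hI ((hs.Db B).Dh C) (bd_succ.1 (Bd.Dh hI (hs.Db B)
      (bd_succ.1 (Bd.Db hI hs h B)).2 C)).2 A).val.trans (le_of_eq (by ring))
  · rw [hJ.e4]
    exact (Bd.Dh hI (((hs.Db D).Db B).Dh C) (bd_succ.1 (Bd.Dh hI ((hs.Db D).Db B)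
      (bd_succ.1 (Bd.Db hI (hs.Db D) (bd_succ.1 (Bd.Db hI hs h D)).2 B)).2 C)).2 A).val.trans
      (le_of_eq (by ring))

end Crest.Agent.R245
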