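import Crest.Agent.R245.JetAlg

/-!
# R245 NuI: the seminorm of the ball metric
-/

set_option autoImplicit false
open scoped ComplexConjugate ContDiff Topology
open Complex (I)
open Filter

namespace Crest.Agent.R245

theorem herm_IF (p : E) : Herm (IF p) := fun A B => by
  simp only [IF_apply, map_add, map_div₀, map_mul, map_pow, Complex.conj_ofReal, conj_ip,
    Complex.conj_conj]
  ring

theorem psd_IF {p : E} (hp : 0 < rho p) : PSD (IF p) := fun A => by
  rw [IF_self]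
  have := nsq_nonneg A
  positivity

theorem nuI_nonneg (p v : E) : 0 ≤ nuI p v := Real.sqrt_nonneg _

theorem nuI_sq {p : E} (hp : 0 < rho p) (v : E) :
    nuI p v ^ 2 = nsq v / rho p + ‖ip v p‖ ^ 2 / rho p ^ 2 := by
  rw [← IF_self]; exact nuF_sq (psd_IF hp) v

theorem nuI_I (p v : E) : nuI p (I • v) = nuI p v := nuF_I _ v

theorem norm_ip_le_nuI {p : E} (hp : 0 < rho p) (v : E) : ‖ip v p‖ ≤ rho p * nuI p v := by
  have h := nuI_sq hp v
  have h0 : 0 ≤ nsq v / rho p := div_nonneg (nsq_nonneg v) hp.le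
  have h1 : ‖ip v p‖ ^ 2 ≤ (rho p * nuI p v) ^ 2 := by
    rw [mul_pow, h, mul_add, mul_div_cancel₀ _ (by positivity)]
    nlinarith [sq_nonneg (rho p)]
  exact (pow_le_pow_iff_left₀ (norm_nonneg _) (mul_nonneg hp.le (nuI_nonneg p v)) two_ne_zero).1 h1

theorem nsq_le_nuI {p : E} (hp : 0 < rho p) (v : E) : nsq v ≤ rho p * nuI p v ^ 2 := by
  rw [nuI_sq hp, mul_add, mul_div_cancel₀ _ hp.ne']
  have : 0 ≤ rho p * (‖ip v p‖ ^ 2 / rho p ^ 2) := by positivity
  linarith

theorem IF_e2 (p A : E) : IF p e2 A = 0 := by simp [IF_apply]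

theorem nuI_e2 (p : E) : nuI p e2 = 0 := by simp [nuI, nuF, IF_e2]

theorem rho_le_one (z : E) : rho z ≤ 1 := by unfold rho; linarith [nsq_nonneg z]

theorem re_lt_one {z : E} (hz : 0 < rho z) : (z 0).re < 1 := by
  have h1 : ‖z 0‖ ^ 2 < 1 := by
    unfold rho nsq at hz; nlinarith [sq_nonneg ‖z 1‖]
  have h2 : ‖z 0‖ < 1 := by nlinarith [norm_nonneg (z 0)]
  exact (Complex.re_le_norm _).trans_lt h2

theorem xx_lt {z : E} (hz : 0 < rho z) : xx z < 1 / 5 := by
  unfold xx; linarith [re_lt_one hz]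

end Crest.Agent.R245
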