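import Crest.Agent.R245.Psi1
import Crest.Agent.R245.Bd
import Crest.Agent.R245.NuI

/-!
# R245 BaseBd: bounds for `φ₀, Φ₀, a` in the ball metric; the base data are admissible (TASK)
-/

set_option autoImplicit false
open scoped ComplexConjugate ContDiff Topology
open Complex (I)
open Filter

namespace Crest.Agent.R245

namespace BaseBdAux

theorem log_der (j : ℕ) (h1 : 1 ≤ j) (h4 : j ≤ 4) : |iteratedDeriv j Real.log 1| ≤ 6 := by
  obtain ⟨j, rfl⟩ : ∃ i, j = i + 1 := ⟨j - 1, by omega⟩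
  rw [iteratedDeriv_succ', Real.deriv_log', iteratedDeriv_eq_iterate]
  have := iter_deriv_inv j (1 : ℝ)
  change |deriv^[j] Inv.inv (1 : ℝ)| ≤ 6
  rw [this]
  have hj : j ≤ 3 := by omega
  interval_cases j <;> norm_num [Nat.factorial]

/-- a coordinate -/
noncomputable def pr (i : Fin 3) : E →L[ℝ] ℂ := ContinuousLinearMap.proj i
/-- the conjugate of a coordinate -/
noncomputable def prc (i : Fin 3) : E →L[ℝ] ℂ :=
  Complex.conjCLE.toContinuousLinearMap.comp (pr i)

@[simp] theorem pr_apply (i : Fin 3) (z : E) : pr i z = z i := rfl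
@[simp] theorem prc_apply (i : Fin 3) (z : E) : prc i z = conj (z i) := rfl

/-- the derivative of `rho` in the direction `v` -/
noncomputable def lv (v : E) : E →L[ℝ] ℂ :=
  -(v 0 • prc 0 + v 1 • prc 1 + conj (v 0) • pr 0 + conj (v 1) • pr 1)

theorem lv_apply (v z : E) : lv v z = -(ip v z + ip z v) := by
  simp [lv, ip]
  ring

theorem pd_rho (v : E) : pd v (cx rho) = fun z => lv v z + 0 := by
  funext z
  have h : cx rho = fun z => 1 - (pr 0 z * prc 0 z + pr 1 z * prc 1 z) := by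
    funext z
    have := ip_self z
    simp only [cx, rho, pr_apply, prc_apply]
    push_cast
    rw [← this, ip]
  have h1 := (((pr 0).hasFDerivAt (x := z)).mul (prc 0).hasFDerivAt).add
    ((pr 1).hasFDerivAt.mul (prc 1).hasFDerivAt) |>.const_sub 1
  rw [pd, h, lv_apply]
  refine (congrArg (fun L : E →L[ℝ] ℂ => L v) h1.fderiv).trans ?_
  simp [ip]
  ring

theorem norm_ip_comm (u v : E) : ‖ip u v‖ = ‖ip v u‖ := by rw [← conj_ip, Complex.norm_conj]

theorem norm_lv_le (v z : E) : ‖lv v z‖ ≤ 2 * ‖ip v z‖ := by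
  rw [lv_apply, norm_neg, two_mul]
  exact (norm_add_le _ _).trans (by rw [norm_ip_comm z v])

theorem norm_ip_le {p : E} (hp : 0 < rho p) (u v : E) :
    ‖ip u v‖ ≤ rho p * nuI p u * nuI p v := by
  have h1 := norm_ip_sq_le u v
  have h2 := mul_le_mul (nsq_le_nuI hp u) (nsq_le_nuI hp v) (nsq_nonneg _) (by positivity)
  have h3 := nuI_nonneg p u
  have h4 := nuI_nonneg p v
  refine (pow_le_pow_iff_left₀ (norm_nonneg _) (by positivity) two_ne_zero).1 ?_
  calc _ ≤ _ := h1.trans h2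
    _ = _ := by ring

theorem rho_bd {p : E} (hp : 0 < rho p) : Bd1 (nuI p) p 3 (cx rho) (2 * rho p) := by
  intro v
  have hv := nuI_nonneg p v
  rw [pd_rho]
  refine bd_succ.2 ⟨?_, bd1_affine (nuI_nonneg p) _ _ (by positivity) fun u => ?_⟩
  · rw [add_zero]
    have := norm_lv_le v p
    have := norm_ip_le_nuI hp v
    linarith
  · have := norm_lv_le v u
    have := norm_ip_le hp v u
    linarith

theorem ev_rho {p : E} (hp : 0 < rho p) : ∀ᶠ z in 𝓝 p, 0 < rho z :=
  contDiff_rho.continuous.continuousAt.eventually (lt_mem_nhds hp)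

theorem ev_xx {p : E} (hp : 0 < xx p) : ∀ᶠ z in 𝓝 p, 0 < xx z :=
  contDiff_xx.continuous.continuousAt.eventually (lt_mem_nhds hp)

theorem contDiffAt_logx {p : E} (hx : 0 < xx p) : ContDiffAt ℝ ∞ (fun z => Real.log (xx z)) p :=
  contDiff_xx.contDiffAt.log hx.ne'

theorem exp_tt {z : E} (hp : 0 < rho z) (hx : 0 < xx z) : Real.exp (tt z) = xx z ^ 2 / rho z := by
  rw [tt, Real.exp_sub, Real.exp_log hp, show (2 : ℝ) * Real.log (xx z) =
    (2 : ℕ) * Real.log (xx z) by norm_num, Real.exp_nat_mul, Real.exp_log hx]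

theorem tt_lt_iff {z : E} (hp : 0 < rho z) (hx : 0 < xx z) (T : ℝ) :
    tt z < T ↔ xx z ^ 2 < Real.exp T * rho z := by
  rw [← Real.exp_lt_exp, exp_tt hp hx, div_lt_iff₀ hp]

theorem log_xx_nonpos {z : E} (hp : 0 < rho z) (hx : 0 < xx z) : Real.log (xx z) ≤ 0 :=
  Real.log_nonpos hx.le (by linarith [xx_lt hp])

end BaseBdAux

open BaseBdAux

/-- `g z = rho z / rho p` has `g p = 1` and `Bd1 (nuI p) p 3 (cx g) 2`: `pd v (cx g) z` is the real
affine function `-(ip v z + ip z v) / rho p` of `z`, with value `≤ 2 ν v` at `p`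
(`norm_ip_le_nuI`) and linear part `≤ 2 ν v ν v'` (`norm_ip_sq_le`, `nsq_le_nuI`, `bd1_affine`).
Near `p`, `phi0 z = -log (g z) - log (rho p)`; the derivatives of `-log` at `1` are `≤ 6`;
`Bd1.comp` gives `64 * 6 * 2^4`. -/
theorem phi0_bd {p : E} (hp : 0 < rho p) : Bd1 (nuI p) p 3 (cx phi0) 6144 := by
  have hg : ContDiffAt ℝ ∞ (fun z => rho z / rho p) p := contDiff_rho.contDiffAt.div_const _
  have h1 : Bd1 (nuI p) p 3 (cx fun z => rho z / rho p) 2 := by
    have := (rho_bd hp).const_mul (sm_cx contDiff_rho.contDiffAt) ((rho p : ℂ)⁻¹)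
    convert this using 1
    · funext z
      simp only [cx]
      push_cast
      ring
    · rw [norm_inv, Complex.norm_real, Real.norm_eq_abs, abs_of_pos hp]
      field_simp
  have h2 := Bd1.comp (nuI_nonneg p) (f := fun s => -Real.log s) hg
    (by
      rw [div_self hp.ne']
      exact (Real.contDiffAt_log.2 one_ne_zero).neg) h1 one_le_two (B := 6) fun j hj1 hj4 => by
      rw [div_self hp.ne', iteratedDeriv_fun_neg, abs_neg]
      exact log_der j hj1 hj4
  have h3 := h2.add_const (-(Real.log (rho p) : ℂ))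
  rw [show (64 : ℝ) * 6 * 2 ^ 4 = 6144 by norm_num] at h3
  refine h3.congr ?_
  filter_upwards [ev_rho hp] with z hz
  simp only [cx, phi0, Real.log_div hz.ne' hp.ne']
  push_cast
  ring

/-- `log (xx z) = log (xx z / xx p) + log (xx p)`; `xx z / xx p` is real affine with linear part
`|re (v 0)| / xx p ≤ R ν v`, `R = √(rho p) / xx p = exp (-tt p / 2) ≤ 1`; `bd1_comp_affine_real`. -/
theorem logx_bd {p : E} (hp : 0 < rho p) (hx : 0 < xx p) (ht : 0 ≤ tt p) :
    Bd1 (nuI p) p 3 (cx fun z => Real.log (xx z)) (6 * Real.exp (-tt p / 2)) := by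
  let l : E →L[ℝ] ℝ := (xx p)⁻¹ • Complex.reCLM.comp (pr 0)
  have hl : ∀ z, l z = (xx p)⁻¹ * (z 0).re := fun z => rfl
  have hlc : ∀ z, l z + -(4 / 5) * (xx p)⁻¹ = xx z / xx p := fun z => by
    rw [hl, div_eq_mul_inv (xx z), xx.eq_def z]; ring
  have hR1 : Real.exp (-tt p / 2) ≤ 1 := Real.exp_le_one_iff.2 (by linarith)
  have hR2 : Real.exp (-tt p / 2) ^ 2 = rho p / xx p ^ 2 := by
    rw [← Real.exp_nat_mul, show ((2 : ℕ) : ℝ) * (-tt p / 2) = -tt p by push_cast; ring,
      Real.exp_neg, exp_tt hp hx, inv_div]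
  have h1 := bd1_comp_affine_real (p := p) (nuI_nonneg p) l (-(4 / 5) * (xx p)⁻¹) (f := Real.log)
    (by
      rw [hlc, div_self hx.ne']
      exact Real.contDiffAt_log.2 one_ne_zero) (Real.exp_pos (-tt p / 2)).le (C := 6)
    (fun v => by
      have hv := nuI_nonneg p v
      refine abs_le_of_sq_le_sq ?_ (by positivity)
      have h2 : (v 0).re ^ 2 ≤ nsq v := by
        have h3 : (v 0).re ^ 2 ≤ ‖v 0‖ ^ 2 := by
          rw [← sq_abs]
          exact pow_le_pow_left₀ (abs_nonneg _) (Complex.abs_re_le_norm _) 2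
        unfold nsq
        nlinarith [sq_nonneg ‖v 1‖]
      have h4 := h2.trans (nsq_le_nuI hp v)
      rw [hl, mul_pow, mul_pow, hR2]
      calc (xx p)⁻¹ ^ 2 * (v 0).re ^ 2 ≤ (xx p)⁻¹ ^ 2 * (rho p * nuI p v ^ 2) := by gcongr
        _ = _ := by field_simp)
    fun j hj1 hj4 => by
      rw [hlc, div_self hx.ne']
      exact log_der j hj1 hj4
  rw [max_eq_left hR1, one_pow, mul_one] at h1
  refine (h1.add_const (Real.log (xx p) : ℂ)).congr ?_
  filter_upwards [ev_xx hx] with z hz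
  simp only [cx, hlc, Real.log_div hz.ne' hx.ne']
  push_cast
  ring

theorem contDiffAt_tt {p : E} (hp : 0 < rho p) (hx : 0 < xx p) : ContDiffAt ℝ ∞ tt p := by
  exact (contDiffAt_const.mul (contDiffAt_logx hx)).sub (contDiff_rho.contDiffAt.log hp.ne')

theorem tt_bd {p : E} (hp : 0 < rho p) (hx : 0 < xx p) (ht : 0 ≤ tt p) :
    Bd1 (nuI p) p 3 (cx tt) 6156 := by
  have hs := sm_cx (contDiffAt_logx hx)
  have h1 := Bd1.add (contDiffAt_const.mul hs) (sm_cx (contDiffAt_phi0 hp))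
    ((logx_bd hp hx ht).const_mul hs 2) (phi0_bd hp)
  have hR1 : Real.exp (-tt p / 2) ≤ 1 := Real.exp_le_one_iff.2 (by linarith)
  refine (h1.mono (nuI_nonneg p) ?_).congr (Eventually.of_forall fun z => ?_)
  · simp only [Complex.norm_ofNat]
    linarith
  · simp only [cx, tt, phi0]
    push_cast
    ring

namespace Par
variable {P : Par} {η e C0 L CG : ℝ}

/-- The set `{0 < rho} ∩ ({xx < 0} ∪ {xx² < exp t0 * rho})` is open, contains `p`, and on it either
`xx ≤ 0` or `tt < t0`, where `eps = 1`, `Ef = id`. -/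
theorem quiet0 (h : EpsOK P.eps P.Ef P.t0 η e) {p : E} (hp : 0 < rho p)
    (hq : ¬(0 < xx p ∧ P.t0 ≤ tt p)) : ∀ᶠ z in 𝓝 p, P.Phi0 z = phi0 z ∧ P.epsF z = 1 := by
  have hc : Continuous fun z => max (xx z) 0 ^ 2 - Real.exp P.t0 * rho z :=
    ((contDiff_xx.continuous.max continuous_const).pow 2).sub
      (continuous_const.mul contDiff_rho.continuous)
  have h0 : max (xx p) 0 ^ 2 - Real.exp P.t0 * rho p < 0 := by
    by_cases hx : 0 < xx p
    · rw [max_eq_left hx.le, sub_neg, ← tt_lt_iff hp hx]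
      exact not_le.1 fun h => hq ⟨hx, h⟩
    · rw [max_eq_right (not_lt.1 hx)]
      have := mul_pos (Real.exp_pos P.t0) hp
      linarith
  filter_upwards [ev_rho hp, hc.continuousAt.eventually (gt_mem_nhds h0)] with z hz hz'
  unfold Phi0 epsF
  split_ifs with hx
  · rw [max_eq_left hx.le, sub_neg, ← tt_lt_iff hz hx] at hz'
    rw [h.E_id _ hz'.le, h.one _ hz'.le, tt, phi0]
    exact ⟨by ring, rfl⟩
  · exact ⟨rfl, rfl⟩

theorem epsF_pos (h : EpsOK P.eps P.Ef P.t0 η e) (z : E) : 0 < P.epsF z := by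
  unfold epsF
  split_ifs
  exacts [h.pos _, one_pos]

theorem epsF_le_one (h : EpsOK P.eps P.Ef P.t0 η e) (z : E) : P.epsF z ≤ 1 := by
  unfold epsF
  split_ifs
  exacts [h.le_one _, le_rfl]

theorem le_epsF (h : EpsOK P.eps P.Ef P.t0 η e) (z : E) : e ≤ P.epsF z := by
  unfold epsF
  split_ifs
  exacts [h.lower _, (h.lower 0).trans (h.le_one 0)]

theorem contDiffAt_epsF (h : EpsOK P.eps P.Ef P.t0 η e) {p : E} (hp : 0 < rho p) :
    ContDiffAt ℝ ∞ P.epsF p := by
  by_cases hx : 0 < xx p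
  · refine (h.smooth.contDiffAt.comp p (contDiffAt_tt hp hx)).congr_of_eventuallyEq ?_
    filter_upwards [ev_xx hx] with z hz
    simp only [epsF, hz, if_true, Function.comp]
  · refine (contDiffAt_const (c := (1 : ℝ))).congr_of_eventuallyEq ?_
    filter_upwards [quiet0 h hp fun h => hx h.1] with z hz using hz.2

theorem contDiffAt_Phi0 (h : EpsOK P.eps P.Ef P.t0 η e) {p : E} (hp : 0 < rho p) :
    ContDiffAt ℝ ∞ P.Phi0 p := by
  by_cases hx : 0 < xx p
  · refine ((h.contDiff_E.contDiffAt.comp p (contDiffAt_tt hp hx)).sub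
      ((contDiffAt_const (c := (2 : ℝ))).mul (contDiffAt_logx hx))).congr_of_eventuallyEq ?_
    filter_upwards [ev_xx hx] with z hz
    simp only [Phi0, hz, if_true, Function.comp]
  · refine (contDiffAt_phi0 hp).congr_of_eventuallyEq ?_
    filter_upwards [quiet0 h hp fun h => hx h.1] with z hz using hz.1

/-- `quiet0` and `psi_quiet` (`¬ 0 < xx p`). `nonneg`: `Phi0 = phi0 ≥ 0` at quiet points
(`Eventually.self_of_nhds`), else `Ef (tt) ≥ t0 ≥ 0` and `-2 log xx ≥ 0`. `proper`: at quiet points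
`rho ≥ exp (-R)`, `a = 1`. Otherwise `Ef (tt z) ≤ R` forces `tt z ≤ T` (`E_top`), `-2 log xx ≤ R`,
so `log rho = 2 log xx - tt ≥ -R - T` and `a = eps (tt z)² ≥ eps T ^ 2`. -/
theorem OK.baseOK (h : P.OK η e C0 L CG) : BaseOK P.Phi0 P.aF P.phi := by
  have he := h.eps
  have hE : ∀ t, P.t0 ≤ t → 0 ≤ P.Ef t := fun t ht =>
    he.t0_nonneg.trans ((he.E_id _ le_rfl).symm.le.trans (he.monotone_E ht))
  refine ⟨fun p hp => contDiffAt_Phi0 he hp, fun p hp => (contDiffAt_epsF he hp).pow 2,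
    fun p hp => (contDiffAt_Phi0 he hp).add (h.contDiffAt_psi hp), P.phi_update,
    fun p hp hx => ?_, fun p _ => pow_pos (epsF_pos he p) 2, fun p hp => ?_, fun R => ?_⟩
  · filter_upwards [quiet0 he hp fun h => hx.not_gt h.1, h.psi_quiet hp fun h => hx.not_gt h.1]
      with z hz hz'
    refine ⟨hz.1, by rw [aF, hz.2, one_pow], by rw [phi, hz.1, hz', add_zero]⟩
  · by_cases hq : 0 < xx p ∧ P.t0 ≤ tt p
    · have h1 := hE _ hq.2
      have h2 := log_xx_nonpos hp hq.1
      rw [Phi0, if_pos hq.1]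
      linarith
    · rw [(quiet0 he hp hq).self_of_nhds.1, phi0, neg_nonneg]
      exact Real.log_nonpos hp.le (rho_le_one p)
  · obtain ⟨T, hT⟩ := eventually_atTop.1 (he.E_top.eventually_gt_atTop R)
    have hpos := he.pos T
    refine ⟨min (min (Real.exp (-R)) (Real.exp (-R - T))) (min 1 (P.eps T ^ 2)),
      by positivity, fun z hz hR => ?_⟩
    by_cases hq : 0 < xx z ∧ P.t0 ≤ tt z
    · have h1 := hE _ hq.2
      have h2 := log_xx_nonpos hz hq.1
      rw [Phi0, if_pos hq.1] at hR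
      have h3 : tt z ≤ T := by
        by_contra hc
        have := hT _ (not_le.1 hc).le
        linarith
      constructor
      · refine (min_le_left _ _).trans ((min_le_right _ _).trans ?_)
        rw [← Real.le_log_iff_exp_le hz]
        unfold tt at h3
        linarith
      · refine (min_le_right _ _).trans ((min_le_right _ _).trans ?_)
        rw [aF, epsF, if_pos hq.1]
        exact pow_le_pow_left₀ hpos.le (he.anti h3) 2
    · have h1 := (quiet0 he hz hq).self_of_nhds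
      constructor
      · refine (min_le_left _ _).trans ((min_le_left _ _).trans ?_)
        rw [← Real.le_log_iff_exp_le hz]
        rw [h1.1, phi0] at hR
        linarith
      · refine (min_le_right _ _).trans ((min_le_left _ _).trans ?_)
        rw [aF, h1.2, one_pow]

/-- points of the patch with small `ε`: `z = (1 - r, 0, 0)`, `r → 0⁺`, `tt z → ∞`, `lim` -/
theorem exists_epsF_lt (h : EpsOK P.eps P.Ef P.t0 η e) {δ : ℝ} (hδ : e < δ) :
    ∃ z ∈ Cyl, P.epsF z < δ := by
  obtain ⟨T, hT⟩ := eventually_atTop.1 (h.lim.eventually (gt_mem_nhds hδ))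
  set r : ℝ := min (1 / 10) (Real.exp (-T) / 200) with hr
  have hr0 : 0 < r := by positivity
  have hr1 : r ≤ 1 / 10 := min_le_left _ _
  have hr2 : r ≤ Real.exp (-T) / 200 := min_le_right _ _
  set z : E := ![((1 - r : ℝ) : ℂ), 0, 0] with hz
  have hx : xx z = 1 / 5 - r := by
    simp [xx, hz]
    ring
  have hρ : rho z = 2 * r - r ^ 2 := by
    simp only [rho, nsq, hz, Matrix.cons_val_zero, Matrix.cons_val_one, Complex.norm_real,
      Real.norm_eq_abs, sq_abs, norm_zero]
    ring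
  have hx0 : 0 < xx z := by rw [hx]; linarith
  have hρ0 : 0 < rho z := by rw [hρ]; nlinarith
  refine ⟨z, ⟨hx0, hρ0⟩, ?_⟩
  rw [epsF, if_pos hx0]
  refine hT _ (not_lt.1 fun hlt => ?_)
  rw [tt_lt_iff hρ0 hx0, hx, hρ] at hlt
  have h1 : Real.exp T * Real.exp (-T) = 1 := by rw [← Real.exp_add]; simp
  have h2 : Real.exp T * (2 * r - r ^ 2) ≤ Real.exp T * (Real.exp (-T) / 100) :=
    mul_le_mul_of_nonneg_left (by nlinarith) (Real.exp_pos _).le
  nlinarith

end Par

/-- At quiet points both functions are locally constant (`epsF p = 1`). Otherwise `xx p > 0`,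
`tt p ≥ t0 ≥ 0`, and near `p`, with `ε = epsF p = eps (tt p)`, `phi0 = tt - 2 log xx`:
`Phi0 - ε phi0 = (Ef (tt) - ε tt) + 2 (ε - 1) log xx`. The function `t ↦ Ef t - ε t` has first
derivative `0` at `tt p` and higher derivatives `eps^{(j-1)}`, all `≤ η ε^100`: `Bd1.comp` with
`tt_bd`; `logx_bd` and `expo`. For `aF = (eps ∘ tt)²`: `u = eps ∘ tt - ε` has `Bd 4` with
`δ = 64 η ε^100 6156⁴` (value `0`), `u + 2ε` has `Bd 4` with `2 + δ`, `η ε^100 ≤ 1`, and
`aF = u (u + 2ε) + ε²`, `Bd.mul`. -/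
theorem base_bd : ∃ Cb : ℝ, 1 ≤ Cb ∧ ∀ (P : Par) (η e : ℝ), EpsOK P.eps P.Ef P.t0 η e → η ≤ 1 →
    ∀ p, 0 < rho p →
      Bd1 (nuI p) p 3 (cx fun z => P.Phi0 z - P.epsF p * phi0 z) (Cb * η * P.epsF p ^ 100) ∧
      Bd1 (nuI p) p 3 (cx P.aF) (Cb * η * P.epsF p ^ 100) := by
  obtain ⟨D, hD⟩ : ∃ D : ℝ, D = 64 * 6156 ^ 4 := ⟨_, rfl⟩
  have hD1 : 1 ≤ D := by rw [hD]; norm_num
  refine ⟨16 * D * (2 + D) + D + 12, by nlinarith, fun P η e h hη p hp => ?_⟩
  have hε0 := Par.epsF_pos h p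
  have hε1 := Par.epsF_le_one h p
  have hη0 := h.eta_pos
  have hν := nuI_nonneg p
  by_cases hq : 0 < xx p ∧ P.t0 ≤ tt p
  swap
  · have h1 := Par.quiet0 h hp hq
    constructor
    · refine ((bd1_const (0 : ℂ)).mono hν (by positivity)).congr ?_
      filter_upwards [h1] with z hz
      simp [cx, hz.1, h1.self_of_nhds.2]
    · refine ((bd1_const (1 : ℂ)).mono hν (by positivity)).congr ?_
      filter_upwards [h1] with z hz
      simp [cx, Par.aF, hz.2]
  obtain ⟨hx, ht⟩ := hq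
  have ht0 : 0 ≤ tt p := h.t0_nonneg.trans ht
  have hε : P.epsF p = P.eps (tt p) := if_pos hx
  rw [hε] at hε0 hε1 ⊢
  set ε := P.eps (tt p) with hεdef
  set δ := η * ε ^ 100 with hδ
  have hδ0 : 0 ≤ δ := by positivity
  have hδ1 : δ ≤ 1 := mul_le_one₀ hη (by positivity) (pow_le_one₀ hε0.le hε1)
  have htt := contDiffAt_tt hp hx
  rw [mul_assoc _ η]
  constructor
  · have hf : ContDiff ℝ ∞ fun t => P.Ef t - ε * t :=
      h.contDiff_E.sub (contDiff_const.mul contDiff_id)
    have hf' : deriv (fun t => P.Ef t - ε * t) = fun t => -ε + P.eps t := by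
      funext t
      have := ((h.deriv_E t).sub ((hasDerivAt_id t).const_mul ε)).deriv
      rw [mul_one] at this
      exact this.trans (by ring)
    have h1 := Bd1.comp hν htt hf.contDiffAt (tt_bd hp hx ht0) (by norm_num) (B := δ)
      fun j hj1 hj4 => by
        obtain ⟨j, rfl⟩ : ∃ i, j = i + 1 := ⟨j - 1, by omega⟩
        rw [iteratedDeriv_succ', hf']
        rcases Nat.eq_zero_or_pos j with rfl | hj
        · simpa [← hεdef] using hδ0
        · rw [iteratedDeriv_const_add hj]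
          exact h.der j hj (by omega) _
    have hs := sm_cx (contDiffAt_logx hx)
    have h2 := Bd1.add (sm_cx (hf.contDiffAt.comp p htt)) (contDiffAt_const.mul hs) h1
      ((logx_bd hp hx ht0).const_mul hs ((2 * (ε - 1) : ℝ) : ℂ))
    refine (h2.mono hν ?_).congr ?_
    · have h3 : ‖((2 * (ε - 1) : ℝ) : ℂ)‖ ≤ 2 := by
        rw [Complex.norm_real, Real.norm_eq_abs, abs_le]
        constructor <;> linarith
      have h4 : ‖((2 * (ε - 1) : ℝ) : ℂ)‖ * (6 * Real.exp (-tt p / 2)) ≤ 2 * (6 * δ) :=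
        mul_le_mul h3 (by linarith [h.expo _ ht]) (by positivity) zero_le_two
      have h5 : 64 * δ * 6156 ^ 4 = D * δ := by rw [hD]; ring
      have h6 : 0 ≤ 16 * D * (2 + D) * δ := by positivity
      linarith
    · filter_upwards [ev_xx hx] with z hz
      simp only [cx, Par.Phi0, hz, if_true, tt, phi0, Function.comp]
      push_cast
      ring
  · have h1 := Bd1.comp hν htt h.smooth.contDiffAt (tt_bd hp hx ht0) (by norm_num) (B := δ)
      fun j hj1 hj4 => h.der j hj1 hj4 _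
    rw [show 64 * δ * 6156 ^ 4 = D * δ by rw [hD]; ring] at h1
    have hs : Sm (cx fun z => P.eps (tt z)) p := sm_cx (h.smooth.contDiffAt.comp p htt)
    have hu : Bd (nuI p) p 4 (fun z => cx (fun z => P.eps (tt z)) z + -(ε : ℂ)) (D * δ) :=
      bd_succ.2 ⟨by simp only [cx, ← hεdef, add_neg_cancel, norm_zero]; positivity,
        h1.add_const _⟩
    have hw : Bd (nuI p) p 4 (fun z => cx (fun z => P.eps (tt z)) z + (ε : ℂ)) (2 + D) := by
      refine bd_succ.2 ⟨?_, (h1.add_const _).mono hν (by nlinarith)⟩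
      simp only [cx, ← hεdef]
      rw [← Complex.ofReal_add, Complex.norm_real, Real.norm_eq_abs, abs_of_pos (by linarith)]
      linarith
    have h2 := (bd_succ.1 (Bd.mul hν (hs.add contDiffAt_const) (hs.add contDiffAt_const)
      hu hw)).2.add_const ((ε : ℂ) ^ 2)
    refine (h2.mono hν ?_).congr ?_
    · have h6 : 0 ≤ (D + 12) * δ := by positivity
      have h7 : (2 : ℝ) ^ (3 + 1) * (D * δ * (2 + D)) = 16 * D * (2 + D) * δ := by ring
      linarith
    · filter_upwards [ev_xx hx] with z hz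
      simp only [cx, Par.aF, Par.epsF, hz, if_true]
      push_cast
      ring

end Crest.Agent.R245
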