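import Crest.Prelude.Def_KahlerDomain

/-!
# rid 245 (S0378, S0379): basic definitions

`E = ℂ³`, base coordinates `z 0, z 1`, fibre coordinate `z 2`.
* `pd v F` real directional derivative, `Dh A`, `Db A` the Wirtinger operators `D_A`, `D̄_A`.
* `Jet`: the derivatives `F_A, F_{AC}, F_{AB̄}, F_{ACB̄}, F_{ACB̄D̄}` of a real function at a point,
  as (semi)linear maps; `jetAt F p` is the jet of `F` at `p`.
* `Jet.num`, `Jet.den`: minus the numerator and the denominator of the sectional curvature of the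
  Kähler metric with potential `F`.
* `Bd ν p k F K`: every word of `j ≤ k` directional derivatives of `F` at `p` is bounded by
  `K * ∏ ν (v i)`; `Bd1` the same for words of length `1 .. k+1`.
-/

set_option autoImplicit false
open scoped ComplexConjugate ContDiff Topology
open Complex (I)

namespace Crest.Agent.R245

abbrev E := Fin 3 → ℂ

/-- smooth (over `ℝ`) at `p` -/
abbrev Sm (F : E → ℂ) (p : E) : Prop := ContDiffAt ℝ ∞ F p

/-- a real function seen as a complex one -/
def cx (F : E → ℝ) : E → ℂ := fun z => (F z : ℂ)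

/-- real directional derivative -/
noncomputable def pd (v : E) (F : E → ℂ) : E → ℂ := fun z => fderiv ℝ F z v

/-- Wirtinger derivative `D_A` (complex linear in `A`) -/
noncomputable def Dh (A : E) (F : E → ℂ) : E → ℂ :=
  fun z => (pd A F z - I * pd (I • A) F z) / 2

/-- Wirtinger derivative `D̄_A` (conjugate linear in `A`) -/
noncomputable def Db (A : E) (F : E → ℂ) : E → ℂ :=
  fun z => (pd A F z + I * pd (I • A) F z) / 2

/-! ## sesquilinear forms -/

abbrev Form := E →ₗ[ℂ] E →ₗ⋆[ℂ] ℂ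

def Herm (k : Form) : Prop := ∀ A B, conj (k A B) = k B A
def PSD (k : Form) : Prop := ∀ A, 0 ≤ (k A A).re
def PD (k : Form) : Prop := ∀ A, A ≠ 0 → 0 < (k A A).re
/-- the seminorm of a form -/
noncomputable def nuF (k : Form) (A : E) : ℝ := Real.sqrt (k A A).re
/-- Gram determinant of the real part of a form -/
def DD (k : Form) (X Y : E) : ℝ := (k X X).re * (k Y Y).re - (k X Y).re ^ 2

/-- constructor of forms -/
noncomputable def mkForm (f : E → E → ℂ) (a1 : ∀ A A' B, f (A + A') B = f A B + f A' B)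
    (s1 : ∀ (c : ℂ) A B, f (c • A) B = c * f A B)
    (a2 : ∀ A B B', f A (B + B') = f A B + f A B')
    (s2 : ∀ (c : ℂ) A B, f A (c • B) = conj c * f A B) : Form :=
  LinearMap.mk₂'ₛₗ (RingHom.id ℂ) (starRingEnd ℂ) f a1 (fun c A B => by simp [s1]) a2
    (fun c A B => by simp [s2])

@[simp] theorem mkForm_apply (f a1 s1 a2 s2) (A B : E) : mkForm f a1 s1 a2 s2 A B = f A B := rfl

/-! ## jets -/

@[ext] structure Jet where
  h1 : E →ₗ[ℂ] ℂ
  h20 : E →ₗ[ℂ] E →ₗ[ℂ] ℂ
  h2 : Form
  h3 : E →ₗ[ℂ] E →ₗ[ℂ] E →ₗ⋆[ℂ] ℂ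
  h4 : E →ₗ[ℂ] E →ₗ[ℂ] E →ₗ⋆[ℂ] E →ₗ⋆[ℂ] ℂ
  h20_symm : ∀ A C, h20 A C = h20 C A
  h2_conj : ∀ A B, conj (h2 A B) = h2 B A
  h3_symm : ∀ A C B, h3 A C B = h3 C A B
  h4_symm : ∀ A C B D, h4 A C B D = h4 C A B D
  h4_conj : ∀ A C B D, conj (h4 A C B D) = h4 B D A C

namespace Jet

theorem h4_symm' (J : Jet) (A C B D : E) : J.h4 A C B D = J.h4 A C D B := by
  rw [← J.h4_conj B D A C, J.h4_symm, J.h4_conj]

theorem herm (J : Jet) : Herm J.h2 := J.h2_conj

/-- constructor from plain functions: linearity in the first slot (and the third slot of `f3`)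
and the symmetries suffice -/
noncomputable def ofFun (f1 : E → ℂ) (f20 f2 : E → E → ℂ) (f3 : E → E → E → ℂ)
    (f4 : E → E → E → E → ℂ)
    (a1 : ∀ A A', f1 (A + A') = f1 A + f1 A') (s1 : ∀ (c : ℂ) A, f1 (c • A) = c * f1 A)
    (a20 : ∀ A A' C, f20 (A + A') C = f20 A C + f20 A' C)
    (s20 : ∀ (c : ℂ) A C, f20 (c • A) C = c * f20 A C) (y20 : ∀ A C, f20 A C = f20 C A)
    (a2 : ∀ A A' B, f2 (A + A') B = f2 A B + f2 A' B)
    (s2 : ∀ (c : ℂ) A B, f2 (c • A) B = c * f2 A B) (y2 : ∀ A B, conj (f2 A B) = f2 B A)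
    (a3 : ∀ A A' C B, f3 (A + A') C B = f3 A C B + f3 A' C B)
    (s3 : ∀ (c : ℂ) A C B, f3 (c • A) C B = c * f3 A C B) (y3 : ∀ A C B, f3 A C B = f3 C A B)
    (a3' : ∀ A C B B', f3 A C (B + B') = f3 A C B + f3 A C B')
    (s3' : ∀ (c : ℂ) A C B, f3 A C (c • B) = conj c * f3 A C B)
    (a4 : ∀ A A' C B D, f4 (A + A') C B D = f4 A C B D + f4 A' C B D)
    (s4 : ∀ (c : ℂ) A C B D, f4 (c • A) C B D = c * f4 A C B D)
    (y4 : ∀ A C B D, f4 A C B D = f4 C A B D)
    (c4 : ∀ A C B D, conj (f4 A C B D) = f4 B D A C) : Jet where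
  h1 := { toFun := f1, map_add' := a1, map_smul' := fun c A => by simp [s1] }
  h20 := LinearMap.mk₂ ℂ f20 a20 (fun c A C => by simp [s20])
    (fun A C C' => by rw [y20, a20, y20 C, y20 C']) (fun c A C => by rw [y20, s20, y20 C]; simp)
  h2 := mkForm f2 a2 s2 (fun A B B' => by rw [← y2, a2, map_add, y2, y2])
    (fun c A B => by rw [← y2, s2, map_mul, y2])
  h3 :=
    { toFun := fun A => mkForm (f3 A) (fun C C' B => by rw [y3, a3, y3 C, y3 C'])
        (fun c C B => by rw [y3, s3, y3 C]) (a3' A) (fun c C B => s3' c A C B)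
      map_add' := fun A A' => by ext1; ext1; ext1; simp [a3]
      map_smul' := fun c A => by ext1; ext1; ext1; simp [s3] }
  h4 :=
    { toFun := fun A =>
        { toFun := fun C => LinearMap.mk₂'ₛₗ (starRingEnd ℂ) (starRingEnd ℂ) (f4 A C)
            (fun B B' D => by rw [← c4, a4, map_add, c4, c4])
            (fun c B D => by rw [← c4, s4, map_mul, c4]; simp)
            (fun B D D' => by rw [← c4, y4, a4, map_add, y4 D, y4 D', c4, c4])
            (fun c B D => by rw [← c4, y4, s4, map_mul, y4 D, c4]; simp)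
          map_add' := fun C C' => LinearMap.ext fun B => LinearMap.ext fun D => by
            simp only [LinearMap.mk₂'ₛₗ_apply, LinearMap.add_apply]
            rw [y4, a4, y4 C, y4 C']
          map_smul' := fun c C => LinearMap.ext fun B => LinearMap.ext fun D => by
            simp only [LinearMap.mk₂'ₛₗ_apply, LinearMap.smul_apply, RingHom.id_apply, smul_eq_mul]
            rw [y4, s4, y4 C] }
      map_add' := fun A A' => LinearMap.ext fun C => LinearMap.ext fun B =>
        LinearMap.ext fun D => by simp [a4]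
      map_smul' := fun c A => LinearMap.ext fun C => LinearMap.ext fun B =>
        LinearMap.ext fun D => by simp [s4] }
  h20_symm := y20
  h2_conj := y2
  h3_symm := y3
  h4_symm := y4
  h4_conj := c4

theorem ext' {J J' : Jet} (e1 : ∀ A, J.h1 A = J'.h1 A) (e20 : ∀ A C, J.h20 A C = J'.h20 A C)
    (e2 : ∀ A B, J.h2 A B = J'.h2 A B) (e3 : ∀ A C B, J.h3 A C B = J'.h3 A C B)
    (e4 : ∀ A C B D, J.h4 A C B D = J'.h4 A C B D) : J = J' :=
  Jet.ext (LinearMap.ext e1) (LinearMap.ext fun A => LinearMap.ext (e20 A))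
    (LinearMap.ext fun A => LinearMap.ext (e2 A))
    (LinearMap.ext fun A => LinearMap.ext fun C => LinearMap.ext (e3 A C))
    (LinearMap.ext fun A => LinearMap.ext fun C => LinearMap.ext fun B => LinearMap.ext (e4 A C B))

noncomputable instance : Zero Jet := ⟨⟨0, 0, 0, 0, 0, by simp, by simp, by simp, by simp, by simp⟩⟩

noncomputable instance : Add Jet := ⟨fun J J' =>
  ⟨J.h1 + J'.h1, J.h20 + J'.h20, J.h2 + J'.h2, J.h3 + J'.h3, J.h4 + J'.h4,
    fun A C => by simp [J.h20_symm A, J'.h20_symm A],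
    fun A B => by simp [J.h2_conj, J'.h2_conj],
    fun A C B => by simp [J.h3_symm A, J'.h3_symm A],
    fun A C B D => by simp [J.h4_symm A, J'.h4_symm A],
    fun A C B D => by simp [J.h4_conj, J'.h4_conj]⟩⟩

noncomputable instance : SMul ℝ Jet := ⟨fun c J =>
  ⟨(c : ℂ) • J.h1, (c : ℂ) • J.h20, (c : ℂ) • J.h2, (c : ℂ) • J.h3, (c : ℂ) • J.h4,
    fun A C => by simp [J.h20_symm A],
    fun A B => by simp [J.h2_conj],
    fun A C B => by simp [J.h3_symm A],
    fun A C B D => by simp [J.h4_symm A],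
    fun A C B D => by simp [J.h4_conj]⟩⟩

@[simp] theorem zero_h1 (A : E) : (0 : Jet).h1 A = 0 := rfl
@[simp] theorem zero_h20 (A C : E) : (0 : Jet).h20 A C = 0 := rfl
@[simp] theorem zero_h2 (A B : E) : (0 : Jet).h2 A B = 0 := rfl
@[simp] theorem zero_h3 (A C B : E) : (0 : Jet).h3 A C B = 0 := rfl
@[simp] theorem zero_h4 (A C B D : E) : (0 : Jet).h4 A C B D = 0 := rfl
@[simp] theorem add_h1 (J J' : Jet) (A : E) : (J + J').h1 A = J.h1 A + J'.h1 A := rfl
@[simp] theorem add_h20 (J J' : Jet) (A C : E) : (J + J').h20 A C = J.h20 A C + J'.h20 A C := rfl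
@[simp] theorem add_h2 (J J' : Jet) (A B : E) : (J + J').h2 A B = J.h2 A B + J'.h2 A B := rfl
@[simp] theorem add_h3 (J J' : Jet) (A C B : E) :
    (J + J').h3 A C B = J.h3 A C B + J'.h3 A C B := rfl
@[simp] theorem add_h4 (J J' : Jet) (A C B D : E) :
    (J + J').h4 A C B D = J.h4 A C B D + J'.h4 A C B D := rfl
@[simp] theorem smul_h1 (c : ℝ) (J : Jet) (A : E) : (c • J).h1 A = c * J.h1 A := rfl
@[simp] theorem smul_h20 (c : ℝ) (J : Jet) (A C : E) : (c • J).h20 A C = c * J.h20 A C := rfl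
@[simp] theorem smul_h2 (c : ℝ) (J : Jet) (A B : E) : (c • J).h2 A B = c * J.h2 A B := rfl
@[simp] theorem smul_h3 (c : ℝ) (J : Jet) (A C B : E) :
    (c • J).h3 A C B = c * J.h3 A C B := rfl
@[simp] theorem smul_h4 (c : ℝ) (J : Jet) (A C B D : E) :
    (c • J).h4 A C B D = c * J.h4 A C B D := rfl

/-- pull-back by a complex linear map -/
noncomputable def pull (J : Jet) (L : E →ₗ[ℂ] E) : Jet :=
  ofFun (fun A => J.h1 (L A)) (fun A C => J.h20 (L A) (L C)) (fun A B => J.h2 (L A) (L B))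
    (fun A C B => J.h3 (L A) (L C) (L B)) (fun A C B D => J.h4 (L A) (L C) (L B) (L D))
    (by simp) (by simp) (by simp) (by simp) (fun _ _ => J.h20_symm _ _) (by simp) (by simp)
    (fun _ _ => J.h2_conj _ _) (by simp) (by simp) (fun _ _ _ => J.h3_symm _ _ _) (by simp)
    (by simp) (by simp) (by simp) (fun _ _ _ _ => J.h4_symm _ _ _ _)
    (fun _ _ _ _ => J.h4_conj _ _ _ _)

@[simp] theorem pull_h1 (J : Jet) (L : E →ₗ[ℂ] E) (A : E) : (J.pull L).h1 A = J.h1 (L A) := rfl
@[simp] theorem pull_h20 (J : Jet) (L : E →ₗ[ℂ] E) (A C : E) :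
    (J.pull L).h20 A C = J.h20 (L A) (L C) := rfl
@[simp] theorem pull_h2 (J : Jet) (L : E →ₗ[ℂ] E) (A B : E) :
    (J.pull L).h2 A B = J.h2 (L A) (L B) := rfl
@[simp] theorem pull_h3 (J : Jet) (L : E →ₗ[ℂ] E) (A C B : E) :
    (J.pull L).h3 A C B = J.h3 (L A) (L C) (L B) := rfl
@[simp] theorem pull_h4 (J : Jet) (L : E →ₗ[ℂ] E) (A C B D : E) :
    (J.pull L).h4 A C B D = J.h4 (L A) (L C) (L B) (L D) := rfl

/-- the jet with respect to the operators `D_A D_C - D_{S(A,C)}` (a symmetric connection `S`) -/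
noncomputable def shift (J : Jet) (S : E →ₗ[ℂ] E →ₗ[ℂ] E) (hS : ∀ A C, S A C = S C A) : Jet :=
  ofFun (fun A => J.h1 A) (fun A C => J.h20 A C - J.h1 (S A C)) (fun A B => J.h2 A B)
    (fun A C B => J.h3 A C B - J.h2 (S A C) B)
    (fun A C B D => J.h4 A C B D - J.h3 A C (S B D) - conj (J.h3 B D (S A C)) +
      J.h2 (S A C) (S B D))
    (by simp) (by simp) (by intros; simp; ring) (by intros; simp; ring)
    (fun A C => by rw [J.h20_symm, hS]) (by simp) (by simp) (fun _ _ => J.h2_conj _ _)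
    (by intros; simp; ring) (by intros; simp; ring) (fun A C B => by rw [J.h3_symm, hS])
    (by intros; simp; ring) (by intros; simp; ring) (by intros; simp; ring)
    (by intros; simp; ring) (fun A C B D => by rw [J.h4_symm, J.h3_symm A, hS A])
    (fun A C B D => by simp [J.h4_conj, J.h2_conj]; ring)

section
variable (J : Jet) (S : E →ₗ[ℂ] E →ₗ[ℂ] E) (hS : ∀ A C, S A C = S C A)
@[simp] theorem shift_h1 (A : E) : (J.shift S hS).h1 A = J.h1 A := rfl
@[simp] theorem shift_h20 (A C : E) : (J.shift S hS).h20 A C = J.h20 A C - J.h1 (S A C) := rfl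
@[simp] theorem shift_h2 (A B : E) : (J.shift S hS).h2 A B = J.h2 A B := rfl
@[simp] theorem shift_h3 (A C B : E) :
    (J.shift S hS).h3 A C B = J.h3 A C B - J.h2 (S A C) B := rfl
@[simp] theorem shift_h4 (A C B D : E) :
    (J.shift S hS).h4 A C B D = J.h4 A C B D - J.h3 A C (S B D) - conj (J.h3 B D (S A C)) +
      J.h2 (S A C) (S B D) := rfl
end

/-- the jet of `F ∘ T` from the jet of `T` and the derivatives `F1 .. F4` of `F` at `T p` -/
noncomputable def compose (T : Jet) (F1 F2 F3 F4 : ℝ) : Jet :=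
  ofFun (fun A => F1 * T.h1 A) (fun A C => F1 * T.h20 A C + F2 * (T.h1 A * T.h1 C))
    (fun A B => F1 * T.h2 A B + F2 * (T.h1 A * conj (T.h1 B)))
    (fun A C B => F1 * T.h3 A C B +
      F2 * (T.h1 A * T.h2 C B + T.h1 C * T.h2 A B + T.h20 A C * conj (T.h1 B)) +
      F3 * (T.h1 A * T.h1 C * conj (T.h1 B)))
    (fun A C B D => F1 * T.h4 A C B D +
      F2 * (T.h2 A B * T.h2 C D + T.h2 A D * T.h2 C B + T.h20 A C * conj (T.h20 B D) +
        T.h1 A * conj (T.h3 B D C) + T.h1 C * conj (T.h3 B D A) +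
        conj (T.h1 B) * T.h3 A C D + conj (T.h1 D) * T.h3 A C B) +
      F3 * (T.h20 A C * conj (T.h1 B) * conj (T.h1 D) + T.h1 A * T.h1 C * conj (T.h20 B D) +
        T.h1 A * conj (T.h1 B) * T.h2 C D + T.h1 A * conj (T.h1 D) * T.h2 C B +
        T.h1 C * conj (T.h1 B) * T.h2 A D + T.h1 C * conj (T.h1 D) * T.h2 A B) +
      F4 * (T.h1 A * T.h1 C * conj (T.h1 B) * conj (T.h1 D)))
    (by intros; simp; ring) (by intros; simp; ring) (by intros; simp; ring)
    (by intros; simp; ring) (fun A C => by rw [T.h20_symm]; ring)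
    (by intros; simp; ring) (by intros; simp; ring)
    (fun A B => by
      simp only [map_add, map_mul, Complex.conj_ofReal, T.h2_conj, Complex.conj_conj]; ring)
    (by intros; simp; ring) (by intros; simp; ring)
    (fun A C B => by rw [T.h3_symm, T.h20_symm]; ring)
    (by intros; simp; ring) (by intros; simp; ring) (by intros; simp; ring)
    (by intros; simp; ring)
    (fun A C B D => by rw [T.h4_symm, T.h20_symm A, T.h3_symm A C D, T.h3_symm A C B]; ring)
    (fun A C B D => by simp [T.h4_conj, T.h2_conj]; ring)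

section
variable (T : Jet) (F1 F2 F3 F4 : ℝ)
@[simp] theorem compose_h1 (A : E) : (T.compose F1 F2 F3 F4).h1 A = F1 * T.h1 A := rfl
@[simp] theorem compose_h20 (A C : E) :
    (T.compose F1 F2 F3 F4).h20 A C = F1 * T.h20 A C + F2 * (T.h1 A * T.h1 C) := rfl
@[simp] theorem compose_h2 (A B : E) :
    (T.compose F1 F2 F3 F4).h2 A B = F1 * T.h2 A B + F2 * (T.h1 A * conj (T.h1 B)) := rfl
@[simp] theorem compose_h3 (A C B : E) :
    (T.compose F1 F2 F3 F4).h3 A C B = F1 * T.h3 A C B +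
      F2 * (T.h1 A * T.h2 C B + T.h1 C * T.h2 A B + T.h20 A C * conj (T.h1 B)) +
      F3 * (T.h1 A * T.h1 C * conj (T.h1 B)) := rfl
@[simp] theorem compose_h4 (A C B D : E) :
    (T.compose F1 F2 F3 F4).h4 A C B D = F1 * T.h4 A C B D +
      F2 * (T.h2 A B * T.h2 C D + T.h2 A D * T.h2 C B + T.h20 A C * conj (T.h20 B D) +
        T.h1 A * conj (T.h3 B D C) + T.h1 C * conj (T.h3 B D A) +
        conj (T.h1 B) * T.h3 A C D + conj (T.h1 D) * T.h3 A C B) +
      F3 * (T.h20 A C * conj (T.h1 B) * conj (T.h1 D) + T.h1 A * T.h1 C * conj (T.h20 B D) +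
        T.h1 A * conj (T.h1 B) * T.h2 C D + T.h1 A * conj (T.h1 D) * T.h2 C B +
        T.h1 C * conj (T.h1 B) * T.h2 A D + T.h1 C * conj (T.h1 D) * T.h2 A B) +
      F4 * (T.h1 A * T.h1 C * conj (T.h1 B) * conj (T.h1 D)) := rfl
end

/-- positive definite Levi form -/
def Pos (J : Jet) : Prop := PD J.h2

open Classical in
/-- the Christoffel map: `h2 (Gam A C) B = h3 A C B` -/
noncomputable def Gam (J : Jet) (A C : E) : E :=
  if h : ∃ G, ∀ B, J.h2 G B = J.h3 A C B then h.choose else 0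

/-- minus the curvature tensor -/
noncomputable def Q (J : Jet) (A C B D : E) : ℂ :=
  J.h4 A C B D - J.h2 (J.Gam A C) (J.Gam B D)

/-- minus the numerator of the sectional curvature -/
noncomputable def num (J : Jet) (X Y : E) : ℝ := (J.Q X Y X Y - J.Q X X Y Y).re

/-- the denominator of the sectional curvature -/
def den (J : Jet) (X Y : E) : ℝ := DD J.h2 X Y

/-- the norm of the metric -/
noncomputable def nu (J : Jet) (A : E) : ℝ := nuF J.h2 A

/-- `J` is the jet of the real function `F` at `p` -/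
structure Of (J : Jet) (F : E → ℝ) (p : E) : Prop where
  e1 : ∀ A, J.h1 A = Dh A (cx F) p
  e20 : ∀ A C, J.h20 A C = Dh A (Dh C (cx F)) p
  e2 : ∀ A B, J.h2 A B = Dh A (Db B (cx F)) p
  e3 : ∀ A C B, J.h3 A C B = Dh A (Dh C (Db B (cx F))) p
  e4 : ∀ A C B D, J.h4 A C B D = Dh A (Dh C (Db B (Db D (cx F)))) p

end Jet

open Classical in
/-- the jet of `F` at `p` (junk value `0` if `F` is not smooth) -/
noncomputable def jetAt (F : E → ℝ) (p : E) : Jet :=
  if h : ∃ J : Jet, J.Of F p then h.choose else 0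

theorem jetAt_eq {J : Jet} {F : E → ℝ} {p : E} (h : J.Of F p) : jetAt F p = J := by
  have h' : ∃ J : Jet, J.Of F p := ⟨J, h⟩
  have h0 := h'.choose_spec
  rw [jetAt, dif_pos h']
  exact Jet.ext' (fun A => by rw [h0.e1, h.e1]) (fun A C => by rw [h0.e20, h.e20])
    (fun A B => by rw [h0.e2, h.e2]) (fun A C B => by rw [h0.e3, h.e3])
    (fun A C B D => by rw [h0.e4, h.e4])

/-! ## bounds for words of derivatives -/

/-- every word of `j ≤ k` directional derivatives of `F` at `p` is at most `K * ∏ ν (v i)` -/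
def Bd (ν : E → ℝ) (p : E) : ℕ → (E → ℂ) → ℝ → Prop
  | 0, F, K => ‖F p‖ ≤ K
  | k + 1, F, K => ‖F p‖ ≤ K ∧ ∀ v, Bd ν p k (pd v F) (K * ν v)

/-- the same for the words of length `1, …, k + 1` -/
def Bd1 (ν : E → ℝ) (p : E) (k : ℕ) (F : E → ℂ) (K : ℝ) : Prop :=
  ∀ v, Bd ν p k (pd v F) (K * ν v)

/-! ## the base `B² ⊂ ℂ²` (coordinates `z 0, z 1`) -/

/-- Hermitian product of the base components -/
def ip (u v : E) : ℂ := u 0 * conj (v 0) + u 1 * conj (v 1)
/-- squared norm of the base component -/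
noncomputable def nsq (u : E) : ℝ := ‖u 0‖ ^ 2 + ‖u 1‖ ^ 2
noncomputable def rho (z : E) : ℝ := 1 - nsq z
noncomputable def xx (z : E) : ℝ := (z 0).re - 4 / 5
noncomputable def phi0 (z : E) : ℝ := -Real.log (rho z)
noncomputable def tt (z : E) : ℝ := 2 * Real.log (xx z) - Real.log (rho z)
/-- the fibre direction -/
def e2 : E := Pi.single 2 1

theorem ip_add_left (u u' v : E) : ip (u + u') v = ip u v + ip u' v := by simp [ip]; ring
theorem ip_smul_left (c : ℂ) (u v : E) : ip (c • u) v = c * ip u v := by simp [ip]; ring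
theorem ip_add_right (u v v' : E) : ip u (v + v') = ip u v + ip u v' := by simp [ip]; ring
theorem ip_smul_right (c : ℂ) (u v : E) : ip u (c • v) = conj c * ip u v := by simp [ip]; ring
theorem ip_sub_left (u u' v : E) : ip (u - u') v = ip u v - ip u' v := by simp [ip]; ring
theorem ip_sub_right (u v v' : E) : ip u (v - v') = ip u v - ip u v' := by simp [ip]; ring
theorem conj_ip (u v : E) : conj (ip u v) = ip v u := by simp [ip]; ring
theorem ip_self (u : E) : ip u u = (nsq u : ℂ) := by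
  simp [ip, nsq, Complex.mul_conj, Complex.normSq_eq_norm_sq]
theorem nsq_nonneg (u : E) : 0 ≤ nsq u := by unfold nsq; positivity
@[simp] theorem ip_e2_left (v : E) : ip e2 v = 0 := by simp [ip, e2]
@[simp] theorem ip_e2_right (v : E) : ip v e2 = 0 := by simp [ip, e2]
@[simp] theorem e2_two : e2 2 = 1 := by simp [e2]

/-- Cauchy–Schwarz on the base -/
theorem norm_ip_sq_le (u v : E) : ‖ip u v‖ ^ 2 ≤ nsq u * nsq v := by
  have h : ‖ip u v‖ ≤ ‖u 0‖ * ‖v 0‖ + ‖u 1‖ * ‖v 1‖ := by
    refine (norm_add_le _ _).trans (le_of_eq ?_)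
    simp
  have h2 : ‖ip u v‖ ^ 2 ≤ (‖u 0‖ * ‖v 0‖ + ‖u 1‖ * ‖v 1‖) ^ 2 := by gcongr
  refine h2.trans ?_
  unfold nsq
  nlinarith [sq_nonneg (‖u 0‖ * ‖v 1‖ - ‖u 1‖ * ‖v 0‖)]

theorem nsq_add (u v : E) : nsq (u + v) = nsq u + nsq v + 2 * (ip u v).re := by
  simp only [nsq, ip, Pi.add_apply, Complex.sq_norm, Complex.normSq_apply, Complex.add_re,
    Complex.add_im, Complex.mul_re, Complex.conj_re, Complex.conj_im]
  ring

theorem nsq_smul (c : ℂ) (u : E) : nsq (c • u) = ‖c‖ ^ 2 * nsq u := by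
  simp [nsq]; ring

/-- the Bergman type metric `i∂∂̄ (-log ρ)` of the base ball at `p` -/
noncomputable def IF (p : E) : Form :=
  mkForm (fun A B => ip A B / rho p + ip A p * conj (ip B p) / (rho p : ℂ) ^ 2)
    (by intros; rw [ip_add_left, ip_add_left]; ring)
    (by intros; rw [ip_smul_left, ip_smul_left]; ring)
    (by intros; rw [ip_add_right, ip_add_left, map_add]; ring)
    (by intros; rw [ip_smul_right, ip_smul_left, map_mul]; ring)

theorem IF_apply (p A B : E) :
    IF p A B = ip A B / rho p + ip A p * conj (ip B p) / (rho p : ℂ) ^ 2 := rfl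

theorem IF_self (p A : E) : (IF p A A).re = nsq A / rho p + ‖ip A p‖ ^ 2 / rho p ^ 2 := by
  have : IF p A A = ((nsq A / rho p + ‖ip A p‖ ^ 2 / rho p ^ 2 : ℝ) : ℂ) := by
    rw [IF_apply, ip_self, Complex.mul_conj, Complex.normSq_eq_norm_sq]; push_cast; ring
  rw [this, Complex.ofReal_re]

/-- the norm of the ball metric at `p` (a seminorm on `E`, it ignores the fibre component) -/
noncomputable def nuI (p : E) : E → ℝ := nuF (IF p)

/-- the Christoffel map of the ball metric (the fibre component is irrelevant) -/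
noncomputable def SI (p : E) : E →ₗ[ℂ] E →ₗ[ℂ] E :=
  LinearMap.mk₂ ℂ (fun A C => (ip C p / rho p) • A + (ip A p / rho p) • C)
    (by intros; rw [ip_add_left, add_div, add_smul, smul_add]; abel)
    (by intros; rw [ip_smul_left, smul_add, smul_smul, smul_smul, smul_smul]; congr 2 <;> ring)
    (by intros; rw [ip_add_left, add_div, add_smul, smul_add]; abel)
    (by intros; rw [ip_smul_left, smul_add, smul_smul, smul_smul, smul_smul]; congr 2 <;> ring)

theorem SI_apply (p A C : E) : SI p A C = (ip C p / rho p) • A + (ip A p / rho p) • C := rfl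
theorem SI_symm (p A C : E) : SI p A C = SI p C A := by rw [SI_apply, SI_apply, add_comm]

/-! ## the Hartogs piece over the ball -/

/-- `s = |w|² e^φ` -/
noncomputable def sF (φ : E → ℝ) (z : E) : ℝ := ‖z 2‖ ^ 2 * Real.exp (φ z)
/-- the local potential `Φ₀ - a log (1 - s)` -/
noncomputable def Phil (Φ0 a φ : E → ℝ) (z : E) : ℝ := Φ0 z - a z * Real.log (1 - sF φ z)
/-- the disc bundle over the whole base ball -/
def Dom (φ : E → ℝ) : Set E := {z | 0 < rho z ∧ sF φ z < 1}
/-- the cylinder over the patch -/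
def Cyl : Set E := {z | 0 < xx z ∧ 0 < rho z}

end Crest.Agent.R245
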