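import Crest.Agent.R245.Basic

/-!
# R245 Bump: the smooth convex function `bb` with `bb' = smoothTransition`
-/

set_option autoImplicit false
open scoped ComplexConjugate ContDiff Topology
open Complex (I)
open Filter

namespace Crest.Agent.R245

/-- `bb y = 0` for `y ≤ 0`, `bb y = y - const` for `y ≥ 1`, smooth, convex, nondecreasing -/
noncomputable def bb (y : ℝ) : ℝ := ∫ s in (0 : ℝ)..y, Real.smoothTransition s

theorem hasDerivAt_bb (y : ℝ) : HasDerivAt bb (Real.smoothTransition y) y :=
  (Real.smoothTransition.continuous.integral_hasStrictDerivAt 0 y).hasDerivAt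

theorem deriv_bb : deriv bb = Real.smoothTransition := funext fun y => (hasDerivAt_bb y).deriv

theorem contDiff_bb : ContDiff ℝ ∞ bb := by
  rw [contDiff_infty_iff_deriv, deriv_bb]
  exact ⟨fun y => (hasDerivAt_bb y).differentiableAt, Real.smoothTransition.contDiff⟩

theorem bb_zero : bb 0 = 0 := by simp [bb]

theorem monotone_bb : Monotone bb :=
  monotone_of_deriv_nonneg (fun y => (hasDerivAt_bb y).differentiableAt) fun y => by
    rw [deriv_bb]; exact Real.smoothTransition.nonneg y

theorem bb_of_nonpos {y : ℝ} (hy : y ≤ 0) : bb y = 0 := by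
  unfold bb
  rw [intervalIntegral.integral_congr (g := fun _ => 0)]
  · simp
  · intro s hs
    rw [Set.uIcc_of_ge hy] at hs
    exact Real.smoothTransition.zero_of_nonpos hs.2

theorem bb_nonneg (y : ℝ) : 0 ≤ bb y := by
  rcases le_total y 0 with h | h
  · rw [bb_of_nonpos h]
  · simpa [bb_zero] using monotone_bb h

theorem antitone_bb_sub : Antitone fun y => bb y - y :=
  antitone_of_deriv_nonpos
    (fun y => ((hasDerivAt_bb y).sub (hasDerivAt_id y)).differentiableAt) fun y => by
    rw [((hasDerivAt_bb y).fun_sub (hasDerivAt_id' y)).deriv]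
    linarith [Real.smoothTransition.le_one y]

theorem bb_le {y : ℝ} (hy : 0 ≤ y) : bb y ≤ y := by
  have := antitone_bb_sub hy
  simp only [bb_zero] at this
  linarith

theorem bb_of_one_le {y : ℝ} (hy : 1 ≤ y) : bb y = y - (1 - bb 1) := by
  have h : bb y - bb 1 = ∫ s in (1 : ℝ)..y, Real.smoothTransition s := by
    unfold bb
    exact intervalIntegral.integral_interval_sub_left
      (Real.smoothTransition.continuous.intervalIntegrable _ _)
      (Real.smoothTransition.continuous.intervalIntegrable _ _)
  rw [intervalIntegral.integral_congr (g := fun _ => 1)] at h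
  · simp at h; linarith
  · intro s hs
    rw [Set.uIcc_of_le hy] at hs
    exact Real.smoothTransition.one_of_one_le hs.1

theorem sub_one_le_bb (y : ℝ) : y - 1 ≤ bb y := by
  rcases le_total y 1 with h | h
  · linarith [bb_nonneg y]
  · rw [bb_of_one_le h]; linarith [bb_nonneg 1]

end Crest.Agent.R245
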