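import Crest.Agent.R245.JetAlg

/-!
# R245 Calabi: curvature of the Calabi type model (exact formula) (TASK)

`B` is the (shifted) jet of the ball potential, `T` the (shifted) jet of `log |w|² + φ`.
Notation: `I = B.h2`, `θ = T.h2`, `β = T.h1`, `a = ε²`, `τ = a (σ - 1)`, `ϕ = τ σ`,
`G = ε I + τ θ`, `H = G + ϕ β β̄`.
-/

set_option autoImplicit false
open scoped ComplexConjugate ContDiff Topology
open Complex (I)
open Filter

namespace Crest.Agent.R245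

/-- the model jet `ε φ₀ - ε² log (1 - e^T)`, `σ = 1 / (1 - e^T)` -/
noncomputable def model (B T : Jet) (ε σ : ℝ) : Jet :=
  ε • B + T.compose (ε ^ 2 * (σ - 1)) (ε ^ 2 * (σ - 1) * σ) (ε ^ 2 * (σ - 1) * σ * (2 * σ - 1))
    (ε ^ 2 * (σ - 1) * σ * (2 * σ - 1) ^ 2 + 2 * (ε ^ 2 * (σ - 1) * σ) * σ * (σ - 1))

/-- hypotheses of the Calabi computation -/
structure CalHyp (B T : Jet) (e : E) (ε Λ σ : ℝ) : Prop where
  psd : PSD B.h2
  ker : ∀ A, B.h2 e A = 0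
  ker' : ∀ A, (B.h2 A A).re = 0 → ∃ c : ℂ, A = c • e
  b3 : ∀ A C D, B.h3 A C D = 0
  b4 : ∀ A C A' C', B.h4 A C A' C' = B.h2 A A' * B.h2 C C' + B.h2 A C' * B.h2 C A'
  t20 : ∀ A C, T.h20 A C = 0
  te : T.h1 e ≠ 0
  eps_pos : 0 < ε
  eps_le : ε ≤ 1
  lam : 0 ≤ Λ
  sig : 1 < σ
  low : ∀ A, ε / 2 * (B.h2 A A).re ≤ (T.h2 A A).re
  up : ∀ A, (T.h2 A A).re ≤ ε * (1 + Λ) * (B.h2 A A).re
  t3 : ∀ A C D, ‖T.h3 A C D‖ ≤ ε * Λ * (B.nu A * B.nu C * B.nu D)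
  t4 : ∀ A C A' C', ‖T.h4 A C A' C' - ε * B.h4 A C A' C'‖ ≤
    ε * Λ * (B.nu A * B.nu C * B.nu A' * B.nu C')

namespace CalHyp
variable {B T : Jet} {e : E} {ε Λ σ : ℝ}

theorem psdT (h : CalHyp B T e ε Λ σ) : PSD T.h2 := fun A =>
  le_trans (mul_nonneg (by linarith [h.eps_pos]) (h.psd A)) (h.low A)

theorem ker_right (h : CalHyp B T e ε Λ σ) (A : E) : B.h2 A e = 0 := by
  rw [← B.h2_conj, h.ker, map_zero]

theorem nu_e (h : CalHyp B T e ε Λ σ) : B.nu e = 0 := by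
  simp [Jet.nu, nuF, h.ker]

theorem th_left (h : CalHyp B T e ε Λ σ) (A : E) : T.h2 e A = 0 := by
  have h0 : nuF T.h2 e = 0 := by
    have := h.up e
    rw [h.ker] at this
    exact Real.sqrt_eq_zero'.2 (by simpa using this)
  have := norm_form_le T.herm h.psdT e A
  rw [h0, zero_mul] at this
  exact norm_le_zero_iff.1 this

theorem th_right (h : CalHyp B T e ε Λ σ) (A : E) : T.h2 A e = 0 := by
  rw [← T.h2_conj, h.th_left, map_zero]

theorem t3_right (h : CalHyp B T e ε Λ σ) (A C : E) : T.h3 A C e = 0 := by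
  have := h.t3 A C e
  rw [h.nu_e, mul_zero, mul_zero] at this
  exact norm_le_zero_iff.1 this

theorem t3_left (h : CalHyp B T e ε Λ σ) (C D : E) : T.h3 e C D = 0 := by
  have := h.t3 e C D
  rw [h.nu_e, zero_mul, zero_mul, mul_zero] at this
  exact norm_le_zero_iff.1 this

theorem t4_left (h : CalHyp B T e ε Λ σ) (C A' C' : E) : T.h4 e C A' C' = 0 := by
  have := h.t4 e C A' C'
  rw [h.nu_e, zero_mul, zero_mul, zero_mul, mul_zero, h.b4, h.ker, h.ker] at this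
  simpa using this

theorem tau_pos (h : CalHyp B T e ε Λ σ) : 0 < ε ^ 2 * (σ - 1) :=
  mul_pos (pow_pos h.eps_pos 2) (by linarith [h.sig])

theorem phi_pos (h : CalHyp B T e ε Λ σ) : 0 < ε ^ 2 * (σ - 1) * σ :=
  mul_pos h.tau_pos (by linarith [h.sig])

theorem model_h2 (B T : Jet) (ε σ : ℝ) (A D : E) :
    (model B T ε σ).h2 A D = ε * B.h2 A D + (ε ^ 2 * (σ - 1) : ℝ) * T.h2 A D +
      (ε ^ 2 * (σ - 1) * σ : ℝ) * (T.h1 A * conj (T.h1 D)) := by
  simp only [model, Jet.add_h2, Jet.smul_h2, Jet.compose_h2]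
  ring

theorem model_h3 (h : CalHyp B T e ε Λ σ) (A C D : E) :
    (model B T ε σ).h3 A C D = (ε ^ 2 * (σ - 1) : ℝ) * T.h3 A C D +
      (ε ^ 2 * (σ - 1) * σ : ℝ) * (T.h1 A * T.h2 C D + T.h1 C * T.h2 A D) +
      (ε ^ 2 * (σ - 1) * σ * (2 * σ - 1) : ℝ) * (T.h1 A * T.h1 C * conj (T.h1 D)) := by
  simp only [model, Jet.add_h3, Jet.smul_h3, Jet.compose_h3, h.b3, h.t20]
  ring

/-- `H A A = ε I A A + τ θ A A + ϕ |β A|²`; if it vanishes then `I A A = 0`, `A = c e`,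
`β A = 0`, `c = 0`. -/
theorem pos (h : CalHyp B T e ε Λ σ) : (model B T ε σ).Pos := by
  intro A hA
  have e1 : ((model B T ε σ).h2 A A).re = ε * (B.h2 A A).re + ε ^ 2 * (σ - 1) * (T.h2 A A).re +
      ε ^ 2 * (σ - 1) * σ * Complex.normSq (T.h1 A) := by
    rw [model_h2, Complex.mul_conj, Complex.add_re, Complex.add_re, Complex.re_ofReal_mul,
      Complex.re_ofReal_mul, Complex.re_ofReal_mul, Complex.ofReal_re]
  rw [e1]
  have p1 := h.psd A
  have p2 := mul_nonneg h.tau_pos.le (h.psdT A)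
  have p3 := mul_nonneg h.phi_pos.le (Complex.normSq_nonneg (T.h1 A))
  rcases p1.lt_or_eq with p1 | p1
  · have := mul_pos h.eps_pos p1
    linarith
  · obtain ⟨c, rfl⟩ := h.ker' A p1.symm
    have hc : c ≠ 0 := fun hc => hA (by simp [hc])
    have : 0 < Complex.normSq (T.h1 (c • e)) := by
      rw [Complex.normSq_pos, map_smul, smul_eq_mul]
      exact mul_ne_zero hc h.te
    have := mul_pos h.phi_pos this
    rw [← p1]
    linarith

/-- the `H`-dual of a functional vanishing on `e` is horizontal and is a `G`-dual -/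
theorem dual_aux (h : CalHyp B T e ε Λ σ) {v : E} {l : E → ℂ} (hl : l e = 0)
    (hv : ∀ D, (model B T ε σ).h2 v D = l D) :
    T.h1 v = 0 ∧ ∀ D, ε * B.h2 v D + (ε ^ 2 * (σ - 1) : ℝ) * T.h2 v D = l D := by
  have h0 : T.h1 v = 0 := by
    have := hv e
    rw [model_h2, hl, h.ker_right, h.th_right, mul_zero, mul_zero, zero_add, zero_add] at this
    have hp : ((ε ^ 2 * (σ - 1) * σ : ℝ) : ℂ) ≠ 0 := Complex.ofReal_ne_zero.2 h.phi_pos.ne'
    have hc : conj (T.h1 e) ≠ 0 := by simpa using h.te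
    rcases mul_eq_zero.1 this with h' | h'
    · exact absurd h' hp
    · exact (mul_eq_zero.1 h').resolve_right hc
  refine ⟨h0, fun D => ?_⟩
  rw [← hv D, model_h2, h0, zero_mul, mul_zero, add_zero]

/-- The `G`-duals. `θ A e = 0` (Cauchy–Schwarz, `θ e e ≤ ε (1+Λ) I e e = 0`) and
`T.h3 A C e = 0` (`t3`, `B.nu e = 0`). Take the `H`-dual `v` of `θ D ·` (`exists_dual`); testing
against `e` gives `β v = 0`, so `G v · = θ D ·`. Linearity of `D ↦ v` by `dual_unique`. -/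
theorem exists_sharp (h : CalHyp B T e ε Λ σ) :
    ∃ (sh : E →ₗ[ℂ] E) (Z : E → E → E), (∀ D, T.h1 (sh D) = 0) ∧ (∀ A C, T.h1 (Z A C) = 0) ∧
      (∀ D A, ε * B.h2 (sh D) A + (ε ^ 2 * (σ - 1) : ℝ) * T.h2 (sh D) A = T.h2 D A) ∧
      (∀ A C D, ε * B.h2 (Z A C) D + (ε ^ 2 * (σ - 1) : ℝ) * T.h2 (Z A C) D = T.h3 A C D) := by
  have hp : PD (model B T ε σ).h2 := h.pos
  choose s hs using fun D => exists_dual hp (T.h2 D)
  choose Z hZ using fun A C => exists_dual hp (T.h3 A C)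
  let sh : E →ₗ[ℂ] E :=
    { toFun := s
      map_add' := fun D D' => dual_unique hp fun A => by simp [hs]
      map_smul' := fun c D => dual_unique hp fun A => by simp [hs] }
  exact ⟨sh, Z, fun D => (h.dual_aux (l := fun A => T.h2 D A) (h.th_right D) (hs D)).1,
    fun A C => (h.dual_aux (l := fun D => T.h3 A C D) (h.t3_right A C) (hZ A C)).1,
    fun D => (h.dual_aux (l := fun A => T.h2 D A) (h.th_right D) (hs D)).2,
    fun A C => (h.dual_aux (l := fun D => T.h3 A C D) (h.t3_right A C) (hZ A C)).2⟩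

section Formula
variable (h : CalHyp B T e ε Λ σ) (sh : E →ₗ[ℂ] E) (Z : E → E → E)
    (h1 : ∀ D, T.h1 (sh D) = 0) (h2 : ∀ A C, T.h1 (Z A C) = 0)
    (h3 : ∀ D A, ε * B.h2 (sh D) A + (ε ^ 2 * (σ - 1) : ℝ) * T.h2 (sh D) A = T.h2 D A)
    (h4 : ∀ A C D, ε * B.h2 (Z A C) D + (ε ^ 2 * (σ - 1) : ℝ) * T.h2 (Z A C) D = T.h3 A C D)
include h h1 h2 h3 h4

/-- the Christoffel map of the model -/
theorem gam_eq (A C : E) :
    (model B T ε σ).Gam A C = ((ε ^ 2 * (σ - 1) : ℝ) : ℂ) • Z A C +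
      ((ε ^ 2 * (σ - 1) * σ : ℝ) : ℂ) • (T.h1 A • sh C + T.h1 C • sh A) +
      (((2 * σ - 1 : ℝ) : ℂ) * T.h1 A * T.h1 C / T.h1 e) • e := by
  refine Jet.eq_Gam h.pos fun D => ?_
  have hte := h.te
  rw [model_h2, h.model_h3, ← h3 C D, ← h3 A D, ← h4 A C D]
  simp only [map_add, map_smul, LinearMap.add_apply, LinearMap.smul_apply, smul_eq_mul, h1, h2,
    h.ker, h.th_left]
  push_cast
  field_simp
  ring

omit h h1 h2 h4 in
/-- `θ C (sh D) = θ (sh C) D` -/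
theorem th_sh (C D : E) : T.h2 C (sh D) = T.h2 (sh C) D := by
  have e1 := h3 C (sh D)
  have e2 := congrArg conj (h3 D (sh C))
  simp only [map_add, map_mul, Complex.conj_ofReal, B.h2_conj, T.h2_conj] at e2
  rw [← e1, e2]

omit h h1 h2 in
/-- `θ C (Z A' D) = conj (θ3 A' D (sh C))` -/
theorem th_Z (C A' D : E) : T.h2 C (Z A' D) = conj (T.h3 A' D (sh C)) := by
  have e1 := h3 C (Z A' D)
  have e2 := congrArg conj (h4 A' D (sh C))
  simp only [map_add, map_mul, Complex.conj_ofReal, B.h2_conj, T.h2_conj] at e2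
  rw [← e1, e2]

/-- the curvature tensor of the model -/
theorem Q_eq (τ ϕ : ℝ) (hτ : τ = ε ^ 2 * (σ - 1)) (hϕ : ϕ = τ * σ) (A C A' D : E) :
    (model B T ε σ).Q A C A' D =
      ε * (B.h2 A A' * B.h2 C D + B.h2 A D * B.h2 C A') + τ * T.h4 A C A' D +
      ϕ * (T.h2 A A' * T.h2 C D + T.h2 A D * T.h2 C A') +
      ϕ * (T.h1 A * conj (T.h3 A' D C - τ * T.h3 A' D (sh C)) +
        T.h1 C * conj (T.h3 A' D A - τ * T.h3 A' D (sh A)) +
        conj (T.h1 A') * (T.h3 A C D - τ * T.h3 A C (sh D)) +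
        conj (T.h1 D) * (T.h3 A C A' - τ * T.h3 A C (sh A'))) +
      ϕ * (T.h1 A * conj (T.h1 A') * ((2 * σ - 1) * T.h2 C D - ϕ * T.h2 (sh C) D) +
        T.h1 A * conj (T.h1 D) * ((2 * σ - 1) * T.h2 C A' - ϕ * T.h2 (sh C) A') +
        T.h1 C * conj (T.h1 A') * ((2 * σ - 1) * T.h2 A D - ϕ * T.h2 (sh A) D) +
        T.h1 C * conj (T.h1 D) * ((2 * σ - 1) * T.h2 A A' - ϕ * T.h2 (sh A) A')) +
      (2 * ϕ * σ * (σ - 1) : ℝ) * (T.h1 A * T.h1 C * conj (T.h1 A') * conj (T.h1 D)) -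
      τ ^ 2 * (ε * B.h2 (Z A C) (Z A' D) + τ * T.h2 (Z A C) (Z A' D)) := by
  have hte : conj (T.h1 e) ≠ 0 := by simpa using h.te
  have hZ := h4 A C (Z A' D)
  rw [← hτ] at hZ
  rw [Jet.Q, Jet.Gam_spec h.pos, h.model_h3, h.gam_eq sh Z h1 h2 h3 h4, hZ]
  simp only [model, Jet.add_h4, Jet.smul_h4, Jet.compose_h4, h.b4, h.t20, map_add, map_smulₛₗ,
    smul_eq_mul, h1, h2, h.th_right, h.t3_right, th_sh sh h3, th_Z sh Z h3 h4, map_mul, map_div₀,
    map_sub, Complex.conj_ofReal, map_zero, RingHom.id_apply]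
  subst hϕ hτ
  push_cast
  field_simp
  ring

end Formula

/-- The exact formula (checked numerically). By `eq_Gam`,
`Γ A C = τ Z A C + ϕ (β A • sh C + β C • sh A) + ((2σ-1) β A β C / β e) • e`. Insert this in
`Q = h4 - H Γ Γ`, use `G (sh D) · = θ D ·`, `G (Z A C) · = θ3 A C ·`, `G e · = 0`, Hermitian
symmetry, and expand. With `o D = D - τ sh D`, `M A B = (σ-1) θ A B + σ θ (o A) B`,
`η = conj (β X) • Y - conj (β Y) • X`, `b = im (β X conj (β Y))`. For a Hermitian form `k`: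
`|βX|² k Y Y + |βY|² k X X + 2 re (βX conj βY k Y X) - 4 re (βX conj βY k X Y)
  = k η η + 4 b im k X Y`; apply to `θ` (coefficient `ϕ (2σ-1)`) and to `m A B = θ (sh A) B`
(coefficient `-ϕ²`; it is Hermitian because `θ (sh A) B = G (sh A) (sh B)`). -/
theorem formula (h : CalHyp B T e ε Λ σ) (sh : E →ₗ[ℂ] E) (Z : E → E → E)
    (h1 : ∀ D, T.h1 (sh D) = 0) (h2 : ∀ A C, T.h1 (Z A C) = 0)
    (h3 : ∀ D A, ε * B.h2 (sh D) A + (ε ^ 2 * (σ - 1) : ℝ) * T.h2 (sh D) A = T.h2 D A)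
    (h4 : ∀ A C D, ε * B.h2 (Z A C) D + (ε ^ 2 * (σ - 1) : ℝ) * T.h2 (Z A C) D = T.h3 A C D)
    (X Y : E) (τ ϕ b : ℝ) (hτ : τ = ε ^ 2 * (σ - 1)) (hϕ : ϕ = τ * σ)
    (hb : b = (T.h1 X * conj (T.h1 Y)).im) (η : E)
    (hη : η = conj (T.h1 X) • Y - conj (T.h1 Y) • X) (o : E → E)
    (ho : ∀ D, o D = D - (τ : ℂ) • sh D) :
    (model B T ε σ).num X Y =
      ε * (DD B.h2 X Y + 3 * (B.h2 X Y).im ^ 2) + τ * (T.h4 X Y X Y - T.h4 X X Y Y).re +
      ϕ * (DD T.h2 X Y + 3 * (T.h2 X Y).im ^ 2) +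
      ϕ * (((σ - 1) * (T.h2 η η).re + σ * (T.h2 (o η) η).re) +
        4 * b * ((σ - 1) * (T.h2 X Y).im + σ * (T.h2 (o X) Y).im)) +
      4 * ϕ ^ 2 * b ^ 2 / ε ^ 2 + 2 * ϕ * (T.h3 X η (o Y) - T.h3 Y η (o X)).re -
      τ ^ 2 * ((ε * B.h2 (Z X Y) (Z X Y) + τ * T.h2 (Z X Y) (Z X Y)) -
        (ε * B.h2 (Z X X) (Z Y Y) + τ * T.h2 (Z X X) (Z Y Y))).re := by
  have hε : ε ≠ 0 := h.eps_pos.ne'
  have e4 : 4 * ϕ ^ 2 * b ^ 2 / ε ^ 2 = 2 * (2 * ϕ * σ * (σ - 1)) * b ^ 2 := by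
    rw [hϕ, hτ]; field_simp; ring
  have bYX : B.h2 Y X = conj (B.h2 X Y) := (B.h2_conj X Y).symm
  have tYX : T.h2 Y X = conj (T.h2 X Y) := (T.h2_conj X Y).symm
  have mYX : T.h2 (sh Y) X = conj (T.h2 (sh X) Y) := by
    rw [T.h2_conj, th_sh sh h3]
  have bX := B.herm.im_self X
  have bY := B.herm.im_self Y
  have tX := T.herm.im_self X
  have tY := T.herm.im_self Y
  have mX : (T.h2 (sh X) X).im = 0 := by
    rw [← Complex.conj_eq_iff_im, T.h2_conj, th_sh sh h3]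
  have mY : (T.h2 (sh Y) Y).im = 0 := by
    rw [← Complex.conj_eq_iff_im, T.h2_conj, th_sh sh h3]
  rw [Jet.num, h.Q_eq sh Z h1 h2 h3 h4 τ ϕ hτ hϕ, h.Q_eq sh Z h1 h2 h3 h4 τ ϕ hτ hϕ, e4, hb]
  simp only [ho, hη, DD, map_sub, map_smul, map_smulₛₗ, LinearMap.sub_apply,
    LinearMap.smul_apply, smul_eq_mul, T.h3_symm Y X, bYX, tYX, mYX, Complex.conj_conj,
    Complex.conj_ofReal, RingHom.id_apply, map_mul]
  generalize (ε * B.h2 (Z X Y) (Z X Y) + τ * T.h2 (Z X Y) (Z X Y)) = z1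
  generalize (ε * B.h2 (Z X X) (Z Y Y) + τ * T.h2 (Z X X) (Z Y Y)) = z2
  generalize 2 * ϕ * σ * (σ - 1) = c
  subst hϕ
  simp only [Complex.add_re, Complex.sub_re, Complex.mul_re, Complex.add_im, Complex.sub_im,
    Complex.mul_im, Complex.conj_re, Complex.conj_im, Complex.ofReal_re, Complex.ofReal_im,
    bX, bY, tX, tY, mX, mY, pow_two, Complex.re_ofNat, Complex.im_ofNat, Complex.one_re,
    Complex.one_im, Complex.ofReal_mul]
  ring

/-- The vertical plane: in `formula` with `X = e`, `Y = I • e` only `4 ϕ² b² / ε²` survives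
(`η` is a multiple of `e`; `Z e ·` has `G (Z e ·) · = θ3 e · · = 0`), `b = -|β e|²`,
`den = (ϕ |β e|²)²`. -/
theorem vertical (h : CalHyp B T e ε Λ σ) :
    (model B T ε σ).num e (I • e) = 4 / ε ^ 2 * (model B T ε σ).den e (I • e) := by
  obtain ⟨sh, Z, h1, h2, h3, h4⟩ := h.exists_sharp
  rw [h.formula sh Z h1 h2 h3 h4 e (I • e) _ _ _ rfl rfl rfl _ rfl _ (fun _ => rfl), h4, h4,
    Jet.den, DD, DD, DD, model_h2, model_h2, model_h2]
  simp only [map_sub, map_smul, map_smulₛₗ, LinearMap.sub_apply,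
    LinearMap.smul_apply, smul_eq_mul, h.ker, h.th_left, h.th_right, h.t3_left, h.t4_left,
    mul_zero, sub_zero, Complex.zero_re, Complex.zero_im, RingHom.id_apply, zero_add, map_mul,
    Complex.conj_I]
  generalize ε ^ 2 * (σ - 1) * σ = c
  simp only [Complex.add_re, Complex.sub_re, Complex.mul_re, Complex.add_im, Complex.sub_im,
    Complex.mul_im, Complex.conj_re, Complex.conj_im, Complex.ofReal_re, Complex.ofReal_im,
    Complex.I_re, Complex.I_im, Complex.neg_re, Complex.neg_im]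
  ring

end CalHyp

end Crest.Agent.R245
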