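import Mathlib

/-!
# R245 CalabiIneqReal: the real-number inequalities of `CalabiIneq.lean`
-/

set_option autoImplicit false

namespace Crest.Agent.R245.CalabiIneqAux

theorem step5 {ε τ γ L : ℝ} (hε : 0 < ε) (hε1 : ε ≤ 1) (hτ : 0 < τ) (hγ0 : 0 < γ)
    (hγ : γ * (2 + τ) = 2) (hc : L ≤ 1 / 2 ∨ ε * L ^ 3 ≤ 1 / 10 ^ 5) :
    ε ^ 2 * (1 + τ) ^ 2 / 1500 ≤ ε / 5 + ε * τ + τ ^ 3 * γ / 96 - τ * ε * L := by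
  have p3 : 0 ≤ τ ^ 3 * γ := by positivity
  have hετ : 0 < ε * τ := mul_pos hε hτ
  have A : ε ^ 2 * (1 + τ) ^ 2 / 1500 ≤ ε / 10 + τ ^ 3 * γ / 192 := by
    rcases le_total τ 1 with h | h
    · have h1 : (1 + τ) ^ 2 ≤ 4 := by nlinarith
      have h2 : ε ^ 2 ≤ ε := by nlinarith
      have h3 : ε ^ 2 * (1 + τ) ^ 2 ≤ ε * 4 := mul_le_mul h2 h1 (by positivity) hε.le
      linarith
    · have h1 : γ ≤ 2 / 3 := by nlinarith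
      have h2 : 2 / 3 ≤ τ * γ := by nlinarith
      have h3 : τ ^ 2 * (2 / 3) ≤ τ ^ 2 * (τ * γ) := by gcongr
      have h4 : (1 + τ) ^ 2 ≤ 4 * τ ^ 2 := by nlinarith
      have h5 : ε ^ 2 ≤ 1 := by nlinarith
      have h6 : ε ^ 2 * (1 + τ) ^ 2 ≤ 1 * (4 * τ ^ 2) :=
        mul_le_mul h5 h4 (by positivity) (by norm_num)
      have h7 : τ ^ 2 * (τ * γ) = τ ^ 3 * γ := by ring
      have h8 : 0 ≤ τ ^ 2 := by positivity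
      linarith
  have B : τ * ε * L ≤ ε / 10 + ε * τ + τ ^ 3 * γ / 192 := by
    by_cases h1 : L ≤ 1 / 2
    · have : ε * τ * L ≤ ε * τ * (1 / 2) := by gcongr
      linarith
    by_cases h2 : τ * L ≤ 1 / 10
    · have : ε * (τ * L) ≤ ε * (1 / 10) := by gcongr
      linarith
    push Not at h1 h2
    have h3 : ε * L ^ 3 ≤ 1 / 10 ^ 5 := hc.resolve_left (not_le.2 h1)
    have hL : 0 < L := by linarith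
    -- `96 ε L (2+τ) ≤ τ²`
    have h4 : τ ≤ 2 * (τ * L) := by nlinarith
    have h5 : 96 * (1 / 10 ^ 5) * (2 + τ) ≤ (τ * L) ^ 2 := by nlinarith
    have h6 : 96 * (ε * L ^ 3) * (2 + τ) ≤ 96 * (1 / 10 ^ 5) * (2 + τ) := by gcongr
    have h7 : L ^ 2 * (96 * ε * L * (2 + τ)) ≤ L ^ 2 * τ ^ 2 := by nlinarith
    have h8 : 96 * ε * L * (2 + τ) ≤ τ ^ 2 := le_of_mul_le_mul_left h7 (by positivity)
    have h9 : τ * γ * (96 * ε * L * (2 + τ)) ≤ τ * γ * τ ^ 2 := by gcongr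
    have h10 : τ * γ * (96 * ε * L * (2 + τ)) = 192 * (τ * ε * L) := by
      linear_combination (96 * τ * ε * L) * hγ
    have h11 : τ * γ * τ ^ 2 = τ ^ 3 * γ := by ring
    linarith
  linarith

/-- Cauchy–Schwarz in `ℝ²` -/
theorem cs2 {m u v p q s D : ℝ} (hm : m = p * u + q * v) (hv : |v| ≤ s * Real.sqrt D)
    (hD : 0 ≤ D) : m ^ 2 ≤ (p ^ 2 / 3 + q ^ 2 * s ^ 2) * (D + 3 * u ^ 2) := by
  have h1 : v ^ 2 ≤ s ^ 2 * D := by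
    have := pow_le_pow_left₀ (abs_nonneg v) hv 2
    rwa [sq_abs, mul_pow, Real.sq_sqrt hD] at this
  have h2 : q ^ 2 * v ^ 2 ≤ q ^ 2 * (s ^ 2 * D) := by gcongr
  rcases eq_or_ne s 0 with rfl | hs
  · have : v = 0 := by
      have : v ^ 2 ≤ 0 := by simpa using h1
      exact pow_eq_zero_iff (two_ne_zero) |>.1 (le_antisymm this (sq_nonneg v))
    subst this hm
    nlinarith [mul_nonneg (sq_nonneg p) hD]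
  · have hs2 : 0 < s ^ 2 := by positivity
    have h3 : p ^ 2 * v ^ 2 ≤ p ^ 2 * (s ^ 2 * D) := by gcongr
    refine le_of_mul_le_mul_left ?_ hs2
    have h4 : s ^ 2 * (q ^ 2 * v ^ 2) ≤ s ^ 2 * (q ^ 2 * (s ^ 2 * D)) := by gcongr
    subst hm
    nlinarith [sq_nonneg (p * v - 3 * q * s ^ 2 * u)]

/-- the quadratic in `b'` -/
theorem quad {a c b M : ℝ} (ha : 0 < a) (hc : 0 ≤ c) (hca : c * a ≤ 1) :
    -(a * M ^ 2) - c * (a ^ 2 * M ^ 2) ≤ 4 * b * M + 4 * b ^ 2 / a - 2 * c * b ^ 2 := by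
  obtain ⟨u, rfl⟩ : ∃ u, b = a * u := ⟨b / a, by field_simp⟩
  have e : 4 * (a * u) ^ 2 / a = 4 * a * u ^ 2 := by field_simp
  rw [e]
  set t := c * a with ht
  have ht0 : 0 ≤ t := by positivity
  have key : 0 ≤ (1 + t) * M ^ 2 + 4 * u * M + (4 - 2 * t) * u ^ 2 := by
    have h1 : 0 < 1 + t := by linarith
    refine le_of_mul_le_mul_left ?_ h1
    nlinarith [sq_nonneg ((1 + t) * M + 2 * u), mul_nonneg (mul_nonneg ht0 (sub_nonneg.2 hca))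
      (sq_nonneg u)]
  have := mul_nonneg ha.le key
  have e2 : a * ((1 + t) * M ^ 2 + 4 * u * M + (4 - 2 * t) * u ^ 2) =
      4 * (a * u) * M + 4 * a * u ^ 2 - 2 * c * (a * u) ^ 2 + a * M ^ 2 + c * (a ^ 2 * M ^ 2) := by
    rw [ht]; ring
  linarith

set_option maxHeartbeats 1000000 in
/-- the final assembly -/
theorem assemble {ε Λ σ τ ϕ γ x y h ΔI Δθ M b t4 Mη cross zz den : ℝ}
    (hε : 0 < ε) (hε1 : ε ≤ 1) (hΛ : 0 ≤ Λ) (hσ : 1 < σ) (hτ : τ = ε ^ 2 * (σ - 1))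
    (hϕ : ϕ = τ * σ) (hγ0 : 0 < γ) (hγ : γ * (2 + τ) = 2)
    (hs : ε * (1 + Λ) ^ 2 ≤ 6 / 5)
    (hc : 2 * Λ + 20 * Λ ^ 2 ≤ 1 / 2 ∨ ε * (2 * Λ + 20 * Λ ^ 2) ^ 3 ≤ 1 / 10 ^ 5)
    (H0 : (x * y) ^ 2 ≤ ΔI)
    (H1 : ε * ΔI - 2 * ε * Λ * (x * y) ^ 2 ≤ t4)
    (H2 : M ^ 2 ≤ ((σ - 1 + σ * (γ / 2)) ^ 2 / 3 + σ ^ 2 * (γ / 2) ^ 2) * Δθ)
    (H4 : Δθ ≤ 2 * (ε * (1 + Λ)) ^ 2 * ΔI) (H5 : ε ^ 2 * ΔI ≤ 16 * Δθ)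
    (H6 : -(2 * ε * Λ * γ * (x * y) * h) ≤ cross)
    (H7 : ε * ((σ - 1) / 2 + σ * (γ / 2)) * h ^ 2 ≤ Mη)
    (H8 : zz ≤ 2 * ε * Λ ^ 2 * γ * (x * y) ^ 2)
    (H9 : den ≤ 2 * (ε * (1 + Λ) * (1 + τ)) ^ 2 * (x * y) ^ 2 +
      ϕ * (ε * (1 + Λ) * (1 + τ) * h ^ 2) + 2 * (ϕ * b) ^ 2) :
    den ≤ 6000 * (1 + Λ) ^ 2 * (ε * ΔI + τ * t4 + ϕ * Δθ + ϕ * (Mη + 4 * b * M) +
      4 * ϕ ^ 2 * b ^ 2 / ε ^ 2 + 2 * ϕ * cross - τ ^ 2 * zz) := by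
  have hs0 : 0 < σ - 1 := by linarith
  have ha : 0 < ε ^ 2 := by positivity
  have ha1 : ε ^ 2 ≤ 1 := by nlinarith only [hε, hε1]
  have hτ0 : 0 < τ := by rw [hτ]; positivity
  have hϕ0 : 0 < ϕ := by rw [hϕ]; positivity
  have hγ1 : γ ≤ 1 := by nlinarith only [hγ, hγ0, hτ0]
  have hτs : τ ≤ σ - 1 := by rw [hτ]; nlinarith only [ha1, hs0]
  obtain ⟨D, hD⟩ : ∃ D, D = (x * y) ^ 2 := ⟨_, rfl⟩
  rw [← hD] at H0 H1 H8 H9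
  have hD0 : 0 ≤ D := hD ▸ sq_nonneg _
  have hΔI : 0 ≤ ΔI := hD0.trans H0
  have hΔθ : 0 ≤ Δθ := by
    have : 0 ≤ ε ^ 2 * ΔI := by positivity
    linarith
  obtain ⟨K, hK⟩ : ∃ K, K = 6000 * (1 + Λ) ^ 2 := ⟨_, rfl⟩
  rw [← hK]
  have hK1 : 6000 ≤ K := by rw [hK]; nlinarith only [hΛ]
  have hK0 : 0 < K := by linarith
  obtain ⟨c, hcdef⟩ : ∃ c, c = 1 / K := ⟨_, rfl⟩
  have hcK : c * K = 1 := by rw [hcdef]; field_simp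
  have hc0 : 0 < c := by rw [hcdef]; positivity
  have hc1 : c ≤ 1 := by rw [hcdef, div_le_one hK0]; linarith
  have hcκ : c * (ε * (1 + Λ)) ^ 2 = ε ^ 2 / 6000 := by
    rw [hcdef, hK]; field_simp
  -- the quadratic in `b'`
  have q1 := quad (a := ε ^ 2) (c := c) (b := ϕ * b) (M := M) ha hc0.le
    (mul_le_one₀ hc1 ha.le ha1)
  -- step 2
  have f1 : ε ^ 2 * ((σ - 1 + σ * (γ / 2)) ^ 2 / 3 + σ ^ 2 * (γ / 2) ^ 2) ≤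
      ϕ + ε ^ 2 / 3 - ϕ * (1 - γ) / 3 := by
    have e : ϕ + ε ^ 2 / 3 - ϕ * (1 - γ) / 3 -
        ε ^ 2 * ((σ - 1 + σ * (γ / 2)) ^ 2 / 3 + σ ^ 2 * (γ / 2) ^ 2) =
        ε ^ 2 * σ ^ 2 * (1 - γ ^ 2) / 3 := by rw [hϕ, hτ]; ring
    have : 0 ≤ ε ^ 2 * σ ^ 2 * (1 - γ ^ 2) / 3 := by
      have : 0 ≤ 1 - γ ^ 2 := by nlinarith only [hγ0, hγ1]
      positivity
    linarith
  have f2 : (ε ^ 2) ^ 2 * ((σ - 1 + σ * (γ / 2)) ^ 2 / 3 + σ ^ 2 * (γ / 2) ^ 2) ≤ (1 + τ) ^ 2 := by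
    have e : (ε ^ 2) ^ 2 * ((σ - 1 + σ * (γ / 2)) ^ 2 / 3 + σ ^ 2 * (γ / 2) ^ 2) =
        (τ ^ 2 + τ * ((τ + ε ^ 2) * γ) + ((τ + ε ^ 2) * γ) ^ 2) / 3 := by rw [hτ]; ring
    have g1 : (τ + ε ^ 2) * γ ≤ 1 + τ :=
      (mul_le_of_le_one_right (by positivity) hγ1).trans (by linarith)
    have g0 : 0 ≤ (τ + ε ^ 2) * γ := by positivity
    rw [e]
    generalize (τ + ε ^ 2) * γ = g at g1 g0
    nlinarith only [g1, g0, hτ0]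
  have m1 : ε ^ 2 * M ^ 2 ≤ (ϕ + ε ^ 2 / 3 - ϕ * (1 - γ) / 3) * Δθ :=
    calc ε ^ 2 * M ^ 2 ≤ ε ^ 2 * (((σ - 1 + σ * (γ / 2)) ^ 2 / 3 + σ ^ 2 * (γ / 2) ^ 2) * Δθ) := by
          gcongr
      _ = (ε ^ 2 * ((σ - 1 + σ * (γ / 2)) ^ 2 / 3 + σ ^ 2 * (γ / 2) ^ 2)) * Δθ := by ring
      _ ≤ _ := by gcongr
  have m2 : c * ((ε ^ 2) ^ 2 * M ^ 2) ≤ ε ^ 2 * (1 + τ) ^ 2 / 3000 * ΔI :=
    calc c * ((ε ^ 2) ^ 2 * M ^ 2)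
        ≤ c * ((ε ^ 2) ^ 2 * (((σ - 1 + σ * (γ / 2)) ^ 2 / 3 + σ ^ 2 * (γ / 2) ^ 2) * Δθ)) := by
          gcongr
      _ = c * (((ε ^ 2) ^ 2 * ((σ - 1 + σ * (γ / 2)) ^ 2 / 3 + σ ^ 2 * (γ / 2) ^ 2)) * Δθ) := by
          ring
      _ ≤ c * ((1 + τ) ^ 2 * (2 * (ε * (1 + Λ)) ^ 2 * ΔI)) := by gcongr
      _ = (c * (ε * (1 + Λ)) ^ 2) * (2 * (1 + τ) ^ 2 * ΔI) := by ring
      _ = _ := by rw [hcκ]; ring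
  have m3 : τ ^ 3 * γ / 96 * ΔI ≤ ϕ * (1 - γ) / 3 * Δθ := by
    have e1 : 1 - γ = τ * γ / 2 := by linarith
    have e2 : τ ^ 3 * γ / 96 * ΔI = τ ^ 2 * γ * (σ - 1) / 96 * (ε ^ 2 * ΔI) := by
      have : τ ^ 3 = τ ^ 2 * (ε ^ 2 * (σ - 1)) := by rw [← hτ]; ring
      rw [this]; ring
    rw [e1, e2, hϕ]
    calc τ ^ 2 * γ * (σ - 1) / 96 * (ε ^ 2 * ΔI) ≤ τ ^ 2 * γ * σ / 96 * (16 * Δθ) := by
          gcongr; linarith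
      _ = _ := by ring
  have m4 : ε ^ 2 / 3 * Δθ ≤ 4 / 5 * ε * ΔI :=
    calc ε ^ 2 / 3 * Δθ ≤ ε ^ 2 / 3 * (2 * (ε * (1 + Λ)) ^ 2 * ΔI) := by gcongr
      _ = 2 / 3 * ε ^ 2 * (ε * (1 + Λ) ^ 2) * (ε * ΔI) := by ring
      _ ≤ 2 / 3 * 1 * (6 / 5) * (ε * ΔI) := by gcongr
      _ = _ := by ring
  -- step 3
  have r1 : τ * (ε * ΔI - 2 * ε * Λ * D) ≤ τ * t4 := by gcongr
  have r2 : τ ^ 2 * zz ≤ 4 * τ * ε * Λ ^ 2 * D := by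
    have e1 : τ * γ ≤ 2 := by nlinarith only [hγ, hγ0]
    calc τ ^ 2 * zz ≤ τ ^ 2 * (2 * ε * Λ ^ 2 * γ * D) := by gcongr
      _ = (τ * γ) * (2 * τ * ε * Λ ^ 2 * D) := by ring
      _ ≤ 2 * (2 * τ * ε * Λ ^ 2 * D) := by gcongr
      _ = _ := by ring
  have r3 : -(ϕ * ε * σ * (γ / 4) * h ^ 2) - 16 * τ * ε * Λ ^ 2 * D ≤ 2 * ϕ * cross := by
    have e1 : 2 * ϕ * (-(2 * ε * Λ * γ * (x * y) * h)) ≤ 2 * ϕ * cross := by gcongr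
    have e2 : 0 ≤ τ * ε * γ * (σ * h / 2 - 4 * Λ * (x * y)) ^ 2 := by positivity
    have e3 : 16 * τ * ε * Λ ^ 2 * D * γ ≤ 16 * τ * ε * Λ ^ 2 * D * 1 := by gcongr
    have e4 : τ * ε * γ * (σ * h / 2 - 4 * Λ * (x * y)) ^ 2 = ϕ * ε * σ * (γ / 4) * h ^ 2 +
        2 * ϕ * (-(2 * ε * Λ * γ * (x * y) * h)) + 16 * τ * ε * Λ ^ 2 * D * γ := by
      rw [hϕ, hD]; ring
    linarith
  have r4 : c * (ϕ * (ε * (1 + Λ) * (1 + τ) * h ^ 2)) + ϕ * ε * σ * (γ / 4) * h ^ 2 ≤ ϕ * Mη := by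
    have e1 : ϕ * (ε * ((σ - 1) / 2 + σ * (γ / 2)) * h ^ 2) ≤ ϕ * Mη := by gcongr
    have e2 : c * (1 + Λ) ≤ 1 / 12 := by
      rw [hcdef, hK, div_mul_eq_mul_div, div_le_div_iff₀ (by positivity) (by norm_num)]
      nlinarith only [hΛ]
    have e3 : 1 ≤ σ * γ := by nlinarith only [hγ, hγ0, hτs, hγ1, hτ0]
    have e4 : c * (1 + Λ) * (1 + τ) ≤ (σ - 1) / 2 + σ * (γ / 4) := by
      have : c * (1 + Λ) * (1 + τ) ≤ 1 / 12 * (1 + τ) := by gcongr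
      linarith
    have e5 : ϕ * ε * h ^ 2 * (c * (1 + Λ) * (1 + τ)) ≤
        ϕ * ε * h ^ 2 * ((σ - 1) / 2 + σ * (γ / 4)) := by gcongr
    linarith
  have r5 : c * (2 * (ε * (1 + Λ) * (1 + τ)) ^ 2 * D) ≤ ε ^ 2 * (1 + τ) ^ 2 / 3000 * ΔI :=
    calc c * (2 * (ε * (1 + Λ) * (1 + τ)) ^ 2 * D)
        = (c * (ε * (1 + Λ)) ^ 2) * (2 * (1 + τ) ^ 2 * D) := by ring
      _ = ε ^ 2 * (1 + τ) ^ 2 / 3000 * D := by rw [hcκ]; ring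
      _ ≤ _ := by gcongr
  have s5 := step5 hε hε1 hτ0 hγ0 hγ hc
  have s6 : ε ^ 2 * (1 + τ) ^ 2 / 1500 * ΔI ≤
      (ε / 5 + ε * τ + τ ^ 3 * γ / 96 - τ * ε * (2 * Λ + 20 * Λ ^ 2)) * ΔI := by gcongr
  have s7 : τ * ε * (2 * Λ + 20 * Λ ^ 2) * D ≤ τ * ε * (2 * Λ + 20 * Λ ^ 2) * ΔI := by gcongr
  have hden : c * den ≤ c * (2 * (ε * (1 + Λ) * (1 + τ)) ^ 2 * D +
      ϕ * (ε * (1 + Λ) * (1 + τ) * h ^ 2) + 2 * (ϕ * b) ^ 2) := by gcongr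
  have e4 : 4 * ϕ ^ 2 * b ^ 2 / ε ^ 2 = 4 * (ϕ * b) ^ 2 / ε ^ 2 := by ring
  have fin : c * den ≤ ε * ΔI + τ * t4 + ϕ * Δθ + ϕ * (Mη + 4 * b * M) +
      4 * ϕ ^ 2 * b ^ 2 / ε ^ 2 + 2 * ϕ * cross - τ ^ 2 * zz := by
    rw [e4]
    linarith
  calc den = K * (c * den) := by rw [← mul_assoc, mul_comm K, hcK, one_mul]
    _ ≤ _ := by gcongr

end Crest.Agent.R245.CalabiIneqAux
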