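import Crest.Agent.R245.Calabi
import Crest.Agent.R245.CalabiIneqReal

/-!
# R245 CalabiIneq: the model has negative sectional curvature (TASK)
-/

set_option autoImplicit false
open scoped ComplexConjugate ContDiff Topology
open Complex (I)
open Filter

namespace Crest.Agent.R245

namespace CalabiIneqAux

/-- real linear combination of two forms -/
noncomputable def comb (a : ℝ) (k : Form) (b : ℝ) (k' : Form) : Form :=
  (a : ℂ) • k + (b : ℂ) • k'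

theorem comb_apply (a b : ℝ) (k k' : Form) (A D : E) :
    comb a k b k' A D = a * k A D + b * k' A D := rfl

theorem comb_re (a b : ℝ) (k k' : Form) (A D : E) :
    (comb a k b k' A D).re = a * (k A D).re + b * (k' A D).re := by
  simp [comb_apply]

theorem comb_im (a b : ℝ) (k k' : Form) (A D : E) :
    (comb a k b k' A D).im = a * (k A D).im + b * (k' A D).im := by
  simp [comb_apply]

theorem comb_herm {k k' : Form} (hk : Herm k) (hk' : Herm k') (a b : ℝ) :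
    Herm (comb a k b k') := fun A D => by
  rw [comb_apply, comb_apply, map_add, map_mul, map_mul, Complex.conj_ofReal, Complex.conj_ofReal,
    hk, hk']

variable {B T : Jet} {e : E} {ε Λ σ τ γ : ℝ}

theorem nu_sq (h : CalHyp B T e ε Λ σ) (A : E) : B.nu A ^ 2 = (B.h2 A A).re := nuF_sq h.psd A

theorem nu_nonneg (B : Jet) (A : E) : 0 ≤ B.nu A := nuF_nonneg _ _

theorem G_psd (h : CalHyp B T e ε Λ σ) (hτ : 0 ≤ τ) : PSD (comb ε B.h2 τ T.h2) := fun A => by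
  rw [comb_re]
  exact add_nonneg (mul_nonneg h.eps_pos.le (h.psd A)) (mul_nonneg hτ (h.psdT A))

theorem G_up (h : CalHyp B T e ε Λ σ) (hτ : 0 ≤ τ) (A : E) :
    (comb ε B.h2 τ T.h2 A A).re ≤ ε * (1 + Λ) * (1 + τ) * (B.h2 A A).re := by
  rw [comb_re]
  have h1 := mul_le_mul_of_nonneg_left (h.up A) hτ
  have h2 := mul_nonneg (mul_nonneg h.eps_pos.le h.lam) (h.psd A)
  linarith

theorem nu_le (h : CalHyp B T e ε Λ σ) (hτ : 0 ≤ τ) (hγ0 : 0 < γ) (hγ : γ * (2 + τ) = 2)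
    {v : E} {K : ℝ} (hK : 0 ≤ K)
    (hv : (ε * B.h2 v v + τ * T.h2 v v : ℂ).re ≤ ε * K * B.nu v) : B.nu v ≤ γ * K := by
  rw [← comb_apply, comb_re] at hv
  have h1 := mul_le_mul_of_nonneg_left (h.low v) hτ
  rw [← nu_sq h] at hv h1
  rcases (nu_nonneg B v).eq_or_lt with h0 | h0
  · rw [← h0]; positivity
  · have h2 : (ε * B.nu v) * ((2 + τ) * B.nu v) ≤ (ε * B.nu v) * (2 * K) := by linarith
    have h3 := le_of_mul_le_mul_left h2 (mul_pos h.eps_pos h0)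
    have h4 := mul_le_mul_of_nonneg_left h3 hγ0.le
    rw [← mul_assoc, hγ] at h4
    linarith

section
variable (h : CalHyp B T e ε Λ σ) (hτ : 0 ≤ τ) (hγ0 : 0 < γ) (hγ : γ * (2 + τ) = 2)
  (sh : E →ₗ[ℂ] E) (h3 : ∀ D A, ε * B.h2 (sh D) A + τ * T.h2 (sh D) A = T.h2 D A)

include h3 in
theorem G_o (D A : E) :
    ε * B.h2 (D - (τ : ℂ) • sh D) A + τ * T.h2 (D - (τ : ℂ) • sh D) A = ε * B.h2 D A := by
  have := h3 D A
  simp only [map_sub, map_smul, LinearMap.sub_apply, LinearMap.smul_apply, smul_eq_mul]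
  linear_combination (-(τ : ℂ)) * this

include h3 in
theorem th_o (D A : E) : T.h2 (D - (τ : ℂ) • sh D) A = ε * B.h2 (sh D) A := by
  have := h3 D A
  simp only [map_sub, map_smul, LinearMap.sub_apply, LinearMap.smul_apply, smul_eq_mul]
  linear_combination -this

include h hτ hγ0 hγ h3

theorem nu_o (D : E) : B.nu (D - (τ : ℂ) • sh D) ≤ γ * B.nu D := by
  refine nu_le h hτ hγ0 hγ (nu_nonneg B D) ?_
  rw [G_o sh h3, Complex.re_ofReal_mul, mul_assoc]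
  exact mul_le_mul_of_nonneg_left
    ((Complex.re_le_norm _).trans (norm_form_le B.herm h.psd _ _)) h.eps_pos.le

theorem n_low (D : E) : ε * (γ / 2) * B.nu D ^ 2 ≤ (T.h2 (D - (τ : ℂ) • sh D) D).re := by
  obtain ⟨u, hu⟩ : ∃ u, u = D - (τ : ℂ) • sh D := ⟨_, rfl⟩
  have hD : D = u + (τ : ℂ) • sh D := by rw [hu, sub_add_cancel]
  have e1 : T.h2 u (sh D) = ε * B.h2 (sh D) (sh D) := by rw [hu, th_o sh h3]
  have e2 : T.h2 u D = T.h2 u u + τ * (ε * B.h2 (sh D) (sh D)) := by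
    rw [← e1]
    conv_lhs => rw [hD]
    simp only [map_add, map_smulₛₗ, smul_eq_mul, Complex.conj_ofReal]
  have e3 : B.nu D ≤ B.nu u + τ * B.nu (sh D) := by
    have := nuF_add_le B.herm h.psd u ((τ : ℂ) • sh D)
    rwa [← hD, nuF_smul, Complex.norm_real, Real.norm_of_nonneg hτ] at this
  rw [← hu, e2, Complex.add_re, Complex.re_ofReal_mul, Complex.re_ofReal_mul, ← nu_sq h]
  have e4 := h.low u
  rw [← nu_sq h] at e4
  have e5 : B.nu D ^ 2 ≤ (B.nu u + τ * B.nu (sh D)) ^ 2 :=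
    pow_le_pow_left₀ (nu_nonneg B D) e3 2
  have e6 : (B.nu u + τ * B.nu (sh D)) ^ 2 ≤ (2 + τ) * (B.nu u ^ 2 / 2 + τ * B.nu (sh D) ^ 2) := by
    nlinarith only [mul_nonneg hτ (sq_nonneg (B.nu u - 2 * B.nu (sh D)))]
  have e7 : ε * (γ / 2) * B.nu D ^ 2 ≤
      ε * (γ / 2) * ((2 + τ) * (B.nu u ^ 2 / 2 + τ * B.nu (sh D) ^ 2)) :=
    mul_le_mul_of_nonneg_left (e5.trans e6) (mul_nonneg h.eps_pos.le (by linarith))
  have e8 : ε * (γ / 2) * ((2 + τ) * (B.nu u ^ 2 / 2 + τ * B.nu (sh D) ^ 2)) =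
      ε * (B.nu u ^ 2 / 2 + τ * B.nu (sh D) ^ 2) := by
    linear_combination (ε / 2 * (B.nu u ^ 2 / 2 + τ * B.nu (sh D) ^ 2)) * hγ
  linarith

theorem n_up (D : E) : (T.h2 (D - (τ : ℂ) • sh D) D).re ≤ γ * (T.h2 D D).re := by
  have hG := comb_herm B.herm T.herm ε τ
  have e0 := G_psd h hτ (sh D - ((γ / 2 : ℝ) : ℂ) • D)
  have e1 : comb ε B.h2 τ T.h2 (sh D) D = T.h2 D D := h3 D D
  have e2 : comb ε B.h2 τ T.h2 D (sh D) = T.h2 D D := by rw [← hG, e1, T.h2_conj]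
  have e3 : (comb ε B.h2 τ T.h2 (sh D) (sh D)).re = (T.h2 (sh D) D).re := by
    rw [comb_apply, h3, ← T.h2_conj, Complex.conj_re]
  have e4 : (comb ε B.h2 τ T.h2 D D).re ≤ (2 + τ) * (T.h2 D D).re := by
    rw [comb_re]
    have := h.low D
    linarith
  simp only [map_sub, map_smul, map_smulₛₗ, LinearMap.sub_apply, LinearMap.smul_apply,
    smul_eq_mul, Complex.conj_ofReal, Complex.sub_re, Complex.re_ofReal_mul, e1, e2, e3] at e0 ⊢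
  have e5 := mul_le_mul_of_nonneg_left e4 (show 0 ≤ γ / 2 * (γ / 2) by positivity)
  have e6 : γ / 2 * (γ / 2) * ((2 + τ) * (T.h2 D D).re) = γ / 2 * (T.h2 D D).re := by
    linear_combination (γ / 4 * (T.h2 D D).re) * hγ
  have e7 : γ / 2 * (T.h2 D D).re ≤ (T.h2 (sh D) D).re := by linarith
  have e8 := mul_le_mul_of_nonneg_left e7 hτ
  have e9 : τ * (γ / 2 * (T.h2 D D).re) = (1 - γ) * (T.h2 D D).re := by
    linear_combination ((T.h2 D D).re / 2) * hγ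
  linarith

end

theorem nu_Z (h : CalHyp B T e ε Λ σ) (hτ : 0 ≤ τ) (hγ0 : 0 < γ) (hγ : γ * (2 + τ) = 2)
    {A C z : E} (h4 : ∀ D, ε * B.h2 z D + τ * T.h2 z D = T.h3 A C D) :
    B.nu z ≤ γ * (Λ * (B.nu A * B.nu C)) := by
  refine nu_le h hτ hγ0 hγ (mul_nonneg h.lam (mul_nonneg (nu_nonneg B A) (nu_nonneg B C))) ?_
  rw [h4]
  refine ((Complex.re_le_norm _).trans (h.t3 A C z)).trans (le_of_eq ?_)
  ring

/-- the denominator of the model -/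
theorem den_eq (B T : Jet) (ε σ τ ϕ b : ℝ) (hτ : τ = ε ^ 2 * (σ - 1)) (hϕ : ϕ = τ * σ) (X Y η : E)
    (hb : b = (T.h1 X * conj (T.h1 Y)).im) (hη : η = conj (T.h1 X) • Y - conj (T.h1 Y) • X) :
    (model B T ε σ).den X Y = DD (comb ε B.h2 τ T.h2) X Y + ϕ * (comb ε B.h2 τ T.h2 η η).re -
      2 * (comb ε B.h2 τ T.h2 X Y).im * (ϕ * b) + (ϕ * b) ^ 2 := by
  have hG := comb_herm B.herm T.herm ε τ
  have e : ∀ A D, (model B T ε σ).h2 A D =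
      comb ε B.h2 τ T.h2 A D + ϕ * (T.h1 A * conj (T.h1 D)) := fun A D => by
    rw [CalHyp.model_h2, comb_apply, hϕ, hτ]
  have gYX := (hG X Y).symm
  have gX := hG.im_self X
  have gY := hG.im_self Y
  rw [Jet.den, DD, DD, e, e, e, hb, hη]
  simp only [map_sub, map_smul, map_smulₛₗ, LinearMap.sub_apply, LinearMap.smul_apply,
    smul_eq_mul, Complex.conj_conj, gYX]
  simp only [Complex.add_re, Complex.sub_re, Complex.mul_re, Complex.sub_im,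
    Complex.mul_im, Complex.conj_re, Complex.conj_im, Complex.ofReal_re, Complex.ofReal_im, gX, gY]
  ring

end CalabiIneqAux

open CalabiIneqAux in
/-- Notation of `Calabi.lean`; `|A| = B.nu A`, `κ = ε (1+Λ)`, `D_k = DD k X Y`, `k_I = im k X Y`,
`Δ_k = D_k + 3 k_I²`, `Λ₁ = 2Λ + 20Λ²`, `c = 1 / (6000 (1+Λ)²)`, `b' = ϕ b`, `γ = 2 / (2+τ)`.
Shear (`num_shear`, `den_shear`, `exists_shear`) so that `re I X Y = 0`, `D_I = |X|² |Y|²`.
Use `CalHyp.exists_sharp` and `CalHyp.formula`. Let `n A B = θ (o A) B`.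
1. `G (o D) · = ε I D ·` and `θ (o D) · = ε I (sh D) ·`. From `G ≥ ε (1+τ/2) I`:
   `|o D| ≤ γ |D|`. `n` is Hermitian, `n D D = θ (oD) (oD) + τ ε I (sh D) (sh D)`
   (write `D = o D + τ sh D`), so `n D D ≥ ε (|oD|²/2 + τ |sh D|²) ≥ ε |D|² / (2+τ)` because
   `|D|² ≤ (|oD| + τ |sh D|)² ≤ (2+τ) (|oD|²/2 + τ |sh D|²)`. Upper bound: `θ D D = G (sh D) D`,
   Cauchy–Schwarz for `G` and `G ≤ (2+τ) θ` give `G (shD) (shD) ≥ θ D D / (2+τ)`, so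
   `0 ≤ n D D = θ D D - τ G (shD) (shD) ≤ γ θ D D`.
2. `M_I = (σ-1) θ_I + σ n_I`, `|n_I - γ θ_I / 2| ≤ (γ/2) √D_θ` (`abs_im_le_of_abs_le` for
   `n - (γ/2) θ`), Cauchy–Schwarz in `ℝ²`: `a M_I² ≤ f(γ) Δ_θ`,
   `f(γ) = a ((σ-1+σγ/2)²/3 + σ²γ²/4) ≤ ϕ + a/3 - ϕ (1-γ)/3`, and `ϕ ≥ τ²/a`,
   `Δ_θ ≥ D_θ ≥ ε² D_I / 4 ≥ ε² Δ_I / 16` (`DD_mono`, `im_sq_le_DD`), so the slack is
   `≥ τ³ / (48 (2+τ)) Δ_I`. Also `Δ_θ ≤ 2 κ² Δ_I` (`D_θ ≤ κ² D_I`;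
   `|θ_I - κ I_I/2| ≤ (κ/2) √D_I` so `θ_I² ≤ κ² Δ_I / 3`), so `a Δ_θ / 3 ≤ 0.8 ε Δ_I`.
3. Errors: `τ re (θ4 XYXY - θ4 XXYY) ≥ τ ε Δ_I - 2 τ ε Λ D_I` (`t4`, `b4`).
   `G Z Z = θ3 A C Z ≤ εΛ |A||C||Z|` and `G Z Z ≥ ε (1+τ/2) |Z|²` give
   `G (Z A C) (Z A C) ≤ ε Λ² |A|²|C|² / (1+τ/2)`; the last term of the formula is
   `≥ -4 τ ε Λ² D_I` (Cauchy–Schwarz for `G`). The `θ3` cross term is
   `≥ -4 ϕ ε Λ γ |X||Y||η| ≥ -ϕ ε σ |η|² / (2 (2+τ)) - 16 τ ε Λ² D_I`, the first part is at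
   most half of `ϕ M η η` (`M η η ≥ ε ((σ-1)/2 + σ/(2+τ)) |η|²`); the other half is
   `≥ ϕ ε (1+τ) |η|² / 12 ≥ ϕ G η η / (12 (1+Λ))` (`σ - 1 ≥ τ`, `G ≤ κ (1+τ) I`).
4. `den = D_G + ϕ G η η - 2 G_I b' + b'² ≤ 2 D_G + ϕ G η η + 2 b'²`, `D_G ≤ κ² (1+τ)² D_I`.
   `4 b' M_I + 4 b'²/a - 2 c b'² ≥ -a M_I² (1 + c a)`, `a² M_I² ≤ (1+τ)² Δ_θ ≤ 2 κ² (1+τ)² Δ_I`.
5. It remains to see `0.2 ε + ε τ + τ³/(48(2+τ)) - τ ε Λ₁ ≥ 4 c κ² (1+τ)²`. The left side is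
   `≥ 0.1 ε + τ³/(96(2+τ))`: clear if `Λ₁ ≤ 1/2` or `τ Λ₁ ≤ 0.1`; otherwise `τ ≥ 0.1/Λ₁`,
   `Λ₁ > 1/2`, `ε Λ₁³ ≤ 10⁻⁵` give `96 ε Λ₁ (2+τ) ≤ τ²`. And
   `0.1 ε + τ³/(96(2+τ)) ≥ ε² (1+τ)² / 1152` (cases `τ ≤ 1`, `τ ≥ 1`), `4 · 1152 ≤ 6000`.
It pays to isolate the real-number inequalities as separate lemmas. -/
theorem CalHyp.lower {B T : Jet} {e : E} {ε Λ σ : ℝ} (h : CalHyp B T e ε Λ σ)
    (hs : ε * (1 + Λ) ^ 2 ≤ 6 / 5)
    (hc : 2 * Λ + 20 * Λ ^ 2 ≤ 1 / 2 ∨ ε * (2 * Λ + 20 * Λ ^ 2) ^ 3 ≤ 1 / 10 ^ 5) (X Y : E) :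
    (model B T ε σ).den X Y ≤ 6000 * (1 + Λ) ^ 2 * (model B T ε σ).num X Y := by
  obtain ⟨t, ht⟩ := exists_shear B.herm h.psd X Y
  rw [← Jet.den_shear _ X Y t, ← Jet.num_shear h.pos X Y t]
  generalize Y + (t : ℂ) • X = Y at ht
  obtain ⟨sh, Z, h1, h2, h3, h4⟩ := h.exists_sharp
  have hε := h.eps_pos
  have hΛ := h.lam
  obtain ⟨τ, hτ⟩ : ∃ τ, τ = ε ^ 2 * (σ - 1) := ⟨_, rfl⟩
  obtain ⟨ϕ, hϕ⟩ : ∃ ϕ, ϕ = τ * σ := ⟨_, rfl⟩
  obtain ⟨b, hb⟩ : ∃ b, b = (T.h1 X * conj (T.h1 Y)).im := ⟨_, rfl⟩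
  obtain ⟨η, hη⟩ : ∃ η, η = conj (T.h1 X) • Y - conj (T.h1 Y) • X := ⟨_, rfl⟩
  have hτ0 : 0 ≤ τ := hτ ▸ h.tau_pos.le
  have hϕ0 : 0 ≤ ϕ := hϕ ▸ mul_nonneg hτ0 (by linarith [h.sig])
  obtain ⟨γ, hγ0, hγ⟩ : ∃ γ : ℝ, 0 < γ ∧ γ * (2 + τ) = 2 :=
    ⟨2 / (2 + τ), by positivity, by field_simp⟩
  have hm : Herm (T.h2 ∘ₗ sh) := fun A D => by
    rw [LinearMap.comp_apply, LinearMap.comp_apply, T.h2_conj, CalHyp.th_sh sh h3]
  rw [h.formula sh Z h1 h2 h3 h4 X Y τ ϕ b hτ hϕ hb η hη _ (fun _ => rfl)]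
  rw [← hτ] at h3 h4
  have hx := nu_nonneg B X
  have hy := nu_nonneg B Y
  have hh := nu_nonneg B η
  have hD : DD B.h2 X Y = (B.nu X * B.nu Y) ^ 2 := by
    rw [DD, ht, mul_pow, nu_sq h, nu_sq h]; ring
  have hI := im_sq_le_DD B.herm h.psd X Y
  have hθ := DD_nonneg T.herm h.psdT X Y
  refine assemble (γ := γ) (x := B.nu X) (y := B.nu Y) (h := B.nu η) hε h.eps_le hΛ h.sig hτ hϕ
    hγ0 hγ hs hc ?_ ?_ ?_ ?_ ?_ ?_ ?_ ?_ ?_
  · rw [← hD]; nlinarith only [sq_nonneg (B.h2 X Y).im]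
  · have e1 := (abs_le.1 ((Complex.abs_re_le_norm _).trans (h.t4 X Y X Y))).1
    have e2 := (abs_le.1 ((Complex.abs_re_le_norm _).trans (h.t4 X X Y Y))).2
    have e3 : (B.h4 X Y X Y).re - (B.h4 X X Y Y).re = DD B.h2 X Y + 3 * (B.h2 X Y).im ^ 2 := by
      rw [h.b4, h.b4, ← B.h2_conj X Y, DD]
      simp only [Complex.add_re, Complex.mul_re, Complex.conj_re, Complex.conj_im,
        B.herm.im_self X, B.herm.im_self Y]
      ring
    rw [Complex.sub_re, Complex.re_ofReal_mul] at e1 e2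
    rw [Complex.sub_re, ← e3]
    linarith
  · have hk := comb_herm T.herm hm (1 - γ / 2) (-τ)
    have e0 : ∀ A D, comb (1 - γ / 2) T.h2 (-τ) (T.h2 ∘ₗ sh) A D =
        T.h2 (A - (τ : ℂ) • sh A) D - (γ / 2 : ℝ) * T.h2 A D := fun A D => by
      simp only [comb_apply, LinearMap.comp_apply, map_sub, map_smul, LinearMap.sub_apply,
        LinearMap.smul_apply, smul_eq_mul]
      push_cast
      ring
    have e1 := abs_im_le_of_abs_le hk T.herm h.psdT (c := γ / 2) (by positivity) (fun A => by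
      have a1 := n_low h hτ0 hγ0 hγ sh h3 A
      have a2 := n_up h hτ0 hγ0 hγ sh h3 A
      have a3 : 0 ≤ ε * (γ / 2) * B.nu A ^ 2 := by positivity
      rw [e0, Complex.sub_re, Complex.re_ofReal_mul, abs_le]
      constructor <;> linarith) X Y
    rw [e0, Complex.sub_im, Complex.im_ofReal_mul] at e1
    exact cs2 (by ring) e1 hθ
  · have hk := comb_herm T.herm B.herm 1 (-(ε * (1 + Λ) / 2))
    have e1 := abs_im_le_of_abs_le hk B.herm h.psd (c := ε * (1 + Λ) / 2) (by positivity)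
      (fun A => by
        have a1 := h.up A
        have a2 := h.psdT A
        rw [comb_re, abs_le]
        constructor <;> linarith) X Y
    rw [comb_im] at e1
    have e2 := cs2 (m := (T.h2 X Y).im) (u := (B.h2 X Y).im) (p := ε * (1 + Λ) / 2) (q := 1)
      (by ring) e1 (DD_nonneg B.herm h.psd X Y)
    have e3 := DD_mono T.herm h.psdT B.herm h.psd (c := ε * (1 + Λ)) (by positivity) h.up X Y
    have e4 : 0 ≤ (ε * (1 + Λ)) ^ 2 * (B.h2 X Y).im ^ 2 := by positivity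
    linarith
  · have e1 := DD_mono B.herm h.psd T.herm h.psdT (c := 2 / ε) (by positivity) (fun A => by
      have a1 := h.low A
      rw [div_mul_eq_mul_div, le_div_iff₀ hε]
      linarith) X Y
    have e2 := mul_le_mul_of_nonneg_left e1 (sq_nonneg ε)
    have e3 : ε ^ 2 * ((2 / ε) ^ 2 * DD T.h2 X Y) = 4 * DD T.h2 X Y := by field_simp; ring
    have e4 := mul_le_mul_of_nonneg_left hI (sq_nonneg ε)
    nlinarith only [e2, e3, e4, sq_nonneg (T.h2 X Y).im]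
  · have e1 := (abs_le.1 ((Complex.abs_re_le_norm _).trans (h.t3 X η (Y - (τ : ℂ) • sh Y)))).1
    have e2 := (abs_le.1 ((Complex.abs_re_le_norm _).trans (h.t3 Y η (X - (τ : ℂ) • sh X)))).2
    have e3 := mul_le_mul_of_nonneg_left (nu_o h hτ0 hγ0 hγ sh h3 Y)
      (show 0 ≤ ε * Λ * (B.nu X * B.nu η) by positivity)
    have e4 := mul_le_mul_of_nonneg_left (nu_o h hτ0 hγ0 hγ sh h3 X)
      (show 0 ≤ ε * Λ * (B.nu Y * B.nu η) by positivity)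
    rw [Complex.sub_re]
    linarith
  · have e1 := mul_le_mul_of_nonneg_left (n_low h hτ0 hγ0 hγ sh h3 η)
      (show 0 ≤ σ by linarith [h.sig])
    have e2 := mul_le_mul_of_nonneg_left (h.low η) (show 0 ≤ σ - 1 by linarith [h.sig])
    rw [← nu_sq h] at e2
    linarith
  · have e1 := (abs_le.1 ((Complex.abs_re_le_norm _).trans (h.t3 X Y (Z X Y)))).2
    have e2 := (abs_le.1 ((Complex.abs_re_le_norm _).trans (h.t3 X X (Z Y Y)))).1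
    have e3 := mul_le_mul_of_nonneg_left (nu_Z h hτ0 hγ0 hγ (h4 X Y))
      (show 0 ≤ ε * Λ * (B.nu X * B.nu Y) by positivity)
    have e4 := mul_le_mul_of_nonneg_left (nu_Z h hτ0 hγ0 hγ (h4 Y Y))
      (show 0 ≤ ε * Λ * (B.nu X * B.nu X) by positivity)
    rw [h4, h4, Complex.sub_re]
    linarith
  · have hG := comb_herm B.herm T.herm ε τ
    have e1 := im_sq_le_DD hG (G_psd h hτ0) X Y
    have e2 := DD_mono hG (G_psd h hτ0) B.herm h.psd (c := ε * (1 + Λ) * (1 + τ)) (by positivity)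
      (G_up h hτ0) X Y
    have e3 := mul_le_mul_of_nonneg_left (G_up h hτ0 η) hϕ0
    rw [den_eq B T ε σ τ ϕ b hτ hϕ X Y η hb hη, ← hD, nu_sq h]
    nlinarith only [e1, e2, e3, sq_nonneg ((comb ε B.h2 τ T.h2 X Y).im + ϕ * b)]

end Crest.Agent.R245
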