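import Crest.Agent.R245.Germ

/-!
# R245 Chain: the chain rule for jets, the jets of `-log ρ` and of `log |w|²` (TASK)

Suggestion for `jetAt_comp`: compute `Db D (F∘T)`, `Db B (Db D (F∘T))`, … as `=ᶠ[𝓝 p]` identities
with `Db_comp`, `Db_mul`, `Db_add`, `Dh_congr` (or pass to the ring `Filter.Germ (𝓝 p) ℂ`, where
`Dh A`, `Db A` act as commuting derivations on the subring of smooth germs, and let `simp`/`ring`
expand). `Db B (cx T) = conj (Dh B (cx T))`, `Db B (Db D (cx T)) = conj (Dh B (Dh D (cx T)))`,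
`Dh A (Db B (Db D (cx T))) = conj (Dh B (Dh D (Db A (cx T))))` near `p`.
-/

set_option autoImplicit false
open scoped ComplexConjugate ContDiff Topology
open Complex (I)
open Filter

namespace Crest.Agent.R245

namespace ChainAux

/-- the ring of smooth germs -/
def SG (p : E) : Subring (Germ (𝓝 p) ℂ) where
  carrier := {g | ∃ F : E → ℂ, Sm F p ∧ (F : Germ (𝓝 p) ℂ) = g}
  mul_mem' := by
    rintro _ _ ⟨F, hF, rfl⟩ ⟨G, hG, rfl⟩
    exact ⟨F * G, hF.mul hG, rfl⟩
  one_mem' := ⟨1, contDiffAt_const, rfl⟩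
  add_mem' := by
    rintro _ _ ⟨F, hF, rfl⟩ ⟨G, hG, rfl⟩
    exact ⟨F + G, hF.add hG, rfl⟩
  zero_mem' := ⟨0, contDiffAt_const, rfl⟩
  neg_mem' := by
    rintro _ ⟨F, hF, rfl⟩
    exact ⟨-F, hF.neg, rfl⟩

variable {p : E}

/-- the germ of a smooth function -/
noncomputable def gm (F : E → ℂ) (hF : Sm F p) : SG p := ⟨F, F, hF, rfl⟩

/-- the value of a germ -/
noncomputable def val : SG p →+* ℂ := Germ.valueRingHom.comp (SG p).subtype

theorem val_mk (F : E → ℂ) (hF : Sm F p) : val (gm F hF) = F p := rfl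

/-- first order operators -/
structure Op (p : E) where
  D : (E → ℂ) → E → ℂ
  sm : ∀ {F : E → ℂ}, Sm F p → Sm (D F) p
  congr : ∀ {F G : E → ℂ}, F =ᶠ[𝓝 p] G → D F =ᶠ[𝓝 p] D G
  add : ∀ {F G : E → ℂ}, Sm F p → Sm G p →
    D (fun z => F z + G z) =ᶠ[𝓝 p] fun z => D F z + D G z
  mul : ∀ {F G : E → ℂ}, Sm F p → Sm G p →
    D (fun z => F z * G z) =ᶠ[𝓝 p] fun z => D F z * G z + F z * D G z
  comp : ∀ {t : E → ℝ} {f : ℝ → ℝ}, ContDiffAt ℝ ∞ t p → ContDiffAt ℝ ∞ f (t p) →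
    D (cx fun z => f (t z)) =ᶠ[𝓝 p] fun z => cx (fun z => deriv f (t z)) z * D (cx t) z

/-- the action on smooth germs -/
noncomputable def Op.act (o : Op p) (g : SG p) : SG p :=
  ⟨Germ.map' o.D (fun _ _ h => o.congr h) g.1, by
    obtain ⟨_, F, hF, rfl⟩ := g
    exact ⟨o.D F, o.sm hF, rfl⟩⟩

theorem Op.act_mk (o : Op p) (F : E → ℂ) (hF : Sm F p) :
    o.act (gm F hF) = gm (o.D F) (o.sm hF) := rfl

theorem Op.act_add (o : Op p) (g h : SG p) : o.act (g + h) = o.act g + o.act h := by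
  obtain ⟨_, F, hF, rfl⟩ := g
  obtain ⟨_, G, hG, rfl⟩ := h
  exact Subtype.ext (Germ.coe_eq.2 (o.add hF hG))

theorem Op.act_mul (o : Op p) (g h : SG p) : o.act (g * h) = o.act g * h + g * o.act h := by
  obtain ⟨_, F, hF, rfl⟩ := g
  obtain ⟨_, G, hG, rfl⟩ := h
  exact Subtype.ext (Germ.coe_eq.2 (o.mul hF hG))

/-- `Dh A` -/
noncomputable def dh (p A : E) : Op p :=
  ⟨Dh A, fun h => h.Dh A, fun h => Dh_congr h A, fun h h' => Dh_add h h' A,
    fun h h' => Dh_mul h h' A, fun h h' => Dh_comp h h' A⟩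

/-- `Db A` -/
noncomputable def db (p A : E) : Op p :=
  ⟨Db A, fun h => h.Db A, fun h => Db_congr h A, fun h h' => Db_add h h' A,
    fun h h' => Db_mul h h' A, fun h h' => Db_comp h h' A⟩

theorem contDiffAt_iter {F : ℝ → ℝ} {x : ℝ} (hF : ContDiffAt ℝ ∞ F x) (k : ℕ) :
    ContDiffAt ℝ ∞ (iteratedDeriv k F) x := by
  induction k with
  | zero => simpa using hF
  | succ k ih =>
    rw [iteratedDeriv_succ]
    exact (ih.fderiv_right (m := ∞) le_rfl).clm_apply contDiffAt_const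

theorem iter_of_chain {U : Set ℝ} (hU : IsOpen U) {g0 g1 g2 g3 g4 : ℝ → ℝ}
    (h0 : ∀ y ∈ U, HasDerivAt g0 (g1 y) y) (h1 : ∀ y ∈ U, HasDerivAt g1 (g2 y) y)
    (h2 : ∀ y ∈ U, HasDerivAt g2 (g3 y) y) (h3 : ∀ y ∈ U, HasDerivAt g3 (g4 y) y) {y : ℝ}
    (hy : y ∈ U) : iteratedDeriv 1 g0 y = g1 y ∧ iteratedDeriv 2 g0 y = g2 y ∧
      iteratedDeriv 3 g0 y = g3 y ∧ iteratedDeriv 4 g0 y = g4 y := by
  have step : ∀ {k : ℕ} {g g' : ℝ → ℝ}, (∀ y ∈ U, HasDerivAt g (g' y) y) →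
      iteratedDeriv k g0 =ᶠ[𝓝 y] g → iteratedDeriv (k + 1) g0 =ᶠ[𝓝 y] g' := fun h e => by
    rw [iteratedDeriv_succ]
    exact e.deriv.trans (eventually_of_mem (hU.mem_nhds hy) fun z hz => (h z hz).deriv)
  have e1 := step (k := 0) h0 (by simp)
  have e2 := step h1 e1
  have e3 := step h2 e2
  have e4 := step h3 e3
  exact ⟨e1.self_of_nhds, e2.self_of_nhds, e3.self_of_nhds, e4.self_of_nhds⟩

theorem iter_log (c : ℝ) {x : ℝ} (hx : 0 < x) :
    iteratedDeriv 1 (fun x => c * Real.log x) x = c / x ∧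
    iteratedDeriv 2 (fun x => c * Real.log x) x = -c / x ^ 2 ∧
    iteratedDeriv 3 (fun x => c * Real.log x) x = 2 * c / x ^ 3 ∧
    iteratedDeriv 4 (fun x => c * Real.log x) x = -6 * c / x ^ 4 := by
  have hp : ∀ (a : ℝ) (n : ℕ) (y : ℝ), y ∈ Set.Ioi (0 : ℝ) →
      HasDerivAt (fun x => a / x ^ (n + 1)) (-(n + 1) * a / y ^ (n + 2)) y := fun a n y hy => by
    have hy' : y ≠ 0 := ne_of_gt hy
    refine ((hasDerivAt_const y a).div (hasDerivAt_pow (n + 1) y)
      (pow_ne_zero _ hy')).congr_deriv ?_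
    simp only [Nat.add_sub_cancel]
    push_cast
    field_simp
    ring
  refine iter_of_chain isOpen_Ioi (g1 := fun x => c / x) (g2 := fun x => -c / x ^ 2)
    (g3 := fun x => 2 * c / x ^ 3) (g4 := fun x => -6 * c / x ^ 4) (fun y hy => ?_)
    (fun y hy => ?_) (fun y hy => ?_) (fun y hy => ?_) hx
  · exact (Real.hasDerivAt_log (ne_of_gt hy)).const_mul c
  · simpa using hp c 0 y hy
  · refine (hp (-c) 1 y hy).congr_deriv ?_
    push_cast
    ring
  · refine (hp (2 * c) 2 y hy).congr_deriv ?_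
    push_cast
    ring

theorem hasFDerivAt_coord (i : Fin 3) (z : E) :
    HasFDerivAt (fun z : E => z i) (ContinuousLinearMap.proj i : E →L[ℝ] ℂ) z :=
  hasFDerivAt_apply i z

theorem hasFDerivAt_conj (i : Fin 3) (z : E) : HasFDerivAt (fun z : E => conj (z i))
    ((Complex.conjCLE : ℂ →L[ℝ] ℂ).comp (ContinuousLinearMap.proj i : E →L[ℝ] ℂ)) z :=
  ((Complex.conjCLE : ℂ →L[ℝ] ℂ).comp (ContinuousLinearMap.proj i : E →L[ℝ] ℂ)).hasFDerivAt

theorem pd_lin (i : Fin 3) (a b : ℂ) (v : E) :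
    pd v (fun z => a * z i + b * conj (z i)) = fun _ => a * v i + b * conj (v i) := by
  funext z
  have := ((hasFDerivAt_coord i z).const_mul a).add ((hasFDerivAt_conj i z).const_mul b)
  exact (congrArg (fun L : E →L[ℝ] ℂ => L v) this.fderiv).trans (by simp)

theorem Dh_lin (i : Fin 3) (a b : ℂ) (A : E) :
    Dh A (fun z => a * z i + b * conj (z i)) = fun _ => a * A i := by
  funext z
  simp only [Dh, pd_lin, Pi.smul_apply, smul_eq_mul, map_mul, Complex.conj_I]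
  linear_combination (-(a * A i) / 2 + b * conj (A i) / 2) * Complex.I_mul_I

theorem Db_lin (i : Fin 3) (a b : ℂ) (A : E) :
    Db A (fun z => a * z i + b * conj (z i)) = fun _ => b * conj (A i) := by
  funext z
  simp only [Db, pd_lin, Pi.smul_apply, smul_eq_mul, map_mul, Complex.conj_I]
  linear_combination ((a * A i) / 2 - b * conj (A i) / 2) * Complex.I_mul_I

theorem Dh_cst (c : ℂ) (A : E) : Dh A (fun _ => c) = fun _ => 0 := by
  funext z
  simp [Dh, pd_const]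

theorem pd_sq (i : Fin 3) (v : E) :
    pd v (cx fun z => ‖z i‖ ^ 2) = fun z => conj (v i) * z i + v i * conj (z i) := by
  have e : (cx fun z => ‖z i‖ ^ 2) = fun z => z i * conj (z i) := by
    funext z
    simp [cx, Complex.mul_conj, Complex.normSq_eq_norm_sq]
  funext z
  have := (hasFDerivAt_coord i z).mul (hasFDerivAt_conj i z)
  rw [e]
  refine (congrArg (fun L : E →L[ℝ] ℂ => L v) this.fderiv).trans ?_
  simp
  ring

theorem Dh_sq (i : Fin 3) (A : E) :
    Dh A (cx fun z => ‖z i‖ ^ 2) = fun z => 0 * z i + A i * conj (z i) := by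
  funext z
  simp only [Dh, pd_sq, Pi.smul_apply, smul_eq_mul, map_mul, Complex.conj_I]
  linear_combination (conj (A i) * z i / 2 - A i * conj (z i) / 2) * Complex.I_mul_I

theorem Db_sq (i : Fin 3) (A : E) :
    Db A (cx fun z => ‖z i‖ ^ 2) = fun z => conj (A i) * z i + 0 * conj (z i) := by
  funext z
  simp only [Db, pd_sq, Pi.smul_apply, smul_eq_mul, map_mul, Complex.conj_I]
  linear_combination (-(conj (A i) * z i) / 2 + A i * conj (z i) / 2) * Complex.I_mul_I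

theorem contDiff_sq (i : Fin 3) : ContDiff ℝ ∞ fun z : E => ‖z i‖ ^ 2 :=
  ContDiff.norm_sq ℂ (contDiff_apply ℝ ℂ i)

theorem jet_sq (i : Fin 3) (p : E) :
    (∀ A, (jetAt (fun z : E => ‖z i‖ ^ 2) p).h1 A = A i * conj (p i)) ∧
    (∀ A C, (jetAt (fun z : E => ‖z i‖ ^ 2) p).h20 A C = 0) ∧
    (∀ A B, (jetAt (fun z : E => ‖z i‖ ^ 2) p).h2 A B = A i * conj (B i)) ∧
    (∀ A C B, (jetAt (fun z : E => ‖z i‖ ^ 2) p).h3 A C B = 0) ∧
    ∀ A C B D, (jetAt (fun z : E => ‖z i‖ ^ 2) p).h4 A C B D = 0 := by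
  have h := jetAt_of (contDiff_sq i).contDiffAt (p := p)
  refine ⟨fun A => ?_, fun A C => ?_, fun A B => ?_, fun A C B => ?_, fun A C B D => ?_⟩
  · rw [h.e1, Dh_sq]; simp
  · rw [h.e20, Dh_sq, Dh_lin]; simp
  · rw [h.e2, Db_sq, Dh_lin]; exact mul_comm _ _
  · rw [h.e3, Db_sq, Dh_lin, Dh_cst]
  · rw [h.e4, Db_sq, Db_lin, Dh_cst, Dh_cst]

end ChainAux

open ChainAux

/-- Faà di Bruno up to order four -/
theorem jetAt_comp {T : E → ℝ} {F : ℝ → ℝ} {p : E} (hT : ContDiffAt ℝ ∞ T p)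
    (hF : ContDiffAt ℝ ∞ F (T p)) :
    jetAt (fun z => F (T z)) p = (jetAt T p).compose (iteratedDeriv 1 F (T p))
      (iteratedDeriv 2 F (T p)) (iteratedDeriv 3 F (T p)) (iteratedDeriv 4 F (T p)) := by
  have hs : ∀ k, Sm (cx fun z => iteratedDeriv k F (T z)) p := fun k =>
    sm_cx ((contDiffAt_iter hF k).comp p hT)
  obtain ⟨f, hf⟩ : ∃ f : ℕ → SG p, f = fun k => gm _ (hs k) := ⟨_, rfl⟩
  have hT' := sm_cx hT
  obtain ⟨t, ht⟩ : ∃ t : SG p, t = gm _ hT' := ⟨_, rfl⟩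
  have hstep : ∀ (o : Op p) k, o.act (f k) = f (k + 1) * o.act t := fun o k => by
    subst hf ht
    refine Subtype.ext (Germ.coe_eq.2 ?_)
    have := o.comp hT (contDiffAt_iter hF k)
    rw [← iteratedDeriv_succ] at this
    exact this
  have hval : ∀ k, val (f k) = iteratedDeriv k F (T p) := fun k => by rw [hf]; rfl
  have h0 : f 0 = gm (cx fun z => F (T z)) (sm_cx (hF.comp p hT)) := by
    rw [hf]; simp only [iteratedDeriv_zero]
  have J := jetAt_of hT
  have c0 : (fun z => conj (cx T z)) = cx T := funext fun z => Complex.conj_ofReal _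
  have c1 : ∀ B, Db B (cx T) =ᶠ[𝓝 p] fun z => conj (Dh B (cx T) z) := fun B => by
    have := Db_conj hT' B
    rwa [c0] at this
  have c2 : ∀ B D, Db B (Db D (cx T)) =ᶠ[𝓝 p] fun z => conj (Dh B (Dh D (cx T)) z) :=
    fun B D => (Db_congr (c1 D) B).trans (Db_conj (hT'.Dh D) B)
  have v1 : ∀ A, val ((dh p A).act t) = (jetAt T p).h1 A := fun A => by rw [ht, J.e1]; rfl
  have v2 : ∀ B, val ((db p B).act t) = conj ((jetAt T p).h1 B) := fun B => by
    rw [ht, J.e1]; exact (c1 B).self_of_nhds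
  have v3 : ∀ A C, val ((dh p A).act ((dh p C).act t)) = (jetAt T p).h20 A C := fun A C => by
    rw [ht, J.e20]; rfl
  have v4 : ∀ A B, val ((dh p A).act ((db p B).act t)) = (jetAt T p).h2 A B := fun A B => by
    rw [ht, J.e2]; rfl
  have v5 : ∀ B D, val ((db p B).act ((db p D).act t)) = conj ((jetAt T p).h20 B D) :=
    fun B D => by rw [ht, J.e20]; exact (c2 B D).self_of_nhds
  have v6 : ∀ A C B, val ((dh p A).act ((dh p C).act ((db p B).act t))) =
      (jetAt T p).h3 A C B := fun A C B => by rw [ht, J.e3]; rfl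
  have v7 : ∀ A B D, val ((dh p A).act ((db p B).act ((db p D).act t))) =
      conj ((jetAt T p).h3 B D A) := fun A B D => by
    rw [ht, J.e3, ← ((Db_Dh_comm (hT'.Dh D) A B).trans
      (Dh_congr (Db_Dh_comm hT' A D) B)).self_of_nhds]
    exact ((Dh_congr (c2 B D) A).trans (Dh_conj ((hT'.Dh D).Dh B) A)).self_of_nhds
  have v8 : ∀ A C B D, val ((dh p A).act ((dh p C).act ((db p B).act ((db p D).act t)))) =
      (jetAt T p).h4 A C B D := fun A C B D => by rw [ht, J.e4]; rfl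
  refine jetAt_eq ⟨fun A => ?_, fun A C => ?_, fun A B => ?_, fun A C B => ?_, fun A C B D => ?_⟩
  · refine Eq.trans ?_ (show val ((dh p A).act (f 0)) = _ by rw [h0]; rfl)
    simp only [hstep, map_mul, hval, v1, Jet.compose_h1, zero_add]
  · refine Eq.trans ?_ (show val ((dh p A).act ((dh p C).act (f 0))) = _ by rw [h0]; rfl)
    simp only [hstep, Op.act_mul, map_mul, map_add, hval, v1, v3, Jet.compose_h20, zero_add,
      Nat.reduceAdd]
    ring
  · refine Eq.trans ?_ (show val ((dh p A).act ((db p B).act (f 0))) = _ by rw [h0]; rfl)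
    simp only [hstep, Op.act_mul, map_mul, map_add, hval, v1, v2, v4, Jet.compose_h2, zero_add,
      Nat.reduceAdd]
    ring
  · refine Eq.trans ?_
      (show val ((dh p A).act ((dh p C).act ((db p B).act (f 0)))) = _ by rw [h0]; rfl)
    simp only [hstep, Op.act_mul, Op.act_add, map_mul, map_add, hval, v1, v2, v3, v4, v6,
      Jet.compose_h3, zero_add, Nat.reduceAdd]
    ring
  · refine Eq.trans ?_ (show val ((dh p A).act ((dh p C).act ((db p B).act ((db p D).act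
      (f 0))))) = _ by rw [h0]; rfl)
    simp only [hstep, Op.act_mul, Op.act_add, map_mul, map_add, hval, v1, v2, v3, v4, v5, v6, v7,
      v8, Jet.compose_h4, zero_add, Nat.reduceAdd]
    ring

theorem contDiff_rho : ContDiff ℝ ∞ rho :=
  contDiff_const.sub ((contDiff_sq 0).add (contDiff_sq 1))

theorem contDiff_xx : ContDiff ℝ ∞ xx :=
  (Complex.reCLM.contDiff.comp (contDiff_apply ℝ ℂ (0 : Fin 3))).sub contDiff_const

theorem contDiffAt_phi0 {p : E} (hp : 0 < rho p) : ContDiffAt ℝ ∞ phi0 p :=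
  (contDiff_rho.contDiffAt.log hp.ne').neg

/-- `cx rho z = 1 - ip z z`; `Db B (cx rho) z = - ip z B`, `Dh A (cx rho) z = - ip A z` -/
theorem jet_rho (p : E) : (∀ A, (jetAt rho p).h1 A = -ip A p) ∧
    (∀ A C, (jetAt rho p).h20 A C = 0) ∧ (∀ A B, (jetAt rho p).h2 A B = -ip A B) ∧
    (∀ A C B, (jetAt rho p).h3 A C B = 0) ∧ ∀ A C B D, (jetAt rho p).h4 A C B D = 0 := by
  have e : rho = fun z => 1 + (-1) * (‖z 0‖ ^ 2 + ‖z 1‖ ^ 2) := by
    funext z; simp only [rho, nsq]; ring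
  have h2 : ContDiffAt ℝ ∞ (fun z : E => ‖z 0‖ ^ 2 + ‖z 1‖ ^ 2) p :=
    ((contDiff_sq 0).add (contDiff_sq 1)).contDiffAt
  obtain ⟨a1, a2, a3, a4, a5⟩ := jet_sq 0 p
  obtain ⟨b1, b2, b3, b4, b5⟩ := jet_sq 1 p
  rw [e, jetAt_add contDiffAt_const (contDiffAt_const.mul h2), jetAt_const, jetAt_smul h2,
    jetAt_add (contDiff_sq 0).contDiffAt (contDiff_sq 1).contDiffAt]
  simp [a1, a2, a3, a4, a5, b1, b2, b3, b4, b5, ip]

/-- `jetAt_comp` with `F = -log` (derivatives `-1/ρ, 1/ρ², -2/ρ³, 6/ρ⁴`), then `field_simp; ring`.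
`S` is any symmetric map with the same base components as `SI p`. -/
theorem jet_phi0 {p : E} (hp : 0 < rho p) (S : E →ₗ[ℂ] E →ₗ[ℂ] E) (hS : ∀ A C, S A C = S C A)
    (hS' : ∀ A C B, ip (S A C) B = ip (SI p A C) B) :
    (∀ A, (jetAt phi0 p).h1 A = ip A p / rho p) ∧ (jetAt phi0 p).h2 = IF p ∧
    (∀ A C B, ((jetAt phi0 p).shift S hS).h3 A C B = 0) ∧
    ∀ A C B D, ((jetAt phi0 p).shift S hS).h4 A C B D =
      IF p A B * IF p C D + IF p A D * IF p C B := by
  have e : phi0 = fun z => (fun x => -1 * Real.log x) (rho z) := by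
    funext z; simp [phi0]
  obtain ⟨d1, d2, d3, d4⟩ := iter_log (-1) hp
  obtain ⟨a1, a2, a3, a4, a5⟩ := jet_rho p
  have hρ : (rho p : ℂ) ≠ 0 := by exact_mod_cast hp.ne'
  have hL : ∀ A C B, ip (S A C) B = ip C p / rho p * ip A B + ip A p / rho p * ip C B :=
    fun A C B => by rw [hS', SI_apply, ip_add_left, ip_smul_left, ip_smul_left]
  have hR : ∀ A B D, ip A (S B D) = ip p D / rho p * ip A B + ip p B / rho p * ip A D :=
    fun A B D => by
      rw [← conj_ip, hL]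
      simp only [map_add, map_mul, map_div₀, conj_ip, Complex.conj_ofReal]
  rw [e, jetAt_comp contDiff_rho.contDiffAt
    (contDiffAt_const.mul (Real.contDiffAt_log.2 hp.ne')), d1, d2, d3, d4]
  refine ⟨fun A => ?_, LinearMap.ext fun A => LinearMap.ext fun B => ?_, fun A C B => ?_,
    fun A C B D => ?_⟩
  · simp only [Jet.compose_h1, a1]
    push_cast
    ring
  · simp only [Jet.compose_h2, a1, a3, IF_apply, map_neg]
    push_cast
    ring
  · simp only [Jet.shift_h3, Jet.compose_h3, Jet.compose_h2, a1, a2, a3, a4, map_neg, hL]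
    push_cast
    field_simp
    ring
  · simp only [Jet.shift_h4, Jet.compose_h4, Jet.compose_h3, Jet.compose_h2, a1, a2, a3, a4, a5,
      IF_apply, map_neg, map_add, map_mul, map_zero, map_div₀, conj_ip, Complex.conj_ofReal,
      hL, hR]
    push_cast
    field_simp
    ring

/-- `log |w|²` is pluriharmonic: near `p`, `Db B (cx f) z = conj (B 2) / conj (z 2)` and
`Dh A (cx f) z = A 2 / z 2`. -/
theorem jet_logw {p : E} (hp : p 2 ≠ 0) :
    ContDiffAt ℝ ∞ (fun z : E => Real.log (‖z 2‖ ^ 2)) p ∧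
    (∀ A, (jetAt (fun z : E => Real.log (‖z 2‖ ^ 2)) p).h1 A = A 2 / p 2) ∧
    (∀ A B, (jetAt (fun z : E => Real.log (‖z 2‖ ^ 2)) p).h2 A B = 0) ∧
    (∀ A C B, (jetAt (fun z : E => Real.log (‖z 2‖ ^ 2)) p).h3 A C B = 0) ∧
    ∀ A C B D, (jetAt (fun z : E => Real.log (‖z 2‖ ^ 2)) p).h4 A C B D = 0 := by
  have hpos : 0 < ‖p 2‖ ^ 2 := by positivity
  refine ⟨(contDiff_sq 2).contDiffAt.log hpos.ne', ?_⟩
  have e : (fun z : E => Real.log (‖z 2‖ ^ 2)) =
      fun z => (fun x => 1 * Real.log x) (‖z 2‖ ^ 2) := by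
    funext z; simp only [one_mul]
  obtain ⟨d1, d2, d3, d4⟩ := iter_log 1 hpos
  obtain ⟨a1, a2, a3, a4, a5⟩ := jet_sq 2 p
  have hc : conj (p 2) ≠ 0 := by simpa using hp
  have hn : ((‖p 2‖ ^ 2 : ℝ) : ℂ) = p 2 * conj (p 2) := by
    rw [Complex.mul_conj, Complex.normSq_eq_norm_sq]
  rw [e, jetAt_comp (contDiff_sq 2).contDiffAt
    (contDiffAt_const.mul (Real.contDiffAt_log.2 hpos.ne')), d1, d2, d3, d4]
  generalize ‖p 2‖ ^ 2 = s at hn
  refine ⟨fun A => ?_, fun A B => ?_, fun A C B => ?_, fun A C B D => ?_⟩ <;>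
  · simp only [Jet.compose_h4, Jet.compose_h3, Jet.compose_h2, Jet.compose_h1, a1, a2, a3, a4, a5,
      map_mul, map_zero, Complex.conj_conj]
    push_cast
    rw [hn]
    field_simp
    try ring

/-- The derivatives of `F y = -a log (1 - e^y)` at `y < 0`, `σ = 1 / (1 - e^y)`:
`F' = a (σ-1)`, `σ' = σ (σ-1)`. -/
theorem iteratedDeriv_calabi (a : ℝ) {y : ℝ} (hy : y < 0) (σ : ℝ) (hσ : σ = 1 / (1 - Real.exp y)) :
    ContDiffAt ℝ ∞ (fun y => -a * Real.log (1 - Real.exp y)) y ∧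
    iteratedDeriv 1 (fun y => -a * Real.log (1 - Real.exp y)) y = a * (σ - 1) ∧
    iteratedDeriv 2 (fun y => -a * Real.log (1 - Real.exp y)) y = a * (σ - 1) * σ ∧
    iteratedDeriv 3 (fun y => -a * Real.log (1 - Real.exp y)) y = a * (σ - 1) * σ * (2 * σ - 1) ∧
    iteratedDeriv 4 (fun y => -a * Real.log (1 - Real.exp y)) y =
      a * (σ - 1) * σ * (2 * σ - 1) ^ 2 + 2 * (a * (σ - 1) * σ) * σ * (σ - 1) := by
  have hne : ∀ y ∈ Set.Iio (0 : ℝ), 1 - Real.exp y ≠ 0 := fun y hy =>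
    (sub_pos.2 (Real.exp_lt_one_iff.2 hy)).ne'
  refine ⟨contDiffAt_const.mul ((contDiffAt_const.sub Real.contDiff_exp.contDiffAt).log
    (hne y hy)), ?_⟩
  obtain ⟨s, hs⟩ : ∃ s : ℝ → ℝ, s = fun y => 1 / (1 - Real.exp y) := ⟨_, rfl⟩
  have hd : ∀ y ∈ Set.Iio (0 : ℝ), HasDerivAt s (s y * (s y - 1)) y := fun y hy => by
    have := hne y hy
    rw [hs]
    refine ((hasDerivAt_const y (1 : ℝ)).div ((Real.hasDerivAt_exp y).const_sub 1)
      this).congr_deriv ?_
    field_simp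
    ring
  rw [show σ = s y by rw [hσ, hs]]
  refine iter_of_chain isOpen_Iio (g1 := fun y => a * (s y - 1))
    (g2 := fun y => a * (s y - 1) * s y) (g3 := fun y => a * (s y - 1) * s y * (2 * s y - 1))
    (g4 := fun y => a * (s y - 1) * s y * (2 * s y - 1) ^ 2 +
      2 * (a * (s y - 1) * s y) * s y * (s y - 1)) (fun y hy => ?_)
    (fun y hy => ?_) (fun y hy => ?_) (fun y hy => ?_) hy
  · have := hne y hy
    refine ((((Real.hasDerivAt_exp y).const_sub 1).log this).const_mul (-a)).congr_deriv ?_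
    rw [hs]
    field_simp
    ring
  · refine (((hd y hy).sub_const 1).const_mul a).congr_deriv ?_
    ring
  · refine ((((hd y hy).sub_const 1).const_mul a).mul (hd y hy)).congr_deriv ?_
    ring
  · refine (((((hd y hy).sub_const 1).const_mul a).mul (hd y hy)).mul
      (((hd y hy).const_mul 2).sub_const 1)).congr_deriv ?_
    simp only [Pi.mul_apply]
    ring

end Crest.Agent.R245
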