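import Crest.Agent.R245.Riem

/-!
# R245 Complete: completeness from a proper function with bounded gradient
-/

set_option autoImplicit false
open scoped ComplexConjugate ContDiff Topology
open Complex (I)
open Filter

namespace Crest.Agent.R245

open Crest.GeometryTopology

/-- `Θ` induces a homeomorphism of the whole space onto `U` (inverse `Ψ`), so `U` is connected and
contractible (`Homeomorph.contractibleSpace`, `RealTopologicalVectorSpace.contractibleSpace`), and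
`t ↦ Θ (Ψ p + t • (Ψ q - Ψ p))` is a `C¹` curve in `U` from `p` to `q`. -/
theorem of_diffeo {U : Set E} {Θ Ψ : E → E} (hΘ : ContDiff ℝ ∞ Θ) (hΨ : ContDiffOn ℝ ∞ Ψ U)
    (hr : Set.range Θ = U) (hl : ∀ x, Ψ (Θ x) = x) :
    IsConnected U ∧ ContractibleSpace U ∧ ∀ p ∈ U, ∀ q ∈ U, ∃ γ : ℝ → E, ContDiff ℝ 1 γ ∧
      γ 0 = p ∧ γ 1 = q ∧ ∀ t ∈ Set.Icc (0 : ℝ) 1, γ t ∈ U := by
  have hinj : Function.Injective Θ := Function.LeftInverse.injective hl
  have hri : ∀ p ∈ U, Θ (Ψ p) = p := by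
    intro p hp
    rw [← hr] at hp
    obtain ⟨x, rfl⟩ := hp
    rw [hl]
  refine ⟨?_, ?_, fun p hp q hq => ?_⟩
  · rw [← hr]
    exact isConnected_range hΘ.continuous
  · let e : E ≃ₜ U :=
      { toFun := fun x => ⟨Θ x, hr ▸ Set.mem_range_self x⟩
        invFun := fun z => Ψ z
        left_inv := fun x => hl x
        right_inv := fun z => Subtype.ext (hri z z.2)
        continuous_toFun := hΘ.continuous.subtype_mk _
        continuous_invFun := hΨ.continuousOn.domRestrict }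
    exact e.symm.contractibleSpace
  · refine ⟨fun t => Θ (Ψ p + t • (Ψ q - Ψ p)), ?_, ?_, ?_, fun t _ => hr ▸ Set.mem_range_self _⟩
    · exact (hΘ.of_le (by simp)).comp (contDiff_const.add (contDiff_id.smul contDiff_const))
    · simp [hri p hp]
    · simp [hri q hq]

namespace CompleteAux

theorem mvt_int {V : Type*} [NormedAddCommGroup V] [NormedSpace ℝ V] [CompleteSpace V]
    {f f' : ℝ → V} {φ : ℝ → ℝ} (hf : ∀ t ∈ Set.Icc (0 : ℝ) 1, HasDerivAt f (f' t) t)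
    (hf' : ContinuousOn f' (Set.Icc 0 1)) (hφ : ContinuousOn φ (Set.Icc 0 1))
    (hle : ∀ t ∈ Set.Icc (0 : ℝ) 1, ‖f' t‖ ≤ φ t) {t : ℝ} (ht : t ∈ Set.Icc (0 : ℝ) 1) :
    ‖f t - f 0‖ ≤ ∫ s in (0 : ℝ)..1, φ s := by
  have hsub : Set.uIcc 0 t ⊆ Set.Icc 0 1 := by
    rw [Set.uIcc_of_le ht.1]
    exact Set.Icc_subset_Icc le_rfl ht.2
  have h1 : ∫ s in (0 : ℝ)..t, f' s = f t - f 0 :=
    intervalIntegral.integral_eq_sub_of_hasDerivAt (fun x hx => hf x (hsub hx))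
      (hf'.mono hsub).intervalIntegrable
  have hφi : IntervalIntegrable φ MeasureTheory.volume 0 1 :=
    (hφ.mono (by rw [Set.uIcc_of_le zero_le_one])).intervalIntegrable
  rw [← h1]
  refine (intervalIntegral.norm_integral_le_of_norm_le ht.1 ?_
    (hφ.mono hsub).intervalIntegrable).trans ?_
  · exact Eventually.of_forall fun s hs => hle s ⟨hs.1.le, hs.2.trans ht.2⟩
  · refine intervalIntegral.integral_mono_interval le_rfl ht.1 ht.2 ?_ hφi
    refine (MeasureTheory.ae_restrict_iff' measurableSet_Ioc).2 (Eventually.of_forall ?_)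
    intro s hs
    exact (norm_nonneg _).trans (hle s ⟨hs.1.le, hs.2⟩)

variable {U : Set E} (g : HermitianMetricOn 3 U)

theorem contOn_riem {α : Type*} [TopologicalSpace α] {s : Set α} {a b : α → E}
    (ha : ContinuousOn a s) (hb : ContinuousOn b s) (hU : ∀ x ∈ s, a x ∈ U) :
    ContinuousOn (fun x => g.riem (a x) (b x) (b x)) s := by
  refine Complex.continuous_re.comp_continuousOn ?_
  refine continuousOn_finsetSum _ fun i _ => continuousOn_finsetSum _ fun j _ => ?_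
  exact (((g.smooth i j).continuousOn.comp ha hU).mul
    ((continuous_apply i).comp_continuousOn hb)).mul
    (Complex.continuous_conj.comp_continuousOn ((continuous_apply j).comp_continuousOn hb))

theorem riem_smul (p X : E) (c : ℝ) : g.riem p (c • X) (c • X) = c ^ 2 * g.riem p X X := by
  rw [HermitianMetricOn.riem, HermitianMetricOn.riem, ← Complex.re_ofReal_mul,
    HermitianMetricOn.herm, HermitianMetricOn.herm, Finset.mul_sum]
  congr 1
  refine Finset.sum_congr rfl fun i _ => ?_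
  rw [Finset.mul_sum]
  refine Finset.sum_congr rfl fun j _ => ?_
  simp only [Pi.smul_apply, Complex.real_smul, map_mul, Complex.conj_ofReal]
  push_cast
  ring

theorem exists_lower {K : Set E} (hK : IsCompact K) (hKU : K ⊆ U) :
    ∃ μ : ℝ, 0 < μ ∧ ∀ z ∈ K, ∀ X, μ * ‖X‖ ≤ Real.sqrt (g.riem z X X) := by
  obtain ⟨μ, hμ, h⟩ := (hK.prod (isCompact_sphere (0 : E) 1)).exists_forall_le'
    (f := fun w : E × E => Real.sqrt (g.riem w.1 w.2 w.2))
    ((contOn_riem g continuousOn_fst continuousOn_snd fun x hx => hKU hx.1).sqrt) (a := 0)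
    (fun w hw => Real.sqrt_pos.2 (g.posDef w.1 (hKU hw.1) w.2 (by
      intro h0
      have := hw.2
      simp [h0] at this)))
  refine ⟨μ, hμ, fun z hz X => ?_⟩
  by_cases hX : X = 0
  · simp [hX]
  · have hn : 0 < ‖X‖ := norm_pos_iff.2 hX
    have h1 := h (z, ‖X‖⁻¹ • X) ⟨hz, by simp [norm_smul, hn.ne']⟩
    simp only [riem_smul] at h1
    rw [Real.sqrt_mul (sq_nonneg _), Real.sqrt_sq (inv_nonneg.2 hn.le), ← div_eq_inv_mul,
      le_div_iff₀ hn] at h1
    exact h1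

theorem contOn_speed {γ : ℝ → E} (hγ : ContDiff ℝ 1 γ) (hU : ∀ t ∈ Set.Icc (0 : ℝ) 1, γ t ∈ U) :
    ContinuousOn (fun t => Real.sqrt (g.riem (γ t) (deriv γ t) (deriv γ t))) (Set.Icc 0 1) :=
  (contOn_riem g hγ.continuous.continuousOn hγ.continuous_deriv_one.continuousOn hU).sqrt

theorem abs_sub_le {F : E → ℝ} (hF : ∀ p ∈ U, ContDiffAt ℝ ∞ F p) {C : ℝ}
    (hC : ∀ p ∈ U, ∀ X, |fderiv ℝ F p X| ≤ C * Real.sqrt (g.riem p X X))
    {γ : ℝ → E} (hγ : ContDiff ℝ 1 γ) (hU : ∀ t ∈ Set.Icc (0 : ℝ) 1, γ t ∈ U) {t : ℝ}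
    (ht : t ∈ Set.Icc (0 : ℝ) 1) : |F (γ t) - F (γ 0)| ≤ C * g.length γ := by
  rw [HermitianMetricOn.length, ← intervalIntegral.integral_const_mul]
  refine mvt_int (f := fun t => F (γ t)) (f' := fun t => fderiv ℝ F (γ t) (deriv γ t))
    (fun s hs => ?_) ?_ (continuousOn_const.mul (contOn_speed g hγ hU))
    (fun s hs => hC _ (hU s hs) _) ht
  · exact ((hF _ (hU s hs)).differentiableAt (by simp)).hasFDerivAt.comp_hasDerivAt s
      (hγ.differentiable (by simp) s).hasDerivAt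
  · refine ContinuousOn.clm_apply ?_ hγ.continuous_deriv_one.continuousOn
    intro s hs
    exact (((hF _ (hU s hs)).continuousAt_fderiv (by simp)).comp
      hγ.continuous.continuousAt).continuousWithinAt

theorem norm_sub_le {K : Set E} {μ : ℝ} (hμ : 0 < μ)
    (h : ∀ z ∈ K, ∀ X, μ * ‖X‖ ≤ Real.sqrt (g.riem z X X))
    {γ : ℝ → E} (hγ : ContDiff ℝ 1 γ) (hU : ∀ t ∈ Set.Icc (0 : ℝ) 1, γ t ∈ U)
    (hK : ∀ t ∈ Set.Icc (0 : ℝ) 1, γ t ∈ K) : ‖γ 1 - γ 0‖ ≤ μ⁻¹ * g.length γ := by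
  rw [HermitianMetricOn.length, ← intervalIntegral.integral_const_mul]
  refine mvt_int (f := γ) (f' := deriv γ)
    (fun s _ => (hγ.differentiable (by simp) s).hasDerivAt) hγ.continuous_deriv_one.continuousOn
    (continuousOn_const.mul (contOn_speed g hγ hU)) (fun s hs => ?_) ⟨zero_le_one, le_rfl⟩
  exact (le_inv_mul_iff₀ hμ).2 (h _ (hK s hs) _)

theorem exists_curve {p q : E} {ε : ℝ} (h : g.dist p q < ε)
    (hc : ∃ γ : ℝ → E, ContDiff ℝ 1 γ ∧ γ 0 = p ∧ γ 1 = q ∧ ∀ t ∈ Set.Icc (0 : ℝ) 1, γ t ∈ U) :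
    ∃ γ : ℝ → E, ContDiff ℝ 1 γ ∧ γ 0 = p ∧ γ 1 = q ∧ (∀ t ∈ Set.Icc (0 : ℝ) 1, γ t ∈ U) ∧
      g.length γ < ε := by
  obtain ⟨γ₀, h1, h2, h3, h4⟩ := hc
  obtain ⟨l, ⟨γ, k1, k2, k3, k4, rfl⟩, hl⟩ := exists_lt_of_csInf_lt
    (by exact ⟨g.length γ₀, γ₀, h1, h2, h3, h4, rfl⟩) h
  exact ⟨γ, k1, k2, k3, k4, hl⟩

end CompleteAux

open CompleteAux in
/-- For an admissible curve `γ` of length `ℓ`, the integrand is continuous on `[0,1]` and
`|F (γ t) - F (γ 0)| ≤ C ℓ` for `t ∈ [0,1]` (fundamental theorem of calculus). If `dist p q < ε ≤ 1`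
there is an admissible curve of length `< ε` (`exists_lt_of_csInf_lt`, the set is nonempty). So a
Cauchy sequence has `F (u m) ≤ R` for `m ≥ N`, and curves of length `< 1` starting at such points
stay in the compact `K = {z ∈ U | F z ≤ R + C}`, on which `μ ‖X‖ ≤ √(riem z X X)` for some `μ > 0`
(compactness of `K × sphere`, homogeneity); hence `μ ‖u m - u k‖ ≤ ℓ < ε`. The sequence is Cauchy
in `ℂ³` and eventually in the closed set `K`. -/
theorem isComplete_of {U : Set E} (hU : IsOpen U) (g : HermitianMetricOn 3 U) {F : E → ℝ}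
    (hF : ∀ p ∈ U, ContDiffAt ℝ ∞ F p) {C : ℝ} (hC0 : 0 ≤ C)
    (hC : ∀ p ∈ U, ∀ X, |fderiv ℝ F p X| ≤ C * Real.sqrt (g.riem p X X))
    (hK : ∀ R : ℝ, IsCompact {z | z ∈ U ∧ F z ≤ R})
    (hc : ∀ p ∈ U, ∀ q ∈ U, ∃ γ : ℝ → E, ContDiff ℝ 1 γ ∧ γ 0 = p ∧ γ 1 = q ∧
      ∀ t ∈ Set.Icc (0 : ℝ) 1, γ t ∈ U) : g.IsComplete := by
  intro u hu hcau
  have _ := hU
  obtain ⟨N, hN⟩ := hcau 1 one_pos
  have hstep : ∀ γ : ℝ → E, ContDiff ℝ 1 γ → (∀ t ∈ Set.Icc (0 : ℝ) 1, γ t ∈ U) →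
      g.length γ < 1 → ∀ t ∈ Set.Icc (0 : ℝ) 1, F (γ t) ≤ F (γ 0) + C := by
    intro γ hγ hγU hl t ht
    have h1 := (abs_le.1 (abs_sub_le g hF hC hγ hγU ht)).2
    have h2 := mul_le_mul_of_nonneg_left hl.le hC0
    linarith
  have hR : ∀ m, N ≤ m → F (u m) ≤ F (u N) + C := by
    intro m hm
    obtain ⟨γ, h1, h2, h3, h4, h5⟩ := exists_curve g (hN N m le_rfl hm) (hc _ (hu N) _ (hu m))
    have := hstep γ h1 h4 h5 1 ⟨zero_le_one, le_rfl⟩
    rwa [h2, h3] at this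
  have hKc := hK (F (u N) + C + C)
  obtain ⟨μ, hμ, hlow⟩ := exists_lower g hKc fun z hz => hz.1
  have hcs : CauchySeq u := by
    refine Metric.cauchySeq_iff.2 fun ε hε => ?_
    obtain ⟨N', hN'⟩ := hcau (min 1 (μ * ε)) (lt_min one_pos (mul_pos hμ hε))
    refine ⟨max N N', fun m hm k hk => ?_⟩
    obtain ⟨γ, h1, h2, h3, h4, h5⟩ := exists_curve g
      (hN' k m ((le_max_right _ _).trans hk) ((le_max_right _ _).trans hm)) (hc _ (hu k) _ (hu m))
    have h6 := norm_sub_le g hμ hlow h1 h4 fun t ht => ⟨h4 t ht, by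
      have e1 := hstep γ h1 h4 (h5.trans_le (min_le_left _ _)) t ht
      have e2 := hR k ((le_max_left _ _).trans hk)
      rw [h2] at e1
      linarith⟩
    rw [h2, h3] at h6
    rw [dist_eq_norm]
    refine h6.trans_lt ?_
    rw [← div_eq_inv_mul, div_lt_iff₀' hμ]
    exact h5.trans_le (min_le_right _ _)
  obtain ⟨q, hq⟩ := cauchySeq_tendsto_of_complete hcs
  refine ⟨q, (hKc.isClosed.mem_of_tendsto hq ?_).1, hq⟩
  filter_upwards [eventually_ge_atTop N] with m hm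
  exact ⟨hu m, by linarith [hR m hm]⟩

end Crest.Agent.R245
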