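import Crest.Agent.R245.ParDef
import Crest.Agent.R245.Bump

/-!
# R245 Gfun: the subharmonic profile with deep wells (TASK)
-/

set_option autoImplicit false
open scoped ComplexConjugate ContDiff Topology
open Complex (I)
open Filter

namespace Crest.Agent.R245

namespace GfunAux

/-- second derivative along a line -/
theorem second {f : ℂ → ℝ} {s : ℂ} (hf : ContDiff ℝ ∞ f) (v : ℂ) {φ' : ℝ → ℝ} {a : ℝ}
    (h1 : ∀ t : ℝ, HasDerivAt (fun t : ℝ => f (s + t • v)) (φ' t) t) (h2 : HasDerivAt φ' a 0) :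
    iteratedFDeriv ℝ 2 f s ![v, v] = a := by
  have hl : ∀ t : ℝ, HasDerivAt (fun t : ℝ => s + t • v) v t := fun t => by
    simpa using ((hasDerivAt_id t).smul_const v).const_add s
  have hd : Differentiable ℝ f := hf.differentiable (by simp)
  have hd2 : Differentiable ℝ (fderiv ℝ f) :=
    (hf.fderiv_right (m := ∞) (by simp)).differentiable (by simp)
  have e1 : φ' = fun t : ℝ => fderiv ℝ f (s + t • v) v := by
    funext t
    exact (h1 t).unique ((hd _).hasFDerivAt.comp_hasDerivAt t (hl t))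
  have e2 : HasDerivAt (fun t : ℝ => fderiv ℝ f (s + t • v))
      (fderiv ℝ (fderiv ℝ f) (s + (0 : ℝ) • v) v) 0 :=
    (hd2 _).hasFDerivAt.comp_hasDerivAt 0 (hl 0)
  have e3 := e2.clm_apply (hasDerivAt_const (0 : ℝ) v)
  rw [e1] at h2
  rw [iteratedFDeriv_two_apply, h2.unique e3]
  simp

/-- `‖exp (x + i y) - 1‖²` -/
noncomputable def dd (x y : ℝ) : ℝ := Real.exp x ^ 2 - 2 * Real.exp x * Real.cos y + 1

noncomputable def UU (ρ x y : ℝ) : ℝ := Real.log (dd x y + ρ) + 100 * (x + 1 / 2)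

noncomputable def d (s : ℂ) : ℝ := dd (s.re + 99) s.im

noncomputable def u (ρ : ℝ) (s : ℂ) : ℝ := UU ρ (s.re + 99) s.im

theorem dd_ge (x y : ℝ) : (Real.exp x - 1) ^ 2 ≤ dd x y := by
  unfold dd
  nlinarith [Real.exp_pos x, Real.cos_le_one y]

theorem dd_le (x y : ℝ) : dd x y ≤ (Real.exp x + 1) ^ 2 := by
  unfold dd
  nlinarith [Real.exp_pos x, Real.neg_one_le_cos y]

theorem dd_nonneg (x y : ℝ) : 0 ≤ dd x y := (sq_nonneg _).trans (dd_ge x y)

theorem contDiff_d : ContDiff ℝ ∞ d := by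
  have h1 : ContDiff ℝ ∞ fun s : ℂ => s.re := Complex.reCLM.contDiff
  have h2 : ContDiff ℝ ∞ fun s : ℂ => s.im := Complex.imCLM.contDiff
  unfold d dd
  fun_prop

theorem contDiff_u {ρ : ℝ} (hρ : 0 < ρ) : ContDiff ℝ ∞ (u ρ) := by
  have h1 : ContDiff ℝ ∞ fun s : ℂ => s.re := Complex.reCLM.contDiff
  have h2 : ContDiff ℝ ∞ fun s : ℂ => Real.log (d s + ρ) :=
    (contDiff_d.add contDiff_const).log fun s => by
      have := dd_nonneg (s.re + 99) s.im
      unfold d; linarith
  exact h2.add (by fun_prop)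

theorem subh {ρ : ℝ} (hρ : 0 < ρ) {H h1 h2 : ℝ → ℝ} (hH : ContDiff ℝ ∞ H)
    (e1 : ∀ y, HasDerivAt H (h1 y) y) (e2 : ∀ y, HasDerivAt h1 (h2 y) y) (p1 : ∀ y, 0 ≤ h1 y)
    (p2 : ∀ y, 0 ≤ h2 y) (s : ℂ) :
    0 ≤ iteratedFDeriv ℝ 2 (fun s => H (u ρ s)) s ![1, 1] +
      iteratedFDeriv ℝ 2 (fun s => H (u ρ s)) s ![I, I] := by
  have hs : ContDiff ℝ ∞ fun s => H (u ρ s) := hH.comp (contDiff_u hρ)
  set x := s.re + 99 with hx
  set y := s.im with hy
  have hq : ∀ x y, dd x y + ρ ≠ 0 := fun x y => by have := dd_nonneg x y; linarith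
  -- `x` direction
  have ex : ∀ t, HasDerivAt (fun t => Real.exp (x + t)) (Real.exp (x + t)) t := fun t => by
    simpa using ((hasDerivAt_id t).const_add x).exp
  have qx : ∀ t, HasDerivAt (fun t => dd (x + t) y + ρ)
      (2 * Real.exp (x + t) ^ 2 - 2 * Real.exp (x + t) * Real.cos y) t := fun t => by
    unfold dd
    refine (((((ex t).fun_pow 2).fun_sub (((ex t).const_mul 2).mul_const (Real.cos y))).add_const
      1).add_const ρ).congr_deriv ?_
    simp; ring
  have qxx : HasDerivAt (fun t => 2 * Real.exp (x + t) ^ 2 - 2 * Real.exp (x + t) * Real.cos y)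
      (4 * Real.exp x ^ 2 - 2 * Real.exp x * Real.cos y) 0 := by
    refine ((((ex 0).fun_pow 2).const_mul 2).fun_sub
      (((ex 0).const_mul 2).mul_const (Real.cos y))).congr_deriv ?_
    simp; ring
  have ux : ∀ t, HasDerivAt (fun t => UU ρ (x + t) y)
      ((2 * Real.exp (x + t) ^ 2 - 2 * Real.exp (x + t) * Real.cos y) / (dd (x + t) y + ρ) + 100)
      t := fun t => by
    unfold UU
    refine (((qx t).log (hq _ _)).fun_add
      ((((hasDerivAt_id t).const_add x).add_const (1 / 2)).const_mul 100)).congr_deriv ?_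
    simp
  have uxx := ((qxx.fun_div (qx 0) (hq _ _))).add_const 100
  have Hx := second (s := s) hs 1 (φ' := fun t => h1 (UU ρ (x + t) y) *
      ((2 * Real.exp (x + t) ^ 2 - 2 * Real.exp (x + t) * Real.cos y) / (dd (x + t) y + ρ) + 100))
    (fun t => by
      refine ((e1 _).comp t (ux t)).congr_of_eventuallyEq (Eventually.of_forall fun t => ?_)
      simp only [u, Function.comp, Complex.add_re, Complex.add_im, Complex.smul_re, Complex.smul_im,
        Complex.one_re, Complex.one_im, smul_eq_mul, hx, hy]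
      congr 2 <;> ring)
    (((e2 _).comp 0 (ux 0)).fun_mul uxx)
  -- `y` direction
  have cy : ∀ t, HasDerivAt (fun t => Real.cos (y + t)) (-Real.sin (y + t)) t := fun t => by
    simpa using ((hasDerivAt_id t).const_add y).cos
  have sy : HasDerivAt (fun t => Real.sin (y + t)) (Real.cos y) 0 := by
    simpa using ((hasDerivAt_id (0 : ℝ)).const_add y).sin
  have qy : ∀ t, HasDerivAt (fun t => dd x (y + t) + ρ) (2 * Real.exp x * Real.sin (y + t)) t :=
    fun t => by
    unfold dd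
    refine (((((cy t).const_mul (2 * Real.exp x)).const_sub (Real.exp x ^ 2)).add_const
      1).add_const ρ).congr_deriv ?_
    ring
  have qyy := sy.const_mul (2 * Real.exp x)
  have uy : ∀ t, HasDerivAt (fun t => UU ρ x (y + t))
      ((2 * Real.exp x * Real.sin (y + t)) / (dd x (y + t) + ρ)) t := fun t => by
    unfold UU
    exact ((qy t).log (hq _ _)).add_const _
  have uyy := qyy.fun_div (qy 0) (hq _ _)
  have Hy := second (s := s) hs I (φ' := fun t => h1 (UU ρ x (y + t)) *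
      ((2 * Real.exp x * Real.sin (y + t)) / (dd x (y + t) + ρ)))
    (fun t => by
      refine ((e1 _).comp t (uy t)).congr_of_eventuallyEq (Eventually.of_forall fun t => ?_)
      simp only [u, Function.comp, Complex.add_re, Complex.add_im, Complex.smul_re, Complex.smul_im,
        Complex.I_re, Complex.I_im, smul_eq_mul, hx, hy]
      congr 2 <;> ring)
    (((e2 _).comp 0 (uy 0)).fun_mul uyy)
  rw [Hx, Hy]
  simp only [add_zero, Function.comp]
  have hq0 : 0 < dd x y + ρ := by have := dd_nonneg x y; linarith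
  have key : ((4 * Real.exp x ^ 2 - 2 * Real.exp x * Real.cos y) * (dd x y + ρ) -
      (2 * Real.exp x ^ 2 - 2 * Real.exp x * Real.cos y) *
        (2 * Real.exp x ^ 2 - 2 * Real.exp x * Real.cos y)) +
      (2 * Real.exp x * Real.cos y * (dd x y + ρ) -
        2 * Real.exp x * Real.sin y * (2 * Real.exp x * Real.sin y)) = 4 * Real.exp x ^ 2 * ρ := by
    unfold dd
    linear_combination (-4 * Real.exp x ^ 2) * Real.sin_sq_add_cos_sq y
  have k2 : 0 ≤ ((4 * Real.exp x ^ 2 - 2 * Real.exp x * Real.cos y) * (dd x y + ρ) -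
      (2 * Real.exp x ^ 2 - 2 * Real.exp x * Real.cos y) *
        (2 * Real.exp x ^ 2 - 2 * Real.exp x * Real.cos y)) / (dd x y + ρ) ^ 2 +
      (2 * Real.exp x * Real.cos y * (dd x y + ρ) -
        2 * Real.exp x * Real.sin y * (2 * Real.exp x * Real.sin y)) / (dd x y + ρ) ^ 2 := by
    rw [← add_div, key]; positivity
  have k3 := mul_nonneg (p1 (UU ρ x y)) k2
  have k4 := mul_nonneg (p2 (UU ρ x y)) (mul_self_nonneg
    ((2 * Real.exp x ^ 2 - 2 * Real.exp x * Real.cos y) / (dd x y + ρ) + 100))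
  have k5 := mul_nonneg (p2 (UU ρ x y)) (mul_self_nonneg
    ((2 * Real.exp x * Real.sin y) / (dd x y + ρ)))
  linarith

theorem one_le_u {ρ : ℝ} (hρ : 0 < ρ) {s : ℂ} (h1 : 1 / 64 < d s) (h2 : d s < 1 / 16) :
    1 ≤ u ρ s := by
  unfold u UU
  unfold d at h1 h2
  set x := s.re + 99
  have h3 := dd_ge x s.im
  have h4 : 3 / 4 < Real.exp x := by nlinarith
  have h5 : -(1 / 3) ≤ x := by
    have h6 := Real.add_one_le_exp (-x)
    rw [Real.exp_neg] at h6
    have h7 : (Real.exp x)⁻¹ ≤ 4 / 3 := by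
      rw [inv_le_comm₀ (Real.exp_pos x) (by norm_num)]; linarith
    linarith
  have h6 : -6 ≤ Real.log (dd x s.im + ρ) := by
    have h7 : Real.log (1 / 64) ≤ Real.log (dd x s.im + ρ) :=
      Real.log_le_log (by norm_num) (by linarith)
    have h8 : Real.log (1 / 64) = -(6 * Real.log 2) := by
      rw [show (1 / 64 : ℝ) = (2 ^ 6)⁻¹ by norm_num, Real.log_inv, Real.log_pow]; norm_num
    have h9 := Real.log_two_lt_d9
    linarith
  linarith

open Classical in
noncomputable def G (ρ : ℝ) (s : ℂ) : ℝ := if d s < 1 / 32 then u ρ s - (1 - bb 1) else bb (u ρ s)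

theorem G_local {ρ : ℝ} (hρ : 0 < ρ) (s : ℂ) :
    (G ρ =ᶠ[𝓝 s] fun s => u ρ s - (1 - bb 1)) ∨ (G ρ =ᶠ[𝓝 s] fun s => bb (u ρ s)) := by
  by_cases h : d s < 1 / 16
  · left
    filter_upwards [contDiff_d.continuous.continuousAt.eventually_lt continuousAt_const h] with z hz
    unfold G
    split_ifs with h1
    · rfl
    · exact bb_of_one_le (one_le_u hρ (by linarith) hz)
  · right
    filter_upwards [continuousAt_const.eventually_lt contDiff_d.continuous.continuousAt
      (show 1 / 64 < d s by linarith)] with z hz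
    unfold G
    split_ifs with h1
    · exact (bb_of_one_le (one_le_u hρ hz (by linarith))).symm
    · rfl

theorem contDiff_G {ρ : ℝ} (hρ : 0 < ρ) : ContDiff ℝ ∞ (G ρ) := by
  rw [contDiff_iff_contDiffAt]
  intro s
  rcases G_local hρ s with h | h
  · exact ((contDiff_u hρ).sub contDiff_const).contDiffAt.congr_of_eventuallyEq h
  · exact (contDiff_bb.comp (contDiff_u hρ)).contDiffAt.congr_of_eventuallyEq h

theorem G_zero {ρ : ℝ} (hρ : 0 < ρ) (hρ1 : ρ ≤ 1) {s : ℂ} (hs : s.re ≤ -100) : G ρ s = 0 := by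
  have h1 : Real.exp (s.re + 99) ≤ 1 / 2 := by
    have h2 : Real.exp (s.re + 99) ≤ Real.exp (-1) := Real.exp_le_exp.2 (by linarith)
    have h3 := Real.exp_neg_one_lt_d9
    linarith
  have h2 := Real.exp_pos (s.re + 99)
  have h3 := dd_ge (s.re + 99) s.im
  have h4 := dd_le (s.re + 99) s.im
  have h5 := dd_nonneg (s.re + 99) s.im
  unfold G
  rw [if_neg (by unfold d; nlinarith)]
  apply bb_of_nonpos
  unfold u UU
  have h6 := Real.log_le_sub_one_of_pos (show 0 < dd (s.re + 99) s.im + ρ by linarith)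
  nlinarith

theorem G_le {ρ : ℝ} (hρ : 0 < ρ) (hρ1 : ρ ≤ 1) {s : ℂ} (hs : s.re ≤ 0) :
    G ρ s ≤ (Real.exp 99 + 1) ^ 2 + 10000 := by
  have h1 : u ρ s ≤ (Real.exp 99 + 1) ^ 2 + 10000 := by
    have h2 : Real.exp (s.re + 99) ≤ Real.exp 99 := Real.exp_le_exp.2 (by linarith)
    have h3 : (Real.exp (s.re + 99) + 1) ^ 2 ≤ (Real.exp 99 + 1) ^ 2 := by gcongr
    have h4 := dd_le (s.re + 99) s.im
    have h5 := dd_nonneg (s.re + 99) s.im
    have h6 := Real.log_le_sub_one_of_pos (show 0 < dd (s.re + 99) s.im + ρ by linarith)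
    unfold u UU
    linarith
  unfold G
  split_ifs
  · linarith [bb_le (y := 1) zero_le_one]
  · exact (monotone_bb h1).trans (bb_le (by positivity))

theorem G_per (ρ : ℝ) (k : ℤ) (s : ℂ) : G ρ (s + 2 * Real.pi * k * I) = G ρ s := by
  have h1 : (s + 2 * Real.pi * k * I).re = s.re := by simp
  have h2 : (s + 2 * Real.pi * k * I).im = s.im + k * (2 * Real.pi) := by simp; ring
  unfold G u d UU dd
  rw [h1, h2, Real.cos_add_int_mul_two_pi]

theorem G_der {ρ : ℝ} (hρ : 0 < ρ) (hρ1 : ρ ≤ 1) :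
    ∃ CG, 1 ≤ CG ∧ ∀ j, j ≤ 4 → ∀ s : ℂ, s.re ≤ 0 → ‖iteratedFDeriv ℝ j (G ρ) s‖ ≤ CG := by
  have hc : Continuous fun s => ∑ j ∈ Finset.range 5, ‖iteratedFDeriv ℝ j (G ρ) s‖ :=
    continuous_finsetSum _ fun j _ =>
      ((contDiff_G hρ).continuous_iteratedFDeriv (by exact_mod_cast le_top)).norm
  obtain ⟨C, hC⟩ := (isCompact_closedBall (0 : ℂ) 200).exists_bound_of_continuousOn hc.continuousOn
  refine ⟨max 1 C, le_max_left _ _, fun j hj s hs => ?_⟩
  by_cases h : s.re < -100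
  · have h1 : G ρ =ᶠ[𝓝 s] fun _ => 0 := by
      filter_upwards [Complex.continuous_re.continuousAt.eventually_lt continuousAt_const h]
        with z hz
      exact G_zero hρ hρ1 hz.le
    rw [(h1.iteratedFDeriv ℝ j).self_of_nhds, iteratedFDeriv_fun_zero]
    simp
  · have hpi := Real.two_pi_pos
    set k : ℤ := -⌊s.im / (2 * Real.pi)⌋ with hk
    have h1 : iteratedFDeriv ℝ j (G ρ) s = iteratedFDeriv ℝ j (G ρ) (s + 2 * Real.pi * k * I) := by
      rw [← iteratedFDeriv_comp_add_right]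
      simp only [G_per]
    rw [h1]
    have h2 : s + 2 * Real.pi * k * I ∈ Metric.closedBall (0 : ℂ) 200 := by
      rw [mem_closedBall_zero_iff]
      refine (Complex.norm_le_abs_re_add_abs_im _).trans ?_
      have e1 : (s + 2 * Real.pi * k * I).re = s.re := by simp
      have e2 : (s + 2 * Real.pi * k * I).im = s.im + k * (2 * Real.pi) := by simp; ring
      rw [e1, e2]
      have e3 : |s.re| ≤ 100 := abs_le.2 ⟨by linarith, by linarith⟩
      have e4 := Int.floor_le (s.im / (2 * Real.pi))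
      have e5 := Int.lt_floor_add_one (s.im / (2 * Real.pi))
      rw [le_div_iff₀ hpi] at e4
      rw [div_lt_iff₀ hpi] at e5
      have e6 := Real.pi_le_four
      have e7 : |s.im + k * (2 * Real.pi)| ≤ 100 := by
        rw [hk]; push_cast
        exact abs_le.2 ⟨by linarith, by linarith⟩
      linarith
    have h3 := hC _ h2
    rw [Real.norm_eq_abs] at h3
    refine le_trans ?_ ((le_abs_self _).trans (h3.trans (le_max_right _ _)))
    exact Finset.single_le_sum (f := fun j => ‖iteratedFDeriv ℝ j (G ρ) (s + 2 * Real.pi * k * I)‖)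
      (fun _ _ => norm_nonneg _) (Finset.mem_range.2 (by omega))

end GfunAux
open GfunAux in

/-- Let `ζ = exp (s + 99)`, `u s = log (‖ζ - 1‖² + r²) + 100 (re s + 99 + 1/2)` (`0 < r ≤ 1`),
`c₀ = 1 - bb 1 ∈ [0,1]`, and `G s = if ‖ζ - 1‖ < 1/4 then u s - c₀ else bb (u s)`.
* If `1/8 < ‖ζ - 1‖ < 1/3` then `‖ζ‖ ≥ 2/3`, `re s + 99 = log ‖ζ‖ ≥ -0.41`, `u ≥ log (1/64) + 9 ≥ 1`,
  so `bb u = u - c₀` (`bb_of_one_le`): near every point `G` equals `u - c₀` or `bb ∘ u`; smooth.
* Laplacian: with `w = ζ - 1` (holomorphic in `s`, `w' = ζ`),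
  `Δ u = 4 r² ‖ζ‖² / (‖w‖² + r²)² ≥ 0`; `Δ (bb ∘ u) = bb'(u) Δ u + bb''(u) ‖∇u‖² ≥ 0`
  (`smoothTransition` is `≥ 0` and monotone). It is easiest to compute second derivatives along
  the real lines `t ↦ s + t`, `t ↦ s + t I` (`iteratedFDeriv_two_apply`).
* `re s ≤ -100`: `‖ζ‖ ≤ e⁻¹ < 1/2`, `u ≤ log 5 - 50 < 0`, `G = 0`.
* `re s ≤ 0`: `G ≤ max u 0 ≤ C0 := log ((e^99 + 1)² + 1) + 100 * 100`, independent of `r`.
* wells: `ζ = 1`, `G = log r² + 50 - c₀ ≤ -L` for small `r`.
* `G (s + 2πI) = G s`, so the iterated derivatives are periodic (`iteratedFDeriv_comp_add_right`),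
  continuous, zero for `re s < -100`, hence bounded on `re s ≤ 0` by compactness of
  `[-101, 0] × [0, 2π]`. -/
theorem exists_G : ∃ C0 : ℝ, ∀ L : ℝ, ∃ G CG, GOK G C0 L CG := by
  refine ⟨(Real.exp 99 + 1) ^ 2 + 10000, fun L => ?_⟩
  set ρ := Real.exp (-(|L| + 50)) with hρ
  have h0 : 0 < ρ := Real.exp_pos _
  have h1 : ρ ≤ 1 := Real.exp_le_one_iff.2 (by have := abs_nonneg L; linarith)
  obtain ⟨CG, h2, h3⟩ := G_der h0 h1
  refine ⟨G ρ, CG, contDiff_G h0, fun s hs => G_zero h0 h1 hs, by positivity,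
    fun s hs => G_le h0 h1 hs, fun k => ?_, fun s => ?_, h2, fun j _ hj => h3 j hj⟩
  · rw [G_per]
    have e1 : d (-99) = 0 := by simp [d, dd]; norm_num
    have e2 : u ρ (-99) = -|L| := by
      have : dd 0 0 = 0 := by simp [dd]; norm_num
      simp [u, GfunAux.UU, this, hρ]; ring
    unfold G
    rw [if_pos (by rw [e1]; norm_num), e2]
    linarith [bb_le (y := 1) zero_le_one, le_abs_self L]
  · rcases G_local h0 s with h | h
    · rw [(h.iteratedFDeriv ℝ 2).self_of_nhds]
      exact subh h0 (H := fun y => y - (1 - bb 1)) (h1 := fun _ => 1) (h2 := fun _ => 0)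
        (by fun_prop) (fun y => (hasDerivAt_id y).sub_const _) (fun y => hasDerivAt_const _ _)
        (fun _ => zero_le_one) (fun _ => le_rfl) s
    · rw [(h.iteratedFDeriv ℝ 2).self_of_nhds]
      exact subh h0 (H := bb) (h1 := Real.smoothTransition) (h2 := deriv Real.smoothTransition)
        contDiff_bb hasDerivAt_bb
        (fun y => ((Real.smoothTransition.contDiff (n := 1)).differentiable (by simp) y).hasDerivAt)
        Real.smoothTransition.nonneg (fun y => Real.smoothTransition.monotone.deriv_nonneg) s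

end Crest.Agent.R245
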