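import Crest.Agent.R245.ParDef
import Crest.Agent.R245.Chain
import Crest.Agent.R245.NuI

/-!
# R245 Global1: the domain `UU` is open; local form of the potential (TASK)

`C₀ = Cyl`, `C₁ = rot ⁻¹' Cyl`, `C₂ = (rot ∘ rot) ⁻¹' Cyl` are open and pairwise disjoint.
-/

set_option autoImplicit false
open scoped ComplexConjugate ContDiff Topology
open Complex (I)
open Filter

namespace Crest.Agent.R245

variable {Φ0 a φ : E → ℝ}

namespace Global1Aux

theorem contDiff_sq (i : Fin 3) : ContDiff ℝ ∞ fun z : E => ‖z i‖ ^ 2 :=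
  ContDiff.norm_sq ℂ (contDiff_apply ℝ ℂ i)

/-- the defining function of `UU` -/
noncomputable def DF (φ : E → ℝ) (z : E) : ℝ :=
  ‖z 2‖ ^ 2 * Real.exp (chi φ z) + ‖z 0‖ ^ 2 * Real.exp (chi φ (rot z)) +
    ‖z 1‖ ^ 2 * Real.exp (chi φ (rot (rot z)))

theorem DF_rot (z : E) : DF φ (rot z) = DF φ z := by
  simp only [DF, rot_rot_rot, rot_zero, rot_one, rot_two]
  ring

theorem chi_of_not {z : E} (hz : z ∉ Cyl) : chi φ z = 0 := if_neg hz

theorem chi_of_mem {z : E} (hz : z ∈ Cyl) : chi φ z = φ z - phi0 z := if_pos hz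

theorem exp_phi0 {z : E} (hz : 0 < rho z) : Real.exp (phi0 z) = (rho z)⁻¹ := by
  rw [phi0, Real.exp_neg, Real.exp_log hz]

theorem sq_gt {w : ℂ} (h : 0 < w.re - 4 / 5) : 16 / 25 < ‖w‖ ^ 2 := by
  have h1 := Complex.re_le_norm w
  nlinarith

/-- squared norm in `ℂ³` -/
noncomputable def N3 (z : E) : ℝ := ‖z 0‖ ^ 2 + ‖z 1‖ ^ 2 + ‖z 2‖ ^ 2

theorem N3_rot (z : E) : N3 (rot z) = N3 z := by
  simp only [N3, rot_zero, rot_one, rot_two]
  ring

theorem rho_eq (z : E) : rho z = 1 - N3 z + ‖z 2‖ ^ 2 := by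
  simp only [rho, nsq, N3]
  ring

theorem rho_pos {z : E} (hz : N3 z < 1) : 0 < rho z := by
  rw [rho_eq]
  nlinarith [sq_nonneg ‖z 2‖]

theorem rho_mul {z : E} (hz : N3 z < 1) (h : φ z = phi0 z) :
    rho z * (1 - sF φ z) = 1 - N3 z := by
  have h0 := rho_pos hz
  rw [sF, h, exp_phi0 h0, mul_sub, mul_one, mul_left_comm, mul_inv_cancel₀ h0.ne', rho_eq]
  ring

theorem sF_lt {z : E} (hz : N3 z < 1) (h : φ z = phi0 z) : sF φ z < 1 := by
  have h0 := rho_pos hz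
  have h1 := rho_mul hz h
  have : 0 < rho z * (1 - sF φ z) := by rw [h1]; linarith
  have := (pos_iff_pos_of_mul_pos this).1 h0
  linarith

theorem Phil_quiet {z : E} (hz : N3 z < 1) (h : Φ0 z = phi0 z ∧ a z = 1 ∧ φ z = phi0 z) :
    Phil Φ0 a φ z = -Real.log (1 - N3 z) := by
  have h0 := rho_pos hz
  have h1 := sF_lt hz h.2.2
  rw [← rho_mul hz h.2.2, Real.log_mul h0.ne' (by linarith), Phil, h.1, h.2.1, phi0]
  ring

theorem continuous_N3 : Continuous N3 :=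
  ((contDiff_sq 0).continuous.add (contDiff_sq 1).continuous).add (contDiff_sq 2).continuous

theorem contDiffAt_sF (h : BaseOK Φ0 a φ) {p : E} (hp : 0 < rho p) : ContDiffAt ℝ ∞ (sF φ) p :=
  (contDiff_sq 2).contDiffAt.mul (h.smφ p hp).exp

end Global1Aux

open Global1Aux

theorem isOpen_Cyl : IsOpen Cyl := by
  exact (isOpen_lt continuous_const contDiff_xx.continuous).inter
    (isOpen_lt continuous_const contDiff_rho.continuous)

/-- `re (z 0) > 4/5`, `re (z 1) > 4/5` contradict `‖z 0‖² + ‖z 1‖² < 1` -/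
theorem not_rot_mem_Cyl {z : E} (hz : z ∈ Cyl) : rot z ∉ Cyl := by
  intro h
  have h1 := sq_gt hz.1
  have h2 : 16 / 25 < ‖z 1‖ ^ 2 := sq_gt h.1
  have h3 := hz.2
  unfold rho nsq at h3
  linarith

theorem not_rot_rot_mem_Cyl {z : E} (hz : z ∈ Cyl) : rot (rot z) ∉ Cyl := by
  intro h
  exact not_rot_mem_Cyl h (by rwa [rot_rot_rot])

theorem Global1Aux.DF_Cyl {z : E} (hz : z ∈ Cyl) : 1 - DF φ z = rho z * (1 - sF φ z) := by
  rw [DF, chi_of_mem hz, chi_of_not (not_rot_mem_Cyl hz), chi_of_not (not_rot_rot_mem_Cyl hz),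
    Real.exp_sub, exp_phi0 hz.2, Real.exp_zero, sF, div_inv_eq_mul, mul_sub, mul_one]
  nth_rewrite 2 [rho]
  unfold nsq
  ring

theorem Global1Aux.DF_not {z : E} (h0 : z ∉ Cyl) (h1 : rot z ∉ Cyl) (h2 : rot (rot z) ∉ Cyl) :
    DF φ z = N3 z := by
  rw [DF, chi_of_not h0, chi_of_not h1, chi_of_not h2, Real.exp_zero, N3]
  ring

theorem isOpen_Dom (h : BaseOK Φ0 a φ) : IsOpen (Dom φ) := by
  refine isOpen_iff_mem_nhds.2 fun p hp => ?_
  have h1 : ∀ᶠ z in 𝓝 p, 0 < rho z :=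
    (isOpen_lt continuous_const contDiff_rho.continuous).mem_nhds hp.1
  have h2 : ∀ᶠ z in 𝓝 p, sF φ z < 1 :=
    (contDiffAt_sF h hp.1).continuousAt.eventually_lt continuousAt_const hp.2
  exact h1.and h2

theorem rot_mem_UU {z : E} : rot z ∈ UU φ ↔ z ∈ UU φ := by
  change DF φ (rot z) < 1 ↔ DF φ z < 1
  rw [DF_rot]

/-- `exp (chi φ z) = exp (φ z) * rho z` on `Cyl`, the other two `chi` vanish -/
theorem mem_UU_of_Cyl {z : E} (hz : z ∈ Cyl) : z ∈ UU φ ↔ sF φ z < 1 := by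
  change DF φ z < 1 ↔ _
  have h1 := DF_Cyl (φ := φ) hz
  have h2 := hz.2
  constructor
  · intro h
    have h3 : 0 < rho z * (1 - sF φ z) := by linarith
    have := (pos_iff_pos_of_mul_pos h3).1 h2
    linarith
  · intro h
    have := mul_pos h2 (sub_pos.2 h)
    linarith

theorem mem_UU_of_not {z : E} (h0 : z ∉ Cyl) (h1 : rot z ∉ Cyl) (h2 : rot (rot z) ∉ Cyl) :
    z ∈ UU φ ↔ ‖z 0‖ ^ 2 + ‖z 1‖ ^ 2 + ‖z 2‖ ^ 2 < 1 := by
  change DF φ z < 1 ↔ N3 z < 1
  rw [DF_not h0 h1 h2]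

/-- `chi` is smooth where `rho > 0`: on `Cyl` by `smφ`, at points with `xx ≤ 0` it vanishes nearby
(`quiet`) -/
theorem contDiffAt_chi (h : BaseOK Φ0 a φ) {p : E} (hp : 0 < rho p) :
    ContDiffAt ℝ ∞ (chi φ) p := by
  by_cases hx : 0 < xx p
  · refine ((h.smφ p hp).sub (contDiffAt_phi0 hp)).congr_of_eventuallyEq ?_
    filter_upwards [isOpen_Cyl.mem_nhds (show p ∈ Cyl from ⟨hx, hp⟩)] with z hz
    exact chi_of_mem hz
  · refine (contDiffAt_const (c := (0 : ℝ))).congr_of_eventuallyEq ?_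
    filter_upwards [h.quiet p hp (not_lt.1 hx)] with z hz
    by_cases hc : z ∈ Cyl
    · rw [chi_of_mem hc, hz.2.2, sub_self]
    · exact chi_of_not hc

/-- If `rho p ≤ 0` then `rot p ∈ Cyl` or `rot (rot p) ∈ Cyl` (otherwise `p ∉ UU`), an open condition
that forces `chi = 0`. -/
theorem contDiffAt_chi_of_mem (h : BaseOK Φ0 a φ) {p : E} (hp : p ∈ UU φ) :
    ContDiffAt ℝ ∞ (chi φ) p := by
  by_cases h1 : rot p ∈ Cyl
  · refine (contDiffAt_const (c := (0 : ℝ))).congr_of_eventuallyEq ?_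
    filter_upwards [(isOpen_Cyl.preimage rot.continuous).mem_nhds h1] with z hz
    exact chi_of_not fun hc => not_rot_mem_Cyl hc hz
  by_cases h2 : rot (rot p) ∈ Cyl
  · refine (contDiffAt_const (c := (0 : ℝ))).congr_of_eventuallyEq ?_
    filter_upwards [(isOpen_Cyl.preimage (rot.continuous.comp rot.continuous)).mem_nhds h2]
      with z hz
    exact chi_of_not fun hc => not_rot_rot_mem_Cyl hc hz
  by_cases h0 : p ∈ Cyl
  · exact contDiffAt_chi h h0.2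
  · exact contDiffAt_chi h (rho_pos ((mem_UU_of_not h0 h1 h2).1 hp))

/-- the defining function is continuous at every point of `UU φ` -/
theorem isOpen_UU (h : BaseOK Φ0 a φ) : IsOpen (UU φ) := by
  refine isOpen_iff_mem_nhds.2 fun p hp => ?_
  have h0 := (contDiffAt_chi_of_mem h hp).continuousAt
  have h1 : ContinuousAt (fun z => chi φ (rot z)) p :=
    (contDiffAt_chi_of_mem h (rot_mem_UU.2 hp)).continuousAt.comp rot.continuous.continuousAt
  have h2 : ContinuousAt (fun z => chi φ (rot (rot z))) p :=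
    ContinuousAt.comp (f := fun z => rot (rot z))
      (contDiffAt_chi_of_mem h (rot_mem_UU.2 (rot_mem_UU.2 hp))).continuousAt
      (rot.continuous.comp rot.continuous).continuousAt
  have h3 : ContinuousAt (DF φ) p :=
    (((contDiff_sq 2).continuous.continuousAt.mul h0.rexp).add
      ((contDiff_sq 0).continuous.continuousAt.mul h1.rexp)).add
      ((contDiff_sq 1).continuous.continuousAt.mul h2.rexp)
  exact h3.eventually_lt continuousAt_const hp

theorem PhiG_eq_of_Cyl {p : E} (hp : p ∈ Cyl) : PhiG Φ0 a φ =ᶠ[𝓝 p] Phil Φ0 a φ := by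
  filter_upwards [isOpen_Cyl.mem_nhds hp] with z hz
  rw [PhiG, if_neg (not_rot_mem_Cyl hz), if_neg (not_rot_rot_mem_Cyl hz)]

/-- If `Φ0 z = phi0 z`, `a z = 1`, `φ z = phi0 z` and `|z| < 1` then
`Phil z = -log (1 - ‖z 0‖² - ‖z 1‖² - ‖z 2‖²)`, a `rot`-invariant expression. For `p` in one of the
three cylinders take `L = id, rot, rot ∘ rot`. Otherwise `p` is in the unit ball, `p, rot p, rot rot p`
have `rho > 0`, `xx ≤ 0`, so near `p` all three branches of `PhiG` equal that expression; `L = id`.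
The last two conjuncts record the value used for properness. -/
theorem local_form (h : BaseOK Φ0 a φ) {p : E} (hp : p ∈ UU φ) :
    ∃ L : E ≃L[ℂ] E, L p ∈ Dom φ ∧ PhiG Φ0 a φ =ᶠ[𝓝 p] (fun z => Phil Φ0 a φ (L z)) ∧
      1 - (‖p 2‖ ^ 2 * Real.exp (chi φ p) + ‖p 0‖ ^ 2 * Real.exp (chi φ (rot p)) +
        ‖p 1‖ ^ 2 * Real.exp (chi φ (rot (rot p)))) = rho (L p) * (1 - sF φ (L p)) := by
  change ∃ L : E ≃L[ℂ] E, L p ∈ Dom φ ∧ PhiG Φ0 a φ =ᶠ[𝓝 p] (fun z => Phil Φ0 a φ (L z)) ∧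
      1 - DF φ p = rho (L p) * (1 - sF φ (L p))
  by_cases h0 : p ∈ Cyl
  · exact ⟨ContinuousLinearEquiv.refl ℂ E, ⟨h0.2, (mem_UU_of_Cyl h0).1 hp⟩, PhiG_eq_of_Cyl h0,
      DF_Cyl h0⟩
  by_cases h1 : rot p ∈ Cyl
  · refine ⟨rot, ⟨h1.2, (mem_UU_of_Cyl h1).1 (rot_mem_UU.2 hp)⟩, ?_, ?_⟩
    · filter_upwards [(isOpen_Cyl.preimage rot.continuous).mem_nhds h1] with z hz
      exact if_pos hz
    · rw [← DF_rot]
      exact DF_Cyl h1
  by_cases h2 : rot (rot p) ∈ Cyl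
  · refine ⟨rot.trans rot, ⟨h2.2, (mem_UU_of_Cyl h2).1 (rot_mem_UU.2 (rot_mem_UU.2 hp))⟩, ?_, ?_⟩
    · filter_upwards [(isOpen_Cyl.preimage (rot.continuous.comp rot.continuous)).mem_nhds h2]
        with z hz
      have hz' : rot (rot z) ∈ Cyl := hz
      have h3 : rot z ∉ Cyl := fun hc => not_rot_mem_Cyl hc hz'
      rw [PhiG, if_neg h3, if_pos hz']
      rfl
    · rw [← DF_rot, ← DF_rot]
      exact DF_Cyl h2
  have hN : N3 p < 1 := (mem_UU_of_not h0 h1 h2).1 hp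
  have hq : ∀ q : E, q ∉ Cyl → N3 q < 1 → ∀ᶠ z in 𝓝 q, Φ0 z = phi0 z ∧ a z = 1 ∧ φ z = phi0 z :=
    fun q hq hN => h.quiet q (rho_pos hN) (not_lt.1 fun hx => hq ⟨hx, rho_pos hN⟩)
  have q0 := hq p h0 hN
  have q1 := rot.continuous.continuousAt.eventually (hq _ h1 (by rwa [N3_rot]))
  have q2 := (rot.continuous.comp rot.continuous).continuousAt.eventually
    (hq (rot (rot p)) h2 (by rwa [N3_rot, N3_rot]))
  have q3 : ∀ᶠ z in 𝓝 p, N3 z < 1 := (isOpen_lt continuous_N3 continuous_const).mem_nhds hN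
  have hφ := q0.self_of_nhds.2.2
  refine ⟨ContinuousLinearEquiv.refl ℂ E, ⟨rho_pos hN, sF_lt hN hφ⟩, ?_, ?_⟩
  · filter_upwards [q0, q1, q2, q3] with z z0 z1 z2 z3
    change PhiG Φ0 a φ z = Phil Φ0 a φ z
    unfold PhiG
    split_ifs
    · rw [Phil_quiet z3 z0, Phil_quiet (by rwa [N3_rot]) z1, N3_rot]
    · rw [Phil_quiet z3 z0, Phil_quiet (z := rot (rot z)) (by rwa [N3_rot, N3_rot]) z2, N3_rot,
        N3_rot]
    · rfl
  · rw [DF_not h0 h1 h2]
    exact (rho_mul hN hφ).symm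

theorem contDiffAt_Phil (h : BaseOK Φ0 a φ) {p : E} (hp : p ∈ Dom φ) :
    ContDiffAt ℝ ∞ (Phil Φ0 a φ) p := by
  exact (h.sm0 p hp.1).sub ((h.sma p hp.1).mul
    ((contDiffAt_const.sub (contDiffAt_sF h hp.1)).log (sub_pos.2 hp.2).ne'))

theorem contDiffAt_PhiG (h : BaseOK Φ0 a φ) {p : E} (hp : p ∈ UU φ) :
    ContDiffAt ℝ ∞ (PhiG Φ0 a φ) p := by
  obtain ⟨L, h1, h2, -⟩ := local_form h hp
  refine ContDiffAt.congr_of_eventuallyEq ?_ h2
  exact (contDiffAt_Phil h h1).comp p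
    ((L : E →L[ℂ] E).restrictScalars ℝ).contDiff.contDiffAt

end Crest.Agent.R245
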