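import Crest.Agent.R245.Basic

/-!
# R245 JetAlg: linear algebra of Hermitian forms and jets
Pure finite dimensional algebra, no analysis. All proofs are in the docstrings.
-/

set_option autoImplicit false
open scoped ComplexConjugate ContDiff Topology
open Complex (I)
open Filter

namespace Crest.Agent.R245

theorem nuF_nonneg (k : Form) (A : E) : 0 ≤ nuF k A := Real.sqrt_nonneg _

theorem nuF_sq {k : Form} (hk : PSD k) (A : E) : nuF k A ^ 2 = (k A A).re :=
  Real.sq_sqrt (hk A)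

/-- `k (c•A) (c•A) = c * conj c * k A A`. -/
theorem nuF_smul (k : Form) (c : ℂ) (A : E) : nuF k (c • A) = ‖c‖ * nuF k A := by
  have h : k (c • A) (c • A) = ((‖c‖ ^ 2 : ℝ) : ℂ) * k A A := by
    rw [← Complex.normSq_eq_norm_sq, ← Complex.mul_conj]
    simp only [map_smul, LinearMap.smul_apply, LinearMap.map_smulₛₗ, smul_eq_mul]
    ring
  rw [nuF, nuF, h, Complex.re_ofReal_mul, Real.sqrt_mul (sq_nonneg _),
    Real.sqrt_sq (norm_nonneg _)]

theorem nuF_I (k : Form) (A : E) : nuF k (I • A) = nuF k A := by simp [nuF_smul]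

theorem Herm.im_self {k : Form} (hk : Herm k) (A : E) : (k A A).im = 0 := by
  exact Complex.conj_eq_iff_im.1 (hk A A)

namespace JetAlgAux

theorem re_expand {k : Form} (hk : Herm k) (A B : E) (c : ℂ) :
    (k (A + c • B) (A + c • B)).re =
      (k A A).re + 2 * (conj c * k A B).re + ‖c‖ ^ 2 * (k B B).re := by
  have h : k (A + c • B) (A + c • B) =
      k A A + (conj c * k A B + conj (conj c * k A B)) + ((‖c‖ ^ 2 : ℝ) : ℂ) * k B B := by
    rw [← Complex.normSq_eq_norm_sq, ← Complex.mul_conj, map_mul, Complex.conj_conj, hk A B]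
    simp only [map_add, map_smul, LinearMap.add_apply, LinearMap.smul_apply, LinearMap.map_smulₛₗ,
      smul_eq_mul]
    ring
  rw [h, Complex.add_re, Complex.add_re, Complex.add_re, Complex.conj_re, Complex.re_ofReal_mul]
  ring

theorem re_expand_phase {k : Form} (hk : Herm k) (A B : E) (t : ℝ) :
    (k (A + ((t : ℂ) * k A B) • B) (A + ((t : ℂ) * k A B) • B)).re =
      (k A A).re + 2 * (t * ‖k A B‖ ^ 2) + t ^ 2 * ‖k A B‖ ^ 2 * (k B B).re := by
  have e : conj ((t : ℂ) * k A B) * k A B = ((t * ‖k A B‖ ^ 2 : ℝ) : ℂ) := by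
    rw [map_mul, Complex.conj_ofReal, mul_assoc, mul_comm (conj _), Complex.mul_conj,
      Complex.normSq_eq_norm_sq]
    push_cast
    ring
  rw [re_expand hk, e, Complex.ofReal_re, norm_mul, mul_pow, Complex.norm_real, Real.norm_eq_abs,
    sq_abs]

theorem sq_le_of_quad {x p a c : ℝ} (hp : 0 ≤ p) (h : discrim a (2 * x) c ≤ 0)
    (e : a * c = x * p) : x ≤ p := by
  rw [discrim, mul_assoc, e] at h
  by_contra hlt
  have hlt' : p < x := not_le.1 hlt
  nlinarith

theorem shear_right (k : Form) (X Y Z : E) (t : ℝ) :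
    k Z (Y + (t : ℂ) • X) = k Z Y + t * k Z X := by
  rw [map_add, LinearMap.map_smulₛₗ, Complex.conj_ofReal, smul_eq_mul]

theorem nuF_le_of_dual {k : Form} (hp : PSD k) {v : E} {c : ℝ} (hc : 0 ≤ c)
    (h : ∀ B, ‖k v B‖ ≤ c * nuF k B) : nuF k v ≤ c := by
  have h1 := (Complex.re_le_norm _).trans (h v)
  rw [← nuF_sq hp] at h1
  have h2 := nuF_nonneg k v
  by_contra hlt
  have hlt' : c < nuF k v := not_le.1 hlt
  nlinarith

end JetAlgAux

/-- Cauchy–Schwarz for a positive semidefinite Hermitian form: expand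
`0 ≤ re k (A - t u • B) (A - t u • B)` with `u` a phase, discriminant (`discrim_le_zero`). -/
theorem norm_form_le {k : Form} (hk : Herm k) (hp : PSD k) (A B : E) :
    ‖k A B‖ ≤ nuF k A * nuF k B := by
  have h : ∀ t : ℝ, 0 ≤ (‖k A B‖ ^ 2 * (k B B).re) * (t * t) + (2 * ‖k A B‖ ^ 2) * t +
      (k A A).re := by
    intro t
    have h1 := hp (A + ((t : ℂ) * k A B) • B)
    rw [JetAlgAux.re_expand_phase hk] at h1
    linarith
  have h2 := JetAlgAux.sq_le_of_quad (mul_nonneg (hp A) (hp B))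
    (discrim_le_zero h) (by ring)
  rw [nuF, nuF, ← Real.sqrt_mul (hp A)]
  exact Real.le_sqrt_of_sq_le h2

theorem nuF_add_le {k : Form} (hk : Herm k) (hp : PSD k) (A B : E) :
    nuF k (A + B) ≤ nuF k A + nuF k B := by
  have h1 := JetAlgAux.re_expand hk A B 1
  simp only [one_smul, map_one, one_mul, norm_one, one_pow] at h1
  have h2 : (k A B).re ≤ nuF k A * nuF k B :=
    (Complex.re_le_norm _).trans (norm_form_le hk hp A B)
  refine (abs_le_of_sq_le_sq' ?_ (add_nonneg (nuF_nonneg k A) (nuF_nonneg k B))).2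
  rw [nuF_sq hp, h1, ← nuF_sq hp A, ← nuF_sq hp B]
  nlinarith

theorem PD.psd {k : Form} (hk : PD k) : PSD k := by
  intro A
  by_cases h : A = 0
  · simp [h]
  · exact (hk A h).le

/-- the Gram determinant is invariant under the shear `Y ↦ Y + t X`, `t` real -/
theorem DD_shear {k : Form} (hk : Herm k) (X Y : E) (t : ℝ) :
    DD k X (Y + (t : ℂ) • X) = DD k X Y := by
  have h1 := JetAlgAux.re_expand hk Y X t
  have h2 : (k Y X).re = (k X Y).re := by rw [← hk X Y, Complex.conj_re]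
  rw [Complex.conj_ofReal, Complex.re_ofReal_mul, Complex.norm_real, Real.norm_eq_abs, sq_abs,
    h2] at h1
  rw [DD, DD, h1, JetAlgAux.shear_right, Complex.add_re, Complex.re_ofReal_mul]
  ring

/-- `t = - re k X Y / re k X X`; if `re k X X = 0` then `k X Y = 0` by Cauchy–Schwarz. -/
theorem exists_shear {k : Form} (hk : Herm k) (hp : PSD k) (X Y : E) :
    ∃ t : ℝ, (k X (Y + (t : ℂ) • X)).re = 0 := by
  by_cases h : (k X X).re = 0
  · refine ⟨0, ?_⟩
    have h1 := norm_form_le hk hp X Y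
    rw [nuF, h, Real.sqrt_zero, zero_mul] at h1
    simp [norm_le_zero_iff.1 h1]
  · refine ⟨-(k X Y).re / (k X X).re, ?_⟩
    rw [JetAlgAux.shear_right, Complex.add_re, Complex.re_ofReal_mul]
    field_simp
    ring

/-- `re² + im² = ‖k X Y‖² ≤ k X X * k Y Y`. -/
theorem im_sq_le_DD {k : Form} (hk : Herm k) (hp : PSD k) (X Y : E) :
    (k X Y).im ^ 2 ≤ DD k X Y := by
  have h1 := norm_form_le hk hp X Y
  have h2 : ‖k X Y‖ ^ 2 ≤ (nuF k X * nuF k Y) ^ 2 := by gcongr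
  rw [mul_pow, nuF_sq hp, nuF_sq hp, Complex.sq_norm, Complex.normSq_apply] at h2
  rw [DD]
  nlinarith

theorem DD_nonneg {k : Form} (hk : Herm k) (hp : PSD k) (X Y : E) : 0 ≤ DD k X Y :=
  (sq_nonneg _).trans (im_sq_le_DD hk hp X Y)

/-- Monotonicity of the Gram determinant: shear so that `re k' X Y = 0`, then
`DD k X Y ≤ k X X * k Y Y ≤ c² k' X X * k' Y Y = c² DD k' X Y`. -/
theorem DD_mono {k k' : Form} (hk : Herm k) (hp : PSD k) (hk' : Herm k') (hp' : PSD k') {c : ℝ}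
    (hc : 0 ≤ c) (h : ∀ A, (k A A).re ≤ c * (k' A A).re) (X Y : E) :
    DD k X Y ≤ c ^ 2 * DD k' X Y := by
  obtain ⟨t, ht⟩ := exists_shear hk' hp' X Y
  rw [← DD_shear hk X Y t, ← DD_shear hk' X Y t]
  set Y' := Y + (t : ℂ) • X
  rw [DD, DD, ht]
  have h1 : (k X X).re * (k Y' Y').re ≤ (c * (k' X X).re) * (c * (k' Y' Y').re) :=
    mul_le_mul (h X) (h Y') (hp Y') (mul_nonneg hc (hp' X))
  nlinarith [sq_nonneg (k X Y').re]

/-- A Hermitian form with `|m A A| ≤ c k A A` has `‖m A B‖ ≤ c ν A ν B`. Proof: rotate `B` by a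
phase so that `m A B` is real `≥ 0`; polarisation
`4 re m A B = m (A+B) (A+B) - m (A-B) (A-B) ≤ c (k (A+B) + k (A-B)) = 2c (k A A + k B B)`; replace
`A, B` by `t A, B / t` and optimise (or: for all `t > 0`, `2 x ≤ c (t² a + b / t²)`). -/
theorem norm_le_of_abs_le {m k : Form} (hm : Herm m) (hk : Herm k) (hp : PSD k) {c : ℝ}
    (hc : 0 ≤ c) (h : ∀ A, |(m A A).re| ≤ c * (k A A).re) (A B : E) :
    ‖m A B‖ ≤ c * (nuF k A * nuF k B) := by
  have h0 : ∀ t : ℝ, 0 ≤ (‖m A B‖ ^ 2 * (c * (k B B).re)) * (t * t) + (2 * ‖m A B‖ ^ 2) * t +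
      c * (k A A).re := by
    intro t
    have h1 := (abs_le.1 (h (A + ((t : ℂ) * m A B) • B))).1
    have h2 := (abs_le.1 (h (A + (((-t : ℝ) : ℂ) * m A B) • B))).2
    rw [JetAlgAux.re_expand_phase hm, JetAlgAux.re_expand hk] at h1 h2
    have e1 : ‖(t : ℂ) * m A B‖ ^ 2 = t ^ 2 * ‖m A B‖ ^ 2 := by
      rw [norm_mul, mul_pow, Complex.norm_real, Real.norm_eq_abs, sq_abs]
    have e2 : ‖((-t : ℝ) : ℂ) * m A B‖ ^ 2 = t ^ 2 * ‖m A B‖ ^ 2 := by
      rw [norm_mul, mul_pow, Complex.norm_real, Real.norm_eq_abs, sq_abs, neg_sq]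
    have e3 : (conj (((-t : ℝ) : ℂ) * m A B) * k A B).re = -(conj ((t : ℂ) * m A B) * k A B).re := by
      rw [Complex.ofReal_neg, neg_mul, map_neg, neg_mul, Complex.neg_re]
    rw [e1] at h1
    rw [e2, e3] at h2
    nlinarith
  have h2 := JetAlgAux.sq_le_of_quad (p := (c * (k A A).re) * (c * (k B B).re))
    (mul_nonneg (mul_nonneg hc (hp A)) (mul_nonneg hc (hp B)))
    (discrim_le_zero h0) (by ring)
  refine (abs_le_of_sq_le_sq' ?_
    (mul_nonneg hc (mul_nonneg (nuF_nonneg k A) (nuF_nonneg k B)))).2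
  rw [mul_pow, mul_pow, nuF_sq hp, nuF_sq hp]
  linarith

/-- `im m X Y` is invariant under the shear (`m X X` is real); shear so that `re k X Y = 0` and
use `norm_le_of_abs_le`. -/
theorem abs_im_le_of_abs_le {m k : Form} (hm : Herm m) (hk : Herm k) (hp : PSD k) {c : ℝ}
    (hc : 0 ≤ c) (h : ∀ A, |(m A A).re| ≤ c * (k A A).re) (X Y : E) :
    |(m X Y).im| ≤ c * Real.sqrt (DD k X Y) := by
  obtain ⟨t, ht⟩ := exists_shear hk hp X Y
  have h1 : (m X Y).im = (m X (Y + (t : ℂ) • X)).im := by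
    rw [JetAlgAux.shear_right, Complex.add_im, Complex.im_ofReal_mul, hm.im_self, mul_zero,
      add_zero]
  rw [h1, ← DD_shear hk X Y t]
  set Y' := Y + (t : ℂ) • X
  refine (Complex.abs_im_le_norm _).trans ((norm_le_of_abs_le hm hk hp hc h X Y').trans_eq ?_)
  rw [DD, ht, nuF, nuF, ← Real.sqrt_mul (hp X)]
  simp

theorem dual_unique {k : Form} (hk : PD k) {v v' : E} (h : ∀ B, k v B = k v' B) : v = v' := by
  by_contra hne
  have h1 := hk (v - v') (sub_ne_zero.2 hne)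
  rw [map_sub k, LinearMap.sub_apply, h, sub_self] at h1
  simp at h1

/-- Riesz: the matrix `M i j = k (Pi.single j 1) (Pi.single i 1)` has injective `mulVec`
(`dual_unique`), hence surjective (`LinearMap.injective_iff_surjective` for
`Matrix.mulVecLin M` or directly for the linear map `v ↦ fun i => k v (Pi.single i 1)`); two
conjugate linear functionals agreeing on the basis agree. -/
theorem exists_dual {k : Form} (hk : PD k) (l : E →ₗ⋆[ℂ] ℂ) : ∃ v, ∀ B, k v B = l B := by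
  have hext : ∀ l l' : E →ₗ⋆[ℂ] ℂ, (∀ i, l (Pi.single i 1) = l' (Pi.single i 1)) →
      ∀ B, l B = l' B := by
    intro l l' h B
    have hB : B = ∑ i, B i • (Pi.single i 1 : E) := by
      funext j
      simp [Finset.sum_apply, Pi.single_apply]
    rw [hB]
    simp only [map_sum, LinearMap.map_smulₛₗ, h]
  let φ : E →ₗ[ℂ] E :=
    { toFun := fun v i => k v (Pi.single i 1)
      map_add' := fun v v' => by funext i; simp
      map_smul' := fun c v => by funext i; simp }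
  have hinj : Function.Injective φ := fun v v' h =>
    dual_unique hk (hext _ _ fun i => congrFun h i)
  obtain ⟨v, hv⟩ := LinearMap.injective_iff_surjective.1 hinj fun i => l (Pi.single i 1)
  exact ⟨v, hext _ _ fun i => congrFun hv i⟩

namespace Jet
variable {J : Jet}

theorem Gam_spec (hJ : J.Pos) (A C B : E) : J.h2 (J.Gam A C) B = J.h3 A C B := by
  have h : ∃ G, ∀ B, J.h2 G B = J.h3 A C B := exists_dual hJ (J.h3 A C)
  rw [Gam, dif_pos h]
  exact h.choose_spec B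

theorem eq_Gam (hJ : J.Pos) {A C G : E} (h : ∀ B, J.h2 G B = J.h3 A C B) : J.Gam A C = G := by
  exact dual_unique hJ fun B => by rw [Gam_spec hJ, h]

theorem Gam_symm (hJ : J.Pos) (A C : E) : J.Gam A C = J.Gam C A := by
  exact eq_Gam hJ fun B => by rw [Gam_spec hJ, J.h3_symm]

theorem Gam_add (hJ : J.Pos) (A A' C : E) : J.Gam (A + A') C = J.Gam A C + J.Gam A' C := by
  exact eq_Gam hJ fun B => by simp [Gam_spec hJ]

theorem Gam_smul (hJ : J.Pos) (c : ℂ) (A C : E) : J.Gam (c • A) C = c • J.Gam A C := by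
  exact eq_Gam hJ fun B => by simp [Gam_spec hJ]

theorem Q_conj (J : Jet) (A C B D : E) : conj (J.Q A C B D) = J.Q B D A C := by
  rw [Q, Q, map_sub, J.h4_conj, J.h2_conj]

theorem Q_symm (hJ : J.Pos) (A C B D : E) : J.Q A C B D = J.Q C A B D := by
  rw [Q, Q, J.h4_symm, Gam_symm hJ A C]

theorem Q_symm' (hJ : J.Pos) (A C B D : E) : J.Q A C B D = J.Q A C D B := by
  rw [Q, Q, J.h4_symm', Gam_symm hJ B D]

theorem Q_shear1 (hJ : J.Pos) (A A' C B D : E) (t : ℝ) :
    J.Q (A + (t : ℂ) • A') C B D = J.Q A C B D + t * J.Q A' C B D := by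
  simp only [Q, Gam_add hJ, Gam_smul hJ, map_add, map_smul, LinearMap.add_apply,
    LinearMap.smul_apply, smul_eq_mul]
  ring

theorem Q_shear2 (hJ : J.Pos) (A C C' B D : E) (t : ℝ) :
    J.Q A (C + (t : ℂ) • C') B D = J.Q A C B D + t * J.Q A C' B D := by
  rw [Q_symm hJ, Q_shear1 hJ, Q_symm hJ C, Q_symm hJ C']

theorem Q_shear3 (hJ : J.Pos) (A C B B' D : E) (t : ℝ) :
    J.Q A C (B + (t : ℂ) • B') D = J.Q A C B D + t * J.Q A C B' D := by
  rw [← Q_conj, Q_shear1 hJ, map_add, map_mul, Complex.conj_ofReal, Q_conj, Q_conj]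

theorem Q_shear4 (hJ : J.Pos) (A C B D D' : E) (t : ℝ) :
    J.Q A C B (D + (t : ℂ) • D') = J.Q A C B D + t * J.Q A C B D' := by
  rw [Q_symm' hJ, Q_shear3 hJ, Q_symm' hJ A C D, Q_symm' hJ A C D']

/-- `Q` is linear in the first two slots, conjugate linear in the last two, symmetric in each
pair, and `re Q(XY;XX) = re Q(XX;XY)`. -/
theorem num_shear (hJ : J.Pos) (X Y : E) (t : ℝ) : J.num X (Y + (t : ℂ) • X) = J.num X Y := by
  have h1 : (J.Q X Y X X).re = (J.Q X X X Y).re := by rw [← Q_conj J X X X Y, Complex.conj_re]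
  have h2 : J.Q X X Y X = J.Q X X X Y := Q_symm' hJ X X Y X
  simp only [num, Q_shear2 hJ, Q_shear3 hJ, Q_shear4 hJ, h2, Complex.sub_re, Complex.add_re,
    Complex.re_ofReal_mul, h1]
  ring

theorem den_shear (J : Jet) (X Y : E) (t : ℝ) : J.den X (Y + (t : ℂ) • X) = J.den X Y :=
  DD_shear J.herm X Y t

theorem pos_shift (hJ : J.Pos) (S : E →ₗ[ℂ] E →ₗ[ℂ] E) (hS : ∀ A C, S A C = S C A) :
    (J.shift S hS).Pos := hJ

theorem den_shift (J : Jet) (S : E →ₗ[ℂ] E →ₗ[ℂ] E) (hS : ∀ A C, S A C = S C A) (X Y : E) :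
    (J.shift S hS).den X Y = J.den X Y := rfl

/-- `Gam` of the shifted jet is `Gam - S`; then `Q` is unchanged (expand, `Gam_spec`,
`h2_conj`). -/
theorem num_shift (hJ : J.Pos) (S : E →ₗ[ℂ] E →ₗ[ℂ] E) (hS : ∀ A C, S A C = S C A) (X Y : E) :
    (J.shift S hS).num X Y = J.num X Y := by
  have hG : ∀ A C, (J.shift S hS).Gam A C = J.Gam A C - S A C := fun A C =>
    eq_Gam (pos_shift hJ S hS) fun B => by simp [Gam_spec hJ]
  have hQ : ∀ A C B D, (J.shift S hS).Q A C B D = J.Q A C B D := by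
    intro A C B D
    have e : J.h2 (S A C) (J.Gam B D) = conj (J.h3 B D (S A C)) := by
      rw [← J.h2_conj, Gam_spec hJ]
    have e' : J.h2 (J.Gam A C) (S B D) = J.h3 A C (S B D) := Gam_spec hJ _ _ _
    simp only [Q, hG, shift_h4, shift_h2, map_sub, LinearMap.sub_apply, e, e']
    ring
  rw [num, num, hQ, hQ]

theorem pos_smul (hJ : J.Pos) {c : ℝ} (hc : 0 < c) : (c • J).Pos := by
  intro A hA
  rw [smul_h2, Complex.re_ofReal_mul]
  exact mul_pos hc (hJ A hA)

theorem num_smul (hJ : J.Pos) {c : ℝ} (hc : 0 < c) (X Y : E) :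
    (c • J).num X Y = c * J.num X Y := by
  have hG : ∀ A C, (c • J).Gam A C = J.Gam A C := fun A C =>
    eq_Gam (pos_smul hJ hc) fun B => by simp [Gam_spec hJ]
  have hQ : ∀ A C B D, (c • J).Q A C B D = c * J.Q A C B D := by
    intro A C B D
    simp only [Q, hG, smul_h4, smul_h2]
    ring
  rw [num, num, hQ, hQ, ← mul_sub, Complex.re_ofReal_mul]

theorem den_smul (J : Jet) (c : ℝ) (X Y : E) : (c • J).den X Y = c ^ 2 * J.den X Y := by
  simp only [den, DD, smul_h2, Complex.re_ofReal_mul]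
  ring

theorem pos_pull (hJ : J.Pos) (L : E ≃ₗ[ℂ] E) : (J.pull L).Pos := by
  intro A hA
  exact hJ (L A) (by simpa using hA)

/-- `Gam` of the pull-back is `L.symm (Gam (L A) (L C))`. -/
theorem num_pull (hJ : J.Pos) (L : E ≃ₗ[ℂ] E) (X Y : E) :
    (J.pull L).num X Y = J.num (L X) (L Y) := by
  have hG : ∀ A C, (J.pull L).Gam A C = L.symm (J.Gam (L A) (L C)) := fun A C =>
    eq_Gam (pos_pull hJ L) fun B => by simp [Gam_spec hJ]
  have hQ : ∀ A C B D, (J.pull L).Q A C B D = J.Q (L A) (L C) (L B) (L D) := by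
    intro A C B D
    simp [Q, hG]
  rw [num, num, hQ, hQ]

theorem den_pull (J : Jet) (L : E →ₗ[ℂ] E) (X Y : E) :
    (J.pull L).den X Y = J.den (L X) (L Y) := rfl

theorem shift_add (J J' : Jet) (S : E →ₗ[ℂ] E →ₗ[ℂ] E) (hS : ∀ A C, S A C = S C A) :
    (J + J').shift S hS = J.shift S hS + J'.shift S hS := by
  refine Jet.ext' (fun A => rfl) (fun A C => ?_) (fun A B => rfl) (fun A C B => ?_)
    (fun A C B D => ?_) <;> simp <;> ring

theorem shift_smul (c : ℝ) (J : Jet) (S : E →ₗ[ℂ] E →ₗ[ℂ] E) (hS : ∀ A C, S A C = S C A) :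
    (c • J).shift S hS = c • J.shift S hS := by
  refine Jet.ext' (fun A => rfl) (fun A C => ?_) (fun A B => rfl) (fun A C B => ?_)
    (fun A C B D => ?_) <;> simp <;> ring

/-- `Jet.ext'`, `simp`, `h2_conj`, `ring`. -/
theorem shift_compose (T : Jet) (F1 F2 F3 F4 : ℝ) (S : E →ₗ[ℂ] E →ₗ[ℂ] E)
    (hS : ∀ A C, S A C = S C A) :
    (T.compose F1 F2 F3 F4).shift S hS = (T.shift S hS).compose F1 F2 F3 F4 := by
  refine Jet.ext' (fun A => rfl) (fun A C => ?_) (fun A B => rfl) (fun A C B => ?_)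
    (fun A C B D => ?_) <;> simp [T.h2_conj] <;> ring

theorem nu_Gam_le (hJ : J.Pos) {K : ℝ} (hK : 0 ≤ K)
    (h3 : ∀ A C B, ‖J.h3 A C B‖ ≤ K * (J.nu A * J.nu C * J.nu B)) (A C : E) :
    J.nu (J.Gam A C) ≤ K * (J.nu A * J.nu C) := by
  refine JetAlgAux.nuF_le_of_dual (PD.psd hJ)
    (mul_nonneg hK (mul_nonneg (nuF_nonneg _ _) (nuF_nonneg _ _))) fun B => ?_
  rw [Gam_spec hJ]
  refine (h3 A C B).trans_eq ?_
  change _ = _ * J.nu B
  ring

/-- a shear invariant quantity of the form `re (q X Y X Y - q X X Y Y)` is bounded by `den` -/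
theorem abs_le_of_shear {N : E → E → ℝ} (hJ : J.Pos) {c : ℝ} (q : E → E → E → E → ℂ)
    (hN : ∀ X Y (t : ℝ), N X (Y + (t : ℂ) • X) = N X Y)
    (hq : ∀ X Y, N X Y = (q X Y X Y - q X X Y Y).re)
    (hb : ∀ A C B D, ‖q A C B D‖ ≤ c * (J.nu A * J.nu C * J.nu B * J.nu D)) (X Y : E) :
    |N X Y| ≤ 2 * c * J.den X Y := by
  obtain ⟨t, ht⟩ := exists_shear J.herm (PD.psd hJ) X Y
  rw [← hN X Y t, ← den_shear J X Y t]
  set Y' := Y + (t : ℂ) • X
  have e : J.den X Y' = J.nu X ^ 2 * J.nu Y' ^ 2 := by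
    rw [den, DD, ht, nu, nu, nuF_sq (PD.psd hJ), nuF_sq (PD.psd hJ)]
    ring
  rw [hq, e]
  refine (Complex.abs_re_le_norm _).trans ((norm_sub_le _ _).trans
    ((add_le_add (hb _ _ _ _) (hb _ _ _ _)).trans_eq ?_))
  ring

/-- Upper bound. `ν (Gam A C)² = re h3 A C (Gam A C) ≤ K ν A ν C ν (Gam A C)`, so
`‖Q A C B D‖ ≤ (K + K²) ν A ν C ν B ν D`; shear so that `re h2 X Y = 0`, `den = ν X² ν Y²`. -/
theorem abs_num_le (hJ : J.Pos) {K : ℝ} (hK : 1 ≤ K)
    (h3 : ∀ A C B, ‖J.h3 A C B‖ ≤ K * (J.nu A * J.nu C * J.nu B))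
    (h4 : ∀ A C B D, ‖J.h4 A C B D‖ ≤ K * (J.nu A * J.nu C * J.nu B * J.nu D)) (X Y : E) :
    |J.num X Y| ≤ 4 * K ^ 2 * J.den X Y := by
  have hK0 : 0 ≤ K := by linarith
  have hn : ∀ A, 0 ≤ J.nu A := nuF_nonneg _
  refine (abs_le_of_shear (N := fun X Y => J.num X Y) hJ (c := K + K ^ 2)
    (fun A C B D => J.Q A C B D) (num_shear hJ) (fun X Y => rfl) (fun A C B D => ?_) X Y).trans ?_
  · have h1 := nu_Gam_le hJ hK0 h3 A C
    have h2 := nu_Gam_le hJ hK0 h3 B D
    have h5 : ‖J.h2 (J.Gam A C) (J.Gam B D)‖ ≤ (K * (J.nu A * J.nu C)) * (K * (J.nu B * J.nu D)) :=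
      (norm_form_le J.herm (PD.psd hJ) _ _).trans
        (mul_le_mul h1 h2 (hn _) (mul_nonneg hK0 (mul_nonneg (hn _) (hn _))))
    refine (norm_sub_le _ _).trans ((add_le_add (h4 A C B D) h5).trans_eq ?_)
    ring
  · have := DD_nonneg J.herm (PD.psd hJ) X Y
    exact mul_le_mul_of_nonneg_right (by nlinarith) this

/-- Perturbation lemma. Write `ν = M.nu`, `Γ = (M+P).Gam`, `Γm = M.Gam`, `n = ν A ν C`.
`ν (Γm A C) ≤ K n`. With `Δ = Γ A C - Γm A C`: `M.h2 Δ B = P.h3 A C B - P.h2 (Γ A C) B`, so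
`ν Δ ≤ δ n + δ ν (Γ A C)`, `ν (Γ A C) ≤ (2K+1) n`, `ν Δ ≤ δ (2K+2) n`. And
`(M+P).h2 (Γ A C) (Γ B D) = M.h2 (Γm A C) (Γ B D) + P.h3 A C (Γ B D)`, hence
`‖Q - Qm‖ ≤ δ (1 + K (2K+2) + 2K+1) ν ν ν ν ≤ 8 K² δ ν ν ν ν`. Shear (both `num`s are invariant)
so that `re M.h2 X Y = 0`. The `den` comparison is `DD_mono` with `c = 2`. -/
theorem perturb {M P : Jet} (hM : M.Pos) {K δ : ℝ} (hK : 1 ≤ K) (hδ0 : 0 ≤ δ) (hδ : δ ≤ 1 / 2)
    (h3 : ∀ A C B, ‖M.h3 A C B‖ ≤ K * (M.nu A * M.nu C * M.nu B))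
    (d2 : ∀ A B, ‖P.h2 A B‖ ≤ δ * (M.nu A * M.nu B))
    (d3 : ∀ A C B, ‖P.h3 A C B‖ ≤ δ * (M.nu A * M.nu C * M.nu B))
    (d4 : ∀ A C B D, ‖P.h4 A C B D‖ ≤ δ * (M.nu A * M.nu C * M.nu B * M.nu D)) :
    (M + P).Pos ∧ (∀ A, (M.h2 A A).re ≤ 2 * ((M + P).h2 A A).re) ∧
      ∀ X Y, |(M + P).num X Y - M.num X Y| ≤ 20 * K ^ 2 * δ * M.den X Y ∧
        M.den X Y ≤ 4 * (M + P).den X Y ∧ (M + P).den X Y ≤ 4 * M.den X Y := by
  have hK0 : 0 ≤ K := by linarith
  have hn : ∀ A, 0 ≤ M.nu A := nuF_nonneg _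
  have hp : PSD M.h2 := PD.psd hM
  have hsq : ∀ A, M.nu A * M.nu A = (M.h2 A A).re := fun A => by
    rw [← sq]; exact nuF_sq hp A
  have hP : ∀ A, |(P.h2 A A).re| ≤ δ * (M.h2 A A).re := fun A => by
    rw [← hsq]; exact (Complex.abs_re_le_norm _).trans (d2 A A)
  have hlo : ∀ A, (M.h2 A A).re ≤ 2 * ((M + P).h2 A A).re := fun A => by
    have h1 := (abs_le.1 (hP A)).1
    have h2 := hp A
    rw [add_h2, Complex.add_re]
    nlinarith
  have hhi : ∀ A, ((M + P).h2 A A).re ≤ 2 * (M.h2 A A).re := fun A => by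
    have h1 := (abs_le.1 (hP A)).2
    have h2 := hp A
    rw [add_h2, Complex.add_re]
    nlinarith
  have hpos : (M + P).Pos := fun A hA => by
    have h1 := hlo A
    have h2 := hM A hA
    linarith
  refine ⟨hpos, hlo, fun X Y => ⟨?_, ?_, ?_⟩⟩
  · have hm := nu_Gam_le hM hK0 h3
    -- the difference of the Christoffel maps
    have hΔ0 : ∀ A C, M.nu ((M + P).Gam A C - M.Gam A C) ≤
        δ * (M.nu A * M.nu C) + δ * M.nu ((M + P).Gam A C) := by
      intro A C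
      refine JetAlgAux.nuF_le_of_dual hp (add_nonneg (mul_nonneg hδ0 (mul_nonneg (hn _) (hn _)))
        (mul_nonneg hδ0 (hn _))) fun B => ?_
      have e : M.h2 ((M + P).Gam A C - M.Gam A C) B =
          P.h3 A C B - P.h2 ((M + P).Gam A C) B := by
        have e1 := Gam_spec hpos A C B
        rw [add_h2, add_h3] at e1
        rw [map_sub, LinearMap.sub_apply, Gam_spec hM]
        linear_combination e1
      rw [e]
      refine (norm_sub_le _ _).trans ((add_le_add (d3 A C B) (d2 _ B)).trans_eq ?_)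
      change _ = _ * M.nu B
      ring
    have hΓ : ∀ A C, M.nu ((M + P).Gam A C) ≤ (2 * K + 1) * (M.nu A * M.nu C) := by
      intro A C
      have h1 : M.nu ((M + P).Gam A C) ≤
          M.nu (M.Gam A C) + M.nu ((M + P).Gam A C - M.Gam A C) := by
        have := nuF_add_le M.herm hp (M.Gam A C) ((M + P).Gam A C - M.Gam A C)
        rwa [add_sub_cancel] at this
      have h2 := hΔ0 A C
      have h4 := hm A C
      have h5 := mul_nonneg (hn A) (hn C)
      have h6 := hn ((M + P).Gam A C)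
      nlinarith [mul_le_mul_of_nonneg_right hδ h5, mul_le_mul_of_nonneg_right hδ h6]
    have hΔ : ∀ A C, M.nu ((M + P).Gam A C - M.Gam A C) ≤
        δ * (2 * K + 2) * (M.nu A * M.nu C) := by
      intro A C
      have h2 := hΔ0 A C
      have h4 := mul_le_mul_of_nonneg_left (hΓ A C) hδ0
      linarith
    refine (abs_le_of_shear (N := fun X Y => (M + P).num X Y - M.num X Y) hM
      (c := δ * (2 * K ^ 2 + 4 * K + 2)) (fun A C B D => (M + P).Q A C B D - M.Q A C B D)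
      (fun X Y t => by rw [num_shear hpos, num_shear hM]) (fun X Y => ?_) (fun A C B D => ?_)
      X Y).trans ?_
    · simp only [num, Complex.sub_re]
      ring
    · have e : (M + P).Q A C B D - M.Q A C B D = P.h4 A C B D -
          M.h2 (M.Gam A C) ((M + P).Gam B D - M.Gam B D) - P.h3 A C ((M + P).Gam B D) := by
        rw [Q, Q, Gam_spec hpos, add_h4, add_h3, map_sub, Gam_spec hM A C ((M + P).Gam B D)]
        ring
      have hAC := mul_nonneg (hn A) (hn C)
      have b1 : ‖M.h2 (M.Gam A C) ((M + P).Gam B D - M.Gam B D)‖ ≤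
          (K * (M.nu A * M.nu C)) * (δ * (2 * K + 2) * (M.nu B * M.nu D)) :=
        (norm_form_le M.herm hp _ _).trans
          (mul_le_mul (hm A C) (hΔ B D) (hn _) (mul_nonneg hK0 hAC))
      have b2 : ‖P.h3 A C ((M + P).Gam B D)‖ ≤
          δ * (M.nu A * M.nu C * ((2 * K + 1) * (M.nu B * M.nu D))) :=
        (d3 _ _ _).trans (mul_le_mul_of_nonneg_left
          (mul_le_mul_of_nonneg_left (hΓ B D) hAC) hδ0)
      rw [e]
      refine (norm_sub_le _ _).trans ((add_le_add ((norm_sub_le _ _).trans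
        (add_le_add (d4 A C B D) b1)) b2).trans_eq ?_)
      ring
    · have := DD_nonneg M.herm hp X Y
      refine mul_le_mul_of_nonneg_right ?_ this
      have h1 : 2 * (2 * K ^ 2 + 4 * K + 2) ≤ 20 * K ^ 2 := by nlinarith
      nlinarith [mul_le_mul_of_nonneg_right h1 hδ0]
  · have := DD_mono M.herm hp (M + P).herm (PD.psd hpos) (c := 2) (by norm_num) hlo X Y
    norm_num at this
    exact this
  · have := DD_mono (M + P).herm (PD.psd hpos) M.herm hp (c := 2) (by norm_num) hhi X Y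
    norm_num at this
    exact this

end Jet

end Crest.Agent.R245
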