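import Crest.Agent.R245.Basic

/-!
# R245 Riem: the curvature numerator of a Hermitian metric in coordinates
General facts on the definitions of `Crest.Prelude.Def_KahlerDomain`.
-/

set_option autoImplicit false
open scoped ComplexConjugate ContDiff Topology
open Complex (I)
open Filter

namespace Crest.Agent.R245

open Crest.GeometryTopology

variable {n : ℕ} {U : Set (Fin n → ℂ)} (g : HermitianMetricOn n U)

namespace RiemAux

theorem contDiffAt_h (hU : IsOpen U) {p : Fin n → ℂ} (hp : p ∈ U) (i j : Fin n) :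
    ContDiffAt ℝ ∞ (g.h i j) p :=
  (g.smooth i j).contDiffAt (hU.mem_nhds hp)

theorem diffAt_h (hU : IsOpen U) {p : Fin n → ℂ} (hp : p ∈ U) (i j : Fin n) :
    DifferentiableAt ℝ (g.h i j) p :=
  (contDiffAt_h g hU hp i j).differentiableAt (by simp)

/-- product rule, in components -/
theorem fderiv_riem_comp (hU : IsOpen U) {p : Fin n → ℂ} (hp : p ∈ U)
    {W : (Fin n → ℂ) → (Fin n → ℂ)} (hW : DifferentiableAt ℝ W p) (X A : Fin n → ℂ) :
    fderiv ℝ (fun q => g.riem q (W q) X) p A =
      (∑ i, ∑ j, (fderiv ℝ (g.h i j) p A * W p i + g.h i j p * fderiv ℝ W p A i) *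
        conj (X j)).re := by
  have hWi : ∀ i, HasFDerivAt (fun q => W q i)
      ((ContinuousLinearMap.proj (R := ℝ) (φ := fun _ : Fin n => ℂ) i).comp (fderiv ℝ W p)) p :=
    fun i => (ContinuousLinearMap.proj (R := ℝ) (φ := fun _ : Fin n => ℂ) i).hasFDerivAt.comp p
      hW.hasFDerivAt
  have h1 := HasFDerivAt.fun_sum (u := Finset.univ) fun i _ =>
    HasFDerivAt.fun_sum (u := Finset.univ) fun j _ =>
      (((diffAt_h g hU hp i j).hasFDerivAt.fun_mul (hWi i)).mul_const (conj (X j)))
  have h2 := Complex.reCLM.hasFDerivAt.comp p h1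
  have h3 : (fun q => g.riem q (W q) X) =
      Complex.reCLM ∘ fun q => ∑ i, ∑ j, g.h i j q * W q i * conj (X j) := by
    funext q; rfl
  rw [h3, h2.fderiv]
  simp only [ContinuousLinearMap.comp_apply, Complex.reCLM_apply, sum_apply,
    smul_apply, add_apply, ContinuousLinearMap.proj_apply,
    smul_eq_mul]
  congr 1
  refine Finset.sum_congr rfl fun i _ => Finset.sum_congr rfl fun j _ => ?_
  ring

theorem dRiem_eq (hU : IsOpen U) {p : Fin n → ℂ} (hp : p ∈ U) (A Y Z : Fin n → ℂ) :
    g.dRiem p A Y Z = (∑ i, ∑ j, fderiv ℝ (g.h i j) p A * Y i * conj (Z j)).re := by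
  have := fderiv_riem_comp g hU hp (W := fun _ => Y) (differentiableAt_const Y) Z A
  simpa [HermitianMetricOn.dRiem] using this

/-- product rule -/
theorem fderiv_riem (hU : IsOpen U) {p : Fin n → ℂ} (hp : p ∈ U)
    {W : (Fin n → ℂ) → (Fin n → ℂ)} (hW : DifferentiableAt ℝ W p) (X A : Fin n → ℂ) :
    fderiv ℝ (fun q => g.riem q (W q) X) p A =
      g.dRiem p A (W p) X + g.riem p (fderiv ℝ W p A) X := by
  rw [fderiv_riem_comp g hU hp hW, dRiem_eq g hU hp, HermitianMetricOn.riem,
    HermitianMetricOn.herm, ← Complex.add_re, ← Finset.sum_add_distrib]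
  congr 1
  refine Finset.sum_congr rfl fun i _ => ?_
  rw [← Finset.sum_add_distrib]
  refine Finset.sum_congr rfl fun j _ => ?_
  ring

theorem riem_add_left (p X X' Y : Fin n → ℂ) :
    g.riem p (X + X') Y = g.riem p X Y + g.riem p X' Y := by
  simp only [HermitianMetricOn.riem, HermitianMetricOn.herm, Pi.add_apply, mul_add, add_mul,
    Finset.sum_add_distrib, Complex.add_re]

theorem riem_sub_left (p X X' Y : Fin n → ℂ) :
    g.riem p (X - X') Y = g.riem p X Y - g.riem p X' Y := by
  simp only [HermitianMetricOn.riem, HermitianMetricOn.herm, Pi.sub_apply, mul_sub, sub_mul,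
    Finset.sum_sub_distrib, Complex.sub_re]

/-- the transposed coefficient matrix -/
noncomputable def mat (p : Fin n → ℂ) : Matrix (Fin n) (Fin n) ℂ := Matrix.of fun i j => g.h j i p

theorem herm_eq_mulVec (p W Z : Fin n → ℂ) :
    g.herm p W Z = ∑ i, (mat g p).mulVec W i * conj (Z i) := by
  rw [HermitianMetricOn.herm, Finset.sum_comm]
  refine Finset.sum_congr rfl fun i _ => ?_
  simp only [Matrix.mulVec, dotProduct, mat, Matrix.of_apply, Finset.sum_mul]

theorem det_ne_zero {p : Fin n → ℂ} (hp : p ∈ U) : (mat g p).det ≠ 0 := by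
  intro h
  obtain ⟨v, hv, h0⟩ := Matrix.exists_mulVec_eq_zero_iff.2 h
  have h1 := g.posDef p hp v hv
  have h2 := herm_eq_mulVec g p v v
  rw [h0] at h2
  simp only [Pi.zero_apply, zero_mul, Finset.sum_const_zero] at h2
  rw [HermitianMetricOn.herm] at h2
  rw [h2] at h1
  simp at h1

theorem expand (Z : Fin n → ℂ) :
    Z = ∑ i, ((Z i).re • stdVec i + (Z i).im • (I • stdVec i)) := by
  funext k
  simp only [Finset.sum_apply, Pi.add_apply, Pi.smul_apply, stdVec, Pi.single_apply]
  rw [Finset.sum_eq_single k]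
  · simp
  · intro b _ hb
    simp [Ne.symm hb]
  · simp

end RiemAux

open RiemAux

theorem riem_symm {p : Fin n → ℂ} (hp : p ∈ U) (X Y : Fin n → ℂ) :
    g.riem p X Y = g.riem p Y X := by
  have h : g.herm p X Y = conj (g.herm p Y X) := by
    rw [HermitianMetricOn.herm, HermitianMetricOn.herm, Finset.sum_comm]
    simp only [map_sum, map_mul, Complex.conj_conj]
    refine Finset.sum_congr rfl fun i _ => Finset.sum_congr rfl fun j _ => ?_
    rw [← g.hermitian p hp j i]
    ring
  rw [HermitianMetricOn.riem, HermitianMetricOn.riem, h, Complex.conj_re]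

theorem contDiffOn_riem (X Y : Fin n → ℂ) : ContDiffOn ℝ ∞ (fun q => g.riem q X Y) U := by
  have h : ContDiffOn ℝ ∞ (fun q => ∑ i, ∑ j, g.h i j q * X i * conj (Y j)) U :=
    ContDiffOn.sum fun i _ => ContDiffOn.sum fun j _ =>
      ((g.smooth i j).mul contDiffOn_const).mul contDiffOn_const
  exact Complex.reCLM.contDiff.comp_contDiffOn h

/-- `raise` represents real linear functionals: the matrix `M i j = h j i p` is invertible
(positive definiteness gives injectivity of `mulVec`), `∑ j, h j i W j = c i`, so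
`herm W Z = ∑ i, c i * conj (Z i)`, whose real part is `ℓ Z` (expand
`Z = ∑ i, (re Z i • eᵢ + im Z i • I • eᵢ)`). -/
theorem riem_raise {p : Fin n → ℂ} (hp : p ∈ U) (l : (Fin n → ℂ) →ₗ[ℝ] ℝ) (Z : Fin n → ℂ) :
    g.riem p (g.raise p l) Z = l Z := by
  have hdet : IsUnit (mat g p).det := (det_ne_zero g hp).isUnit
  have h1 : (mat g p).mulVec (g.raise p l) =
      fun i => (l (stdVec i) : ℂ) + I * l (I • stdVec i) := by
    change (mat g p).mulVec ((mat g p)⁻¹.mulVec _) = _
    rw [Matrix.mulVec_mulVec, Matrix.mul_nonsing_inv _ hdet, Matrix.one_mulVec]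
  rw [HermitianMetricOn.riem, herm_eq_mulVec, h1]
  conv_rhs => rw [expand Z]
  simp only [map_sum, map_add, map_smul, Complex.re_sum, smul_eq_mul]
  refine Finset.sum_congr rfl fun i _ => ?_
  simp
  ring

/-- Koszul formula: `Z ↦ dRiem …` is real linear at points of the open set `U`. -/
theorem riem_christoffel (hU : IsOpen U) {p : Fin n → ℂ} (hp : p ∈ U) (X Y Z : Fin n → ℂ) :
    g.riem p (g.christoffel p X Y) Z =
      (g.dRiem p X Y Z + g.dRiem p Y X Z - g.dRiem p Z X Y) / 2 := by
  let l : (Fin n → ℂ) →ₗ[ℝ] ℝ :=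
    { toFun := fun Z => (g.dRiem p X Y Z + g.dRiem p Y X Z - g.dRiem p Z X Y) / 2
      map_add' := fun Z Z' => by
        simp only [dRiem_eq g hU hp, Pi.add_apply, map_add, mul_add, add_mul,
          Finset.sum_add_distrib, Complex.add_re]
        ring
      map_smul' := fun c Z => by
        have e1 : ∀ A B : Fin n → ℂ, g.dRiem p A B (c • Z) = c * g.dRiem p A B Z := by
          intro A B
          rw [dRiem_eq g hU hp, dRiem_eq g hU hp, ← Complex.re_ofReal_mul, Finset.mul_sum]
          congr 1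
          refine Finset.sum_congr rfl fun i _ => ?_
          rw [Finset.mul_sum]
          refine Finset.sum_congr rfl fun j _ => ?_
          simp only [Pi.smul_apply, Complex.real_smul, map_mul, Complex.conj_ofReal]
          ring
        have e2 : g.dRiem p (c • Z) X Y = c * g.dRiem p Z X Y := by
          simp only [HermitianMetricOn.dRiem, map_smul, smul_eq_mul]
        simp only [e1, e2, RingHom.id_apply, smul_eq_mul]
        ring }
  exact riem_raise g hp l Z

theorem RiemAux.contDiffOn_dRiem (hU : IsOpen U) (A B C : Fin n → ℂ) :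
    ContDiffOn ℝ ∞ (fun q => g.dRiem q A B C) U :=
  ((contDiffOn_riem g B C).fderiv_of_isOpen (m := ∞) hU (by simp)).clm_apply contDiffOn_const

theorem RiemAux.contDiffOn_det {M : (Fin n → ℂ) → Matrix (Fin n) (Fin n) ℂ}
    (hM : ∀ i j, ContDiffOn ℝ ∞ (fun q => M q i j) U) :
    ContDiffOn ℝ ∞ (fun q => (M q).det) U := by
  simp only [Matrix.det_apply, Units.smul_def, zsmul_eq_mul]
  exact ContDiffOn.sum fun σ _ => contDiffOn_const.mul
    (contDiffOn_prod fun i _ => hM (σ i) i)

theorem RiemAux.contDiffOn_inv_mat (i j : Fin n) :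
    ContDiffOn ℝ ∞ (fun q => (mat g q)⁻¹ i j) U := by
  have hM : ∀ i j, ContDiffOn ℝ ∞ (fun q => mat g q i j) U := fun i j => g.smooth j i
  have h1 : ContDiffOn ℝ ∞ (fun q => ((mat g q).det)⁻¹) U :=
    (RiemAux.contDiffOn_det hM).inv fun q hq => det_ne_zero g hq
  have h2 : ContDiffOn ℝ ∞ (fun q => (mat g q).adjugate i j) U := by
    simp only [Matrix.adjugate_apply]
    refine RiemAux.contDiffOn_det fun a b => ?_
    by_cases h : a = j
    · subst h
      simp only [Matrix.updateRow_self]
      exact contDiffOn_const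
    · simp only [Matrix.updateRow_ne h]
      exact hM a b
  simp only [Matrix.inv_def, Ring.inverse_eq_inv', Matrix.smul_apply, smul_eq_mul]
  exact h1.mul h2

/-- `M⁻¹ = (det M)⁻¹ • adjugate M` has smooth entries on `U` (`Matrix.inv_def`,
`Matrix.adjugate_apply`, `Matrix.det_apply`, `ContDiffOn.inv`), and `dRiem` is smooth on `U`
(`ContDiffOn.fderiv_of_isOpen`). -/
theorem contDiffOn_christoffel (hU : IsOpen U) (X Y : Fin n → ℂ) :
    ContDiffOn ℝ ∞ (fun q => g.christoffel q X Y) U := by
  have hd : ∀ A B C : Fin n → ℂ, ContDiffOn ℝ ∞ (fun q => g.dRiem q A B C) U :=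
    fun A B C => contDiffOn_dRiem g hU A B C
  have hK : ∀ Z : Fin n → ℂ, ContDiffOn ℝ ∞
      (fun q => (((g.dRiem q X Y Z + g.dRiem q Y X Z - g.dRiem q Z X Y) / 2 : ℝ) : ℂ)) U :=
    fun Z => Complex.ofRealCLM.contDiff.comp_contDiffOn
      ((((hd X Y Z).add (hd Y X Z)).sub (hd Z X Y)).div_const 2)
  refine contDiffOn_pi.2 fun i => ?_
  have : (fun q => g.christoffel q X Y i) = fun q => ∑ j, (mat g q)⁻¹ i j *
      ((((g.dRiem q X Y (stdVec j) + g.dRiem q Y X (stdVec j) - g.dRiem q (stdVec j) X Y) / 2 : ℝ)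
        : ℂ) + I * (((g.dRiem q X Y (I • stdVec j) + g.dRiem q Y X (I • stdVec j) -
          g.dRiem q (I • stdVec j) X Y) / 2 : ℝ) : ℂ)) := by
    funext q; rfl
  rw [this]
  exact ContDiffOn.sum fun j _ => (contDiffOn_inv_mat g i j).mul
    ((hK _).add (contDiffOn_const.mul (hK _)))

theorem RiemAux.dRiem_symm (hU : IsOpen U) {p : Fin n → ℂ} (hp : p ∈ U) (A B C : Fin n → ℂ) :
    g.dRiem p A B C = g.dRiem p A C B := by
  have e : (fun q => g.riem q B C) =ᶠ[𝓝 p] fun q => g.riem q C B := by
    filter_upwards [hU.mem_nhds hp] with q hq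
    exact riem_symm g hq B C
  rw [HermitianMetricOn.dRiem, HermitianMetricOn.dRiem, e.fderiv_eq]

theorem RiemAux.christoffel_symm (hU : IsOpen U) {p : Fin n → ℂ} (hp : p ∈ U) (A B : Fin n → ℂ) :
    g.christoffel p A B = g.christoffel p B A := by
  rw [HermitianMetricOn.christoffel, HermitianMetricOn.christoffel]
  congr 1
  funext Z
  rw [RiemAux.dRiem_symm g hU hp Z A B]
  ring

/-- metric compatibility -/
theorem RiemAux.dRiem_compat (hU : IsOpen U) {p : Fin n → ℂ} (hp : p ∈ U) (A W X : Fin n → ℂ) :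
    g.dRiem p A W X = g.riem p (g.christoffel p A W) X + g.riem p W (g.christoffel p A X) := by
  rw [riem_symm g hp W, riem_christoffel g hU hp, riem_christoffel g hU hp,
    RiemAux.dRiem_symm g hU hp A X W]
  ring

/-- Write `K(X,Y,Z)` for the Koszul expression. Differentiate `g_q (Γ_q(Y,Y), X) = K_q(Y,Y,X)`
along `X` and `g_q (Γ_q(X,Y), X) = K_q(X,Y,X)` along `Y` (product rule
`∂_A [g_q (W q, X)] = dRiem p A (W p) X + g_p (∂_A W, X)`), use metric compatibility
`dRiem p A W X = g(Γ(A,W), X) + g(W, Γ(A,X))` (from Koszul and `riem_symm`), the symmetry of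
`Γ`, `K(Y,Y,X) = dRiem Y Y X - dRiem X Y Y / 2` and `K(X,Y,X) = dRiem Y X X / 2` on `U`. -/
theorem curvature_formula (hU : IsOpen U) {p : Fin n → ℂ} (hp : p ∈ U) (X Y : Fin n → ℂ) :
    g.riem p (g.curvature p X Y Y) X =
      fderiv ℝ (fun q => g.dRiem q Y Y X) p X - fderiv ℝ (fun q => g.dRiem q X Y Y) p X / 2 -
        fderiv ℝ (fun q => g.dRiem q Y X X) p Y / 2 +
        g.riem p (g.christoffel p X Y) (g.christoffel p X Y) -
        g.riem p (g.christoffel p X X) (g.christoffel p Y Y) := by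
  have hΓ : ∀ A B : Fin n → ℂ, DifferentiableAt ℝ (fun q => g.christoffel q A B) p := fun A B =>
    ((contDiffOn_christoffel g hU A B).contDiffAt (hU.mem_nhds hp)).differentiableAt (by simp)
  have hd : ∀ A B C : Fin n → ℂ, DifferentiableAt ℝ (fun q => g.dRiem q A B C) p := fun A B C =>
    ((contDiffOn_dRiem g hU A B C).contDiffAt (hU.mem_nhds hp)).differentiableAt (by simp)
  have e1 : (fun q => g.riem q (g.christoffel q Y Y) X) =ᶠ[𝓝 p]
      fun q => g.dRiem q Y Y X - (1 / 2 : ℝ) * g.dRiem q X Y Y := by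
    filter_upwards [hU.mem_nhds hp] with q hq
    rw [riem_christoffel g hU hq]
    ring
  have e2 : (fun q => g.riem q (g.christoffel q X Y) X) =ᶠ[𝓝 p]
      fun q => (1 / 2 : ℝ) * g.dRiem q Y X X := by
    filter_upwards [hU.mem_nhds hp] with q hq
    rw [riem_christoffel g hU hq, dRiem_symm g hU hq X Y X]
    ring
  have f1 := fderiv_riem g hU hp (hΓ Y Y) X X
  have f2 := fderiv_riem g hU hp (hΓ X Y) X Y
  rw [e1.fderiv_eq, ((hd Y Y X).hasFDerivAt.fun_sub
    ((hd X Y Y).hasFDerivAt.const_mul (1 / 2 : ℝ))).fderiv] at f1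
  rw [e2.fderiv_eq, ((hd Y X X).hasFDerivAt.const_mul (1 / 2 : ℝ)).fderiv] at f2
  simp only [sub_apply, smul_apply, smul_eq_mul] at f1 f2
  rw [dRiem_compat g hU hp] at f1 f2
  rw [HermitianMetricOn.curvature, riem_sub_left, riem_add_left, riem_sub_left]
  rw [christoffel_symm g hU hp Y X] at f2
  rw [riem_symm g hp (g.christoffel p Y Y)] at f1
  linarith

/-- from `curvature_formula` (or the definition) and smoothness -/
theorem continuousOn_curv (hU : IsOpen U) (X Y : Fin n → ℂ) :
    ContinuousOn (fun p => g.riem p (g.curvature p X Y Y) X) U := by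
  have hd : ∀ A B C D : Fin n → ℂ,
      ContinuousOn (fun p => fderiv ℝ (fun q => g.dRiem q A B C) p D) U := fun A B C D =>
    (((contDiffOn_dRiem g hU A B C).fderiv_of_isOpen (m := ∞) hU (by simp)).clm_apply
      contDiffOn_const).continuousOn
  have hΓ : ∀ A B : Fin n → ℂ, ContinuousOn (fun q => g.christoffel q A B) U := fun A B =>
    (contDiffOn_christoffel g hU A B).continuousOn
  have hr : ∀ A B C D : Fin n → ℂ, ContinuousOn
      (fun q => g.riem q (g.christoffel q A B) (g.christoffel q C D)) U := by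
    intro A B C D
    refine Complex.continuous_re.comp_continuousOn ?_
    refine continuousOn_finsetSum _ fun i _ => continuousOn_finsetSum _ fun j _ => ?_
    exact ((g.smooth i j).continuousOn.mul ((continuous_apply i).comp_continuousOn (hΓ A B))).mul
      (Complex.continuous_conj.comp_continuousOn ((continuous_apply j).comp_continuousOn (hΓ C D)))
  refine ContinuousOn.congr ?_ fun p hp => curvature_formula g hU hp X Y
  exact ((((hd Y Y X X).sub ((hd X Y Y X).div_const 2)).sub ((hd Y X X Y).div_const 2)).add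
    (hr X Y X Y)).sub (hr X X Y Y)

end Crest.Agent.R245
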