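import Crest.Agent.R245.Germ
import Crest.Agent.R245.Riem
import Crest.Agent.R245.JetAlg

/-!
# R245 Kahler: the Kähler metric of a potential and its curvature
-/

set_option autoImplicit false
open scoped ComplexConjugate ContDiff Topology
open Complex (I)
open Filter

namespace Crest.Agent.R245

open Crest.GeometryTopology

namespace KahlerAux

theorem fderiv_re {G : E → ℂ} {p : E} (hG : Sm G p) (A : E) :
    fderiv ℝ (fun q => (G q).re) p A = (pd A G p).re := by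
  have h := (Complex.reCLM.hasFDerivAt.comp p
    (hG.differentiableAt (by simp)).hasFDerivAt).fderiv
  exact congrArg (fun L : E →L[ℝ] ℝ => L A) h

theorem form_expand (k : Form) (X Y : E) :
    ∑ i, ∑ j, k (stdVec i) (stdVec j) * X i * conj (Y j) = k X Y := by
  have hB : ∀ B : E, B = ∑ i, B i • (stdVec i : E) := by
    intro B
    funext j
    simp [Finset.sum_apply, stdVec, Pi.single_apply]
  conv_rhs => rw [hB X, hB Y]
  simp only [map_sum, map_smul, LinearMap.sum_apply, LinearMap.smul_apply, LinearMap.map_smulₛₗ,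
    smul_eq_mul, Finset.mul_sum]
  rw [Finset.sum_comm]
  refine Finset.sum_congr rfl fun i _ => Finset.sum_congr rfl fun j _ => ?_
  ring

variable {U : Set E} {F : E → ℝ}

/-- the metric with potential `F` -/
noncomputable def met (hF : ∀ p ∈ U, ContDiffAt ℝ ∞ F p) (hP : ∀ p ∈ U, (jetAt F p).Pos) :
    HermitianMetricOn 3 U where
  h i j := Dh (stdVec i) (Db (stdVec j) (cx F))
  hermitian p hp i j := by
    rw [← (jetAt_of (hF p hp)).e2, ← (jetAt_of (hF p hp)).e2, Jet.h2_conj]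
  posDef p hp X hX := by
    simp only [← (jetAt_of (hF p hp)).e2]
    rw [form_expand]
    exact hP p hp X hX
  smooth i j p hp := (((sm_cx (hF p hp)).Db _).Dh _).contDiffWithinAt

variable (hU : IsOpen U) (hF : ∀ p ∈ U, ContDiffAt ℝ ∞ F p) (hP : ∀ p ∈ U, (jetAt F p).Pos)

theorem met_riem {p : E} (hp : p ∈ U) (X Y : E) :
    (met hF hP).riem p X Y = ((jetAt F p).h2 X Y).re := by
  rw [← form_expand]
  simp only [(jetAt_of (hF p hp)).e2]
  rfl

include hU hF in
theorem pd_w2 {p : E} (hp : p ∈ U) (A Y Z : E) :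
    pd A (Dh Y (Db Z (cx F))) p =
      Dh A (Dh Y (Db Z (cx F))) p + conj (Dh A (Dh Z (Db Y (cx F))) p) := by
  have e : Dh Y (Db Z (cx F)) =ᶠ[𝓝 p] fun z => conj (Dh Z (Db Y (cx F)) z) := by
    filter_upwards [hU.mem_nhds hp] with q hq
    rw [← (jetAt_of (hF q hq)).e2, ← (jetAt_of (hF q hq)).e2, Jet.h2_conj]
  rw [pd_eq_Dh_add_Db, (Db_congr e A).self_of_nhds,
    (Db_conj (((sm_cx (hF p hp)).Db Y).Dh Z) A).self_of_nhds]

include hU in
theorem met_dRiem {p : E} (hp : p ∈ U) (A Y Z : E) :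
    (met hF hP).dRiem p A Y Z =
      (Dh A (Dh Y (Db Z (cx F))) p + Dh A (Dh Z (Db Y (cx F))) p).re := by
  have e : (fun q => (met hF hP).riem q Y Z) =ᶠ[𝓝 p] fun q => (Dh Y (Db Z (cx F)) q).re := by
    filter_upwards [hU.mem_nhds hp] with q hq
    rw [met_riem hF hP hq, (jetAt_of (hF q hq)).e2]
  rw [HermitianMetricOn.dRiem, e.fderiv_eq, fderiv_re (((sm_cx (hF p hp)).Db Z).Dh Y),
    pd_w2 hU hF hp, Complex.add_re, Complex.add_re, Complex.conj_re]

include hU in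
theorem met_christoffel {p : E} (hp : p ∈ U) (X Y : E) :
    (met hF hP).christoffel p X Y = (jetAt F p).Gam X Y := by
  have h : ∀ Z, ((jetAt F p).h2 ((met hF hP).christoffel p X Y) Z).re =
      ((jetAt F p).h2 ((jetAt F p).Gam X Y) Z).re := by
    intro Z
    rw [← met_riem hF hP hp, riem_christoffel _ hU hp, Jet.Gam_spec (hP p hp)]
    simp only [met_dRiem hU hF hP hp, ← (jetAt_of (hF p hp)).e3, Complex.add_re]
    rw [(jetAt F p).h3_symm Y X, (jetAt F p).h3_symm Z X, (jetAt F p).h3_symm Z Y]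
    ring
  by_contra hne
  have h1 := hP p hp _ (sub_ne_zero.2 hne)
  rw [map_sub (jetAt F p).h2, LinearMap.sub_apply, Complex.sub_re, h, sub_self] at h1
  exact lt_irrefl _ h1

include hF in
theorem pd_w3 {p : E} (hp : p ∈ U) (B A Y Z : E) :
    pd B (Dh A (Dh Y (Db Z (cx F)))) p =
      Dh B (Dh A (Dh Y (Db Z (cx F)))) p + (jetAt F p).h4 A Y B Z := by
  have hs := (sm_cx (hF p hp)).Db Z
  rw [pd_eq_Dh_add_Db, (jetAt_of (hF p hp)).e4, (Db_Dh_comm (hs.Dh Y) B A).self_of_nhds,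
    (Dh_congr (Db_Dh_comm hs B Y) A).self_of_nhds]

include hU in
theorem fderiv_dRiem {p : E} (hp : p ∈ U) (B A Y Z : E) :
    fderiv ℝ (fun q => (met hF hP).dRiem q A Y Z) p B =
      (Dh B (Dh A (Dh Y (Db Z (cx F)))) p).re + ((jetAt F p).h4 A Y B Z).re +
        ((Dh B (Dh A (Dh Z (Db Y (cx F)))) p).re + ((jetAt F p).h4 A Z B Y).re) := by
  have e : (fun q => (met hF hP).dRiem q A Y Z) =ᶠ[𝓝 p]
      fun q => (Dh A (Dh Y (Db Z (cx F))) q + Dh A (Dh Z (Db Y (cx F))) q).re := by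
    filter_upwards [hU.mem_nhds hp] with q hq
    exact met_dRiem hU hF hP hq A Y Z
  have s1 := (((sm_cx (hF p hp)).Db Z).Dh Y).Dh A
  have s2 := (((sm_cx (hF p hp)).Db Y).Dh Z).Dh A
  rw [e.fderiv_eq, fderiv_re (s1.add s2), (pd_add s1 s2 B).self_of_nhds]
  simp only [pd_w3 hF hp, Complex.add_re]

end KahlerAux

/-- The metric `h i j = Dh eᵢ (Db eⱼ (cx F))` (`eᵢ = stdVec i`; `wirtingerDeriv f k = Dh (stdVec k) f`
by `rfl`). `herm q X Y = (jetAt F q).h2 X Y = Dh X (Db Y (cx F)) q` on `U` (expand `X, Y` in the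
basis). Kähler: `Dh_Dh_comm`. On `U`, `dRiem q A Y Z = re (pd A (Dh Y (Db Z (cx F))) q)
= re (h3 A Y Z + conj (h3 A Z Y))` (`pd = Dh + Db`, commutation, conjugation), so the Koszul
expression `K(X,Y,Z)` equals `re (h3 X Y Z)` and `christoffel p X Y = Gam X Y` (two vectors with the
same `re h2 · Z` for all `Z` are equal). In `curvature_formula` the second derivatives are
`re (pd A (pd B (Dh Y (Db Z (cx F)))) p)`; expand `pd = Dh + Db`: with the commuting letters
`X, Y, X̄, Ȳ`, `∂_X∂_Y g(Y,X) - ∂_X∂_X g(Y,Y)/2 - ∂_Y∂_Y g(X,X)/2 = -(XYX̄Ȳ - re XXȲȲ)` (the words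
`XXYȲ`, `YYXX̄`, … cancel after taking real parts: `re w = re (conj w)`, conjugation swaps
barred and unbarred letters). -/
theorem exists_metric {U : Set E} (hU : IsOpen U) {F : E → ℝ}
    (hF : ∀ p ∈ U, ContDiffAt ℝ ∞ F p) (hP : ∀ p ∈ U, (jetAt F p).Pos) :
    ∃ g : HermitianMetricOn 3 U, g.IsKahler ∧
      (∀ p ∈ U, ∀ X Y, g.riem p X Y = ((jetAt F p).h2 X Y).re) ∧
      ∀ p ∈ U, ∀ X Y, g.riem p (g.curvature p X Y Y) X = -(jetAt F p).num X Y := by
  refine ⟨KahlerAux.met hF hP, fun p hp i j k => ?_, fun p hp => KahlerAux.met_riem hF hP hp,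
    fun p hp X Y => ?_⟩
  · exact (Dh_Dh_comm ((sm_cx (hF p hp)).Db (stdVec j)) (stdVec k) (stdVec i)).self_of_nhds
  · have sX := (sm_cx (hF p hp)).Db X
    have sY := (sm_cx (hF p hp)).Db Y
    have e1 : Dh X (Dh Y (Dh Y (Db X (cx F)))) p = Dh Y (Dh Y (Dh X (Db X (cx F)))) p := by
      rw [(Dh_Dh_comm (sX.Dh Y) X Y).self_of_nhds, (Dh_congr (Dh_Dh_comm sX X Y) Y).self_of_nhds]
    have e2 : Dh X (Dh Y (Dh X (Db Y (cx F)))) p = Dh X (Dh X (Dh Y (Db Y (cx F)))) p :=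
      (Dh_congr (Dh_Dh_comm sY Y X) X).self_of_nhds
    have e3 : ((jetAt F p).h4 Y Y X X).re = ((jetAt F p).h4 X X Y Y).re := by
      rw [← (jetAt F p).h4_conj X X Y Y, Complex.conj_re]
    have e4 : (jetAt F p).h4 Y X X Y = (jetAt F p).h4 X Y X Y := (jetAt F p).h4_symm _ _ _ _
    have e5 : (jetAt F p).h4 Y X Y X = (jetAt F p).h4 X Y X Y := by
      rw [(jetAt F p).h4_symm, (jetAt F p).h4_symm']
    rw [curvature_formula _ hU hp]
    simp only [KahlerAux.fderiv_dRiem hU hF hP hp, KahlerAux.met_christoffel hU hF hP hp,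
      KahlerAux.met_riem hF hP hp, e1, e2, e3, e4, e5, Jet.num, Jet.Q, Complex.sub_re]
    ring

theorem continuousOn_num {U : Set E} (hU : IsOpen U) {F : E → ℝ}
    (hF : ∀ p ∈ U, ContDiffAt ℝ ∞ F p) (hP : ∀ p ∈ U, (jetAt F p).Pos) (X Y : E) :
    ContinuousOn (fun p => (jetAt F p).num X Y) U := by
  obtain ⟨g, -, -, h⟩ := exists_metric hU hF hP
  refine ((continuousOn_curv g hU X Y).neg).congr fun p hp => ?_
  simp [h p hp]

end Crest.Agent.R245
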