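import Crest.Agent.R245.Psi1
import Crest.Agent.R245.Bd
import Crest.Agent.R245.NuI

/-!
# R245 Psi2: `ψ` is plurisubharmonic and has derivatives `≤ Λ ε` in the ball metric
-/

set_option autoImplicit false
open scoped ComplexConjugate ContDiff Topology
open Complex (I)
open Filter

namespace Crest.Agent.R245

namespace Psi2Aux

theorem pd_pd_aff (l : E →L[ℝ] ℂ) (c : ℂ) {g : ℂ → ℝ} (hg : ContDiff ℝ ∞ g) (p u v : E) :
    pd u (pd v (cx fun z => g (l z + c))) p =
      (fderiv ℝ (fderiv ℝ g) (l p + c) (l u) (l v) : ℝ) := by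
  have h1 := BdAux.pd_aff (p := p) l c hg.contDiffAt v
  have h2 := BdAux.pd_aff (p := p) l c (BdAux.dir_sm hg.contDiffAt (l v)) u
  rw [(pd_congr h1 u).self_of_nhds, h2.self_of_nhds]
  have h3 : DifferentiableAt ℝ (fderiv ℝ g) (l p + c) :=
    (hg.contDiffAt.fderiv_right (m := ∞) (by simp)).differentiableAt (by simp)
  simp only [cx]
  rw [fderiv_clm_apply h3 (differentiableAt_const _)]
  simp

theorem pd_Db {F : E → ℂ} {p : E} (hF : Sm F p) (u A : E) :
    pd u (Db A F) p = (pd u (pd A F) p + I * pd u (pd (I • A) F) p) / 2 := by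
  have e : Db A F = fun z => (1 / 2 : ℂ) * pd A F z + (I / 2) * pd (I • A) F z := by
    funext z
    simp only [Db]
    ring
  rw [e, (pd_add (contDiffAt_const.mul (hF.pd A)) (contDiffAt_const.mul (hF.pd (I • A)))
    u).self_of_nhds]
  simp only [(pd_const_mul (hF.pd A) (1 / 2) u).self_of_nhds,
    (pd_const_mul (hF.pd (I • A)) (I / 2) u).self_of_nhds]
  ring

theorem bilin_lap (B : ℂ →L[ℝ] ℂ →L[ℝ] ℝ) (w : ℂ) :
    B w w + B (I * w) (I * w) = (w.re ^ 2 + w.im ^ 2) * (B 1 1 + B I I) := by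
  have e1 : w = w.re • (1 : ℂ) + w.im • I := by simp
  have e2 : I * w = (-w.im) • (1 : ℂ) + w.re • I := by
    apply Complex.ext <;> simp
  rw [e2]
  conv_lhs => rw [e1]
  simp only [map_add, map_smul, add_apply, smul_apply, smul_eq_mul]
  simp
  ring

end Psi2Aux

/-- For `l` complex linear and `g : ℂ → ℝ` smooth, `D_A D̄_A (g (l z + c)) = ‖l A‖² Δ g / 4`:
`Dh A (Db A F) = (pd A (pd A F) + pd (I•A) (pd (I•A) F)) / 4` by `pd_comm`, and for the symmetric
bilinear `g''`, `g''(w,w) + g''(I w, I w) = ‖w‖² (g''(1,1) + g''(I,I))`. -/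
theorem h2_comp_affine_nonneg (l : E →L[ℂ] ℂ) (c : ℂ) {g : ℂ → ℝ} (hg : ContDiff ℝ ∞ g)
    (hs : ∀ s : ℂ, 0 ≤ iteratedFDeriv ℝ 2 g s ![1, 1] + iteratedFDeriv ℝ 2 g s ![I, I]) (p A : E) :
    0 ≤ ((jetAt (fun z => g (l z + c)) p).h2 A A).re := by
  have hsm : ContDiffAt ℝ ∞ (fun z => g (l z + c)) p :=
    (hg.comp (((l.restrictScalars ℝ).contDiff).add contDiff_const)).contDiffAt
  have h2 := fun u v => Psi2Aux.pd_pd_aff (l.restrictScalars ℝ) c hg p u v
  simp only [ContinuousLinearMap.coe_restrictScalars'] at h2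
  have h3 := Psi2Aux.bilin_lap (fderiv ℝ (fderiv ℝ g) (l p + c)) (l A)
  have h4 := hs (l p + c)
  rw [iteratedFDeriv_two_apply, iteratedFDeriv_two_apply] at h4
  simp only [Matrix.cons_val_zero, Matrix.cons_val_one] at h4
  rw [(jetAt_of hsm).e2, Dh, Psi2Aux.pd_Db (sm_cx hsm), Psi2Aux.pd_Db (sm_cx hsm), h2, h2, h2, h2]
  simp only [map_smul, smul_eq_mul]
  have h5 : 0 ≤ ((l A).re ^ 2 + (l A).im ^ 2) * (fderiv ℝ (fderiv ℝ g) (l p + c) 1 1 +
      fderiv ℝ (fderiv ℝ g) (l p + c) I I) := mul_nonneg (by positivity) h4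
  rw [← h3] at h5
  simp only [Complex.div_ofNat_re, Complex.div_ofNat_im, Complex.sub_re, Complex.add_re,
    Complex.add_im, Complex.mul_re, Complex.mul_im, Complex.I_re, Complex.I_im, Complex.ofReal_re,
    Complex.ofReal_im]
  linarith

namespace Psi2Aux

theorem psh_sum {ι : Type*} (s : Finset ι) {f : ι → E → ℝ} {p A : E}
    (hf : ∀ i ∈ s, ContDiffAt ℝ ∞ (f i) p) (h : ∀ i ∈ s, 0 ≤ ((jetAt (f i) p).h2 A A).re) :
    0 ≤ ((jetAt (fun z => ∑ i ∈ s, f i z) p).h2 A A).re := by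
  classical
  induction s using Finset.induction_on with
  | empty => simp [jetAt_const]
  | insert a s ha ih =>
    simp only [Finset.sum_insert ha]
    rw [jetAt_add (hf a (Finset.mem_insert_self _ _))
      (ContDiffAt.sum fun i hi => hf i (Finset.mem_insert_of_mem hi)), Jet.add_h2, Complex.add_re]
    exact add_nonneg (h a (Finset.mem_insert_self _ _))
      (ih (fun i hi => hf i (Finset.mem_insert_of_mem hi))
        fun i hi => h i (Finset.mem_insert_of_mem hi))

/-- the linear part of `ell` -/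
noncomputable def ellL (P : Par) (j : ℕ) (m : Fin 4 → ℤ) : E →L[ℂ] ℂ :=
  (2 * P.NN j * conj (P.xi j m 0)) • ContinuousLinearMap.proj 0 +
    (2 * P.NN j * conj (P.xi j m 1)) • ContinuousLinearMap.proj 1

theorem ellL_apply (P : Par) (j : ℕ) (m : Fin 4 → ℤ) (z : E) :
    ellL P j m z = 2 * P.NN j * ip z (P.xi j m) := by
  simp only [ellL, add_apply, smul_apply, ContinuousLinearMap.proj_apply, smul_eq_mul, ip]
  ring

theorem ell_eq (P : Par) (j : ℕ) (m : Fin 4 → ℤ) (z : E) :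
    P.ell j m z = ellL P j m z + P.NN j * (-nsq (P.xi j m) - 1) := by
  rw [ellL_apply, Par.ell]
  ring

end Psi2Aux

/-- finite sums with nonnegative coefficients (`psi_eventuallyEq`, `jetAt_congr`, `jetAt_add`,
`jetAt_smul`, `jetAt_const`) -/
theorem Par.OK.psi_psh {P : Par} {η e C0 L CG : ℝ} (h : P.OK η e C0 L CG) {p : E}
    (hp : 0 < rho p) (A : E) : 0 ≤ ((jetAt P.psi p).h2 A A).re := by
  obtain ⟨J, hJ⟩ := h.psi_eventuallyEq hp
  rw [jetAt_congr hJ]
  refine Psi2Aux.psh_sum _ (fun j _ => contDiffAt_const.mul (h.contDiff_psiL j).contDiffAt)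
    fun j _ => ?_
  rw [jetAt_smul (h.contDiff_psiL j).contDiffAt, Jet.smul_h2, Complex.re_ofReal_mul]
  refine mul_nonneg (h.mu_pos j).le ?_
  refine Psi2Aux.psh_sum (P.Lam j) (f := fun m z => P.G (P.ell j m z))
    (fun m _ => (h.G.smooth.comp (P.contDiff_ell j m)).contDiffAt) fun m _ => ?_
  simp only [Psi2Aux.ell_eq]
  exact h2_comp_affine_nonneg _ _ h.G.smooth h.G.subh p A

namespace Psi2Aux
variable {P : Par} {η e C0 L CG : ℝ}

theorem sq_hr (P : Par) (j : ℕ) {p : E} (hp : 0 < rho p) :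
    (P.hh j * √(rho p)) ^ 2 = P.NN j * rho p := by
  rw [mul_pow, Real.sq_sqrt hp.le, Par.NN]

theorem hr_le (h : P.OK η e C0 L CG) (j : ℕ) {p : E} (hp : 0 < rho p)
    (hy : P.NN j * rho p ≤ 100) : P.hh j * √(rho p) ≤ 10 := by
  have _ := h
  refine (abs_le_of_sq_le_sq' ?_ (by norm_num)).2
  rw [sq_hr P j hp]
  linarith

theorem norm_ellL_le (h : P.OK η e C0 L CG) {p : E} (hp : 0 < rho p) (j : ℕ) (m : Fin 4 → ℤ)
    (hy : P.NN j * rho p ≤ 100) (hm : P.NN j * nsq (p - P.xi j m) ≤ 100) (v : E) :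
    ‖ellL P j m v‖ ≤ 40 * (P.hh j * √(rho p)) * nuI p v := by
  have hh := h.one_le_hh j
  have hN : 0 ≤ P.NN j := sq_nonneg _
  have hv := nuI_nonneg p v
  set s := P.hh j * √(rho p) with hs
  have hs0 : 0 ≤ s := by positivity
  have hs1 : s ≤ 10 := hr_le h j hp hy
  have hs2 : s ^ 2 = P.NN j * rho p := sq_hr P j hp
  have e : ip v (P.xi j m) = ip v p - ip v (p - P.xi j m) := by rw [ip_sub_right]; ring
  have b1 : P.NN j * ‖ip v p‖ ≤ 10 * s * nuI p v := by
    calc P.NN j * ‖ip v p‖ ≤ P.NN j * (rho p * nuI p v) :=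
          mul_le_mul_of_nonneg_left (norm_ip_le_nuI hp v) hN
      _ = s * s * nuI p v := by rw [← mul_assoc, ← hs2]; ring
      _ ≤ 10 * s * nuI p v := by gcongr
  have b2 : P.NN j * ‖ip v (p - P.xi j m)‖ ≤ 10 * s * nuI p v := by
    refine (abs_le_of_sq_le_sq' ?_ (by positivity)).2
    calc (P.NN j * ‖ip v (p - P.xi j m)‖) ^ 2
        = P.NN j ^ 2 * ‖ip v (p - P.xi j m)‖ ^ 2 := by ring
      _ ≤ P.NN j ^ 2 * ((rho p * nuI p v ^ 2) * nsq (p - P.xi j m)) :=
          mul_le_mul_of_nonneg_left ((norm_ip_sq_le _ _).trans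
            (mul_le_mul_of_nonneg_right (nsq_le_nuI hp v) (nsq_nonneg _))) (sq_nonneg _)
      _ = (P.NN j * nsq (p - P.xi j m)) * ((P.NN j * rho p) * nuI p v ^ 2) := by ring
      _ ≤ 100 * ((P.NN j * rho p) * nuI p v ^ 2) :=
          mul_le_mul_of_nonneg_right hm (by positivity)
      _ = (10 * s * nuI p v) ^ 2 := by rw [← hs2]; ring
  rw [ellL_apply, e, norm_mul, norm_mul, Complex.norm_real, Real.norm_of_nonneg hN,
    Complex.norm_ofNat]
  have := mul_le_mul_of_nonneg_left (norm_sub_le (ip v p) (ip v (p - P.xi j m))) hN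
  linarith

theorem term_bd (h : P.OK η e C0 L CG) {p : E} (hp : 0 < rho p) (j : ℕ) (m : Fin 4 → ℤ) :
    Bd1 (nuI p) p 3 (cx fun z => P.G (P.ell j m z))
      (if P.NN j * (rho p + nsq (p - P.xi j m)) ≤ 100 then
        CG * (40 * (P.hh j * √(rho p))) * 400 ^ 3 else 0) := by
  have hN : 0 ≤ P.NN j := sq_nonneg _
  have hh := h.one_le_hh j
  have hq := nsq_nonneg (p - P.xi j m)
  split_ifs with hc
  · have hy : P.NN j * rho p ≤ 100 := by nlinarith [mul_nonneg hN hq]
    have hm : P.NN j * nsq (p - P.xi j m) ≤ 100 := by nlinarith [mul_nonneg hN hp.le]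
    have hre : (P.ell j m p).re ≤ 0 := by
      rw [P.re_ell]
      exact neg_nonpos.2 (mul_nonneg hN (add_nonneg hp.le hq))
    have h1 := bd1_comp_affine (p := p) (nuI_nonneg p) ((ellL P j m).restrictScalars ℝ)
      (P.NN j * (-nsq (P.xi j m) - 1)) (g := P.G) h.G.smooth.contDiffAt
      (R := 40 * (P.hh j * √(rho p))) (C := CG) (by positivity)
      (norm_ellL_le h hp j m hy hm) (fun k hk1 hk2 => h.G.der k hk1 hk2 _ (by
        rw [ell_eq] at hre; exact hre))
    simp only [ell_eq]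
    refine h1.mono (nuI_nonneg p) ?_
    have hCG := h.G.CG_ge
    have h2 : max 1 (40 * (P.hh j * √(rho p))) ≤ 400 :=
      max_le (by norm_num) (by linarith [hr_le h j hp hy])
    gcongr
  · have hre : (P.ell j m p).re < -100 := by
      rw [P.re_ell]
      linarith [not_le.1 hc]
    have hcont : ContinuousAt (fun z => (P.ell j m z).re) p :=
      (Complex.continuous_re.comp (P.contDiff_ell j m).continuous).continuousAt
    refine (bd1_const 0).congr ?_
    filter_upwards [hcont.eventually (gt_mem_nhds hre)] with z hz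
    simp [cx, h.G.zero _ hz.le]

theorem level_bd (h : P.OK η e C0 L CG) {p : E} (hp : 0 < rho p) (j : ℕ) :
    Bd1 (nuI p) p 3 (cx (P.psiL j))
      (if P.NN j * rho p ≤ 100 then 21 ^ 4 * (CG * (40 * (P.hh j * √(rho p))) * 400 ^ 3)
        else 0) := by
  have hN : 0 ≤ P.NN j := sq_nonneg _
  have hh := h.one_le_hh j
  have hCG := h.G.CG_ge
  have h1 := Bd1.sum (P.Lam j) (f := fun m => cx fun z => P.G (P.ell j m z))
    (fun m _ => sm_cx (h.G.smooth.comp (P.contDiff_ell j m)).contDiffAt)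
    fun m _ => term_bd h hp j m
  have e : cx (P.psiL j) = fun z => ∑ m ∈ P.Lam j, cx (fun z => P.G (P.ell j m z)) z := by
    funext z
    simp [cx, Par.psiL]
  rw [e]
  refine h1.mono (nuI_nonneg p) ?_
  split_ifs with hy
  · rw [← Finset.sum_filter, Finset.sum_const, nsmul_eq_mul]
    refine mul_le_mul_of_nonneg_right ?_ (by positivity)
    have h2 := h.card_near j 10 p
    refine le_trans ?_ (h2.trans (by norm_num))
    refine Nat.cast_le.2 (Finset.card_le_card (Finset.monotone_filter_right _ fun m _ hm => ?_))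
    have := mul_nonneg hN hp.le
    push_cast
    nlinarith
  · refine (Finset.sum_eq_zero fun m _ => if_neg fun hm => hy ?_).le
    nlinarith [mul_nonneg hN (nsq_nonneg (p - P.xi j m))]

theorem sum_doubling {q : ℕ → ℝ} (h0 : ∀ j, 0 ≤ q j) (h2 : ∀ j, 2 * q j ≤ q (j + 1)) (n : ℕ) :
    ∑ j ∈ Finset.range n, (if q j ≤ 4 then q j else 0) ≤ q n ∧
      ∑ j ∈ Finset.range n, (if q j ≤ 4 then q j else 0) ≤ 8 := by
  induction n with
  | zero => simp [h0]
  | succ n ih =>
    rw [Finset.sum_range_succ]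
    have := h2 n
    have := h0 n
    split_ifs with hq
    · constructor <;> linarith [ih.1]
    · constructor <;> linarith [ih.1, ih.2]

theorem ee_le (h : P.OK η e C0 L CG) {p : E} (hp : 0 < rho p) (j : ℕ)
    (hq4 : √(P.hh j * √(rho p)) ≤ 4) :
    P.ee j * (P.hh j * √(rho p)) ≤ 4 * P.eps (-Real.log (rho p)) * √(P.hh j * √(rho p)) := by
  have hh := h.one_le_hh j
  have hlg := h.lg_ge
  have hs0 : 0 < P.hh j * √(rho p) := by positivity
  set q := √(P.hh j * √(rho p)) with hq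
  have hq0 : 0 < q := Real.sqrt_pos.2 hs0
  have hq2 : q ^ 2 = P.hh j * √(rho p) := Real.sq_sqrt hs0.le
  have hlog : -Real.log (rho p) = j * P.lg - 4 * Real.log q := by
    have e1 : q ^ 4 = P.hh j ^ 2 * rho p := by
      rw [show q ^ 4 = (q ^ 2) ^ 2 by ring, hq2, sq_hr P j hp, Par.NN]
    have e2 := congrArg Real.log e1
    rw [Real.log_pow, Real.log_mul (by positivity) hp.ne', Real.log_pow, Par.hh, Real.log_pow] at e2
    rw [Par.lg]
    push_cast at e2
    linarith
  have hpos := h.eps.pos (-Real.log (rho p))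
  have h1 : P.ee j ≤ P.eps (j * P.lg) := h.eps.anti (by nlinarith)
  rw [← hq2]
  rcases le_total 1 q with h1q | h1q
  · have h2 : P.eps (j * P.lg) ≤ P.eps (-Real.log (rho p)) :=
      h.eps.anti (by linarith [Real.log_nonneg h1q])
    calc P.ee j * q ^ 2 ≤ P.eps (-Real.log (rho p)) * (4 * q) := by
          refine mul_le_mul (h1.trans h2) (by nlinarith) (by positivity) hpos.le
      _ = _ := by ring
  · have hl : Real.log q ≤ 0 := Real.log_nonpos hq0.le h1q
    have h2 := h.eps.slow (s := j * P.lg) (t := -Real.log (rho p)) (by linarith)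
    have h3 : Real.exp (η * (-Real.log (rho p) - j * P.lg)) ≤ q⁻¹ := by
      rw [← Real.exp_log hq0, ← Real.exp_neg, Real.exp_le_exp, hlog]
      have := h.eta_le
      nlinarith
    calc P.ee j * q ^ 2 ≤ P.eps (-Real.log (rho p)) * q⁻¹ * q ^ 2 :=
          mul_le_mul_of_nonneg_right (h1.trans (h2.trans
            (mul_le_mul_of_nonneg_left h3 hpos.le))) (sq_nonneg _)
      _ = P.eps (-Real.log (rho p)) * q := by field_simp
      _ ≤ _ := by nlinarith [mul_pos hpos hq0]

end Psi2Aux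

/-- If `¬ 0 < xx p` then `ψ = 0` near `p` (`psi_quiet`). Otherwise `epsF p = eps (tt p) ≥ eps (-log ρ)`
(`xx p ≤ 1/5`). Let `y_i = NN i * ρ`, `ρ = rho p`. A term `(i, m)` with `re (ell i m p) < -100`
vanishes near `p`. Otherwise `y_i ≤ 100`, `NN i * nsq (p - ξ) ≤ 100` (at most `21⁴` such `m`,
`card_near`), and the linear part `l v = 2 NN i ⟨v, ξ⟩ = 2 NN i (⟨v, p⟩ - ⟨v, p - ξ⟩)` has
`‖l v‖ ≤ 2 (y_i + 10 √y_i) ν v ≤ 40 √y_i ν v`, `40 √y_i ≤ 400`; `bd1_comp_affine` bounds the term by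
`CG * 40 √y_i * 400³`. Next `ee i ≤ eps (-log ρ) * max 1 (y_i ^ (-1/4))`: `-log ρ = i lg - log y_i`;
if `y_i ≥ 1` use `anti`, else `anti` and `slow` with `η ≤ 1/4`. So `ee i √y_i ≤ 4 epsF p * y_i^(1/4)`
and `∑_{i : y_i ≤ 100} y_i^(1/4) ≤ 8` (the sequence `y_i^(1/4)` at least doubles at each step and
is `≤ 4` on the index set). Total: `8 lg * 21⁴ * CG * 40 * 400³ * 32 * epsF p`. -/
theorem psi_bd : ∃ Cψ : ℝ, 1 ≤ Cψ ∧ ∀ (P : Par) (η e C0 L CG : ℝ), P.OK η e C0 L CG →
    ∀ p, 0 < rho p → Bd1 (nuI p) p 3 (cx P.psi) (P.epsF p * (Cψ * CG * P.lg)) := by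
  refine ⟨8 * 21 ^ 4 * 40 * 400 ^ 3 * 32, by norm_num, fun P η e C0 L CG h p hp => ?_⟩
  have hlg := h.lg_ge
  have hCG := h.G.CG_ge
  by_cases hx : 0 < xx p
  swap
  · have h0 := h.psi_quiet hp fun hq => hx hq.1
    refine ((bd1_const 0).congr ?_).mono (nuI_nonneg p) ?_
    · filter_upwards [h0] with z hz
      simp [cx, hz]
    · rw [Par.epsF, if_neg hx]
      positivity
  have heps : P.eps (-Real.log (rho p)) ≤ P.epsF p := by
    rw [Par.epsF, if_pos hx]
    refine h.eps.anti ?_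
    have := Real.log_nonpos hx.le ((xx_lt hp).le.trans (by norm_num))
    rw [tt]
    linarith
  have hpos := h.eps.pos (-Real.log (rho p))
  obtain ⟨J, hJ⟩ := h.psi_eventuallyEq hp
  have h1 := Bd1.sum (Finset.Ico P.j0 J) (f := fun j z => (P.mu j : ℂ) * cx (P.psiL j) z)
    (fun j _ => contDiffAt_const.mul (sm_cx (h.contDiff_psiL j).contDiffAt))
    fun j _ => Bd1.const_mul (sm_cx (h.contDiff_psiL j).contDiffAt) (P.mu j)
      (Psi2Aux.level_bd h hp j)
  refine (h1.congr ?_).mono (nuI_nonneg p) ?_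
  · filter_upwards [hJ] with z hz
    simp [cx, hz]
  set q : ℕ → ℝ := fun j => √(P.hh j * √(rho p)) with hq
  have hq0 : ∀ j, 0 ≤ q j := fun j => Real.sqrt_nonneg _
  have hq2 : ∀ j, 2 * q j ≤ q (j + 1) := by
    intro j
    have hh := h.one_le_hh j
    have hν : (1000 : ℝ) ≤ P.nu := by exact_mod_cast h.nu_ge
    have hs0 : 0 ≤ P.hh j * √(rho p) := by positivity
    refine Real.le_sqrt_of_sq_le ?_
    rw [mul_pow, Real.sq_sqrt hs0, show P.hh (j + 1) = P.nu * P.hh j by
      rw [Par.hh, Par.hh, pow_succ'], mul_assoc]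
    exact mul_le_mul_of_nonneg_right (by linarith) hs0
  have hsum := (Psi2Aux.sum_doubling hq0 hq2 J).2
  set M := 8 * P.lg * (21 ^ 4 * (CG * 40 * 400 ^ 3)) * (4 * P.eps (-Real.log (rho p))) with hM
  have hM0 : 0 ≤ M := by positivity
  calc _ ≤ ∑ j ∈ Finset.Ico P.j0 J, M * (if q j ≤ 4 then q j else 0) := by
        refine Finset.sum_le_sum fun j _ => ?_
        by_cases hy : P.NN j * rho p ≤ 100
        · have hq4 : q j ≤ 4 :=
            Real.sqrt_le_iff.2 ⟨by norm_num, by linarith [Psi2Aux.hr_le h j hp hy]⟩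
          rw [if_pos hy, if_pos hq4, Complex.norm_real, Real.norm_of_nonneg (h.mu_pos j).le]
          have h2 := mul_le_mul_of_nonneg_left (Psi2Aux.ee_le h hp j hq4)
            (show 0 ≤ 8 * P.lg * (21 ^ 4 * (CG * 40 * 400 ^ 3)) by positivity)
          rw [Par.mu, hM]
          refine le_trans (le_of_eq ?_) (h2.trans (le_of_eq ?_))
          · ring
          · simp only [hq]
            ring
        · rw [if_neg hy, mul_zero]
          refine mul_nonneg hM0 ?_
          split_ifs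
          · exact hq0 j
          · exact le_rfl
    _ ≤ ∑ j ∈ Finset.range J, M * (if q j ≤ 4 then q j else 0) := by
        refine Finset.sum_le_sum_of_subset_of_nonneg
          (fun j hj => Finset.mem_range.2 (Finset.mem_Ico.1 hj).2) fun j _ _ => ?_
        refine mul_nonneg hM0 ?_
        split_ifs
        · exact hq0 j
        · exact le_rfl
    _ ≤ M * 8 := by
        rw [← Finset.mul_sum]
        exact mul_le_mul_of_nonneg_left hsum hM0
    _ = P.eps (-Real.log (rho p)) * (8 * 21 ^ 4 * 40 * 400 ^ 3 * 32 * CG * P.lg) := by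
        rw [hM]
        ring
    _ ≤ _ := mul_le_mul_of_nonneg_right heps (by positivity)

end Crest.Agent.R245
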