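import Crest.Agent.R245.Local
import Crest.Agent.R245.Kahler
import Crest.Agent.R245.Psi2
import Crest.Agent.R245.Gfun
import Crest.Agent.R245.Global1

/-!
# R245 Cyl: choice of the parameters; the curvature bounds on the disc bundle and on `UU`
-/

set_option autoImplicit false
open scoped ComplexConjugate ContDiff Topology
open Complex (I)
open Filter

namespace Crest.Agent.R245

theorem le_of_dense {W : Set E} (hW : IsOpen W) {f g : E → ℝ} {p : E} (hp : p ∈ W)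
    (hf : ContinuousAt f p) (hg : ContinuousAt g p) (h : ∀ q ∈ W, q 2 ≠ 0 → f q ≤ g q) :
    f p ≤ g p := by
  by_cases h2 : p 2 = 0
  swap
  · exact h p hp h2
  have hc : Continuous fun t : ℂ => p + t • e2 := by fun_prop
  have ht : Tendsto (fun t : ℂ => p + t • e2) (𝓝[≠] 0) (𝓝 p) := by
    have := hc.tendsto 0
    simp only [zero_smul, add_zero] at this
    exact this.mono_left nhdsWithin_le_nhds
  refine le_of_tendsto_of_tendsto (hf.tendsto.comp ht) (hg.tendsto.comp ht) ?_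
  filter_upwards [ht.eventually (hW.mem_nhds hp), self_mem_nhdsWithin] with t h1 h0
  exact h _ h1 (by simpa [h2] using h0)

/-- the properties of the jet of the potential that survive at all points -/
structure Fine (c B : ℝ) (up : Prop) (J : Jet) : Prop where
  pos : J.Pos
  lower : ∀ X Y, c * J.den X Y ≤ J.num X Y
  upper : up → ∀ X Y, J.num X Y ≤ B * J.den X Y
  grad : ∀ X, ‖J.h1 X‖ ≤ 5 * J.nu X

theorem Fine.pull {c B : ℝ} {up : Prop} {J : Jet} (h : Fine c B up J) (L : E ≃ₗ[ℂ] E) :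
    Fine c B up (J.pull L) where
  pos := Jet.pos_pull h.pos L
  lower X Y := by rw [Jet.num_pull h.pos, Jet.den_pull]; exact h.lower _ _
  upper hu X Y := by rw [Jet.num_pull h.pos, Jet.den_pull]; exact h.upper hu _ _
  grad X := h.grad (L X)

theorem continuous_rho : Continuous rho := contDiff_rho.continuous

theorem eq_smul_e2_of_IF {p : E} (hp : 0 < rho p) {A : E} (hA : (IF p A A).re ≤ 0) :
    A = A 2 • e2 := by
  have h1 := nsq_le_nuI hp A
  rw [nuI, nuF_sq (psd_IF hp)] at h1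
  have h2 : nsq A ≤ 0 := h1.trans (mul_nonpos_of_nonneg_of_nonpos hp.le hA)
  unfold nsq at h2
  have h0 : ‖A 0‖ = 0 := by nlinarith [sq_nonneg ‖A 0‖, sq_nonneg ‖A 1‖]
  have h1' : ‖A 1‖ = 0 := by nlinarith [sq_nonneg ‖A 0‖, sq_nonneg ‖A 1‖]
  funext i
  fin_cases i <;> simp [e2, norm_eq_zero.1 h0, norm_eq_zero.1 h1']

/-- from the points with `w ≠ 0` to all points of the disc bundle -/
theorem fine_of_good {Φ0 a φ ε : E → ℝ} (hb : BaseOK Φ0 a φ) {c B e : ℝ} (hB : 0 ≤ B)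
    (hεc : ∀ p, 0 < rho p → ContinuousAt ε p) (hε0 : ∀ p, 0 < ε p) (hεe : ∀ p, e ≤ ε p)
    (hφe : ∀ p, 0 < rho p → (jetAt φ p).h1 e2 = 0)
    (hg : ∀ p ∈ Dom φ, p 2 ≠ 0 → Good c B (ε p) φ p (jetAt (Phil Φ0 a φ) p)) :
    ∀ p ∈ Dom φ, Fine c (B / e ^ 100) (0 < e) (jetAt (Phil Φ0 a φ) p) := by
  have hD := isOpen_Dom hb
  have hsm : ∀ p ∈ Dom φ, ∀ᶠ q in 𝓝 p, ContDiffAt ℝ ∞ (Phil Φ0 a φ) q := fun p hp => by
    filter_upwards [hD.mem_nhds hp] with q hq using contDiffAt_Phil hb hq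
  have hsφ : ∀ p ∈ Dom φ, ∀ᶠ q in 𝓝 p, ContDiffAt ℝ ∞ φ q := fun p hp => by
    filter_upwards [hD.mem_nhds hp] with q hq using hb.smφ q hq.1
  have c2 : ∀ p ∈ Dom φ, ∀ A B, ContinuousAt (fun q => ((jetAt (Phil Φ0 a φ) q).h2 A B).re) p :=
    fun p hp A B => Complex.continuous_re.continuousAt.comp (continuousAt_h2 (hsm p hp) A B)
  have hpos : ∀ p ∈ Dom φ, (jetAt (Phil Φ0 a φ) p).Pos := by
    intro p hp A hA
    have hρ : 0 < rho p := hp.1
    have cI : ContinuousAt (fun q => (IF q A A).re) p := by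
      simp only [IF_self]
      have h1 := continuous_rho.continuousAt (x := p)
      have h2 : ContinuousAt (fun q : E => ip A q) p := by unfold ip; fun_prop
      exact (continuousAt_const.div h1 hρ.ne').add
        ((h2.norm.pow 2).div (h1.pow 2) (pow_ne_zero 2 hρ.ne'))
    have h1 := le_of_dense hD hp
      (f := fun q => ε q * (IF q A A).re +
        ε q ^ 2 * Real.exp (φ q) * ‖A 2 + q 2 * (jetAt φ q).h1 A‖ ^ 2)
      (g := fun q => 2 * ((jetAt (Phil Φ0 a φ) q).h2 A A).re)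
      (((hεc p hρ).mul cI).add ((((hεc p hρ).pow 2).mul
        (Real.continuous_exp.continuousAt.comp (hb.smφ p hρ).continuousAt)).mul
        ((continuousAt_const.add ((continuous_apply 2).continuousAt.mul
          (continuousAt_h1 (hsφ p hp) A))).norm.pow 2)))
      (continuousAt_const.mul (c2 p hp A A)) fun q hq hq2 => (hg q hq hq2).low A
    have hε := hε0 p
    have hI := psd_IF hρ A
    rcases hI.eq_or_lt with h0 | h0
    · have hA' := eq_smul_e2_of_IF hρ h0.ge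
      have hA2 : A 2 ≠ 0 := fun h => hA (by rw [hA', h, zero_smul])
      have : (jetAt φ p).h1 A = 0 := by rw [hA', map_smul, hφe p hρ, smul_zero]
      simp only [this, mul_zero, add_zero] at h1
      have : 0 < ε p ^ 2 * Real.exp (φ p) * ‖A 2‖ ^ 2 := by positivity
      nlinarith
    · have : 0 ≤ ε p ^ 2 * Real.exp (φ p) * ‖A 2 + p 2 * (jetAt φ p).h1 A‖ ^ 2 := by positivity
      have := mul_pos hε h0
      linarith
  have cn : ∀ p ∈ Dom φ, ∀ X Y, ContinuousAt (fun q => (jetAt (Phil Φ0 a φ) q).num X Y) p :=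
    fun p hp X Y => (continuousOn_num hD (fun q hq => contDiffAt_Phil hb hq) hpos X Y).continuousAt
      (hD.mem_nhds hp)
  have cd : ∀ p ∈ Dom φ, ∀ X Y, ContinuousAt (fun q => (jetAt (Phil Φ0 a φ) q).den X Y) p :=
    fun p hp X Y => ((c2 p hp X X).mul (c2 p hp Y Y)).sub ((c2 p hp X Y).pow 2)
  intro p hp
  refine ⟨hpos p hp, fun X Y => ?_, fun he X Y => ?_, fun X => ?_⟩
  · exact le_of_dense hD hp (continuousAt_const.mul (cd p hp X Y)) (cn p hp X Y)
      fun q hq hq2 => (hg q hq hq2).lower X Y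
  · refine le_of_dense hD hp (cn p hp X Y) (continuousAt_const.mul (cd p hp X Y))
      fun q hq hq2 => ((hg q hq hq2).upper X Y).trans ?_
    have := DD_nonneg (jetAt (Phil Φ0 a φ) q).herm (PD.psd (hpos q hq)) X Y
    refine mul_le_mul_of_nonneg_right ?_ this
    exact div_le_div_of_nonneg_left hB (pow_pos he 100) (pow_le_pow_left₀ he.le (hεe q) 100)
  · exact le_of_dense hD hp (continuousAt_h1 (hsm p hp) X).norm
      (continuousAt_const.mul (c2 p hp X X).sqrt) fun q hq hq2 => (hg q hq hq2).grad X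

theorem fine_global {Φ0 a φ : E → ℝ} (hb : BaseOK Φ0 a φ) {c B : ℝ} {up : Prop}
    (h : ∀ p ∈ Dom φ, Fine c B up (jetAt (Phil Φ0 a φ) p)) :
    ∀ p ∈ UU φ, Fine c B up (jetAt (PhiG Φ0 a φ) p) := by
  intro p hp
  obtain ⟨L, hL, he, -⟩ := local_form hb hp
  rw [jetAt_congr he]
  have := jetAt_pull (f := Phil Φ0 a φ) (p := p) (L : E →L[ℂ] E) (contDiffAt_Phil hb hL)
  simp only [ContinuousLinearEquiv.coe_coe] at this
  rw [this]
  exact (h _ hL).pull L.toLinearEquiv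

/-- the choice of the parameters -/
theorem exists_par : ∃ c B e0 : ℝ, 0 < c ∧ 0 ≤ B ∧ 0 < e0 ∧ ∀ e, 0 ≤ e → e ≤ e0 →
    ∃ (P : Par) (η C0 L CG : ℝ), P.OK η e C0 L CG ∧
      (∀ p, 0 < rho p → (jetAt P.phi p).h1 e2 = 0) ∧
      (∀ p ∈ Dom P.phi, p 2 ≠ 0 →
        Good c B (P.epsF p) P.phi p (jetAt (Phil P.Phi0 P.aF P.phi) p)) ∧
      (∀ᶠ j in atTop, (1 : ℕ) * P.mu j * L ≤ 2) ∧
      (e = 0 → ∀ k : ℕ, ∀ᶠ j in atTop, k * P.mu j * L ≤ 2) := by
  obtain ⟨C0, hG⟩ := exists_G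
  obtain ⟨L, hL⟩ : ∃ L : ℝ, L = 6 * (3 + 21 ^ 4 * C0) := ⟨_, rfl⟩
  obtain ⟨G, CG, hG⟩ := hG L
  obtain ⟨Cψ, hCψ, hψ⟩ := psi_bd
  obtain ⟨Cb, hCb, hbase⟩ := base_bd
  obtain ⟨ν, hν⟩ := exists_nat_ge (max 1000 ((10 ^ 11 * CG) ^ 2))
  have hν1 : (1000 : ℝ) ≤ ν := (le_max_left _ _).trans hν
  obtain ⟨lg, hlg⟩ : ∃ lg : ℝ, lg = 2 * Real.log ν := ⟨_, rfl⟩
  have hlg0 : 0 < lg := by
    rw [hlg]; have := Real.log_pos (show (1 : ℝ) < ν by linarith); linarith
  have hCG := hG.CG_ge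
  have hC0 := hG.C0_nonneg
  have hL0 : 0 < L := by rw [hL]; positivity
  obtain ⟨η0, c, B, es, hη0, hc, hB, hes, hloc⟩ :=
    local_thm (Λ0 := Cψ * CG * lg) (by positivity)
  refine ⟨c, B, min (min (es / 2) (1 / 2)) (1 / (8 * lg * L)), hc, hB, by positivity,
    fun e he0 he1 => ?_⟩
  have he2 : e ≤ es / 2 := he1.trans ((min_le_left _ _).trans (min_le_left _ _))
  have he3 : e ≤ 1 / 2 := he1.trans ((min_le_left _ _).trans (min_le_right _ _))
  have he4 : e ≤ 1 / (8 * lg * L) := he1.trans (min_le_right _ _)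
  obtain ⟨η, hη⟩ : ∃ η : ℝ, η = min (η0 / Cb) (1 / (100 * ν)) := ⟨_, rfl⟩
  have hηp : 0 < η := by rw [hη]; positivity
  have hη1 : Cb * η ≤ η0 := by
    have : η ≤ η0 / Cb := hη ▸ min_le_left _ _
    rwa [le_div_iff₀ (by linarith), mul_comm] at this
  have hη2 : 100 * ν * η ≤ 1 := by
    have : η ≤ 1 / (100 * ν) := hη ▸ min_le_right _ _
    rwa [le_div_iff₀ (by linarith), mul_comm] at this
  have hη3 : η ≤ 1 := by nlinarith
  obtain ⟨eps, Ef, t0, hE⟩ := exists_eps hηp he0 (by linarith)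
  have htend : Tendsto (fun j : ℕ => (j : ℝ) * lg - 12) atTop atTop :=
    tendsto_atTop_add_const_right _ (-12) (tendsto_natCast_atTop_atTop.atTop_mul_const hlg0)
  obtain ⟨j0, hj1, hj2, hj3⟩ := ((eventually_ge_atTop 1).and
    ((htend.eventually_ge_atTop t0).and
      ((hE.lim.comp htend).eventually_le_const (show e < es by linarith)))).exists
  let P : Par := ⟨eps, Ef, t0, G, ν, j0⟩
  have hP : P.OK η e C0 L CG :=
    ⟨hE, hG, by exact_mod_cast hν1, (le_max_right _ _).trans hν, hη2, hj1,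
      by simp only [P, Par.lg]; rw [← hlg]; linarith, hL.ge⟩
  have hPlg : P.lg = lg := hlg.symm
  have hdata : ∀ p, 0 < rho p → ∃ Λ, Λ ≤ Cψ * CG * lg ∧ (Λ = 0 ∨ P.epsF p ≤ es) ∧
      Data Λ (Cb * η * P.epsF p ^ 100) (P.epsF p) P.Phi0 P.aF P.psi p := by
    intro p hp
    have hε := Par.epsF_pos hP.eps p
    have key : ∀ Λ, 0 ≤ Λ → Bd1 (nuI p) p 3 (cx P.psi) (P.epsF p * Λ) →
        Data Λ (Cb * η * P.epsF p ^ 100) (P.epsF p) P.Phi0 P.aF P.psi p := fun Λ h0 h1 =>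
      ⟨hp, hP.baseOK.sm0 p hp, hP.baseOK.sma p hp, hP.contDiffAt_psi hp, hε,
        Par.epsF_le_one hP.eps p, h0, by positivity, rfl, (hbase P η e hP.eps hη3 p hp).1,
        (hbase P η e hP.eps hη3 p hp).2, h1, hP.psi_psh hp⟩
    by_cases hq : 0 < xx p ∧ P.j0 * P.lg - 12 ≤ tt p
    · refine ⟨_, le_rfl, Or.inr ?_, key _ (by positivity) (hPlg ▸ hψ P η e C0 L CG hP p hp)⟩
      rw [Par.epsF, if_pos hq.1]
      exact (hE.anti (hPlg ▸ hq.2)).trans hj3
    · refine ⟨0, by positivity, Or.inl rfl, key 0 le_rfl ?_⟩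
      rw [mul_zero]
      refine (bd1_const 0).congr ?_
      filter_upwards [hP.psi_quiet hp hq] with z hz
      simp [cx, hz]
  have hmu : Tendsto P.mu atTop (𝓝 (8 * lg * e)) := by
    have h1 : Tendsto (fun j : ℕ => ((j : ℝ) + 1) * lg) atTop atTop :=
      (tendsto_atTop_add_const_right _ 1 tendsto_natCast_atTop_atTop).atTop_mul_const hlg0
    have := (hE.lim.comp h1).const_mul (8 * lg)
    refine this.congr fun j => ?_
    simp only [Par.mu, Par.ee, hPlg]; rfl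
  refine ⟨P, η, C0, L, CG, hP, fun p hp => ?_, fun p hp hw => ?_, ?_, fun he k => ?_⟩
  · obtain ⟨Λ, -, -, hd⟩ := hdata p hp
    have h1 := (hd.phi_bd.jet (nuI_I p) hd.smφ).1 e2
    rwa [nuI_e2, mul_zero, norm_le_zero_iff] at h1
  · obtain ⟨Λ, h1, h2, hd⟩ := hdata p hp.1
    refine hloc Λ _ _ _ _ _ p hd ?_ h1 h2 hw hp.2
    have := Par.epsF_pos hP.eps p
    gcongr
  · refine ((hmu.const_mul ((1 : ℕ) : ℝ)).mul_const L).eventually_le_const ?_
    rw [le_div_iff₀ (by positivity)] at he4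
    push_cast; linarith
  · refine ((hmu.const_mul (k : ℝ)).mul_const L).eventually_le_const ?_
    simp [he]

end Crest.Agent.R245
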