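import Crest.Agent.R245.ParDef
import Crest.Agent.R245.Bump

/-!
# R245 Eps: the slowly varying function `ε` (TASK)
-/

set_option autoImplicit false
open scoped ComplexConjugate ContDiff Topology
open Complex (I)
open Filter

namespace Crest.Agent.R245

namespace EpsAux

noncomputable def s1 : ℝ → ℝ := Real.smoothTransition
noncomputable def s2 : ℝ → ℝ := deriv s1
noncomputable def s3 : ℝ → ℝ := deriv s2
noncomputable def s4 : ℝ → ℝ := deriv s3

theorem cd1 : ContDiff ℝ ∞ s1 := Real.smoothTransition.contDiff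
theorem cd2 : ContDiff ℝ ∞ s2 := (contDiff_infty_iff_deriv.1 cd1).2
theorem cd3 : ContDiff ℝ ∞ s3 := (contDiff_infty_iff_deriv.1 cd2).2
theorem cd4 : ContDiff ℝ ∞ s4 := (contDiff_infty_iff_deriv.1 cd3).2

theorem cs2 : HasCompactSupport s2 := by
  refine HasCompactSupport.intro (isCompact_Icc (a := (0 : ℝ)) (b := 1)) fun x hx => ?_
  rw [Set.mem_Icc, not_and_or, not_le, not_le] at hx
  rcases hx with hx | hx
  · have : s1 =ᶠ[𝓝 x] fun _ => 0 := by
      filter_upwards [Iio_mem_nhds hx] with y hy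
      exact Real.smoothTransition.zero_of_nonpos (le_of_lt hy)
    rw [s2, this.deriv_eq, deriv_const]
  · have : s1 =ᶠ[𝓝 x] fun _ => 1 := by
      filter_upwards [Ioi_mem_nhds hx] with y hy
      exact Real.smoothTransition.one_of_one_le (le_of_lt hy)
    rw [s2, this.deriv_eq, deriv_const]

theorem exists_B : ∃ B : ℝ, 1 ≤ B ∧ ∀ y, |s1 y| ≤ B ∧ |s2 y| ≤ B ∧ |s3 y| ≤ B ∧ |s4 y| ≤ B := by
  obtain ⟨B2, h2⟩ := cd2.continuous.bounded_above_of_compact_support cs2
  obtain ⟨B3, h3⟩ := cd3.continuous.bounded_above_of_compact_support cs2.deriv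
  obtain ⟨B4, h4⟩ := cd4.continuous.bounded_above_of_compact_support cs2.deriv.deriv
  refine ⟨max (max 1 B2) (max B3 B4), (le_max_left _ _).trans (le_max_left _ _), fun y =>
    ⟨?_, (h2 y).trans ((le_max_right _ _).trans (le_max_left _ _)),
      (h3 y).trans ((le_max_left _ _).trans (le_max_right _ _)),
      (h4 y).trans ((le_max_right _ _).trans (le_max_right _ _))⟩⟩
  refine le_trans ?_ ((le_max_left _ _).trans (le_max_left _ _))
  exact abs_le.2 ⟨le_trans (by norm_num) (Real.smoothTransition.nonneg y),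
    Real.smoothTransition.le_one y⟩

/-- `V^{(k)} = X * Q k (X, V, s1, s2, s3, s4)` -/
noncomputable def Q1 (v : Fin 6 → ℝ) : ℝ := -(1 / 100) * v 1 * v 2
noncomputable def Q2 (v : Fin 6 → ℝ) : ℝ := -(1 / 100) * v 1 * (-(101 / 100) * v 0 * v 2 ^ 2 + v 3)
noncomputable def Q3 (v : Fin 6 → ℝ) : ℝ := -(1 / 100) * v 1 *
  ((101 / 100) * (201 / 100) * v 0 ^ 2 * v 2 ^ 3 - 3 * (101 / 100) * v 0 * v 2 * v 3 + v 4)
noncomputable def Q4 (v : Fin 6 → ℝ) : ℝ := -(1 / 100) * v 1 *
  (-((101 / 100) * (201 / 100) * (301 / 100)) * v 0 ^ 3 * v 2 ^ 4 +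
    6 * ((101 / 100) * (201 / 100)) * v 0 ^ 2 * v 2 ^ 2 * v 3 -
    (101 / 100) * v 0 * (4 * v 2 * v 4 + 3 * v 3 ^ 2) + v 5)

theorem exists_C (B : ℝ) : ∃ C : ℝ, 0 < C ∧ ∀ v : Fin 6 → ℝ, (∀ i, |v i| ≤ B) →
    |Q1 v| ≤ C ∧ |Q2 v| ≤ C ∧ |Q3 v| ≤ C ∧ |Q4 v| ≤ C := by
  have hc : Continuous fun v : Fin 6 → ℝ => |Q1 v| + |Q2 v| + |Q3 v| + |Q4 v| := by
    unfold Q1 Q2 Q3 Q4; fun_prop
  obtain ⟨C, hC⟩ := (isCompact_closedBall (0 : Fin 6 → ℝ) B).exists_bound_of_continuousOn
    hc.continuousOn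
  refine ⟨max 1 C, lt_of_lt_of_le one_pos (le_max_left _ _), fun v hv => ?_⟩
  have h1 := hC v (by
    rw [mem_closedBall_zero_iff, pi_norm_le_iff_of_nonneg ((abs_nonneg _).trans (hv 0))]
    exact hv)
  have h2 := ((le_abs_self _).trans h1).trans (le_max_right 1 C)
  have := abs_nonneg (Q1 v)
  have := abs_nonneg (Q2 v)
  have := abs_nonneg (Q3 v)
  have := abs_nonneg (Q4 v)
  exact ⟨by linarith, by linarith, by linarith, by linarith⟩

noncomputable def W (δ t0 t : ℝ) : ℝ := 1 + δ * bb (t - t0)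
noncomputable def V (δ t0 t : ℝ) : ℝ := Real.exp (-(1 / 100) * Real.log (W δ t0 t))
noncomputable def X (δ t0 t : ℝ) : ℝ := δ / W δ t0 t
noncomputable def vec (δ t0 t : ℝ) : Fin 6 → ℝ :=
  ![X δ t0 t, V δ t0 t, s1 (t - t0), s2 (t - t0), s3 (t - t0), s4 (t - t0)]

variable {δ t0 : ℝ}

theorem one_le_W (hδ : 0 < δ) (t : ℝ) : 1 ≤ W δ t0 t := by
  have := mul_nonneg hδ.le (bb_nonneg (t - t0))
  unfold W; linarith

theorem W_pos (hδ : 0 < δ) (t : ℝ) : 0 < W δ t0 t := lt_of_lt_of_le one_pos (one_le_W hδ t)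

theorem V_pos (t : ℝ) : 0 < V δ t0 t := Real.exp_pos _

theorem V_le_one (hδ : 0 < δ) (t : ℝ) : V δ t0 t ≤ 1 :=
  Real.exp_le_one_iff.2 (by linarith [Real.log_nonneg (one_le_W (t0 := t0) hδ t)])

theorem V_pow (hδ : 0 < δ) (t : ℝ) : V δ t0 t ^ 100 = (W δ t0 t)⁻¹ := by
  rw [V, ← Real.exp_nat_mul, ← Real.exp_log (inv_pos.2 (W_pos hδ t)), Real.log_inv]
  congr 1; push_cast; ring

theorem mono_W (hδ : 0 < δ) : Monotone (W δ t0) := fun a b h => by
  have := monotone_bb (sub_le_sub_right h t0)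
  unfold W; gcongr

theorem anti_V (hδ : 0 < δ) : Antitone (V δ t0) := fun a b h => by
  have := Real.log_le_log (W_pos (t0 := t0) hδ a) (mono_W hδ h)
  exact Real.exp_le_exp.2 (by linarith)

theorem contDiff_V (hδ : 0 < δ) : ContDiff ℝ ∞ (V δ t0) := by
  have h1 : ContDiff ℝ ∞ (W δ t0) :=
    contDiff_const.add (contDiff_const.mul (contDiff_bb.comp (contDiff_id.sub contDiff_const)))
  exact (contDiff_const.mul (h1.log fun t => (W_pos hδ t).ne')).exp

theorem tendsto_V (hδ : 0 < δ) : Tendsto (V δ t0) atTop (𝓝 0) := by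
  have h1 : Tendsto (W δ t0) atTop atTop := by
    refine tendsto_atTop_add_const_left _ _ (Tendsto.const_mul_atTop hδ ?_)
    refine tendsto_atTop_mono (fun t => sub_one_le_bb (t - t0)) ?_
    exact tendsto_atTop_add_const_right _ _ (tendsto_atTop_add_const_right _ _ tendsto_id)
  exact Real.tendsto_exp_atBot.comp
    ((Real.tendsto_log_atTop.comp h1).const_mul_atTop_of_neg (by norm_num))

theorem d_shift {f : ℝ → ℝ} (hf : ContDiff ℝ ∞ f) (t : ℝ) :
    HasDerivAt (fun t => f (t - t0)) (deriv f (t - t0)) t := by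
  exact ((hf.differentiable (by simp) (t - t0)).hasDerivAt.comp t
    ((hasDerivAt_id t).sub_const t0)).congr_deriv (mul_one _)

theorem dW (t : ℝ) : HasDerivAt (W δ t0) (δ * s1 (t - t0)) t := by
  have := d_shift (t0 := t0) contDiff_bb t
  rw [deriv_bb] at this
  exact (this.const_mul δ).const_add 1

theorem dX (hδ : 0 < δ) (t : ℝ) : HasDerivAt (X δ t0) (-(X δ t0 t ^ 2 * s1 (t - t0))) t := by
  refine ((hasDerivAt_const t δ).fun_div (dW t) (W_pos hδ t).ne').congr_deriv ?_
  unfold X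
  have := (W_pos (t0 := t0) hδ t).ne'
  field_simp
  ring

theorem dV (hδ : 0 < δ) (t : ℝ) :
    HasDerivAt (V δ t0) (X δ t0 t * (-(1 / 100) * V δ t0 t * s1 (t - t0))) t := by
  refine ((((dW t).log (W_pos hδ t).ne').const_mul (-(1 / 100))).exp).congr_deriv ?_
  unfold X V
  ring

theorem d1 (hδ : 0 < δ) (t : ℝ) : HasDerivAt (V δ t0) (X δ t0 t * Q1 (vec δ t0 t)) t := dV hδ t

theorem d2 (hδ : 0 < δ) (t : ℝ) :
    HasDerivAt (fun t => X δ t0 t * Q1 (vec δ t0 t)) (X δ t0 t * Q2 (vec δ t0 t)) t := by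
  have := (dX (t0 := t0) hδ t).fun_mul
    (((dV (t0 := t0) hδ t).const_mul (-(1 / 100))).fun_mul (d_shift (t0 := t0) cd1 t))
  refine this.congr_deriv ?_
  simp only [Q2, vec, s2, Matrix.cons_val]
  ring

theorem d3 (hδ : 0 < δ) (t : ℝ) :
    HasDerivAt (fun t => X δ t0 t * Q2 (vec δ t0 t)) (X δ t0 t * Q3 (vec δ t0 t)) t := by
  have hX := dX (t0 := t0) hδ t
  have h1 := d_shift (t0 := t0) cd1 t
  have h2 := d_shift (t0 := t0) cd2 t
  have := hX.fun_mul (((dV (t0 := t0) hδ t).const_mul (-(1 / 100))).fun_mul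
    (((hX.const_mul (-(101 / 100))).fun_mul (h1.fun_pow 2)).fun_add h2))
  refine this.congr_deriv ?_
  simp only [Q3, vec, Matrix.cons_val, ← s2.eq_1, ← s3.eq_1]
  norm_num
  ring

theorem d4 (hδ : 0 < δ) (t : ℝ) :
    HasDerivAt (fun t => X δ t0 t * Q3 (vec δ t0 t)) (X δ t0 t * Q4 (vec δ t0 t)) t := by
  have hX := dX (t0 := t0) hδ t
  have h1 := d_shift (t0 := t0) cd1 t
  have h2 := d_shift (t0 := t0) cd2 t
  have h3 := d_shift (t0 := t0) cd3 t
  have := hX.fun_mul (((dV (t0 := t0) hδ t).const_mul (-(1 / 100))).fun_mul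
    ((((((hX.fun_pow 2).const_mul ((101 / 100) * (201 / 100))).fun_mul (h1.fun_pow 3))).fun_sub
      (((hX.const_mul (3 * (101 / 100))).fun_mul h1).fun_mul h2)).fun_add h3))
  refine this.congr_deriv ?_
  simp only [Q4, vec, Matrix.cons_val, ← s2.eq_1, ← s3.eq_1, ← s4.eq_1]
  norm_num
  ring

end EpsAux
open EpsAux in

/-- Take `g y = (1 + η' y) ^ (-1/100 : ℝ)`, `eps t = e + (1 - e) * g (bb (t - t0))`,
`Ef t = t0 + ∫ s in t0..t, eps s`. Then `g (bb _) ≤ eps ≤ 1`. For `y ≥ 0`, `1 ≤ k ≤ 4`, `η' ≤ 1/2`: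
`|g^{(k)} y| ≤ 24 η' (1 + η' y)⁻¹ = 24 η' (g y)^100` (`Real.iter_deriv_rpow_const` or by hand). The
derivatives of `bb` of order `1..4` are bounded by a constant `B ≥ 1` (those of
`smoothTransition` of order `≥ 1` are continuous and vanish outside `[0,1]`), so by the chain rule
(`norm_iteratedFDerivWithin_comp_le` applied to `g - g (bb _)`, or by hand)
`|eps^{(k)}| ≤ C η' eps^100`; choose `η' = min (1/2) (η / C)`. For `t ≥ t0`:
`eps^100 ≥ (1 + η' (t - t0))⁻¹ ≥ exp (-(t - t0)/2)`; choose `t0 ≥ 0` with `exp (-t0/2) ≤ η`.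
`Ef → ∞` because `eps t ≥ (1 + (t - t0))⁻¹`, so `Ef t - log (1 + t - t0)` is monotone on
`[t0, ∞)`. -/
theorem exists_eps {η e : ℝ} (hη : 0 < η) (he : 0 ≤ e) (he1 : e < 1) :
    ∃ eps Ef t0, EpsOK eps Ef t0 η e := by
  obtain ⟨B, hB1, hB⟩ := exists_B
  obtain ⟨C, hC0, hC⟩ := exists_C B
  set δ := min (1 / 2) (η / C) with hδdef
  have hδ : 0 < δ := lt_min (by norm_num) (by positivity)
  have hδ1 : δ ≤ 1 / 2 := min_le_left _ _
  have hδ2 : δ * C ≤ η := (le_div_iff₀ hC0).1 (min_le_right _ _)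
  set t0 := 2 * |Real.log η| with ht0
  clear_value δ
  set eps : ℝ → ℝ := fun t => e + (1 - e) * V δ t0 t with heps
  have he2 : 0 < 1 - e := by linarith
  have hsm : ContDiff ℝ ∞ eps := contDiff_const.add (contDiff_const.mul (contDiff_V hδ))
  have hV : ∀ t, V δ t0 t ≤ eps t := fun t => by
    have := V_le_one (t0 := t0) hδ t
    simp only [heps]; nlinarith
  have hone : ∀ t, t ≤ t0 → eps t = 1 := fun t ht => by
    simp [heps, V, W, bb_of_nonpos (sub_nonpos.2 ht)]
  have hpow : ∀ t, (W δ t0 t)⁻¹ ≤ eps t ^ 100 := fun t => by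
    rw [← V_pow hδ]; exact pow_le_pow_left₀ (V_pos t).le (hV t) _
  have hdE : ∀ t, HasDerivAt (fun t => t0 + ∫ s in t0..t, eps s) (eps t) t := fun t =>
    (hsm.continuous.integral_hasStrictDerivAt t0 t).hasDerivAt.const_add t0
  refine ⟨eps, fun t => t0 + ∫ s in t0..t, eps s, t0, hsm, hdE, by positivity, hη, hone, ?_, ?_,
    fun t => (V_pos t).trans_le (hV t), fun t => ?_, ?_, ?_, ?_, ?_⟩
  · intro t ht
    rw [intervalIntegral.integral_congr (g := fun _ => 1)]
    · simp
    · intro s hs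
      rw [Set.uIcc_of_ge ht] at hs
      exact hone s hs.2
  · intro a b hab
    have := anti_V (t0 := t0) hδ hab
    simp only [heps]; gcongr
  · have := mul_nonneg he2.le (V_pos (δ := δ) (t0 := t0) t).le
    simp only [heps]; linarith
  · simpa using ((tendsto_V (t0 := t0) hδ).const_mul (1 - e)).const_add e
  · have hd : ∀ t, t0 ≤ t → HasDerivAt (fun t => (t0 + ∫ s in t0..t, eps s) - Real.log (1 + (t - t0)))
        (eps t - 1 / (1 + (t - t0))) t := fun t ht =>
      (hdE t).fun_sub ((((hasDerivAt_id t).sub_const t0).const_add 1).log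
        (by simp only [id]; linarith))
    have hm : MonotoneOn (fun t => (t0 + ∫ s in t0..t, eps s) - Real.log (1 + (t - t0)))
        (Set.Ici t0) := by
      refine monotoneOn_of_deriv_nonneg (convex_Ici _)
        (fun t ht => (hd t ht).continuousAt.continuousWithinAt)
        (fun t ht => (hd t (interior_subset ht)).differentiableAt.differentiableWithinAt)
        fun t ht => ?_
      have ht' : t0 ≤ t := interior_subset ht
      rw [(hd t ht').deriv]
      have h1 : V δ t0 t ^ 100 ≤ V δ t0 t :=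
        pow_le_of_le_one (V_pos t).le (V_le_one hδ t) (by norm_num)
      have h2 : 1 / (1 + (t - t0)) ≤ (W δ t0 t)⁻¹ := by
        rw [one_div]
        refine inv_anti₀ (W_pos hδ t) ?_
        have h3 := bb_le (sub_nonneg.2 ht')
        have h4 := bb_nonneg (t - t0)
        unfold W; nlinarith
      rw [V_pow hδ] at h1
      linarith [hV t]
    refine tendsto_atTop_mono' _ (f₁ := fun t => Real.log (1 + (t - t0))) ?_ ?_
    · filter_upwards [eventually_ge_atTop t0] with t ht
      have := hm (Set.mem_Ici.2 le_rfl) ht ht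
      simp only [intervalIntegral.integral_same, sub_self, add_zero, Real.log_one] at this
      have h0 : 0 ≤ t0 := by positivity
      linarith
    · exact Real.tendsto_log_atTop.comp
        (tendsto_atTop_add_const_left _ _ (tendsto_atTop_add_const_right _ _ tendsto_id))
  · have e1 : iteratedDeriv 1 eps = fun t => (1 - e) * (X δ t0 t * Q1 (vec δ t0 t)) := by
      rw [iteratedDeriv_one]
      exact funext fun t => (((d1 hδ t).const_mul (1 - e)).const_add e).deriv
    have e2 : iteratedDeriv 2 eps = fun t => (1 - e) * (X δ t0 t * Q2 (vec δ t0 t)) := by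
      rw [iteratedDeriv_succ, e1]
      exact funext fun t => ((d2 hδ t).const_mul (1 - e)).deriv
    have e3 : iteratedDeriv 3 eps = fun t => (1 - e) * (X δ t0 t * Q3 (vec δ t0 t)) := by
      rw [iteratedDeriv_succ, e2]
      exact funext fun t => ((d3 hδ t).const_mul (1 - e)).deriv
    have e4 : iteratedDeriv 4 eps = fun t => (1 - e) * (X δ t0 t * Q4 (vec δ t0 t)) := by
      rw [iteratedDeriv_succ, e3]
      exact funext fun t => ((d4 hδ t).const_mul (1 - e)).deriv
    intro k hk1 hk4 t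
    have hX0 : 0 < X δ t0 t := div_pos hδ (W_pos hδ t)
    have hX1 : X δ t0 t ≤ 1 := (div_le_one (W_pos hδ t)).2 (by linarith [one_le_W (t0 := t0) hδ t])
    have hq := hC (vec δ t0 t) (by
      intro i
      have := hB (t - t0)
      fin_cases i
      · exact (abs_of_pos hX0).trans_le (hX1.trans hB1)
      · exact (abs_of_pos (V_pos t)).trans_le ((V_le_one hδ t).trans hB1)
      · exact this.1
      · exact this.2.1
      · exact this.2.2.1
      · exact this.2.2.2)
    have key : ∀ q : ℝ, |q| ≤ C → |(1 - e) * (X δ t0 t * q)| ≤ η * eps t ^ 100 := by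
      intro q hq
      rw [abs_mul, abs_mul, abs_of_pos he2, abs_of_pos hX0]
      have h1 : X δ t0 t ≤ δ * eps t ^ 100 := by
        rw [X, div_eq_mul_inv]; exact mul_le_mul_of_nonneg_left (hpow t) hδ.le
      have h2 : 0 ≤ eps t ^ 100 := pow_nonneg ((V_pos t).le.trans (hV t)) _
      generalize eps t ^ 100 = z at h1 h2 ⊢
      calc (1 - e) * (X δ t0 t * |q|) ≤ 1 * (δ * z * C) :=
            mul_le_mul (by linarith) (mul_le_mul h1 hq (abs_nonneg _) (by positivity))
              (by positivity) zero_le_one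
        _ = δ * C * z := by ring
        _ ≤ _ := mul_le_mul_of_nonneg_right hδ2 h2
    interval_cases k
    · rw [e1]; exact key _ hq.1
    · rw [e2]; exact key _ hq.2.1
    · rw [e3]; exact key _ hq.2.2.1
    · rw [e4]; exact key _ hq.2.2.2
  · intro t ht
    have h1 : Real.exp (-t0 / 2) ≤ η := by
      rw [← Real.exp_log hη]
      refine Real.exp_le_exp.2 ?_
      rw [ht0]; linarith [neg_abs_le (Real.log η)]
    have h2 : Real.exp (-((t - t0) / 2)) ≤ (W δ t0 t)⁻¹ := by
      rw [Real.exp_neg]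
      refine inv_anti₀ (W_pos hδ t) ?_
      have h3 := bb_le (sub_nonneg.2 ht)
      have h4 := bb_nonneg (t - t0)
      have h5 := Real.add_one_le_exp ((t - t0) / 2)
      unfold W; nlinarith
    calc Real.exp (-t / 2) = Real.exp (-t0 / 2) * Real.exp (-((t - t0) / 2)) := by
          rw [← Real.exp_add]; congr 1; ring
      _ ≤ _ := mul_le_mul h1 (h2.trans (hpow t)) (Real.exp_pos _).le hη.le

namespace EpsOK
variable {eps Ef : ℝ → ℝ} {t0 η e : ℝ}

theorem le_one (h : EpsOK eps Ef t0 η e) (t : ℝ) : eps t ≤ 1 := by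
  rcases le_total t t0 with h1 | h1
  · exact (h.one t h1).le
  · exact (h.anti h1).trans (h.one t0 le_rfl).le

theorem contDiff_E (h : EpsOK eps Ef t0 η e) : ContDiff ℝ ∞ Ef := by
  rw [contDiff_infty_iff_deriv, show deriv Ef = eps from funext fun t => (h.deriv_E t).deriv]
  exact ⟨fun t => (h.deriv_E t).differentiableAt, h.smooth⟩

theorem deriv_Ef (h : EpsOK eps Ef t0 η e) : deriv Ef = eps := funext fun t => (h.deriv_E t).deriv

/-- slow variation: `t ↦ eps t * exp (η t)` is monotone since `eps' ≥ -η eps^100 ≥ -η eps` -/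
theorem slow (h : EpsOK eps Ef t0 η e) {s t : ℝ} (hst : s ≤ t) :
    eps s ≤ eps t * Real.exp (η * (t - s)) := by
  have hd : ∀ t, HasDerivAt (fun t => eps t * Real.exp (η * t))
      (deriv eps t * Real.exp (η * t) + eps t * (Real.exp (η * t) * η)) t := fun t => by
    have h1 := (h.smooth.differentiable (by simp) t).hasDerivAt
    have h2 : HasDerivAt (fun t => Real.exp (η * t)) (Real.exp (η * t) * η) t := by
      simpa using ((hasDerivAt_id t).const_mul η).exp
    exact h1.fun_mul h2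
  have hm : Monotone fun t => eps t * Real.exp (η * t) := by
    refine monotone_of_deriv_nonneg (fun t => (hd t).differentiableAt) fun t => ?_
    rw [(hd t).deriv]
    have h1 := h.der 1 le_rfl (by norm_num) t
    rw [iteratedDeriv_one] at h1
    have h2 : eps t ^ 100 ≤ eps t := pow_le_of_le_one (h.pos t).le (h.le_one t) (by norm_num)
    have h3 : 0 ≤ deriv eps t + eps t * η := by
      nlinarith [neg_abs_le (deriv eps t), h.eta_pos]
    nlinarith [mul_nonneg h3 (Real.exp_pos (η * t)).le]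
  have h1 := hm hst
  simp only at h1
  rw [mul_sub, Real.exp_sub, ← mul_div_assoc, le_div_iff₀ (Real.exp_pos _)]
  exact h1

/-- concavity (`eps` is antitone; mean value theorem) -/
theorem concave (h : EpsOK eps Ef t0 η e) (s t : ℝ) : Ef t ≤ Ef s + eps s * (t - s) := by
  rcases lt_trichotomy s t with h1 | h1 | h1
  · obtain ⟨c, hc, e⟩ := exists_hasDerivAt_eq_slope Ef eps h1
      (fun x _ => (h.deriv_E x).continuousAt.continuousWithinAt) fun x _ => h.deriv_E x
    rw [eq_div_iff (sub_pos.2 h1).ne'] at e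
    nlinarith [h.anti hc.1.le]
  · simp [h1]
  · obtain ⟨c, hc, e⟩ := exists_hasDerivAt_eq_slope Ef eps h1
      (fun x _ => (h.deriv_E x).continuousAt.continuousWithinAt) fun x _ => h.deriv_E x
    rw [eq_div_iff (sub_pos.2 h1).ne'] at e
    nlinarith [h.anti hc.2.le]

theorem monotone_E (h : EpsOK eps Ef t0 η e) : Monotone Ef := by
  refine monotone_of_deriv_nonneg (fun t => (h.deriv_E t).differentiableAt) fun t => ?_
  rw [(h.deriv_E t).deriv]
  exact (h.pos t).le

/-- telescoping `concave`: `Ef ((j+2) l) - Ef ((j+1) l) ≤ l * eps ((j+1) l)` and `E_top` -/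
theorem sum_top (h : EpsOK eps Ef t0 η e) {l : ℝ} (hl : 0 < l) (j1 : ℕ) :
    Tendsto (fun J : ℕ => ∑ j ∈ Finset.Ico j1 J, eps ((j + 1) * l)) atTop atTop := by
  have key : ∀ J : ℕ, j1 ≤ J → (Ef ((J + 1) * l) - Ef ((j1 + 1) * l)) / l ≤
      ∑ j ∈ Finset.Ico j1 J, eps ((j + 1) * l) := by
    intro J hJ
    rw [div_le_iff₀ hl]
    induction J, hJ using Nat.le_induction with
    | base => simp
    | succ J hJ ih =>
      rw [Finset.sum_Ico_succ_top hJ]
      have := h.concave ((J + 1) * l) ((J + 1 + 1) * l)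
      push_cast
      nlinarith
  refine tendsto_atTop_mono' _ ((eventually_ge_atTop j1).mono key) ?_
  refine Tendsto.atTop_div_const hl (tendsto_atTop_add_const_right _ _ (h.E_top.comp ?_))
  exact (tendsto_atTop_add_const_right _ _ tendsto_natCast_atTop_atTop).atTop_mul_const hl

end EpsOK

end Crest.Agent.R245
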