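import Crest.Agent.R245.Bd
import Crest.Agent.R245.NuI
import Crest.Agent.R245.Chain

/-!
# R245 FibreBd: crude bounds for `-log (1 - |w|² e^φ)` in the norm of the model metric (TASK)
-/

set_option autoImplicit false
open scoped ComplexConjugate ContDiff Topology
open Complex (I)
open Filter

namespace Crest.Agent.R245

theorem contDiffAt_sF {φ : E → ℝ} {p : E} (hφ : ContDiffAt ℝ ∞ φ p) : ContDiffAt ℝ ∞ (sF φ) p := by
  have h : ContDiffAt ℝ ∞ (fun z : E => z 2) p := contDiffAt_apply ℝ ℂ 2 p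
  exact (h.norm_sq ℂ).mul hφ.exp

theorem contDiffAt_logsF {φ : E → ℝ} {p : E} (hφ : ContDiffAt ℝ ∞ φ p) (hs : sF φ p < 1) :
    ContDiffAt ℝ ∞ (fun z => -Real.log (1 - sF φ z)) p := by
  exact ((contDiffAt_const.sub (contDiffAt_sF hφ)).log (by linarith)).neg

namespace FibreBdAux

theorem sF_nonneg (φ : E → ℝ) (z : E) : 0 ≤ sF φ z := by unfold sF; positivity

/-- first derivative of `s` -/
theorem pd_sF {φ : E → ℝ} {p : E} (hφ : ContDiffAt ℝ ∞ φ p) (v : E) :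
    ‖pd v (cx (sF φ)) p‖ ≤ 2 * Real.exp (φ p) * ‖p 2‖ * ‖v 2 + p 2 * (jetAt φ p).h1 v‖ := by
  have h2 : HasFDerivAt (fun z : E => z 2) (ContinuousLinearMap.proj (R := ℝ) 2) p :=
    hasFDerivAt_apply 2 p
  have h3 := (h2.norm_sq).mul (hφ.differentiableAt (by simp)).hasFDerivAt.exp
  have h4 : fderiv ℝ (sF φ) p v =
      2 * Real.exp (φ p) * (conj (p 2) * (v 2 + p 2 * (jetAt φ p).h1 v)).re := by
    rw [show fderiv ℝ (sF φ) p = _ from h3.fderiv]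
    simp only [add_apply, smul_apply, smul_eq_mul,
      fderiv_eq_h1 hφ, ContinuousLinearMap.comp_apply, ContinuousLinearMap.proj_apply,
      innerSL_apply_apply, Complex.inner, nsmul_eq_mul, Complex.sq_norm, Complex.normSq_apply,
      Complex.mul_re, Complex.add_re, Complex.add_im, Complex.mul_im, Complex.conj_re,
      Complex.conj_im]
    push_cast
    ring
  rw [GermAux.pd_cx ((contDiffAt_sF hφ).differentiableAt (by simp)), h4, Complex.norm_real,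
    Real.norm_eq_abs, abs_mul, abs_of_pos (by positivity), mul_assoc _ ‖p 2‖]
  gcongr
  refine (Complex.abs_re_le_norm _).trans (le_of_eq ?_)
  rw [norm_mul, Complex.norm_conj]

/-- crude bound for `s` -/
theorem bd_sF {φ : E → ℝ} {p : E} {ν : E → ℝ} {K : ℝ} (hφ : ContDiffAt ℝ ∞ φ p)
    (hs : sF φ p ≤ 1) (hK : 1 ≤ K) (hν : ∀ v, 0 ≤ ν v) (h : Bd1 ν p 3 (cx φ) K)
    (h2 : ∀ v, Real.exp (φ p / 2) * ‖v 2‖ ≤ ν v) : Bd ν p 4 (cx (sF φ)) (2 ^ 14 * K ^ 4) := by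
  set l : E →L[ℝ] ℂ := Real.exp (φ p / 2) • ContinuousLinearMap.proj (R := ℝ) 2 with hl
  have hlv : ∀ v, ‖l v‖ = Real.exp (φ p / 2) * ‖v 2‖ := fun v => by
    rw [hl, smul_apply, norm_smul, Real.norm_of_nonneg (Real.exp_pos _).le]
    rfl
  have e2 : Real.exp (φ p / 2) ^ 2 = Real.exp (φ p) := by
    rw [← Real.exp_nat_mul]; congr 1; push_cast; ring
  have hy : Bd ν p 4 (fun z => l z + 0) 1 := by
    refine ⟨?_, bd1_affine hν l 0 zero_le_one fun v => by rw [hlv, one_mul]; exact h2 v⟩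
    show ‖l p + 0‖ ≤ 1
    rw [add_zero, hlv, ← sq_le_one_iff₀ (by positivity), mul_pow, e2, mul_comm]
    exact hs
  have hys : Sm (fun z => l z + 0) p := (l.contDiff.add contDiff_const).contDiffAt
  have ht : ContDiffAt ℝ ∞ (fun z => φ z - φ p) p := hφ.sub contDiffAt_const
  have hb : Bd1 ν p 3 (cx fun z => φ z - φ p) K := by
    have := h.add_const (-(φ p : ℂ))
    convert this using 2 with z
    simp [cx, sub_eq_add_neg]
  have hX : Bd ν p 4 (cx fun z => Real.exp (φ z - φ p)) (64 * 1 * K ^ 4) := by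
    refine ⟨?_, Bd1.comp hν ht Real.contDiff_exp.contDiffAt hb hK fun j _ _ => ?_⟩
    · have := one_le_pow₀ (n := 4) hK
      simp only [cx, sub_self, Real.exp_zero, Complex.ofReal_one, norm_one]
      linarith
    · simp [iteratedDeriv_eq_iterate, Real.iter_deriv_exp]
  have h3 := Bd.mul hν (hys.mul hys.conj) (sm_cx ht.exp) (Bd.mul hν hys hys.conj hy (hy.conj hys))
    hX
  convert h3 using 1
  · funext z
    rw [add_zero, Complex.mul_conj, Complex.normSq_eq_norm_sq, hlv, mul_pow, e2, cx, cx,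
      ← Complex.ofReal_mul, sF, Real.exp_sub]
    congr 1
    field_simp
  · ring

end FibreBdAux

open FibreBdAux in
/-- Let `s = sF φ p`, `σ = 1/(1-s) ≥ 1`, `w = p 2`, `E₀ = exp (φ p / 2)`, `β v = v 2 + w h1 v`,
`r = 3 K / ε²`, `ν' v = r σ^(-1/2) ν v`. The hypotheses give `nuI p v ≤ √2 ε^(-3/2) σ^(-1/2) ν v ≤ ν' v`
and `E₀ ‖β v‖ ≤ ν v / (ε σ)`; with `‖h1 v‖ ≤ K nuI p v` (`Bd1.jet`) and `E₀ ‖w‖ = √s ≤ 1`:
`E₀ ‖v 2‖ ≤ ν' v`.
* `y z = E₀ * z 2` has `Bd ν' p 4 y 1` (`bd1_affine`), `exp (φ z - φ p)` has `Bd ν' p 4 _ (64 K⁴)`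
  (`Bd1.comp`, `Bd.change` with `r = 1`), `cx (sF φ) = y * conj y * exp (φ - φ p)` has `Bd ν' p 4` with
  `K₀ = 2¹⁴ K⁴` (`Bd.mul` twice).
* Unfolding two letters: `Bd ν' p 2 (pd u (pd v s)) (K₀ ν' v ν' u)`, so (`Bd.change`, `ν' ≤ r ν`)
  `Bd ν p 2 (pd u (pd v s)) (K₀ r⁴ σ⁻¹ ν v ν u)`. First order: `pd v s p = 2 exp (φ p) re (conj w β v)`
  (`fderiv_eq_h1`), of norm `≤ 2 ν v / (ε σ)`. Hence `g z = σ (sF φ z - s)` has `g p = 0` and
  `Bd1 ν p 3 (cx g) K₁`, `K₁ = K₀ r⁴ ≤ 2²¹ K⁸ / ε⁸`.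
* Near `p`, `-log (1 - sF φ z) = -log (1 - g z) + log σ`; the derivatives of `-log (1 - y)` at `0`
  are `≤ 6`: `Bd1.comp` gives `K₂ = 384 K₁⁴ ≤ C K³² / ε³²`.
* `a - a p` has value `0` and (`Bd1.change` with `r₀ = r₁ σ^(-1/2)`, `r₁ = 2 / ε²`)
  `Bd ν p 4 _ (δ r₁⁴ σ^(-1/2))`; `-log (1 - sF φ)` has `Bd ν p 4 _ (log σ + K₂)`,
  `σ^(-1/2) log σ ≤ 2`; `Bd.mul`. -/
theorem fibre_bd : ∃ Cf : ℝ, 1 ≤ Cf ∧ ∀ (φ : E → ℝ) (p : E) (ν : E → ℝ) (K ε σ : ℝ),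
    ContDiffAt ℝ ∞ φ p → 0 < rho p → sF φ p < 1 → σ = 1 / (1 - sF φ p) → 0 < ε → ε ≤ 1 → 1 ≤ K →
    Bd1 (nuI p) p 3 (cx φ) K → (∀ v, 0 ≤ ν v) →
    (∀ v, ε ^ 3 * σ / 2 * nuI p v ^ 2 ≤ ν v ^ 2) →
    (∀ v, ε ^ 2 * σ ^ 2 * Real.exp (φ p) * ‖v 2 + p 2 * (jetAt φ p).h1 v‖ ^ 2 ≤ ν v ^ 2) →
    Bd1 ν p 3 (cx fun z => -Real.log (1 - sF φ z)) (Cf * K ^ 32 / ε ^ 32) ∧
    ∀ (a : E → ℝ) (δ : ℝ), ContDiffAt ℝ ∞ a p → 0 ≤ δ → Bd1 (nuI p) p 3 (cx a) δ →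
      Bd1 ν p 3 (cx fun z => (a z - a p) * -Real.log (1 - sF φ z)) (Cf * δ * K ^ 32 / ε ^ 40) := by
  refine ⟨256 * (2 + 384 * (2 ^ 14 * 81) ^ 4), by norm_num, ?_⟩
  intro φ p ν K ε σ hφ hρ hs hσ hε hε1 hK hb hν hn1 hn2
  have hs0 := sF_nonneg φ p
  have hs1 : 0 < 1 - sF φ p := by linarith
  have hσs : σ * (1 - sF φ p) = 1 := by rw [hσ]; field_simp
  have hσ1 : 1 ≤ σ := by rw [hσ, le_div_iff₀ hs1]; linarith
  have hσ0 : 0 < σ := by linarith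
  obtain ⟨t, ht0, htσ⟩ : ∃ t : ℝ, 0 < t ∧ t ^ 2 * σ = 1 :=
    ⟨(Real.sqrt σ)⁻¹, by positivity, by rw [inv_pow, Real.sq_sqrt hσ0.le]; field_simp⟩
  have ht1 : t ≤ 1 := by
    rw [← sq_le_one_iff₀ ht0.le]
    nlinarith only [htσ, hσ1, sq_nonneg t]
  obtain ⟨q, hq0, hqε⟩ : ∃ q : ℝ, 0 < q ∧ q * ε = 1 := ⟨ε⁻¹, by positivity, by field_simp⟩
  have hq1 : 1 ≤ q := by nlinarith only [hqε, hε1, hq0]
  have hq2 : q ≤ q ^ 2 := by nlinarith only [hq1]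
  have hdiv : ∀ (x : ℝ) (n : ℕ), x / ε ^ n = x * q ^ n := fun x n => by
    rw [eq_inv_of_mul_eq_one_left hqε, inv_pow, div_eq_mul_inv]
  -- comparison of the seminorms
  have c1 : ∀ v, nuI p v ≤ 2 * q ^ 2 * t * ν v := fun v => by
    have := hν v
    refine (pow_le_pow_iff_left₀ (nuI_nonneg p v) (by positivity) two_ne_zero).1 ?_
    have h1 := mul_le_mul_of_nonneg_left (hn1 v) (show 0 ≤ 2 * q ^ 3 * t ^ 2 by positivity)
    have h2 : 2 * q ^ 3 * t ^ 2 * (ε ^ 3 * σ / 2 * nuI p v ^ 2) = nuI p v ^ 2 := by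
      have : 2 * q ^ 3 * t ^ 2 * (ε ^ 3 * σ / 2 * nuI p v ^ 2) =
        (q * ε) ^ 3 * (t ^ 2 * σ) * nuI p v ^ 2 := by ring
      rw [this, hqε, htσ]; ring
    have h3 : 2 * q ^ 3 * t ^ 2 * ν v ^ 2 * 1 ≤ 2 * q ^ 3 * t ^ 2 * ν v ^ 2 * (2 * q) := by
      gcongr; linarith
    nlinarith only [h1, h2, h3]
  have e2 : Real.exp (φ p / 2) ^ 2 = Real.exp (φ p) := by
    rw [← Real.exp_nat_mul]; congr 1; push_cast; ring
  have c2 : ∀ v, Real.exp (φ p / 2) * ‖v 2 + p 2 * (jetAt φ p).h1 v‖ ≤ q * t ^ 2 * ν v :=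
    fun v => by
    have := hν v
    refine (pow_le_pow_iff_left₀ (by positivity) (by positivity) two_ne_zero).1 ?_
    have h1 := mul_le_mul_of_nonneg_left (hn2 v) (show 0 ≤ (q * t ^ 2) ^ 2 by positivity)
    have h2 : (q * t ^ 2) ^ 2 * (ε ^ 2 * σ ^ 2 * Real.exp (φ p) *
        ‖v 2 + p 2 * (jetAt φ p).h1 v‖ ^ 2) = (q * ε) ^ 2 * (t ^ 2 * σ) ^ 2 * (Real.exp (φ p) *
        ‖v 2 + p 2 * (jetAt φ p).h1 v‖ ^ 2) := by ring
    rw [h2, hqε, htσ] at h1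
    rw [mul_pow, e2, mul_pow]
    linarith
  have c3 : Real.exp (φ p / 2) * ‖p 2‖ ≤ 1 := by
    rw [← sq_le_one_iff₀ (by positivity), mul_pow, e2, mul_comm]
    exact hs.le
  have hj := (Bd1.jet (nuI_I p) hφ hb).1
  obtain ⟨r, hr⟩ : ∃ r, r = 3 * K * q ^ 2 := ⟨_, rfl⟩
  have hKq : q ^ 2 ≤ K * q ^ 2 := le_mul_of_one_le_left (by positivity) hK
  have hr1 : 1 ≤ r := by rw [hr]; linarith
  have hν' : ∀ v, 0 ≤ r * t * ν v := fun v => by have := hν v; positivity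
  have c4 : ∀ v, nuI p v ≤ 1 * (r * t * ν v) := fun v => by
    have h1 : 0 ≤ t * ν v := mul_nonneg ht0.le (hν v)
    have h2 : 2 * q ^ 2 * (t * ν v) ≤ r * (t * ν v) := by
      gcongr; rw [hr]; nlinarith only [hKq, sq_nonneg q]
    linarith [c1 v]
  have c5 : ∀ v, Real.exp (φ p / 2) * ‖v 2‖ ≤ r * t * ν v := fun v => by
    have hv := hν v
    have h1 : ‖v 2‖ ≤ ‖v 2 + p 2 * (jetAt φ p).h1 v‖ + ‖p 2‖ * ‖(jetAt φ p).h1 v‖ := by
      rw [← norm_mul]; exact norm_le_add_norm_add _ _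
    have h2 := mul_le_mul_of_nonneg_left h1 (Real.exp_pos (φ p / 2)).le
    have h3 : Real.exp (φ p / 2) * ‖p 2‖ * ‖(jetAt φ p).h1 v‖ ≤
        1 * (K * (2 * q ^ 2 * t * ν v)) := by
      gcongr
      exact (hj v).trans (mul_le_mul_of_nonneg_left (c1 v) (by linarith))
    have h4 : q * t * (t * ν v) ≤ K * q ^ 2 * 1 * (t * ν v) := by
      gcongr; linarith
    rw [hr]
    nlinarith only [h2, h3, h4, c2 v]
  have b0 : Bd (fun v => r * t * ν v) p 4 (cx (sF φ)) (2 ^ 14 * K ^ 4) := by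
    refine bd_sF hφ hs.le hK hν' ?_ c5
    simpa using hb.change (nuI_nonneg p) hν' le_rfl (by linarith) c4 c4
  obtain ⟨K₁, hK₁⟩ : ∃ K₁, K₁ = 2 ^ 14 * K ^ 4 * r ^ 4 := ⟨_, rfl⟩
  have hK4 : 1 ≤ K ^ 4 := one_le_pow₀ hK
  have hK₁q : 2 * q ≤ K₁ := by
    have h1 : r ≤ r ^ 4 := le_self_pow₀ hr1 (by norm_num)
    have h2 : q ≤ r := by rw [hr]; linarith
    have h3 : 2 * 1 * q ≤ 2 ^ 14 * K ^ 4 * r ^ 4 := by
      gcongr
      · norm_num
      · linarith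
    linarith
  have hK₁1 : 1 ≤ K₁ := by linarith
  have b1 : Bd1 ν p 3 (cx (sF φ)) (K₁ * t ^ 2) := fun v => by
    have hv := hν v
    refine ⟨(pd_sF hφ v).trans ?_, fun u => ?_⟩
    · have h1 : Real.exp (φ p / 2) * ‖p 2‖ *
          (Real.exp (φ p / 2) * ‖v 2 + p 2 * (jetAt φ p).h1 v‖) ≤ 1 * (q * t ^ 2 * ν v) :=
        mul_le_mul c3 (c2 v) (by positivity) zero_le_one
      have h2 : 2 * q * (t ^ 2 * ν v) ≤ K₁ * (t ^ 2 * ν v) := by gcongr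
      rw [← e2]
      nlinarith only [h1, h2]
    · have h1 := ((b0.2 v).2 u).change hν hr1 fun w => by
        have := mul_le_mul_of_nonneg_right (mul_le_of_le_one_right (by linarith : 0 ≤ r) ht1) (hν w)
        exact this
      convert h1 using 1
      rw [hK₁]; ring
  have hg : ContDiffAt ℝ ∞ (fun z => σ * (1 - sF φ z)) p :=
    contDiffAt_const.mul (contDiffAt_const.sub (contDiffAt_sF hφ))
  have b2 : Bd1 ν p 3 (cx fun z => σ * (1 - sF φ z)) K₁ := by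
    have h1 := (b1.const_mul (sm_cx (contDiffAt_sF hφ)) (-(σ : ℂ))).add_const σ
    convert h1 using 1
    · funext z
      simp only [cx]
      push_cast
      ring
    · rw [norm_neg, Complex.norm_real, Real.norm_of_nonneg hσ0.le]
      linear_combination (-K₁) * htσ
  have b3 : Bd1 ν p 3 (cx fun z => -Real.log (1 - sF φ z)) (64 * 6 * K₁ ^ 4) := by
    have h1 := Bd1.comp hν (f := fun x => -1 * Real.log x) hg
      (contDiffAt_const.mul (Real.contDiffAt_log.2 (by rw [hσs]; norm_num))) b2 hK₁1 (B := 6)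
      (fun j h1 h4 => by
        obtain ⟨i1, i2, i3, i4⟩ := ChainAux.iter_log (-1) one_pos
        rw [hσs]
        interval_cases j
        · rw [i1]; norm_num
        · rw [i2]; norm_num
        · rw [i3]; norm_num
        · rw [i4]; norm_num)
    refine (h1.add_const (Real.log σ : ℝ)).congr ?_
    have h2 : ∀ᶠ z in 𝓝 p, sF φ z < 1 :=
      (contDiffAt_sF hφ).continuousAt.eventually_lt continuousAt_const hs
    filter_upwards [h2] with z hz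
    simp only [cx]
    rw [Real.log_mul hσ0.ne' (by linarith)]
    push_cast
    ring
  have hP : 1 ≤ K ^ 32 * q ^ 32 := one_le_mul_of_one_le_of_one_le (one_le_pow₀ hK) (one_le_pow₀ hq1)
  have eK : 64 * 6 * K₁ ^ 4 = 384 * (2 ^ 14 * 81) ^ 4 * (K ^ 32 * q ^ 32) := by
    rw [hK₁, hr]; ring
  rw [eK] at b3
  refine ⟨b3.mono hν ?_, fun a δ ha hδ hba => ?_⟩
  · rw [hdiv]
    linarith
  have hq22 : 1 ≤ 2 * q ^ 2 := by linarith
  have a1 : Bd ν p 4 (cx fun z => a z - a p) (δ * (2 * q ^ 2 * t) * (2 * q ^ 2) ^ 3) := by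
    refine ⟨by simp only [cx, sub_self, Complex.ofReal_zero, norm_zero]; positivity, ?_⟩
    have h1 := (hba.change (nuI_nonneg p) hν hq22 hδ c1 fun v => (c1 v).trans
      (mul_le_mul_of_nonneg_right (mul_le_of_le_one_right (by linarith) ht1) (hν v))).add_const
        (-(a p : ℂ))
    exact h1.congr (Eventually.of_forall fun z => by simp [cx, sub_eq_add_neg])
  have hlog : 0 ≤ Real.log σ := Real.log_nonneg hσ1
  have a2 : Bd ν p 4 (cx fun z => -Real.log (1 - sF φ z))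
      (Real.log σ + 384 * (2 ^ 14 * 81) ^ 4 * (K ^ 32 * q ^ 32)) := by
    refine ⟨?_, b3.mono hν (by linarith)⟩
    have : -Real.log (1 - sF φ p) = Real.log σ := by rw [hσ, one_div, Real.log_inv]
    simp only [cx]
    rw [this, Complex.norm_real, Real.norm_of_nonneg hlog]
    have : 0 ≤ 384 * (2 ^ 14 * 81) ^ 4 * (K ^ 32 * q ^ 32) := by positivity
    linarith
  have a3 := (Bd.mul hν (sm_cx (ha.sub contDiffAt_const)) (sm_cx (contDiffAt_logsF hφ hs)) a1 a2).2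
  have htl : t * Real.log σ ≤ 2 := by
    have h1 : σ = t⁻¹ ^ 2 := by
      rw [inv_pow]; exact eq_inv_of_mul_eq_one_right htσ
    have h2 := Real.log_le_sub_one_of_pos (inv_pos.2 ht0)
    have h3 := mul_le_mul_of_nonneg_left h2 ht0.le
    rw [mul_sub, mul_inv_cancel₀ ht0.ne'] at h3
    rw [h1, Real.log_pow]
    push_cast
    linarith
  refine Bd1.mono hν (Bd1.congr a3 (Eventually.of_forall fun z => by simp [cx])) ?_
  rw [hdiv]
  have h5 : t * (Real.log σ + 384 * (2 ^ 14 * 81) ^ 4 * (K ^ 32 * q ^ 32)) ≤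
      (2 + 384 * (2 ^ 14 * 81) ^ 4) * (K ^ 32 * q ^ 32) := by
    have : t * (K ^ 32 * q ^ 32) ≤ K ^ 32 * q ^ 32 := mul_le_of_le_one_left (by linarith) ht1
    linarith
  calc _ = 256 * δ * q ^ 8 * (t * (Real.log σ + 384 * (2 ^ 14 * 81) ^ 4 * (K ^ 32 * q ^ 32))) := by
        ring
    _ ≤ 256 * δ * q ^ 8 * ((2 + 384 * (2 ^ 14 * 81) ^ 4) * (K ^ 32 * q ^ 32)) := by gcongr
    _ = _ := by ring

end Crest.Agent.R245
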