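import Crest.Agent.R245.Basic

/-!
# R245 Germ: calculus of `pd`, `Dh`, `Db` near a point; existence and functoriality of jets (TASK)

All identities between functions hold near `p` (`=ᶠ[𝓝 p]`): a function that is `C^∞` at `p` is
`C²` at all points near `p` (`ContDiffAt.eventually` after `of_le`).
-/

set_option autoImplicit false
open scoped ComplexConjugate ContDiff Topology
open Complex (I)
open Filter

namespace Crest.Agent.R245

variable {F G : E → ℂ} {p : E}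

namespace GermAux

theorem ev2 {X : Type} [NormedAddCommGroup X] [NormedSpace ℝ X] {Y : Type} [NormedAddCommGroup Y]
    [NormedSpace ℝ Y] {f : X → Y} {x : X} (hf : ContDiffAt ℝ ∞ f x) :
    ∀ᶠ z in 𝓝 x, ContDiffAt ℝ 2 f z :=
  (hf.of_le (WithTop.coe_le_coe.2 (le_top : (2 : ℕ∞) ≤ ⊤))).eventually (by simp)

theorem evd {X : Type} [NormedAddCommGroup X] [NormedSpace ℝ X] {Y : Type} [NormedAddCommGroup Y]
    [NormedSpace ℝ Y] {f : X → Y} {x : X} (hf : ContDiffAt ℝ ∞ f x) :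
    ∀ᶠ z in 𝓝 x, DifferentiableAt ℝ f z :=
  (ev2 hf).mono fun _ h => h.differentiableAt (by simp)

end GermAux
open GermAux

theorem sm_cx {f : E → ℝ} (hf : ContDiffAt ℝ ∞ f p) : Sm (cx f) p := by
  exact Complex.ofRealCLM.contDiff.contDiffAt.comp p hf

theorem Sm.pd (hF : Sm F p) (v : E) : Sm (pd v F) p := by
  have h : ContDiffAt ℝ ∞ (fderiv ℝ F) p := ContDiffAt.fderiv_right hF (by simp)
  exact h.clm_apply contDiffAt_const

theorem Sm.Dh (hF : Sm F p) (A : E) : Sm (Dh A F) p := by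
  exact ((hF.pd A).sub (contDiffAt_const.mul (hF.pd _))).div_const 2

theorem Sm.Db (hF : Sm F p) (A : E) : Sm (Db A F) p := by
  exact ((hF.pd A).add (contDiffAt_const.mul (hF.pd _))).div_const 2

theorem Sm.conj (hF : Sm F p) : Sm (fun z => conj (F z)) p := by
  exact Complex.conjCLE.contDiff.contDiffAt.comp p hF

theorem pd_congr (h : F =ᶠ[𝓝 p] G) (v : E) : pd v F =ᶠ[𝓝 p] pd v G := by
  filter_upwards [h.fderiv (𝕜 := ℝ)] with z hz
  simp only [pd, hz]

theorem Dh_congr (h : F =ᶠ[𝓝 p] G) (A : E) : Dh A F =ᶠ[𝓝 p] Dh A G := by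
  filter_upwards [pd_congr h A, pd_congr h (I • A)] with z h1 h2
  simp only [Dh, h1, h2]

theorem Db_congr (h : F =ᶠ[𝓝 p] G) (A : E) : Db A F =ᶠ[𝓝 p] Db A G := by
  filter_upwards [pd_congr h A, pd_congr h (I • A)] with z h1 h2
  simp only [Db, h1, h2]

theorem pd_eq_Dh_add_Db (v : E) (F : E → ℂ) (z : E) : pd v F z = Dh v F z + Db v F z := by
  simp only [Dh, Db]; ring

theorem pd_add_dir (u v : E) (F : E → ℂ) (z : E) : pd (u + v) F z = pd u F z + pd v F z := by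
  simp [pd]

theorem pd_smul_dir (c : ℝ) (v : E) (F : E → ℂ) (z : E) : pd (c • v) F z = c * pd v F z := by
  simp [pd]

theorem Dh_add_dir (A A' : E) (F : E → ℂ) (z : E) : Dh (A + A') F z = Dh A F z + Dh A' F z := by
  simp only [Dh, smul_add, pd_add_dir]; ring

theorem GermAux.pd_csmul (c : ℂ) (A : E) (F : E → ℂ) (z : E) :
    pd (c • A) F z = c.re * pd A F z + c.im * pd (I • A) F z := by
  have : c • A = c.re • A + c.im • (I • A) := by
    funext i
    simp only [Pi.smul_apply, Pi.add_apply, smul_eq_mul, Complex.real_smul]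
    conv_lhs => rw [← Complex.re_add_im c]
    ring
  rw [this, pd_add_dir, pd_smul_dir, pd_smul_dir]

/-- write `c • A = re c • A + im c • (I • A)` (real scalars), `I • I • A = -A` -/
theorem Dh_smul_dir (c : ℂ) (A : E) (F : E → ℂ) (z : E) : Dh (c • A) F z = c * Dh A F z := by
  simp only [Dh, smul_smul]
  rw [pd_csmul c, pd_csmul (I * c)]
  conv_rhs => rw [← Complex.re_add_im c]
  simp only [Complex.mul_re, Complex.mul_im, Complex.I_re, Complex.I_im]
  push_cast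
  linear_combination (↑c.im * pd (I • A) F z / 2) * Complex.I_mul_I

theorem Db_add_dir (A A' : E) (F : E → ℂ) (z : E) : Db (A + A') F z = Db A F z + Db A' F z := by
  simp only [Db, smul_add, pd_add_dir]; ring

theorem Db_smul_dir (c : ℂ) (A : E) (F : E → ℂ) (z : E) :
    Db (c • A) F z = conj c * Db A F z := by
  simp only [Db, smul_smul]
  rw [pd_csmul c, pd_csmul (I * c)]
  conv_rhs => rw [← Complex.re_add_im c]
  simp only [Complex.mul_re, Complex.mul_im, Complex.I_re, Complex.I_im, map_add, map_mul,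
    Complex.conj_ofReal, Complex.conj_I]
  push_cast
  linear_combination (↑c.im * pd (I • A) F z / 2) * Complex.I_mul_I

theorem pd_const (c : ℂ) (v : E) : pd v (fun _ => c) = fun _ => 0 := by
  funext z; simp [pd]

theorem pd_add (hF : Sm F p) (hG : Sm G p) (v : E) :
    pd v (fun z => F z + G z) =ᶠ[𝓝 p] fun z => pd v F z + pd v G z := by
  filter_upwards [evd hF, evd hG] with z h1 h2
  simp only [pd]
  rw [fderiv_fun_add h1 h2]; rfl

theorem pd_mul (hF : Sm F p) (hG : Sm G p) (v : E) :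
    pd v (fun z => F z * G z) =ᶠ[𝓝 p] fun z => pd v F z * G z + F z * pd v G z := by
  filter_upwards [evd hF, evd hG] with z h1 h2
  simp only [pd]
  rw [fderiv_fun_mul h1 h2]
  simp only [add_apply, smul_apply, smul_eq_mul]
  ring

theorem pd_const_mul (hF : Sm F p) (c : ℂ) (v : E) :
    pd v (fun z => c * F z) =ᶠ[𝓝 p] fun z => c * pd v F z := by
  filter_upwards [evd hF] with z h1
  simp only [pd]
  rw [fderiv_const_mul h1]; rfl

theorem pd_conj (hF : Sm F p) (v : E) :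
    pd v (fun z => conj (F z)) =ᶠ[𝓝 p] fun z => conj (pd v F z) := by
  filter_upwards [evd hF] with z h1
  have := (Complex.conjCLE.toContinuousLinearMap.hasFDerivAt.comp z h1.hasFDerivAt).fderiv
  exact congrArg (fun L : E →L[ℝ] ℂ => L v) this

theorem GermAux.pd_cx {t : E → ℝ} {z : E} (ht : DifferentiableAt ℝ t z) (v : E) :
    pd v (cx t) z = (fderiv ℝ t z v : ℝ) := by
  have := (Complex.ofRealCLM.hasFDerivAt.comp z ht.hasFDerivAt).fderiv
  exact congrArg (fun L : E →L[ℝ] ℂ => L v) this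

/-- chain rule for a real function of a real function -/
theorem pd_comp {t : E → ℝ} {f : ℝ → ℝ} (ht : ContDiffAt ℝ ∞ t p) (hf : ContDiffAt ℝ ∞ f (t p))
    (v : E) :
    pd v (cx fun z => f (t z)) =ᶠ[𝓝 p] fun z => cx (fun z => deriv f (t z)) z * pd v (cx t) z := by
  filter_upwards [evd ht, ht.continuousAt.eventually (evd hf)] with z h1 h2
  have h3 := h2.hasDerivAt.comp_hasFDerivAt z h1.hasFDerivAt
  rw [pd_cx h1, pd_cx (t := fun z => f (t z)) h3.differentiableAt]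
  have h4 : fderiv ℝ (fun z => f (t z)) z = deriv f (t z) • fderiv ℝ t z := h3.fderiv
  rw [h4]
  simp [cx]

/-- symmetry of the second derivative (`ContDiffAt.isSymmSndFDerivAt`) -/
theorem pd_comm (hF : Sm F p) (u v : E) : pd u (pd v F) =ᶠ[𝓝 p] pd v (pd u F) := by
  filter_upwards [ev2 hF] with z h
  have hd : DifferentiableAt ℝ (fderiv ℝ F) z :=
    (h.fderiv_right (m := 1) (by norm_num)).differentiableAt (by simp)
  have e : ∀ a b : E, pd a (pd b F) z = fderiv ℝ (fderiv ℝ F) z a b := by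
    intro a b
    have := (hd.hasFDerivAt.clm_apply (hasFDerivAt_const b z)).fderiv
    simp only [pd]
    erw [this]
    simp
  rw [e, e]
  exact h.isSymmSndFDerivAt (by simp) u v

theorem Dh_add (hF : Sm F p) (hG : Sm G p) (A : E) :
    Dh A (fun z => F z + G z) =ᶠ[𝓝 p] fun z => Dh A F z + Dh A G z := by
  filter_upwards [pd_add hF hG A, pd_add hF hG (I • A)] with z h1 h2
  simp only [Dh, h1, h2]; ring

theorem Db_add (hF : Sm F p) (hG : Sm G p) (A : E) :
    Db A (fun z => F z + G z) =ᶠ[𝓝 p] fun z => Db A F z + Db A G z := by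
  filter_upwards [pd_add hF hG A, pd_add hF hG (I • A)] with z h1 h2
  simp only [Db, h1, h2]; ring

theorem Dh_mul (hF : Sm F p) (hG : Sm G p) (A : E) :
    Dh A (fun z => F z * G z) =ᶠ[𝓝 p] fun z => Dh A F z * G z + F z * Dh A G z := by
  filter_upwards [pd_mul hF hG A, pd_mul hF hG (I • A)] with z h1 h2
  simp only [Dh, h1, h2]; ring

theorem Db_mul (hF : Sm F p) (hG : Sm G p) (A : E) :
    Db A (fun z => F z * G z) =ᶠ[𝓝 p] fun z => Db A F z * G z + F z * Db A G z := by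
  filter_upwards [pd_mul hF hG A, pd_mul hF hG (I • A)] with z h1 h2
  simp only [Db, h1, h2]; ring

theorem Dh_const_mul (hF : Sm F p) (c : ℂ) (A : E) :
    Dh A (fun z => c * F z) =ᶠ[𝓝 p] fun z => c * Dh A F z := by
  filter_upwards [pd_const_mul hF c A, pd_const_mul hF c (I • A)] with z h1 h2
  simp only [Dh, h1, h2]; ring

theorem Db_const_mul (hF : Sm F p) (c : ℂ) (A : E) :
    Db A (fun z => c * F z) =ᶠ[𝓝 p] fun z => c * Db A F z := by
  filter_upwards [pd_const_mul hF c A, pd_const_mul hF c (I • A)] with z h1 h2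
  simp only [Db, h1, h2]; ring

theorem Dh_conj (hF : Sm F p) (A : E) :
    Dh A (fun z => conj (F z)) =ᶠ[𝓝 p] fun z => conj (Db A F z) := by
  filter_upwards [pd_conj hF A, pd_conj hF (I • A)] with z h1 h2
  simp only [Dh, Db, h1, h2, map_div₀, map_add, map_sub, map_mul, Complex.conj_I,
    Complex.conj_ofNat]
  ring

theorem Db_conj (hF : Sm F p) (A : E) :
    Db A (fun z => conj (F z)) =ᶠ[𝓝 p] fun z => conj (Dh A F z) := by
  filter_upwards [pd_conj hF A, pd_conj hF (I • A)] with z h1 h2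
  simp only [Dh, Db, h1, h2, map_div₀, map_add, map_sub, map_mul, Complex.conj_I,
    Complex.conj_ofNat]
  ring

theorem Dh_comp {t : E → ℝ} {f : ℝ → ℝ} (ht : ContDiffAt ℝ ∞ t p) (hf : ContDiffAt ℝ ∞ f (t p))
    (A : E) :
    Dh A (cx fun z => f (t z)) =ᶠ[𝓝 p] fun z => cx (fun z => deriv f (t z)) z * Dh A (cx t) z := by
  filter_upwards [pd_comp ht hf A, pd_comp ht hf (I • A)] with z h1 h2
  simp only [Dh, h1, h2]; ring

theorem Db_comp {t : E → ℝ} {f : ℝ → ℝ} (ht : ContDiffAt ℝ ∞ t p) (hf : ContDiffAt ℝ ∞ f (t p))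
    (A : E) :
    Db A (cx fun z => f (t z)) =ᶠ[𝓝 p] fun z => cx (fun z => deriv f (t z)) z * Db A (cx t) z := by
  filter_upwards [pd_comp ht hf A, pd_comp ht hf (I • A)] with z h1 h2
  simp only [Db, h1, h2]; ring

theorem GermAux.pd_lin (hF : Sm F p) (hG : Sm G p) (a b : ℂ) (v : E) :
    pd v (fun z => a * F z + b * G z) =ᶠ[𝓝 p] fun z => a * pd v F z + b * pd v G z := by
  filter_upwards [pd_add (F := fun z => a * F z) (G := fun z => b * G z)
    (contDiffAt_const.mul hF) (contDiffAt_const.mul hG) v, pd_const_mul hF a v,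
    pd_const_mul hG b v] with z h1 h2 h3
  rw [h1, h2, h3]

theorem GermAux.pd_Dh (hF : Sm F p) (u A : E) : pd u (Dh A F) =ᶠ[𝓝 p] Dh A (pd u F) := by
  have e : Dh A F = fun z => (1 / 2) * pd A F z + (-I / 2) * pd (I • A) F z := by
    funext z; simp only [Dh]; ring
  filter_upwards [pd_lin (hF.pd A) (hF.pd (I • A)) (1 / 2) (-I / 2) u, pd_comm hF u A,
    pd_comm hF u (I • A)] with z h1 h2 h3
  rw [e, h1, h2, h3]; simp only [Dh]; ring

theorem GermAux.pd_Db (hF : Sm F p) (u A : E) : pd u (Db A F) =ᶠ[𝓝 p] Db A (pd u F) := by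
  have e : Db A F = fun z => (1 / 2) * pd A F z + (I / 2) * pd (I • A) F z := by
    funext z; simp only [Db]; ring
  filter_upwards [pd_lin (hF.pd A) (hF.pd (I • A)) (1 / 2) (I / 2) u, pd_comm hF u A,
    pd_comm hF u (I • A)] with z h1 h2 h3
  rw [e, h1, h2, h3]; simp only [Db]; ring

theorem Dh_Dh_comm (hF : Sm F p) (A C : E) : Dh A (Dh C F) =ᶠ[𝓝 p] Dh C (Dh A F) := by
  filter_upwards [pd_Dh hF A C, pd_Dh hF (I • A) C, pd_Dh hF C A, pd_Dh hF (I • C) A,
    pd_comm hF A C, pd_comm hF A (I • C), pd_comm hF (I • A) C, pd_comm hF (I • A) (I • C)]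
    with z h1 h2 h3 h4 h5 h6 h7 h8
  rw [Dh, Dh] 
  simp only [h1, h2, h3, h4]
  simp only [Dh, Db, h5, h6, h7, h8]
  ring

theorem Db_Db_comm (hF : Sm F p) (A C : E) : Db A (Db C F) =ᶠ[𝓝 p] Db C (Db A F) := by
  filter_upwards [pd_Db hF A C, pd_Db hF (I • A) C, pd_Db hF C A, pd_Db hF (I • C) A,
    pd_comm hF A C, pd_comm hF A (I • C), pd_comm hF (I • A) C, pd_comm hF (I • A) (I • C)]
    with z h1 h2 h3 h4 h5 h6 h7 h8
  rw [Db, Db] 
  simp only [h1, h2, h3, h4]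
  simp only [Dh, Db, h5, h6, h7, h8]
  ring

theorem Db_Dh_comm (hF : Sm F p) (A C : E) : Db A (Dh C F) =ᶠ[𝓝 p] Dh C (Db A F) := by
  filter_upwards [pd_Dh hF A C, pd_Dh hF (I • A) C, pd_Db hF C A, pd_Db hF (I • C) A,
    pd_comm hF A C, pd_comm hF A (I • C), pd_comm hF (I • A) C, pd_comm hF (I • A) (I • C)]
    with z h1 h2 h3 h4 h5 h6 h7 h8
  rw [Db, Dh] 
  simp only [h1, h2, h3, h4]
  simp only [Dh, Db, h5, h6, h7, h8]
  ring

theorem GermAux.conj_cx (f : E → ℝ) : (fun z => conj (cx f z)) = cx f := by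
  funext z; simp [cx]

theorem GermAux.conj_Db {f : E → ℝ} (hf : ContDiffAt ℝ ∞ f p) (B : E) :
    (fun z => conj (Db B (cx f) z)) =ᶠ[𝓝 p] Dh B (cx f) := by
  have := Dh_conj (sm_cx hf) B
  rw [conj_cx] at this
  exact this.symm

theorem GermAux.conj_Dh_of {F F' : E → ℂ} (hF : Sm F p) (h : (fun z => conj (F z)) =ᶠ[𝓝 p] F')
    (A : E) : (fun z => conj (Dh A F z)) =ᶠ[𝓝 p] Db A F' :=
  (Db_conj hF A).symm.trans (Db_congr h A)

theorem GermAux.conj_Db_of {F F' : E → ℂ} (hF : Sm F p) (h : (fun z => conj (F z)) =ᶠ[𝓝 p] F')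
    (A : E) : (fun z => conj (Db A F z)) =ᶠ[𝓝 p] Dh A F' :=
  (Dh_conj hF A).symm.trans (Dh_congr h A)

/-- `Jet.ofFun` applied to the five derivative expressions: linearity in the outer slot is
`Dh_add_dir`, `Dh_smul_dir`; in the inner slot of `h3` it is `Db_add_dir` + `Dh_add` + `Dh_congr`;
the symmetries are the commutation lemmas and `Dh_conj`, `Db_conj` (`conj ∘ cx f = cx f`). -/
theorem jetAt_of {f : E → ℝ} (hf : ContDiffAt ℝ ∞ f p) : (jetAt f p).Of f p := by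
  have hF := sm_cx hf
  have key : ∃ J : Jet, J.Of f p := by
    refine ⟨Jet.ofFun (fun A => Dh A (cx f) p) (fun A C => Dh A (Dh C (cx f)) p)
      (fun A B => Dh A (Db B (cx f)) p) (fun A C B => Dh A (Dh C (Db B (cx f))) p)
      (fun A C B D => Dh A (Dh C (Db B (Db D (cx f)))) p)
      (fun _ _ => Dh_add_dir _ _ _ _) (fun _ _ => Dh_smul_dir _ _ _ _)
      (fun _ _ _ => Dh_add_dir _ _ _ _) (fun _ _ _ => Dh_smul_dir _ _ _ _)
      (fun A C => (Dh_Dh_comm hF A C).self_of_nhds)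
      (fun _ _ _ => Dh_add_dir _ _ _ _) (fun _ _ _ => Dh_smul_dir _ _ _ _) ?_
      (fun _ _ _ _ => Dh_add_dir _ _ _ _) (fun _ _ _ _ => Dh_smul_dir _ _ _ _)
      (fun A C B => (Dh_Dh_comm (hF.Db B) A C).self_of_nhds) ?_ ?_
      (fun _ _ _ _ _ => Dh_add_dir _ _ _ _) (fun _ _ _ _ _ => Dh_smul_dir _ _ _ _)
      (fun A C B D => (Dh_Dh_comm ((hF.Db D).Db B) A C).self_of_nhds) ?_,
      fun _ => rfl, fun _ _ => rfl, fun _ _ => rfl, fun _ _ _ => rfl, fun _ _ _ _ => rfl⟩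
    · intro A B
      exact ((conj_Dh_of (hF.Db B) (conj_Db hf B) A).trans (Db_Dh_comm hF A B)).self_of_nhds
    · intro A C B B'
      have e : Db (B + B') (cx f) = fun z => Db B (cx f) z + Db B' (cx f) z :=
        funext (Db_add_dir _ _ _)
      simp only [e]
      exact ((Dh_congr (Dh_add (hF.Db B) (hF.Db B') C) A).trans
        (Dh_add ((hF.Db B).Dh C) ((hF.Db B').Dh C) A)).self_of_nhds
    · intro c A C B
      have e : Db (c • B) (cx f) = fun z => conj c * Db B (cx f) z := funext (Db_smul_dir _ _ _)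
      simp only [e]
      exact ((Dh_congr (Dh_const_mul (hF.Db B) _ C) A).trans
        (Dh_const_mul ((hF.Db B).Dh C) _ A)).self_of_nhds
    · intro A C B D
      have h1 := conj_Dh_of (((hF.Db D).Db B).Dh C)
        (conj_Dh_of ((hF.Db D).Db B) (conj_Db_of (hF.Db D) (conj_Db hf D) B) C) A
      have h2 : Db C (Dh B (Dh D (cx f))) =ᶠ[𝓝 p] Dh B (Dh D (Db C (cx f))) :=
        (Db_Dh_comm (hF.Dh D) C B).trans (Dh_congr (Db_Dh_comm hF C D) B)
      have h3 : Db A (Dh B (Dh D (Db C (cx f)))) =ᶠ[𝓝 p] Dh B (Dh D (Db A (Db C (cx f)))) :=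
        (Db_Dh_comm ((hF.Db C).Dh D) A B).trans (Dh_congr (Db_Dh_comm (hF.Db C) A D) B)
      exact ((h1.trans (Db_congr h2 A)).trans h3).self_of_nhds
  obtain ⟨J, hJ⟩ := key
  rw [jetAt_eq hJ]; exact hJ

theorem GermAux.of_congr {f g : E → ℝ} (h : f =ᶠ[𝓝 p] g) {J : Jet} (hJ : J.Of f p) : J.Of g p := by
  have h' : cx f =ᶠ[𝓝 p] cx g := h.mono fun z hz => by simp only [cx, hz]
  exact ⟨fun A => (hJ.e1 A).trans (Dh_congr h' A).self_of_nhds,
    fun A C => (hJ.e20 A C).trans (Dh_congr (Dh_congr h' C) A).self_of_nhds,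
    fun A B => (hJ.e2 A B).trans (Dh_congr (Db_congr h' B) A).self_of_nhds,
    fun A C B => (hJ.e3 A C B).trans (Dh_congr (Dh_congr (Db_congr h' B) C) A).self_of_nhds,
    fun A C B D => (hJ.e4 A C B D).trans
      (Dh_congr (Dh_congr (Db_congr (Db_congr h' D) B) C) A).self_of_nhds⟩

theorem jetAt_congr {f g : E → ℝ} (h : f =ᶠ[𝓝 p] g) : jetAt f p = jetAt g p := by
  by_cases hJ : ∃ J : Jet, J.Of f p
  · obtain ⟨J, hJ⟩ := hJ
    rw [jetAt_eq hJ, jetAt_eq (of_congr h hJ)]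
  · have hJ' : ¬ ∃ J : Jet, J.Of g p := fun ⟨J, hJ'⟩ => hJ ⟨J, of_congr h.symm hJ'⟩
    rw [jetAt, jetAt, dif_neg hJ, dif_neg hJ']

theorem jetAt_const (c : ℝ) (p : E) : jetAt (fun _ => c) p = 0 := by
  have e1 : ∀ (c : ℂ) A, Dh A (fun _ => c) = fun _ => 0 := fun c A => by
    funext z; simp [Dh, pd_const]
  have e2 : ∀ (c : ℂ) A, Db A (fun _ => c) = fun _ => 0 := fun c A => by
    funext z; simp [Db, pd_const]
  have e : cx (fun _ => c) = fun _ => (c : ℂ) := rfl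
  apply jetAt_eq
  constructor <;> intros <;> simp [e, e1, e2]

theorem GermAux.Dh_add_of {H : E → ℂ} (hF : Sm F p) (hG : Sm G p)
    (h : H =ᶠ[𝓝 p] fun z => F z + G z) (A : E) : Dh A H =ᶠ[𝓝 p] fun z => Dh A F z + Dh A G z :=
  (Dh_congr h A).trans (Dh_add hF hG A)

theorem GermAux.Db_add_of {H : E → ℂ} (hF : Sm F p) (hG : Sm G p)
    (h : H =ᶠ[𝓝 p] fun z => F z + G z) (A : E) : Db A H =ᶠ[𝓝 p] fun z => Db A F z + Db A G z :=
  (Db_congr h A).trans (Db_add hF hG A)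

theorem GermAux.Dh_smul_of {H : E → ℂ} {c : ℂ} (hF : Sm F p)
    (h : H =ᶠ[𝓝 p] fun z => c * F z) (A : E) : Dh A H =ᶠ[𝓝 p] fun z => c * Dh A F z :=
  (Dh_congr h A).trans (Dh_const_mul hF c A)

theorem GermAux.Db_smul_of {H : E → ℂ} {c : ℂ} (hF : Sm F p)
    (h : H =ᶠ[𝓝 p] fun z => c * F z) (A : E) : Db A H =ᶠ[𝓝 p] fun z => c * Db A F z :=
  (Db_congr h A).trans (Db_const_mul hF c A)

theorem jetAt_add {f g : E → ℝ} (hf : ContDiffAt ℝ ∞ f p) (hg : ContDiffAt ℝ ∞ g p) :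
    jetAt (fun z => f z + g z) p = jetAt f p + jetAt g p := by
  have hF := sm_cx hf
  have hG := sm_cx hg
  have h1 := jetAt_of hf
  have h2 := jetAt_of hg
  have e : cx (fun z => f z + g z) =ᶠ[𝓝 p] fun z => cx f z + cx g z :=
    Eventually.of_forall fun z => by simp [cx]
  apply jetAt_eq
  refine ⟨fun A => ?_, fun A C => ?_, fun A B => ?_, fun A C B => ?_, fun A C B D => ?_⟩
  · rw [Jet.add_h1, h1.e1, h2.e1]
    exact (Dh_add_of hF hG e A).self_of_nhds.symm
  · rw [Jet.add_h20, h1.e20, h2.e20]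
    exact (Dh_add_of (hF.Dh C) (hG.Dh C) (Dh_add_of hF hG e C) A).self_of_nhds.symm
  · rw [Jet.add_h2, h1.e2, h2.e2]
    exact (Dh_add_of (hF.Db B) (hG.Db B) (Db_add_of hF hG e B) A).self_of_nhds.symm
  · rw [Jet.add_h3, h1.e3, h2.e3]
    exact (Dh_add_of ((hF.Db B).Dh C) ((hG.Db B).Dh C)
      (Dh_add_of (hF.Db B) (hG.Db B) (Db_add_of hF hG e B) C) A).self_of_nhds.symm
  · rw [Jet.add_h4, h1.e4, h2.e4]
    exact (Dh_add_of (((hF.Db D).Db B).Dh C) (((hG.Db D).Db B).Dh C)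
      (Dh_add_of ((hF.Db D).Db B) ((hG.Db D).Db B)
        (Db_add_of (hF.Db D) (hG.Db D) (Db_add_of hF hG e D) B) C) A).self_of_nhds.symm

theorem jetAt_smul {f : E → ℝ} (hf : ContDiffAt ℝ ∞ f p) (c : ℝ) :
    jetAt (fun z => c * f z) p = c • jetAt f p := by
  have hF := sm_cx hf
  have h1 := jetAt_of hf
  have e : cx (fun z => c * f z) =ᶠ[𝓝 p] fun z => (c : ℂ) * cx f z :=
    Eventually.of_forall fun z => by simp [cx]
  apply jetAt_eq
  refine ⟨fun A => ?_, fun A C => ?_, fun A B => ?_, fun A C B => ?_, fun A C B D => ?_⟩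
  · rw [Jet.smul_h1, h1.e1]
    exact (Dh_smul_of hF e A).self_of_nhds.symm
  · rw [Jet.smul_h20, h1.e20]
    exact (Dh_smul_of (hF.Dh C) (Dh_smul_of hF e C) A).self_of_nhds.symm
  · rw [Jet.smul_h2, h1.e2]
    exact (Dh_smul_of (hF.Db B) (Db_smul_of hF e B) A).self_of_nhds.symm
  · rw [Jet.smul_h3, h1.e3]
    exact (Dh_smul_of ((hF.Db B).Dh C)
      (Dh_smul_of (hF.Db B) (Db_smul_of hF e B) C) A).self_of_nhds.symm
  · rw [Jet.smul_h4, h1.e4]
    exact (Dh_smul_of (((hF.Db D).Db B).Dh C) (Dh_smul_of ((hF.Db D).Db B)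
        (Db_smul_of (hF.Db D) (Db_smul_of hF e D) B) C) A).self_of_nhds.symm

theorem GermAux.pd_pull (L : E →L[ℂ] E) (hG : Sm G (L p)) (v : E) :
    pd v (fun z => G (L z)) =ᶠ[𝓝 p] fun z => pd (L v) G (L z) := by
  filter_upwards [L.continuous.continuousAt.eventually (evd hG)] with z h
  have := (h.hasFDerivAt.comp z (L.restrictScalars ℝ).hasFDerivAt).fderiv
  exact congrArg (fun T : E →L[ℝ] ℂ => T v) this

theorem GermAux.Dh_pull_of {H : E → ℂ} (L : E →L[ℂ] E) (hG : Sm G (L p))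
    (h : H =ᶠ[𝓝 p] fun z => G (L z)) (A : E) : Dh A H =ᶠ[𝓝 p] fun z => Dh (L A) G (L z) := by
  refine (Dh_congr h A).trans ?_
  filter_upwards [pd_pull L hG A, pd_pull L hG (I • A)] with z h1 h2
  simp only [Dh, h1, h2, map_smul]

theorem GermAux.Db_pull_of {H : E → ℂ} (L : E →L[ℂ] E) (hG : Sm G (L p))
    (h : H =ᶠ[𝓝 p] fun z => G (L z)) (A : E) : Db A H =ᶠ[𝓝 p] fun z => Db (L A) G (L z) := by
  refine (Db_congr h A).trans ?_
  filter_upwards [pd_pull L hG A, pd_pull L hG (I • A)] with z h1 h2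
  simp only [Db, h1, h2, map_smul]

/-- `Dh A (G ∘ L) = (Dh (L A) G) ∘ L` near `p` for `G` smooth at `L p` -/
theorem jetAt_pull {f : E → ℝ} (L : E →L[ℂ] E) (hf : ContDiffAt ℝ ∞ f (L p)) :
    jetAt (fun z => f (L z)) p = (jetAt f (L p)).pull (L : E →ₗ[ℂ] E) := by
  have hF := sm_cx hf
  have h1 := jetAt_of hf
  have e : cx (fun z => f (L z)) =ᶠ[𝓝 p] fun z => cx f (L z) := Eventually.of_forall fun z => rfl
  apply jetAt_eq
  refine ⟨fun A => ?_, fun A C => ?_, fun A B => ?_, fun A C B => ?_, fun A C B D => ?_⟩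
  · rw [Jet.pull_h1, h1.e1]
    exact (Dh_pull_of L hF e A).self_of_nhds.symm
  · rw [Jet.pull_h20, h1.e20]
    exact (Dh_pull_of L (hF.Dh _) (Dh_pull_of L hF e C) A).self_of_nhds.symm
  · rw [Jet.pull_h2, h1.e2]
    exact (Dh_pull_of L (hF.Db _) (Db_pull_of L hF e B) A).self_of_nhds.symm
  · rw [Jet.pull_h3, h1.e3]
    exact (Dh_pull_of L ((hF.Db _).Dh _)
      (Dh_pull_of L (hF.Db _) (Db_pull_of L hF e B) C) A).self_of_nhds.symm
  · rw [Jet.pull_h4, h1.e4]
    exact (Dh_pull_of L (((hF.Db _).Db _).Dh _) (Dh_pull_of L ((hF.Db _).Db _)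
        (Db_pull_of L (hF.Db _) (Db_pull_of L hF e D) B) C) A).self_of_nhds.symm

/-- `pd X = Dh X + Db X` and `Db X (cx f) = conj (Dh X (cx f))` -/
theorem fderiv_eq_h1 {f : E → ℝ} (hf : ContDiffAt ℝ ∞ f p) (X : E) :
    fderiv ℝ f p X = 2 * ((jetAt f p).h1 X).re := by
  have h1 := pd_cx (hf.differentiableAt (by simp)) X
  have h2 : conj (Db X (cx f) p) = Dh X (cx f) p := (conj_Db hf X).self_of_nhds
  rw [pd_eq_Dh_add_Db] at h1
  rw [(jetAt_of hf).e1]
  have h3 := congrArg Complex.re h1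
  have h4 := congrArg Complex.re h2
  simp only [Complex.add_re, Complex.ofReal_re, Complex.conj_re] at h3 h4
  linarith

theorem continuousAt_h1 {f : E → ℝ} (hf : ∀ᶠ q in 𝓝 p, ContDiffAt ℝ ∞ f q) (A : E) :
    ContinuousAt (fun q => (jetAt f q).h1 A) p := by
  refine (((sm_cx hf.self_of_nhds).Dh A).continuousAt).congr ?_
  filter_upwards [hf] with q hq
  exact ((jetAt_of hq).e1 A).symm

theorem continuousAt_h2 {f : E → ℝ} (hf : ∀ᶠ q in 𝓝 p, ContDiffAt ℝ ∞ f q) (A B : E) :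
    ContinuousAt (fun q => (jetAt f q).h2 A B) p := by
  refine ((((sm_cx hf.self_of_nhds).Db B).Dh A).continuousAt).congr ?_
  filter_upwards [hf] with q hq
  exact ((jetAt_of hq).e2 A B).symm

end Crest.Agent.R245
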