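import Crest.Agent.R245.Global1

/-!
# R245 Global2: `UU` is diffeomorphic to `ℝ⁶`, the potential is proper (TASK)

Fibre scalings `sc t z = ![z 0 * exp (t * chi φ (rot z)), z 1 * exp (t * chi φ (rot (rot z))),
z 2 * exp (t * chi φ z)]`. At most one of the three `chi` is nonzero at a point, and `chi φ`
(like `Cyl`) does not depend on the coordinate that is scaled (`BaseOK.base`), while membership in
the other two cylinders stays false (disjointness); so the three values of `chi` are the same at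
`z` and at `sc t z`, and `sc (-t) (sc t z) = z`. `sc (1/2)` maps `UU φ` onto the Euclidean unit ball
`B = {‖z 0‖² + ‖z 1‖² + ‖z 2‖² < 1}` with inverse `sc (-1/2)`; both are smooth at the relevant points
(`contDiffAt_chi_of_mem`, `contDiffAt_chi`, `rho > 0` at all rotations of points of `B`).
-/

set_option autoImplicit false
open scoped ComplexConjugate ContDiff Topology
open Complex (I)
open Filter

namespace Crest.Agent.R245

variable {Φ0 a φ : E → ℝ}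

namespace Global2Aux

/-- squared Euclidean norm -/
noncomputable def NN (z : E) : ℝ := ‖z 0‖ ^ 2 + ‖z 1‖ ^ 2 + ‖z 2‖ ^ 2

/-- the fibre scalings -/
noncomputable def sc (φ : E → ℝ) (t : ℝ) (z : E) : E :=
  ![z 0 * (Real.exp (t * chi φ (rot z)) : ℝ), z 1 * (Real.exp (t * chi φ (rot (rot z))) : ℝ),
    z 2 * (Real.exp (t * chi φ z) : ℝ)]

theorem sc_zero (t : ℝ) (z : E) : sc φ t z 0 = z 0 * (Real.exp (t * chi φ (rot z)) : ℝ) := rfl
theorem sc_one (t : ℝ) (z : E) :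
    sc φ t z 1 = z 1 * (Real.exp (t * chi φ (rot (rot z))) : ℝ) := rfl
theorem sc_two (t : ℝ) (z : E) : sc φ t z 2 = z 2 * (Real.exp (t * chi φ z) : ℝ) := rfl

theorem ext3 {z w : E} (h0 : z 0 = w 0) (h1 : z 1 = w 1) (h2 : z 2 = w 2) : z = w := by
  funext i
  fin_cases i
  exacts [h0, h1, h2]

theorem rot_sc (t : ℝ) (z : E) : rot (sc φ t z) = sc φ t (rot z) := by
  refine ext3 rfl ?_ rfl
  rw [rot_one, sc_two, sc_one, rot_rot_rot, rot_one]

theorem NN_nonneg (z : E) : 0 ≤ NN z := by unfold NN; positivity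

theorem NN_rot (z : E) : NN (rot z) = NN z := by
  simp only [NN, rot_zero, rot_one, rot_two]; ring

theorem NN_smul (c : ℝ) (z : E) : NN (c • z) = c ^ 2 * NN z := by
  simp only [NN, Pi.smul_apply, norm_smul, Real.norm_eq_abs, mul_pow, sq_abs]; ring

theorem rho_pos {z : E} (h : NN z < 1) : 0 < rho z := by
  unfold rho nsq
  unfold NN at h
  nlinarith [sq_nonneg ‖z 2‖]

theorem contDiff_NN : ContDiff ℝ ∞ NN := by
  have h : ∀ i : Fin 3, ContDiff ℝ ∞ fun z : E => ‖z i‖ ^ 2 := fun i =>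
    (contDiff_apply ℝ ℂ i).norm_sq ℝ
  exact ((h 0).add (h 1)).add (h 2)

theorem chi_of_not {z : E} (hz : z ∉ Cyl) : chi φ z = 0 := if_neg hz

theorem mem_Cyl_congr {z w : E} (h0 : w 0 = z 0) (h1 : w 1 = z 1) : w ∈ Cyl ↔ z ∈ Cyl := by
  simp only [Cyl, Set.mem_ofPred_eq, xx, rho, nsq, h0, h1]

theorem chi_congr (h : BaseOK Φ0 a φ) {z w : E} (h0 : w 0 = z 0) (h1 : w 1 = z 1) :
    chi φ w = chi φ z := by
  have e : w = Function.update z 2 (w 2) := ext3 (by simpa using h0) (by simpa using h1) (by simp)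
  have e1 : φ w = φ z := by rw [e, h.base]
  have e2 : phi0 w = phi0 z := by simp only [phi0, rho, nsq, h0, h1]
  unfold chi
  rw [mem_Cyl_congr h0 h1, e1, e2]

theorem chi_sc_of_mem (h : BaseOK Φ0 a φ) (t : ℝ) {z : E} (hz : z ∈ Cyl) :
    chi φ (sc φ t z) = chi φ z ∧ chi φ (rot (sc φ t z)) = chi φ (rot z) ∧
      chi φ (rot (rot (sc φ t z))) = chi φ (rot (rot z)) := by
  have h1 := chi_of_not (φ := φ) (not_rot_mem_Cyl hz)
  have h2 := chi_of_not (φ := φ) (not_rot_rot_mem_Cyl hz)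
  have e0 : sc φ t z 0 = z 0 := by simp [sc_zero, h1]
  have e1 : sc φ t z 1 = z 1 := by simp [sc_one, h2]
  have hm := (mem_Cyl_congr e0 e1).2 hz
  rw [h1, h2]
  exact ⟨chi_congr h e0 e1, chi_of_not (not_rot_mem_Cyl hm), chi_of_not (not_rot_rot_mem_Cyl hm)⟩

theorem chi_sc (h : BaseOK Φ0 a φ) (t : ℝ) (z : E) : chi φ (sc φ t z) = chi φ z := by
  by_cases h0 : z ∈ Cyl
  · exact (chi_sc_of_mem h t h0).1
  by_cases h1 : rot z ∈ Cyl
  · have := (chi_sc_of_mem h t h1).2.2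
    rwa [← rot_sc, rot_rot_rot, rot_rot_rot] at this
  by_cases h2 : rot (rot z) ∈ Cyl
  · have := (chi_sc_of_mem h t h2).2.1
    rwa [← rot_sc, ← rot_sc, rot_rot_rot, rot_rot_rot] at this
  have : sc φ t z = z := ext3 (by simp [sc_zero, chi_of_not h1]) (by simp [sc_one, chi_of_not h2])
    (by simp [sc_two, chi_of_not h0])
  rw [this]

theorem sc_sc (h : BaseOK Φ0 a φ) {s t : ℝ} (hst : s + t = 0) (z : E) :
    sc φ s (sc φ t z) = z := by
  have key : ∀ (w : ℂ) (c : ℝ), w * (Real.exp (t * c) : ℝ) * (Real.exp (s * c) : ℝ) = w := by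
    intro w c
    rw [mul_assoc, ← Complex.ofReal_mul, ← Real.exp_add, ← add_mul, add_comm t s, hst]
    simp
  refine ext3 ?_ ?_ ?_
  · rw [sc_zero, sc_zero, rot_sc, chi_sc h, key]
  · rw [sc_one, sc_one, rot_sc, rot_sc, chi_sc h, key]
  · rw [sc_two, sc_two, chi_sc h, key]

theorem NN_sc (z : E) : NN (sc φ (1 / 2) z) = ‖z 2‖ ^ 2 * Real.exp (chi φ z) +
    ‖z 0‖ ^ 2 * Real.exp (chi φ (rot z)) + ‖z 1‖ ^ 2 * Real.exp (chi φ (rot (rot z))) := by
  have key : ∀ (w : ℂ) (c : ℝ), ‖w * (Real.exp (1 / 2 * c) : ℝ)‖ ^ 2 = ‖w‖ ^ 2 * Real.exp c := by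
    intro w c
    rw [norm_mul, mul_pow, Complex.norm_real, Real.norm_eq_abs, sq_abs, sq (Real.exp _),
      ← Real.exp_add]
    congr 2
    ring
  unfold NN
  rw [sc_zero, sc_one, sc_two, key, key, key]
  ring

theorem mem_UU_iff {z : E} : z ∈ UU φ ↔ NN (sc φ (1 / 2) z) < 1 := by
  rw [NN_sc]; rfl

theorem sc_mem_UU (h : BaseOK Φ0 a φ) {y : E} (hy : NN y < 1) : sc φ (-(1 / 2)) y ∈ UU φ := by
  rw [mem_UU_iff, sc_sc h (by ring)]; exact hy

theorem contDiffAt_sc (t : ℝ) {p : E} (h0 : ContDiffAt ℝ ∞ (chi φ) p)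
    (h1 : ContDiffAt ℝ ∞ (chi φ) (rot p)) (h2 : ContDiffAt ℝ ∞ (chi φ) (rot (rot p))) :
    ContDiffAt ℝ ∞ (sc φ t) p := by
  have hr : ContDiff ℝ ∞ (rot : E → E) := rot.contDiff.restrict_scalars ℝ
  have key : ∀ (i : Fin 3) (c : E → ℝ), ContDiffAt ℝ ∞ c p →
      ContDiffAt ℝ ∞ (fun z : E => z i * (Real.exp (t * c z) : ℝ)) p := fun i c hc =>
    (contDiff_apply ℝ ℂ i).contDiffAt.mul
      (Complex.ofRealCLM.contDiff.contDiffAt.comp p (contDiffAt_const.mul hc).exp)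
  refine contDiffAt_pi.2 fun i => ?_
  fin_cases i
  · exact key 0 _ (h1.comp p hr.contDiffAt)
  · exact key 1 _ (ContDiffAt.comp (g := chi φ) (f := fun x => rot (rot x)) p h2
      (hr.comp hr).contDiffAt)
  · exact key 2 _ h0

theorem contDiffAt_sc_ball (h : BaseOK Φ0 a φ) (t : ℝ) {p : E} (hp : NN p < 1) :
    ContDiffAt ℝ ∞ (sc φ t) p :=
  contDiffAt_sc t (contDiffAt_chi h (rho_pos hp))
    (contDiffAt_chi h (rho_pos (by rwa [NN_rot])))
    (contDiffAt_chi h (rho_pos (by rwa [NN_rot, NN_rot])))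

theorem contDiffAt_sc_UU (h : BaseOK Φ0 a φ) (t : ℝ) {p : E} (hp : p ∈ UU φ) :
    ContDiffAt ℝ ∞ (sc φ t) p :=
  contDiffAt_sc t (contDiffAt_chi_of_mem h hp) (contDiffAt_chi_of_mem h (rot_mem_UU.2 hp))
    (contDiffAt_chi_of_mem h (rot_mem_UU.2 (rot_mem_UU.2 hp)))

/-- `ℝ⁶ → B` -/
noncomputable def toB (x : E) : E := (√(1 + NN x))⁻¹ • x

/-- `B → ℝ⁶` -/
noncomputable def ofB (y : E) : E := (√(1 - NN y))⁻¹ • y

theorem NN_toB (x : E) : 1 - NN (toB x) = (1 + NN x)⁻¹ := by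
  have := NN_nonneg x
  rw [toB, NN_smul, inv_pow, Real.sq_sqrt (by linarith)]
  field_simp
  ring

theorem NN_toB_lt (x : E) : NN (toB x) < 1 := by
  have h1 := NN_nonneg x
  have h2 := NN_toB x
  have : 0 < (1 + NN x)⁻¹ := by positivity
  linarith

theorem ofB_toB (x : E) : ofB (toB x) = x := by
  have h1 := NN_nonneg x
  have h2 : 0 < √(1 + NN x) := Real.sqrt_pos.2 (by linarith)
  rw [ofB, NN_toB, Real.sqrt_inv, inv_inv, toB, smul_smul, mul_inv_cancel₀ h2.ne', one_smul]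

theorem toB_ofB {y : E} (hy : NN y < 1) : toB (ofB y) = y := by
  have h0 : 0 < 1 - NN y := by linarith
  have h2 : 0 < √(1 - NN y) := Real.sqrt_pos.2 h0
  have h3 : 1 + NN (ofB y) = (1 - NN y)⁻¹ := by
    rw [ofB, NN_smul, inv_pow, Real.sq_sqrt h0.le]
    field_simp
    ring
  rw [toB, h3, Real.sqrt_inv, inv_inv, ofB, smul_smul, mul_inv_cancel₀ h2.ne', one_smul]

theorem contDiff_toB : ContDiff ℝ ∞ toB := by
  have h1 : ∀ x, 0 < 1 + NN x := fun x => by linarith [NN_nonneg x]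
  exact (((contDiff_const.add contDiff_NN).sqrt fun x => (h1 x).ne').inv
    fun x => (Real.sqrt_pos.2 (h1 x)).ne').smul contDiff_id

theorem contDiffAt_ofB {y : E} (hy : NN y < 1) : ContDiffAt ℝ ∞ ofB y := by
  have h1 : 0 < 1 - NN y := by linarith
  exact (((contDiffAt_const.sub contDiff_NN.contDiffAt).sqrt h1.ne').inv
    (Real.sqrt_pos.2 h1).ne').smul contDiffAt_id

theorem isCompact_ball (c : ℝ) : IsCompact {y : E | NN y ≤ c} := by
  refine Metric.isCompact_of_isClosed_isBounded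
    (isClosed_le contDiff_NN.continuous continuous_const) ?_
  refine (Metric.isBounded_closedBall (x := (0 : E)) (r := √c)).subset fun y hy => ?_
  rw [mem_closedBall_zero_iff, pi_norm_le_iff_of_nonneg (Real.sqrt_nonneg _)]
  intro i
  refine Real.le_sqrt_of_sq_le ?_
  have hy' : ‖y 0‖ ^ 2 + ‖y 1‖ ^ 2 + ‖y 2‖ ^ 2 ≤ c := hy
  have h0 := sq_nonneg ‖y 0‖
  have h1 := sq_nonneg ‖y 1‖
  have h2 := sq_nonneg ‖y 2‖
  fin_cases i
  · show ‖y 0‖ ^ 2 ≤ c
    linarith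
  · show ‖y 1‖ ^ 2 ≤ c
    linarith
  · show ‖y 2‖ ^ 2 ≤ c
    linarith

end Global2Aux

open Global2Aux

/-- `Θ = sc (-1/2) ∘ (x ↦ (1 + |x|²)^(-1/2) • x)`, `Ψ = (y ↦ (1 - |y|²)^(-1/2) • y) ∘ sc (1/2)`,
`|x|² = ∑ ‖x i‖²` -/
theorem exists_diffeo (h : BaseOK Φ0 a φ) :
    ∃ Θ Ψ : E → E, ContDiff ℝ ∞ Θ ∧ ContDiffOn ℝ ∞ Ψ (UU φ) ∧ Set.range Θ = UU φ ∧
      ∀ x, Ψ (Θ x) = x := by
  refine ⟨fun x => sc φ (-(1 / 2)) (toB x), fun z => ofB (sc φ (1 / 2) z), ?_, ?_, ?_, ?_⟩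
  · exact contDiff_iff_contDiffAt.2 fun x =>
      (contDiffAt_sc_ball h _ (NN_toB_lt x)).comp x contDiff_toB.contDiffAt
  · exact fun z hz => ((contDiffAt_ofB (mem_UU_iff.1 hz)).comp z
      (contDiffAt_sc_UU h _ hz)).contDiffWithinAt
  · ext z
    constructor
    · rintro ⟨x, rfl⟩
      exact sc_mem_UU h (NN_toB_lt x)
    · intro hz
      refine ⟨ofB (sc φ (1 / 2) z), ?_⟩
      beta_reduce
      rw [toB_ofB (mem_UU_iff.1 hz), sc_sc h (by ring)]
  · intro x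
    beta_reduce
    rw [sc_sc h (by ring), ofB_toB]

/-- For `z ∈ UU φ` with `PhiG z ≤ R` and `L` from `local_form`: `-a log (1 - s) ≥ 0` gives
`Φ0 (L z) ≤ R`, so `rho, a ≥ r` (`proper`); `Φ0 ≥ 0` gives `-log (1 - s) ≤ R / r` (and `R ≥ 0`). So
`1 - |sc (1/2) z|² ≥ r exp (-R / r) =: δ`. The set is therefore contained in the compact
`K = sc (-1/2) '' {|y|² ≤ 1 - δ} ⊆ UU φ` and equals `K ∩ {PhiG ≤ R}`, closed in `K` since `PhiG` is
continuous on `UU φ` (`ContinuousOn.preimage_isClosed_of_isClosed`). -/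
theorem isCompact_sublevel (h : BaseOK Φ0 a φ) (R : ℝ) :
    IsCompact {z | z ∈ UU φ ∧ PhiG Φ0 a φ z ≤ R} := by
  obtain ⟨r, hr, hpr⟩ := h.proper R
  set δ := r * Real.exp (-R / r) with hδ
  have hδ0 : 0 < δ := by positivity
  have hK : IsCompact (sc φ (-(1 / 2)) '' {y : E | NN y ≤ 1 - δ}) :=
    (isCompact_ball _).image_of_continuousOn fun y hy =>
      (contDiffAt_sc_ball h _ (by
        have : NN y ≤ 1 - δ := hy
        linarith)).continuousAt.continuousWithinAt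
  have hKU : sc φ (-(1 / 2)) '' {y : E | NN y ≤ 1 - δ} ⊆ UU φ := by
    rintro _ ⟨y, hy, rfl⟩
    refine sc_mem_UU h ?_
    have : NN y ≤ 1 - δ := hy
    linarith
  have hc : ContinuousOn (PhiG Φ0 a φ) (sc φ (-(1 / 2)) '' {y : E | NN y ≤ 1 - δ}) :=
    fun z hz => (contDiffAt_PhiG h (hKU hz)).continuousAt.continuousWithinAt
  have hcl := hc.preimage_isClosed_of_isClosed hK.isClosed (isClosed_Iic (a := R))
  have heq : {z | z ∈ UU φ ∧ PhiG Φ0 a φ z ≤ R} =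
      sc φ (-(1 / 2)) '' {y : E | NN y ≤ 1 - δ} ∩ PhiG Φ0 a φ ⁻¹' Set.Iic R := by
    ext z
    refine ⟨fun hz => ⟨⟨sc φ (1 / 2) z, ?_, sc_sc h (by ring) z⟩, hz.2⟩,
      fun hz => ⟨hKU hz.1, hz.2⟩⟩
    obtain ⟨L, ⟨h1, h2⟩, h3, h4⟩ := local_form h hz.1
    have h5 : PhiG Φ0 a φ z = Φ0 (L z) - a (L z) * Real.log (1 - sF φ (L z)) :=
      h3.self_of_nhds
    have h6 : 0 ≤ sF φ (L z) := by unfold sF; positivity
    have h7 : Real.log (1 - sF φ (L z)) ≤ 0 := Real.log_nonpos (by linarith) (by linarith)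
    have h8 := h.apos _ h1
    have h9 := h.nonneg _ h1
    have h10 := hz.2
    obtain ⟨h11, h12⟩ := hpr (L z) h1 (by nlinarith)
    have h13 : -R / r ≤ Real.log (1 - sF φ (L z)) := by
      rw [div_le_iff₀ hr]
      nlinarith
    have h14 : Real.exp (-R / r) ≤ 1 - sF φ (L z) :=
      (Real.le_log_iff_exp_le (by linarith)).1 h13
    have h15 : δ ≤ rho (L z) * (1 - sF φ (L z)) :=
      mul_le_mul h11 h14 (Real.exp_pos _).le h1.le
    show NN (sc φ (1 / 2) z) ≤ 1 - δ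
    rw [NN_sc]
    linarith
  rw [heq]
  exact hK.of_isClosed_subset hcl Set.inter_subset_left

end Crest.Agent.R245
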