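import Crest.Agent.R245.Psi3

/-!
# R245 Kill: holomorphic functions with `|g| ≤ B e^{kφ/2}` vanish (TASK)
-/

set_option autoImplicit false
open scoped ComplexConjugate ContDiff Topology
open Complex (I)
open Filter

namespace Crest.Agent.R245

namespace KillAux

/-- the complex tangent direction -/
noncomputable abbrev Zd (y : E) : E := ![-conj (y 1), conj (y 0), 0]

theorem ip_Zd (y : E) : ip (Zd y) y = 0 := by simp [ip]; ring

theorem nsq_Zd (y : E) : nsq (Zd y) = nsq y := by simp [nsq]; ring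

theorem rho_add (y v : E) : rho (y + v) = rho y - nsq v - 2 * (ip y v).re := by
  unfold rho; rw [nsq_add]; ring

theorem rho_Zd (y : E) (ζ : ℂ) : rho (y + ζ • Zd y) = rho y - nsq (ζ • Zd y) := by
  rw [rho_add, ip_smul_right, ← conj_ip, ip_Zd]; simp

theorem re_ge (y : E) {v : E} {s : ℝ} (hs : 0 ≤ s) (h : nsq v ≤ s ^ 2) :
    (y 0).re - s ≤ ((y + v) 0).re := by
  have h1 : ‖v 0‖ ≤ s := by
    refine (pow_le_pow_iff_left₀ (norm_nonneg _) hs two_ne_zero).mp (le_trans ?_ h)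
    unfold nsq; nlinarith [sq_nonneg ‖v 1‖]
  have h2 := (abs_le.mp ((Complex.abs_re_le_norm (v 0)).trans h1)).1
  simp only [Pi.add_apply, Complex.add_re]
  linarith

theorem nsq_add_le (u v : E) : nsq (u + v) ≤ 2 * nsq u + 2 * nsq v := by
  have h1 := nsq_add u v
  have h2 := nsq_add u ((-1 : ℂ) • v)
  rw [ip_smul_right, nsq_smul] at h2
  have h3 := nsq_nonneg (u + (-1 : ℂ) • v)
  simp only [norm_neg, norm_one, one_pow, one_mul, map_neg, map_one, neg_mul, Complex.neg_re] at h2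
  linarith

theorem diff_line {g : E → ℂ} (hg : DifferentiableOn ℂ g Cyl) (y v : E) {s : Set ℂ}
    (h : ∀ ζ ∈ s, y + ζ • v ∈ Cyl) : DifferentiableOn ℂ (fun ζ : ℂ => g (y + ζ • v)) s :=
  hg.comp (f := fun ζ : ℂ => y + ζ • v) (by fun_prop) h

theorem hh_ge {P : Par} {η e C0 L CG : ℝ} (h : P.OK η e C0 L CG) {j : ℕ} (hj : 1 ≤ j) :
    1000 ≤ P.hh j := by
  have h1 : (1000 : ℝ) ≤ P.nu := by exact_mod_cast h.nu_ge
  exact h1.trans (le_self_pow₀ (by linarith) (by omega))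

end KillAux

open KillAux

/-- Maximum principle on the complex line through `y` in the direction `Z = (-ȳ₁, ȳ₀, 0)`
(`ip Z y = 0`, `nsq Z = nsq y`): `rho (y + ζ • Z) = rho y - ‖ζ‖² nsq y`. On the closed disc
`‖ζ‖² nsq y ≤ rho y - r` the points lie in `Cyl` (`nsq (ζ • Z) ≤ rho y ≤ 1/400`), on its boundary
`rho = r` (`Complex.norm_le_of_forall_mem_frontier_norm_le`). -/
theorem max_principle {g : E → ℂ} (hg : DifferentiableOn ℂ g Cyl) {y : E} {r M : ℝ} (hr : 0 < r)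
    (hry : r < rho y) (hy : rho y ≤ 1 / 400) (hre : 43 / 50 ≤ (y 0).re)
    (hM : ∀ ζ : ℂ, rho (y + ζ • ![-conj (y 1), conj (y 0), 0]) = r →
      ‖g (y + ζ • ![-conj (y 1), conj (y 0), 0])‖ ≤ M) : ‖g y‖ ≤ M := by
  have hn : 0 < nsq y := by unfold rho at hy; linarith
  set R := Real.sqrt ((rho y - r) / nsq y) with hR
  have hR0 : 0 < R := Real.sqrt_pos.mpr (div_pos (by linarith) hn)
  have hR2 : R ^ 2 * nsq y = rho y - r := by
    rw [hR, Real.sq_sqrt (div_pos (by linarith) hn).le]; field_simp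
  have hd : DifferentiableOn ℂ (fun ζ : ℂ => g (y + ζ • Zd y)) (closure (Metric.ball 0 R)) := by
    rw [closure_ball _ hR0.ne']
    refine diff_line hg y _ fun ζ hζ => ?_
    have h1 : nsq (ζ • Zd y) ≤ rho y - r := by
      rw [nsq_smul, nsq_Zd, ← hR2]
      have := mem_closedBall_zero_iff.mp hζ
      gcongr
    have h2 := re_ge y (v := ζ • Zd y) (s := 1 / 20) (by norm_num) (by linarith)
    exact ⟨by unfold xx; linarith, by rw [rho_Zd]; linarith⟩
  have := Complex.norm_le_of_forall_mem_frontier_norm_le Metric.isBounded_ball hd.diffContOnCl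
    (C := M) (fun ζ hζ => hM ζ (by
      rw [frontier_ball _ hR0.ne', mem_sphere_zero_iff_norm] at hζ
      rw [rho_Zd, nsq_smul, nsq_Zd, hζ, hR2]; ring))
    (subset_closure (Metric.mem_ball_self hR0))
  simpa using this

/-- `Complex.borelCaratheodory_zero` for `F - 1` on the disc of radius `2` with
`M = exp (y/6) - 1` gives `‖F 1 - 1‖ ≤ 2 (exp (y/6) - 1) ≤ 0.4 y`, while
`‖F 1 - 1‖ ≥ 1 - exp (-5y/6) ≥ 5 y / 11`. -/
theorem no_small_osc {F : ℂ → ℂ} (hF : DifferentiableOn ℂ F (Metric.ball 0 2)) (h0 : F 0 = 1)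
    {y : ℝ} (hy : 0 < y) (hy1 : y ≤ 1) (hb : ∀ τ ∈ Metric.ball (0 : ℂ) 2, ‖F τ‖ ≤ Real.exp (y / 6))
    (h1 : ‖F 1‖ ≤ Real.exp (-(5 * y / 6))) : False := by
  have he : 0 < Real.exp (y / 6) - 1 := by linarith [Real.add_one_le_exp (y / 6)]
  have h2 := Complex.borelCaratheodory_zero (f := fun τ => F τ - 1) (R := 2) (z := 1) he
    (hF.sub_const 1) (fun τ hτ => by
      have := (Complex.re_le_norm (F τ)).trans (hb τ hτ)
      simpa using this) (by norm_num) (by simp) (by simp [h0])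
  rw [norm_one] at h2
  have h3 : 1 - ‖F 1‖ ≤ ‖F 1 - 1‖ := by
    have := norm_sub_norm_le (1 : ℂ) (F 1)
    rwa [norm_one, norm_sub_rev] at this
  have h4 : Real.exp (y / 6) * (1 - y / 6) ≤ 1 := by
    have h5 := Real.add_one_le_exp (-(y / 6))
    calc _ ≤ Real.exp (y / 6) * Real.exp (-(y / 6)) := by gcongr; linarith
      _ = 1 := by rw [← Real.exp_add]; simp
  have h5 : Real.exp (-(5 * y / 6)) * (1 + 5 * y / 6) ≤ 1 := by
    have h5 := Real.add_one_le_exp (5 * y / 6)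
    calc _ ≤ Real.exp (-(5 * y / 6)) * Real.exp (5 * y / 6) := by gcongr; linarith
      _ = 1 := by rw [← Real.exp_add]; simp
  have h6 : Real.exp (y / 6) ≤ 1 + y / 5 := by
    by_contra h
    push Not at h
    nlinarith
  have h7 : Real.exp (-(5 * y / 6)) ≤ 1 - 5 * y / 11 := by
    by_contra h
    push Not at h
    nlinarith
  linarith

namespace Par
variable {P : Par} {η e C0 L CG : ℝ}

/-- The geometry of one step. `N = NN j`; `ξ = xi j m` from `exists_near`, `n = nsq ξ ≥ 0.7`,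
`α = ip p ξ / n`, `p⊥ = p - α ξ` in the base components (`ip p⊥ ξ = 0`, `nsq p⊥ ≤ nsq (p - ξ) ≤ 1/N`),
`re (ell p) ∈ [-101, -100]`; choose `k` with `|im (ell p) - 2πk| ≤ π`, `ω = -99 + 2πkI - ell p`,
`‖ω‖ ≤ 4`, `ζ₀ = ω / (2 N n)`, `c = α + ζ₀`, and `d` with base components `c ξ - p = ζ₀ ξ - p⊥` and
`d 2 = 0`. Then `ell (p + d) = -99 + 2πkI`, `N nsq d ≤ 2`, `N ‖ip d p‖ ≤ 5` (`ip p⊥ p = nsq p⊥`),
and the direction `Z` at `y = p + d` is orthogonal to `ξ`, so `ell` is constant on that line. -/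
theorem OK.exists_well (h : P.OK η e C0 L CG) {j : ℕ} (hj : 1 ≤ j) {p : E}
    (hp : P.NN j * rho p = 100) (hre : 9 / 10 ≤ (p 0).re) :
    ∃ m ∈ P.Lam j, ∃ (k : ℤ) (d : E), P.NN j * nsq d ≤ 2 ∧ P.NN j * ‖ip d p‖ ≤ 5 ∧
      ∀ ζ : ℂ, P.ell j m (p + d + ζ • ![-conj ((p + d) 1), conj ((p + d) 0), 0]) =
        -99 + 2 * Real.pi * k * I := by
  have hH := hh_ge h hj
  have hN : (1000 : ℝ) ^ 2 ≤ P.NN j := by unfold NN; gcongr
  have hN0 : 0 < P.NN j := by linarith
  have hρ : 0 ≤ rho p := by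
    by_contra h1; push Not at h1; nlinarith
  obtain ⟨m, hm, hnear⟩ := h.exists_near hj hρ hre
  refine ⟨m, hm, ?_⟩
  set ξ := P.xi j m with hξ
  set N := P.NN j with hNdef
  have hn : 1 / 4 ≤ nsq ξ := by
    have h1 : nsq (ξ - p) ≤ (1 / 10) ^ 2 := by
      rw [show ξ - p = (-1 : ℂ) • (p - ξ) by simp, nsq_smul]
      simp only [norm_neg, norm_one, one_pow, one_mul]
      nlinarith [nsq_nonneg (p - ξ)]
    have h2 := re_ge p (by norm_num) h1
    rw [add_sub_cancel] at h2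
    have h3 := Complex.re_le_norm (ξ 0)
    unfold nsq
    nlinarith [sq_nonneg ‖ξ 1‖]
  have hn0 : 0 < nsq ξ := by linarith
  have hnc : (nsq ξ : ℂ) ≠ 0 := by exact_mod_cast hn0.ne'
  have hNc : (N : ℂ) ≠ 0 := by exact_mod_cast hN0.ne'
  set α := ip p ξ / nsq ξ with hα
  set q := p - α • ξ with hq
  have hqξ : ip q ξ = 0 := by
    rw [hq, ip_sub_left, ip_smul_left, ip_self, hα, div_mul_cancel₀ _ hnc, sub_self]
  have hqn : N * nsq q ≤ 1 := by
    have h1 := nsq_add q ((α - 1) • ξ)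
    rw [ip_smul_right, hqξ, show q + (α - 1) • ξ = p - ξ by rw [hq, sub_smul]; simp] at h1
    simp only [mul_zero, Complex.zero_re, add_zero] at h1
    nlinarith [nsq_nonneg ((α - 1) • ξ)]
  have hqp : ip q p = nsq q := by
    rw [show ip q p = ip q (q + α • ξ) by rw [hq]; simp, ip_add_right, ip_smul_right, hqξ, ip_self]
    simp
  set k := round ((P.ell j m p).im / (2 * Real.pi)) with hk
  set om : ℂ := -99 + 2 * Real.pi * k * I - P.ell j m p with hom
  have hom4 : ‖om‖ ≤ 4 := by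
    have h1 := P.re_ell j m p
    rw [mul_add, ← hξ, ← hNdef, hp] at h1
    have h2 : 0 ≤ N * nsq (p - ξ) := mul_nonneg hN0.le (nsq_nonneg _)
    have h3 := abs_sub_round ((P.ell j m p).im / (2 * Real.pi))
    have hpi := Real.pi_pos
    have h4 : |(P.ell j m p).im - 2 * Real.pi * k| ≤ Real.pi := by
      rw [show (P.ell j m p).im - 2 * Real.pi * k =
        2 * Real.pi * ((P.ell j m p).im / (2 * Real.pi) - k) by field_simp, abs_mul,
        abs_of_pos (by positivity)]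
      nlinarith
    have h5 : om.re = -99 - (P.ell j m p).re := by simp [hom]
    have h6 : om.im = 2 * Real.pi * k - (P.ell j m p).im := by simp [hom]
    have h7 := abs_le.mp h4
    have h8 := Real.pi_lt_d2
    refine (pow_le_pow_iff_left₀ (norm_nonneg _) (by norm_num) two_ne_zero).mp ?_
    rw [Complex.sq_norm, Complex.normSq_apply, h5, h6]
    nlinarith
  set ζ₀ : ℂ := om / (2 * N * nsq ξ) with hζ₀
  have hζn : ‖ζ₀‖ * (2 * N * nsq ξ) ≤ 4 := by
    rw [hζ₀, norm_div, norm_mul, norm_mul, Complex.norm_real, Complex.norm_real,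
      Real.norm_of_nonneg hN0.le, Real.norm_of_nonneg hn0.le, Complex.norm_two,
      div_mul_cancel₀ _ (by positivity)]
    exact hom4
  have hd : (α + ζ₀) • ξ - p = ζ₀ • ξ + (-1 : ℂ) • q := by rw [hq, add_smul]; simp; abel
  refine ⟨k, (α + ζ₀) • ξ - p, ?_, ?_, fun ζ => ?_⟩
  · rw [hd, nsq_add, nsq_smul, nsq_smul, ip_smul_left, ip_smul_right, ← conj_ip, hqξ]
    simp only [norm_neg, norm_one, one_pow, one_mul, map_zero, mul_zero, Complex.zero_re, add_zero]
    have h1 : ‖ζ₀‖ ≤ 1 / 2 := by nlinarith [norm_nonneg ζ₀, mul_le_mul hN hn (by norm_num) hN0.le]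
    nlinarith [norm_nonneg ζ₀]
  · have h1 : ‖ip ξ p‖ ≤ 2 * nsq ξ := by
      refine (pow_le_pow_iff_left₀ (norm_nonneg _) (by positivity) two_ne_zero).mp
        ((norm_ip_sq_le ξ p).trans ?_)
      have : nsq p ≤ 1 := by unfold rho at hρ; linarith
      nlinarith
    rw [hd, ip_add_left, ip_smul_left, ip_smul_left, hqp]
    have h2 := norm_add_le (ζ₀ * ip ξ p) (-1 * (nsq q : ℂ))
    rw [norm_mul, norm_mul, norm_neg, norm_one, one_mul, Complex.norm_real,
      Real.norm_of_nonneg (nsq_nonneg q)] at h2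
    have h3 : N * (‖ζ₀‖ * ‖ip ξ p‖) ≤ N * (‖ζ₀‖ * (2 * nsq ξ)) := by gcongr
    have h4 := mul_le_mul_of_nonneg_left h2 hN0.le
    nlinarith
  · rw [add_sub_cancel]
    have h1 := P.ell_sub j m ((α + ζ₀) • ξ + ζ • Zd ((α + ζ₀) • ξ)) p
    have h2 : ip (Zd ((α + ζ₀) • ξ)) ξ = 0 := by simp [ip]; ring
    rw [← hξ, ← hNdef, ip_sub_left, ip_add_left, ip_smul_left, ip_smul_left, h2, ip_self, add_mul,
      hα, div_mul_cancel₀ _ hnc, hζ₀] at h1
    rw [sub_eq_iff_eq_add.mp h1, hom]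
    field_simp
    ring

/-- One step. Let `μ = k mu j / 2`, `C1 = 21⁴ C0`. Suppose every `q` on level `j+1` with
`re (q 0) ≥ 9/10 + 32 / hh (j+1)` has `‖g q‖ e^{-kφ(q)/2} < e^μ ‖g p‖ e^{-kφ(p)/2}`; then `g p ≠ 0`
(or the claim is trivial). For `‖τ‖ < 2`, `y = p + τ • d` has `72 ≤ N rho y ≤ 120`
(`rho y = rho p - 2 re (τ ip d p) - ‖τ‖² nsq d`); the points `q = y + ζ • Z` of `max_principle` with
`r = 100 / NN (j+1)` satisfy `N nsq (q - p) ≤ 256`, `N ‖ip (q-p) p‖ ≤ 42`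
(`ip Z p = - ip Z (τ • d)`), `re (q 0) ≥ re (p 0) - 16 / hh j ≥ 9/10 + 32 / hh (j+1)`. By
`phi_step` and `psiL_le`, `‖g q‖ ≤ ‖g p‖ exp (μ (3 + C1))`, and for `τ = 1` by `psiL_le_well`
`‖g q‖ ≤ ‖g p‖ exp (μ (3 + C1 - L))`. Apply `no_small_osc` to `F τ = g (p + τ • d) / g p` and
`y = μ L` (`6 (3 + C1) ≤ L`, `μ L ≤ 1`). -/
theorem OK.kill_step (h : P.OK η e C0 L CG) {k : ℕ} (hk : 1 ≤ k) {j : ℕ} (hj : P.j0 ≤ j)
    (hsm : k * P.mu j * L ≤ 2) {g : E → ℂ} (hg : DifferentiableOn ℂ g Cyl) {p : E}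
    (hp : P.NN j * rho p = 100) (hre : 9 / 10 + 32 / P.hh j ≤ (p 0).re) :
    ∃ q : E, P.NN (j + 1) * rho q = 100 ∧ 9 / 10 + 32 / P.hh (j + 1) ≤ (q 0).re ∧
      Real.exp (k * P.mu j / 2) * (‖g p‖ * Real.exp (-(k * P.phi p / 2))) ≤
        ‖g q‖ * Real.exp (-(k * P.phi q / 2)) := by
  have hj1 : 1 ≤ j := h.j0_pos.trans hj
  have hH := hh_ge h hj1
  have hν : (1000 : ℝ) ≤ P.nu := by exact_mod_cast h.nu_ge
  have hN : (1000 : ℝ) ^ 2 ≤ P.NN j := by unfold NN; gcongr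
  have hN0 : 0 < P.NN j := by linarith
  have hH1 : P.hh (j + 1) = P.nu * P.hh j := by unfold hh; ring
  have hN1 : P.NN (j + 1) = P.nu ^ 2 * P.NN j := by unfold NN; rw [hH1]; ring
  have hN1' : 0 < P.NN (j + 1) := by rw [hN1]; positivity
  have h32 : 0 < 32 / P.hh j := by positivity
  obtain ⟨m, hm, k', d, hd1, hd2, hwell⟩ := h.exists_well hj1 hp (by linarith)
  by_contra hcon
  push Not at hcon
  set N := P.NN j with hNdef
  set μ := k * P.mu j / 2 with hμ
  have hk0 : (0 : ℝ) < k := by exact_mod_cast hk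
  have hμ0 : 0 < μ := by have := h.mu_pos j; positivity
  set r := 100 / P.NN (j + 1) with hr
  have hr0 : 0 < r := by positivity
  have hrN : N * r ≤ 1 := by
    rw [hr, hN1, mul_div_assoc', div_le_one (by positivity), mul_comm]
    exact mul_le_mul_of_nonneg_right (by nlinarith) hN0.le
  have hy : ∀ τ : ℂ, ‖τ‖ ≤ 2 → N * nsq (τ • d) ≤ 8 ∧ N * ‖ip (τ • d) p‖ ≤ 10 ∧
      72 ≤ N * rho (p + τ • d) ∧ N * rho (p + τ • d) ≤ 120 ∧ 43 / 50 ≤ ((p + τ • d) 0).re := by
    intro τ hτ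
    have h1 : N * nsq (τ • d) ≤ 8 := by
      rw [nsq_smul]
      have : ‖τ‖ ^ 2 ≤ 2 ^ 2 := by gcongr
      nlinarith [mul_nonneg hN0.le (nsq_nonneg d)]
    have h2 : N * ‖ip (τ • d) p‖ ≤ 10 := by
      rw [ip_smul_left, norm_mul]
      nlinarith [mul_nonneg hN0.le (norm_nonneg (ip d p))]
    have h3 : |N * (ip p (τ • d)).re| ≤ 10 := by
      rw [abs_mul, abs_of_pos hN0, ← conj_ip, Complex.conj_re]
      exact (mul_le_mul_of_nonneg_left (Complex.abs_re_le_norm _) hN0.le).trans h2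
    have h4 := abs_le.mp h3
    have h5 := mul_nonneg hN0.le (nsq_nonneg (τ • d))
    have h6 := re_ge p (v := τ • d) (s := 1 / 100) (by norm_num) (by nlinarith)
    refine ⟨h1, h2, ?_, ?_, by linarith⟩ <;> rw [rho_add] <;> nlinarith
  have hmax : ∀ τ : ℂ, ‖τ‖ ≤ 2 → ∀ M : ℝ, (∀ ζ : ℂ, rho (p + τ • d + ζ • Zd (p + τ • d)) = r →
      ‖g (p + τ • d + ζ • Zd (p + τ • d))‖ ≤ M) → ‖g (p + τ • d)‖ ≤ M := by
    intro τ hτ M hM
    obtain ⟨-, -, h3, h4, h5⟩ := hy τ hτ
    exact max_principle hg hr0 (by nlinarith) (by nlinarith) h5 hM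
  have key : ∀ τ : ℂ, ‖τ‖ ≤ 2 → ∀ ζ : ℂ, rho (p + τ • d + ζ • Zd (p + τ • d)) = r →
      ‖g (p + τ • d + ζ • Zd (p + τ • d))‖ <
        ‖g p‖ * Real.exp (μ * (3 + P.psiL j (p + τ • d + ζ • Zd (p + τ • d)))) := by
    intro τ hτ ζ hζ
    obtain ⟨h1, h2, h3, h4, h5⟩ := hy τ hτ
    set y := p + τ • d with hydef
    set q := y + ζ • Zd y with hq
    have h6 : N * nsq (ζ • Zd y) ≤ 120 := by
      have := rho_Zd y ζ
      rw [← hq, hζ] at this
      nlinarith [mul_pos hN0 hr0]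
    have h7 : q - p = τ • d + ζ • Zd y := by rw [hq, hydef]; abel
    have h8 : N * nsq (q - p) ≤ 256 := by
      rw [h7]; nlinarith [nsq_add_le (τ • d) (ζ • Zd y)]
    have h9 : N * ‖ip (ζ • Zd y) p‖ ≤ 32 := by
      have h10 : ip (ζ • Zd y) p = -ip (ζ • Zd y) (τ • d) := by
        rw [show p = y - τ • d by rw [hydef]; abel, ip_sub_right, ip_smul_left, ip_Zd]; simp
      rw [h10, norm_neg]
      refine (pow_le_pow_iff_left₀ (by positivity) (by norm_num) two_ne_zero).mp ?_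
      have h11 := mul_le_mul_of_nonneg_left (norm_ip_sq_le (ζ • Zd y) (τ • d)) (sq_nonneg N)
      have h12 := mul_le_mul h6 h1 (mul_nonneg hN0.le (nsq_nonneg _)) (by norm_num)
      nlinarith
    have h10 : N * ‖ip (q - p) p‖ ≤ 42 := by
      rw [h7, ip_add_left]
      nlinarith [mul_le_mul_of_nonneg_left (norm_add_le (ip (τ • d) p) (ip (ζ • Zd y) p)) hN0.le]
    have h11 : P.NN (j + 1) * rho q = 100 := by rw [hζ, hr]; field_simp
    have h12 := re_ge p (v := q - p) (s := 16 / P.hh j) (by positivity) (by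
      rw [div_pow, le_div_iff₀ (by positivity)]
      have : P.hh j ^ 2 = N := rfl
      rw [this]; linarith)
    rw [add_sub_cancel] at h12
    have h13 : 32 / P.hh (j + 1) ≤ 16 / P.hh j := by
      rw [hH1, div_le_div_iff₀ (by positivity) (by positivity)]; nlinarith
    have h14 : 32 / P.hh j = 2 * (16 / P.hh j) := by ring
    have h15 := hcon q h11 (by linarith)
    have h16 := h.phi_step hj hp h11 (by linarith) (by linarith) h8 h10
    have h17 : ‖g q‖ < ‖g p‖ * Real.exp (μ + k * (P.phi q - P.phi p) / 2) := by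
      have h18 := mul_lt_mul_of_pos_right h15 (Real.exp_pos (k * P.phi q / 2))
      rw [mul_assoc, ← Real.exp_add, neg_add_cancel, Real.exp_zero, mul_one, mul_left_comm,
        mul_assoc, ← Real.exp_add, ← Real.exp_add] at h18
      refine h18.trans_eq ?_
      congr 2; ring
    refine h17.trans_le (mul_le_mul_of_nonneg_left (Real.exp_le_exp.mpr ?_) (norm_nonneg _))
    have h19 := mul_le_mul_of_nonneg_left h16 hk0.le
    rw [hμ]; nlinarith
  have hgp : 0 < ‖g p‖ := by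
    by_contra h0
    have h1 : ‖g p‖ = 0 := le_antisymm (not_lt.mp h0) (norm_nonneg _)
    have := hmax 0 (by norm_num) (-1) fun ζ hζ => by
      have h2 := key 0 (by norm_num) ζ hζ
      rw [h1, zero_mul] at h2
      exact absurd h2 (not_lt.mpr (norm_nonneg _))
    linarith [norm_nonneg (g (p + (0 : ℂ) • d))]
  have hL := h.L_ge
  have hC0 := h.G.C0_nonneg
  have hL0 : 0 < L := by nlinarith
  refine no_small_osc (F := fun τ => g (p + τ • d) / g p) (y := μ * L) ?_ ?_ (by positivity)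
    (by rw [hμ]; linarith) (fun τ hτ => ?_) ?_
  · refine (diff_line hg p d fun τ hτ => ?_).div_const _
    obtain ⟨-, -, h3, -, h5⟩ := hy τ (mem_ball_zero_iff.mp hτ).le
    exact ⟨by unfold xx; linarith, by nlinarith⟩
  · simpa using div_self (norm_pos_iff.mp hgp)
  · have hτ' := (mem_ball_zero_iff.mp hτ).le
    rw [norm_div, div_le_iff₀ hgp, mul_comm]
    refine hmax τ hτ' _ fun ζ hζ => (key τ hτ' ζ hζ).le.trans
      (mul_le_mul_of_nonneg_left (Real.exp_le_exp.mpr ?_) hgp.le)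
    have := h.psiL_le j (z := p + τ • d + ζ • Zd (p + τ • d)) (by rw [hζ]; exact hr0.le)
    nlinarith
  · rw [norm_div, div_le_iff₀ hgp, mul_comm]
    refine hmax 1 (by norm_num) _ fun ζ hζ => (key 1 (by norm_num) ζ hζ).le.trans
      (mul_le_mul_of_nonneg_left (Real.exp_le_exp.mpr ?_) hgp.le)
    have := h.psiL_le_well (z := p + (1 : ℂ) • d + ζ • Zd (p + (1 : ℂ) • d))
      (by rw [hζ]; exact hr0.le) hm (k := k') (by rw [one_smul]; exact hwell ζ)
    nlinarith

/-- Iterate `kill_step`: `B ≥ exp (∑_{j1 ≤ j < J} k mu j / 2) * u p` for all `J`, and the sum tends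
to `∞` (`EpsOK.sum_top`), so `g = 0` on all levels `j ≥ j1` (points with
`re ≥ 9/10 + 32 / hh j`). For `z` as below choose `j ≥ j1` with `r = 100 / NN j < rho z`,
`32 / hh j ≤ 1/100` and apply `max_principle` with `M = 0` (`nsq (ζ • Z) ≤ rho z ≤ 10⁻⁴`). -/
theorem OK.kill (h : P.OK η e C0 L CG) {k : ℕ} (hk : 1 ≤ k)
    (hsm : ∀ᶠ j in atTop, k * P.mu j * L ≤ 2) {g : E → ℂ} (hg : DifferentiableOn ℂ g Cyl) {B : ℝ}
    (hB : ∀ z ∈ Cyl, ‖g z‖ ≤ B * Real.exp (k * P.phi z / 2)) {z : E} (h1 : 19 / 20 < (z 0).re)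
    (h2 : 0 < rho z) (h3 : rho z < 1 / 10 ^ 4) : g z = 0 := by
  obtain ⟨j1, hj1⟩ := eventually_atTop.mp (hsm.and (eventually_ge_atTop P.j0))
  have hk0 : (0 : ℝ) < k := by exact_mod_cast hk
  have hlg : 0 < P.lg := by linarith [h.lg_ge]
  have hlev : ∀ j, j1 ≤ j → ∀ p : E, P.NN j * rho p = 100 → 9 / 10 + 32 / P.hh j ≤ (p 0).re →
      g p = 0 := by
    intro j hj p hp hre
    have hit : ∀ J, j ≤ J → ∃ q : E, P.NN J * rho q = 100 ∧ 9 / 10 + 32 / P.hh J ≤ (q 0).re ∧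
        Real.exp (∑ i ∈ Finset.Ico j J, k * P.mu i / 2) *
          (‖g p‖ * Real.exp (-(k * P.phi p / 2))) ≤ ‖g q‖ * Real.exp (-(k * P.phi q / 2)) := by
      intro J hJ
      induction J, hJ using Nat.le_induction with
      | base => exact ⟨p, hp, hre, by simp⟩
      | succ J hJ ih =>
        obtain ⟨q, h4, h5, h6⟩ := ih
        obtain ⟨h7, h8⟩ := hj1 J (hj.trans hJ)
        obtain ⟨q', h9, h10, h11⟩ := h.kill_step hk h8 h7 hg h4 h5
        refine ⟨q', h9, h10, le_trans ?_ h11⟩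
        rw [Finset.sum_Ico_succ_top hJ, add_comm, Real.exp_add, mul_assoc]
        exact mul_le_mul_of_nonneg_left h6 (Real.exp_pos _).le
    by_contra h0
    have hu : 0 < ‖g p‖ * Real.exp (-(k * P.phi p / 2)) :=
      mul_pos (norm_pos_iff.mpr h0) (Real.exp_pos _)
    have ht : Tendsto (fun J => Real.exp (∑ i ∈ Finset.Ico j J, k * P.mu i / 2) *
        (‖g p‖ * Real.exp (-(k * P.phi p / 2)))) atTop atTop := by
      refine Tendsto.atTop_mul_const hu (Real.tendsto_exp_atTop.comp ?_)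
      have := (h.eps.sum_top hlg j).const_mul_atTop (r := 4 * k * P.lg) (by positivity)
      refine this.congr fun J => ?_
      rw [Finset.mul_sum]
      refine Finset.sum_congr rfl fun i _ => ?_
      unfold mu ee; ring
    obtain ⟨J, h4, h5⟩ := ((ht.eventually (eventually_gt_atTop B)).and
      (eventually_ge_atTop j)).exists
    obtain ⟨q, h6, h7, h8⟩ := hit J h5
    have hH := h.one_le_hh J
    have hN : 0 < P.NN J := by unfold NN; positivity
    have h9 : 0 < 32 / P.hh J := by positivity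
    have h10 := hB q ⟨by unfold xx; linarith, by nlinarith⟩
    have h11 := mul_le_mul_of_nonneg_right h10 (Real.exp_pos (-(k * P.phi q / 2))).le
    rw [mul_assoc, ← Real.exp_add, add_neg_cancel, Real.exp_zero, mul_one] at h11
    linarith
  have hν : (1000 : ℝ) ≤ P.nu := by exact_mod_cast h.nu_ge
  have ht : Tendsto P.hh atTop atTop := tendsto_pow_atTop_atTop_of_one_lt (by linarith)
  obtain ⟨j, h4, h5, h6⟩ := ((eventually_ge_atTop j1).and ((ht.eventually_ge_atTop 3200).and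
    (ht.eventually_gt_atTop (100 / rho z)))).exists
  have hN : P.hh j ≤ P.NN j := by unfold NN; nlinarith
  have hN0 : 0 < P.NN j := by linarith
  rw [← norm_le_zero_iff]
  refine max_principle hg (r := 100 / P.NN j) (by positivity) ?_ (by linarith) (by linarith)
    fun ζ hζ => ?_
  · rw [div_lt_iff₀ hN0]
    rw [div_lt_iff₀ h2] at h6
    nlinarith
  · have h7 := rho_Zd z ζ
    rw [hζ] at h7
    have h8 : 0 < 100 / P.NN j := by positivity
    have h9 := re_ge z (v := ζ • Zd z) (s := 1 / 100) (by norm_num) (by linarith)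
    have h10 : 32 / P.hh j ≤ 1 / 100 := by rw [div_le_iff₀ (by linarith)]; linarith
    rw [hlev j h4 _ (by rw [hζ]; field_simp) (by linarith), norm_zero]

end Par

end Crest.Agent.R245
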