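import Crest.Agent.R245.Local1

/-!
# R245 Local: curvature bounds for the local potential at a point with `w ≠ 0`
-/

set_option autoImplicit false
open scoped ComplexConjugate ContDiff Topology
open Complex (I)
open Filter

namespace Crest.Agent.R245

/-- the conclusions of the local curvature theorem -/
structure Good (c B ε : ℝ) (φ : E → ℝ) (p : E) (J : Jet) : Prop where
  low : ∀ A, ε * (IF p A A).re +
    ε ^ 2 * Real.exp (φ p) * ‖A 2 + p 2 * (jetAt φ p).h1 A‖ ^ 2 ≤ 2 * (J.h2 A A).re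
  lower : ∀ X Y, c * J.den X Y ≤ J.num X Y
  upper : ∀ X Y, J.num X Y ≤ B / ε ^ 100 * J.den X Y
  vert : J.den e2 (I • e2) ≤ 2 * ε ^ 2 * J.num e2 (I • e2)
  grad : ∀ X, ‖J.h1 X‖ ≤ 5 * J.nu X

theorem model_h2 (B T : Jet) (ε σ : ℝ) (A : E) :
    ((model B T ε σ).h2 A A).re = ε * (B.h2 A A).re + ε ^ 2 * (σ - 1) * (T.h2 A A).re +
      ε ^ 2 * (σ - 1) * σ * ‖T.h1 A‖ ^ 2 := by
  simp only [model, Jet.add_h2, Jet.smul_h2, Jet.compose_h2, Complex.mul_conj,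
    Complex.normSq_eq_norm_sq, Complex.add_re, Complex.re_ofReal_mul, Complex.ofReal_re]
  ring

theorem model_h1 (B T : Jet) (ε σ : ℝ) (A : E) :
    (model B T ε σ).h1 A = ε * B.h1 A + (ε ^ 2 * (σ - 1) : ℝ) * T.h1 A := by
  simp only [model, Jet.add_h1, Jet.smul_h1, Jet.compose_h1]

theorem le_of_sq_le' {x y : ℝ} (hy : 0 ≤ y) (h : x ^ 2 ≤ y ^ 2) : x ≤ y :=
  (le_abs_self x).trans (abs_le_of_sq_le_sq h hy)

/-- the model jet and its elementary properties -/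
theorem Data.model_props {Λ δ ε : ℝ} {Φ0 a ψ : E → ℝ} {p : E} (h : Data Λ δ ε Φ0 a ψ p)
    (hw : p 2 ≠ 0) (hs : sF (fun z => Φ0 z + ψ z) p < 1) {η σ : ℝ} (hη0 : 0 ≤ η) (hη : η ≤ 1 / 2)
    (hδ : δ ≤ η * ε) (hσ : σ = 1 / (1 - sF (fun z => Φ0 z + ψ z) p))
    (h1 : ε * (1 + 9 * (Λ + η)) ^ 2 ≤ 6 / 5)
    (h2 : 2 * (9 * (Λ + η)) + 20 * (9 * (Λ + η)) ^ 2 ≤ 1 / 2 ∨
      ε * (2 * (9 * (Λ + η)) + 20 * (9 * (Λ + η)) ^ 2) ^ 3 ≤ 1 / 10 ^ 5) (M : Jet)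
    (hM : M = jetAt (fun z => ε * phi0 z + ε ^ 2 * -Real.log (1 - sF (fun z => Φ0 z + ψ z) z)) p) :
    1 ≤ σ ∧ M.Pos ∧ (∀ X Y, M.den X Y ≤ 6000 * (1 + 9 * (Λ + η)) ^ 2 * M.num X Y) ∧
    M.num e2 (I • e2) = 4 / ε ^ 2 * M.den e2 (I • e2) ∧
    (∀ v, ε ^ 3 * σ / 2 * nuI p v ^ 2 ≤ M.nu v ^ 2) ∧
    (∀ v, ε * nuI p v ^ 2 + ε ^ 2 * σ ^ 2 * Real.exp (Φ0 p + ψ p) *
      ‖v 2 + p 2 * (jetAt (fun z => Φ0 z + ψ z) p).h1 v‖ ^ 2 ≤ M.nu v ^ 2) ∧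
    ∀ v, ‖M.h1 v‖ ≤ 2 * M.nu v := by
  set φ : E → ℝ := fun z => Φ0 z + ψ z with hφ
  have hp := h.rho_pos
  have hε := h.eps_pos
  have hε1 := h.eps_le
  have hs0 : 0 < sF φ p := by unfold sF; positivity
  have hσs : σ - 1 = sF φ p * σ := by
    rw [hσ]; have : 1 - sF φ p ≠ 0 := by linarith
    field_simp; ring
  have hσ0 : 0 < σ := by rw [hσ]; have : 0 < 1 - sF φ p := by linarith
                         positivity
  have hσ1 : 1 < σ := by nlinarith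
  have hc := h.calHyp hw hη0 hη hδ hσ1
  set T := jetAt (TT φ) p with hT
  have hMe : M = model (jetAt phi0 p) T ε σ := by rw [hM, h.jet_model hw hs hσ]
  have hsh := model_shift (jetAt phi0 p) T ε σ (SS p T) (SS_symm p T)
  rw [← hMe] at hsh
  have hpos : M.Pos := by
    have := hc.pos
    rw [← hsh] at this
    exact fun A hA => this A hA
  have hnu : ∀ v, M.nu v ^ 2 = ε * nuI p v ^ 2 + ε ^ 2 * (σ - 1) * (T.h2 v v).re +
      ε ^ 2 * (σ - 1) * σ * ‖T.h1 v‖ ^ 2 := fun v => by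
    rw [Jet.nu, nuF_sq (PD.psd hpos), hMe, model_h2,
      (jet_phi0 hp (SI p) (SI_symm p) fun _ _ _ => rfl).2.1, nuI, nuF_sq (psd_IF hp)]
  have hlow : ∀ v, ε / 2 * nuI p v ^ 2 ≤ (T.h2 v v).re := fun v => by
    have := hc.low v
    rwa [Jet.shift_h2, Jet.shift_h2, (jet_phi0 hp (SI p) (SI_symm p) fun _ _ _ => rfl).2.1,
      ← nuF_sq (psd_IF hp)] at this
  have hβ : ∀ v, ε ^ 2 * (σ - 1) * σ * ‖T.h1 v‖ ^ 2 =
      ε ^ 2 * σ ^ 2 * Real.exp (Φ0 p + ψ p) * ‖v 2 + p 2 * (jetAt φ p).h1 v‖ ^ 2 := fun v => by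
    have e : v 2 + p 2 * (jetAt φ p).h1 v = p 2 * T.h1 v := by
      rw [hT, h.T_h1 hw]; field_simp; rfl
    rw [e, norm_mul, hσs, sF]; ring
  have hτ : 0 ≤ ε ^ 2 * (σ - 1) := by have : 0 ≤ σ - 1 := by linarith
                                      positivity
  refine ⟨hσ1.le, hpos, fun X Y => ?_, ?_, fun v => ?_, fun v => ?_, fun v => ?_⟩
  · have := hc.lower h1 h2 X Y
    rwa [← hsh, Jet.num_shift hpos, Jet.den_shift] at this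
  · have := hc.vertical
    rwa [← hsh, Jet.num_shift hpos, Jet.den_shift] at this
  · rw [hnu]
    have a1 := mul_le_mul_of_nonneg_left (hlow v) hτ
    have a2 : 0 ≤ ε ^ 2 * (σ - 1) * σ * ‖T.h1 v‖ ^ 2 := by positivity
    have a3 : ε ^ 3 ≤ ε := by nlinarith [mul_pos hε hε, sq_nonneg ε]
    have a4 := sq_nonneg (nuI p v)
    nlinarith
  · rw [hnu, ← hβ]
    have a1 := mul_le_mul_of_nonneg_left (hlow v) hτ
    have a2 : 0 ≤ ε ^ 2 * (σ - 1) * (ε / 2 * nuI p v ^ 2) := by positivity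
    linarith
  · have hn0 : 0 ≤ M.nu v := nuF_nonneg _ _
    have a1 := mul_le_mul_of_nonneg_left (hlow v) hτ
    have a2 : 0 ≤ ε ^ 2 * (σ - 1) * (ε / 2 * nuI p v ^ 2) := by positivity
    have a2' : 0 ≤ ε ^ 2 * (σ - 1) * σ * ‖T.h1 v‖ ^ 2 := by positivity
    have a0 : 0 ≤ ε * nuI p v ^ 2 := by positivity
    have b1 : ε * nuI p v ≤ M.nu v := by
      refine le_of_sq_le' hn0 ?_
      rw [hnu]; nlinarith [sq_nonneg (nuI p v)]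
    have b2 : ε ^ 2 * (σ - 1) * ‖T.h1 v‖ ≤ M.nu v := by
      refine le_of_sq_le' hn0 ?_
      rw [hnu]
      have a5 : ε ^ 2 * (σ - 1) ≤ σ := by nlinarith [mul_pos hε hε]
      have a6 : (ε ^ 2 * (σ - 1) * ‖T.h1 v‖) ^ 2 ≤ ε ^ 2 * (σ - 1) * σ * ‖T.h1 v‖ ^ 2 := by
        have := mul_le_mul_of_nonneg_left a5 (mul_nonneg hτ (sq_nonneg ‖T.h1 v‖))
        nlinarith
      linarith
    have e : M.h1 v = ε * (ip v p / rho p) + (ε ^ 2 * (σ - 1) : ℝ) * T.h1 v := by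
      rw [hMe, model_h1, (jet_phi0 hp (SI p) (SI_symm p) fun _ _ _ => rfl).1]
    rw [e]
    refine (norm_add_le _ _).trans ?_
    rw [norm_mul, norm_mul, norm_div, Complex.norm_real, Complex.norm_real, Complex.norm_real,
      Real.norm_of_nonneg hε.le, Real.norm_of_nonneg hτ, Real.norm_of_nonneg hp.le]
    have b3 : ‖ip v p‖ / rho p ≤ nuI p v := by
      rw [div_le_iff₀ hp, mul_comm]; exact norm_ip_le_nuI hp v
    have := mul_le_mul_of_nonneg_left b3 hε.le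
    linarith

/-- crude bounds of the model and of the perturbation in the norm of the model -/
theorem Data.crude {Cf : ℝ} (hCf : 1 ≤ Cf)
    (hfib : ∀ (φ : E → ℝ) (p : E) (ν : E → ℝ) (K ε σ : ℝ),
      ContDiffAt ℝ ∞ φ p → 0 < rho p → sF φ p < 1 → σ = 1 / (1 - sF φ p) → 0 < ε → ε ≤ 1 →
      1 ≤ K → Bd1 (nuI p) p 3 (cx φ) K → (∀ v, 0 ≤ ν v) →
      (∀ v, ε ^ 3 * σ / 2 * nuI p v ^ 2 ≤ ν v ^ 2) →
      (∀ v, ε ^ 2 * σ ^ 2 * Real.exp (φ p) * ‖v 2 + p 2 * (jetAt φ p).h1 v‖ ^ 2 ≤ ν v ^ 2) →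
      Bd1 ν p 3 (cx fun z => -Real.log (1 - sF φ z)) (Cf * K ^ 32 / ε ^ 32) ∧
      ∀ (a : E → ℝ) (δ : ℝ), ContDiffAt ℝ ∞ a p → 0 ≤ δ → Bd1 (nuI p) p 3 (cx a) δ →
        Bd1 ν p 3 (cx fun z => (a z - a p) * -Real.log (1 - sF φ z)) (Cf * δ * K ^ 32 / ε ^ 40))
    {Λ δ ε : ℝ} {Φ0 a ψ : E → ℝ} {p : E} (h : Data Λ δ ε Φ0 a ψ p)
    (hs : sF (fun z => Φ0 z + ψ z) p < 1) {σ K : ℝ} (hσ : σ = 1 / (1 - sF (fun z => Φ0 z + ψ z) p))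
    (hK : 6144 + δ + Λ ≤ K) {ν : E → ℝ} (hν : ∀ v, 0 ≤ ν v)
    (h1 : ∀ v, ε ^ 3 * σ / 2 * nuI p v ^ 2 ≤ ν v ^ 2)
    (h2 : ∀ v, ε * nuI p v ^ 2 + ε ^ 2 * σ ^ 2 * Real.exp (Φ0 p + ψ p) *
      ‖v 2 + p 2 * (jetAt (fun z => Φ0 z + ψ z) p).h1 v‖ ^ 2 ≤ ν v ^ 2) :
    Bd1 ν p 3 (cx fun z => ε * phi0 z + ε ^ 2 * -Real.log (1 - sF (fun z => Φ0 z + ψ z) z))
      (2 * Cf * K ^ 32 / ε ^ 30) ∧
    Bd1 ν p 3 (cx fun z => (Φ0 z - ε * phi0 z) +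
      (a z - a p) * -Real.log (1 - sF (fun z => Φ0 z + ψ z) z)) (2 * Cf * K ^ 32 * δ / ε ^ 40) := by
  set φ : E → ℝ := fun z => Φ0 z + ψ z with hφ
  have hp := h.rho_pos
  have hε := h.eps_pos
  have hε1 := h.eps_le
  have hδ := h.del
  have hΛ := h.lam
  have hK1 : 1 ≤ K := by linarith
  have hK32 : 6144 ≤ K ^ 32 := (by linarith : (6144 : ℝ) ≤ K).trans (le_self_pow₀ hK1 (by norm_num))
  have hCK : 6144 ≤ Cf * K ^ 32 := by nlinarith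
  obtain ⟨f1, f2⟩ := hfib φ p ν K ε σ h.smφ hp hs hσ hε hε1 hK1
    (h.phi_bd.mono (nuI_nonneg p) hK) hν h1 (fun v => by
      have := h2 v
      have : 0 ≤ ε * nuI p v ^ 2 := by positivity
      simp only [hφ]; linarith)
  have f2' := f2 a δ h.sma hδ h.aB
  have hle : ∀ v, nuI p v ≤ 1 / ε * ν v := fun v => by
    refine le_of_sq_le' (by have := hν v; positivity) ?_
    have a1 := h2 v
    have a2 : 0 ≤ ε ^ 2 * σ ^ 2 * Real.exp (Φ0 p + ψ p) *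
      ‖v 2 + p 2 * (jetAt φ p).h1 v‖ ^ 2 := by positivity
    rw [mul_pow, div_pow, one_pow, one_div, ← div_eq_inv_mul, le_div_iff₀ (by positivity)]
    nlinarith [sq_nonneg (nuI p v), mul_pos hε hε]
  have hr : 1 ≤ 1 / ε := by rw [le_div_iff₀ hε]; linarith
  have sf := contDiffAt_logsF h.smφ hs
  have s0 := contDiffAt_phi0 hp
  have hpow : ∀ {m n : ℕ}, m ≤ n → ε ^ n ≤ ε ^ m := fun hmn => pow_le_pow_of_le_one hε.le hε1 hmn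
  constructor
  · have g1 := ((phi0_bd hp).change (nuI_nonneg p) hν hr (by norm_num) hle hle).const_mul
      (sm_cx s0) (ε : ℂ)
    have g2 := f1.const_mul (sm_cx sf) ((ε ^ 2 : ℝ) : ℂ)
    have g := g1.add (contDiffAt_const.mul (sm_cx s0)) (contDiffAt_const.mul (sm_cx sf)) g2
    refine (g.congr (Eventually.of_forall fun z => ?_)).mono hν ?_
    · simp only [cx]; push_cast; ring
    · rw [Complex.norm_real, Complex.norm_real, Real.norm_of_nonneg hε.le,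
        Real.norm_of_nonneg (by positivity)]
      have e1 : ε * (6144 * (1 / ε) * (1 / ε) ^ 3) = 6144 / ε ^ 3 := by field_simp
      have e2 : ε ^ 2 * (Cf * K ^ 32 / ε ^ 32) = Cf * K ^ 32 / ε ^ 30 := by field_simp
      have e3 : 6144 / ε ^ 3 ≤ Cf * K ^ 32 / ε ^ 30 :=
        div_le_div₀ (by positivity) hCK (by positivity) (hpow (by norm_num))
      rw [e1, e2, mul_assoc, mul_div_assoc 2]
      linarith
  · have g1 := h.P0.change (nuI_nonneg p) hν hr hδ hle hle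
    have g := g1.add (sm_cx h.smX0) (sm_cx ((h.sma.sub contDiffAt_const).mul sf)) f2'
    refine (g.congr (Eventually.of_forall fun z => ?_)).mono hν ?_
    · simp only [cx]; push_cast; ring
    · have e1 : δ * (1 / ε) * (1 / ε) ^ 3 = δ / ε ^ 4 := by field_simp
      have e3 : δ / ε ^ 4 ≤ Cf * δ * K ^ 32 / ε ^ 40 :=
        div_le_div₀ (by positivity) (by nlinarith) (by positivity) (hpow (by norm_num))
      have e4 : 2 * Cf * K ^ 32 * δ / ε ^ 40 = 2 * (Cf * δ * K ^ 32 / ε ^ 40) := by ring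
      rw [e1, e4]
      linarith

theorem side_conditions {Λ Λ0 η ε L0 : ℝ} (hΛ' : 0 ≤ Λ) (hΛ : Λ ≤ Λ0) (hη0 : 0 ≤ η)
    (hη1 : η ≤ 1 / 320) (hε : 0 < ε) (hε1 : ε ≤ 1) (hL0 : L0 = 9 * (Λ0 + 1))
    (hcase : Λ = 0 ∨
      ε ≤ min (1 / (1 + L0) ^ 2) (1 / (10 ^ 5 * (2 * L0 + 20 * L0 ^ 2) ^ 3))) :
    ε * (1 + 9 * (Λ + η)) ^ 2 ≤ 6 / 5 ∧
    (2 * (9 * (Λ + η)) + 20 * (9 * (Λ + η)) ^ 2 ≤ 1 / 2 ∨
      ε * (2 * (9 * (Λ + η)) + 20 * (9 * (Λ + η)) ^ 2) ^ 3 ≤ 1 / 10 ^ 5) := by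
  have hL : 9 * (Λ + η) ≤ L0 := by rw [hL0]; linarith
  have hL' : 0 ≤ 9 * (Λ + η) := by positivity
  have hL0' : 0 < L0 := by rw [hL0]; linarith
  rcases hcase with h0 | h0
  · rw [h0, zero_add]
    refine ⟨?_, Or.inl (by nlinarith)⟩
    have : (1 + 9 * η) ^ 2 ≤ 6 / 5 := by nlinarith
    nlinarith [sq_nonneg (1 + 9 * η)]
  · generalize 9 * (Λ + η) = l at hL hL' ⊢
    have h1 : ε ≤ 1 / (1 + L0) ^ 2 := h0.trans (min_le_left _ _)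
    have h2 : ε ≤ 1 / (10 ^ 5 * (2 * L0 + 20 * L0 ^ 2) ^ 3) := h0.trans (min_le_right _ _)
    rw [le_div_iff₀ (by positivity)] at h1 h2
    refine ⟨?_, Or.inr ?_⟩
    · have : ε * (1 + l) ^ 2 ≤ ε * (1 + L0) ^ 2 := by gcongr
      linarith
    · have : ε * (2 * l + 20 * l ^ 2) ^ 3 ≤ ε * (2 * L0 + 20 * L0 ^ 2) ^ 3 := by gcongr
      rw [le_div_iff₀ (by positivity)]
      linarith

/-- from the model to the perturbed jet -/
theorem good_of_model {M P : Jet} {φ : E → ℝ} {p : E} {ε σ c0 W δ l : ℝ} (hp : 0 < rho p)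
    (hε : 0 < ε) (hε1 : ε ≤ 1) (hσ1 : 1 ≤ σ) (hW1 : 1 ≤ W) (hc01 : c0 ≤ 1) (hδ0 : 0 ≤ δ)
    (hδ : δ ≤ c0 / (320 * W ^ 3) * ε ^ 100) (hl : c0 * l ≤ 1) (hl0 : 0 < l) (hc0 : 0 < c0)
    (mpos : M.Pos) (mlow : ∀ X Y, M.den X Y ≤ l * M.num X Y)
    (mvert : M.num e2 (I • e2) = 4 / ε ^ 2 * M.den e2 (I • e2))
    (m2 : ∀ v, ε * nuI p v ^ 2 + ε ^ 2 * σ ^ 2 * Real.exp (φ p) *
      ‖v 2 + p 2 * (jetAt φ p).h1 v‖ ^ 2 ≤ M.nu v ^ 2)
    (mgrad : ∀ v, ‖M.h1 v‖ ≤ 2 * M.nu v)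
    (k3 : ∀ A C B, ‖M.h3 A C B‖ ≤ 2 * W / ε ^ 30 * (M.nu A * M.nu C * M.nu B))
    (k4 : ∀ A C B D, ‖M.h4 A C B D‖ ≤ 2 * W / ε ^ 30 * (M.nu A * M.nu C * M.nu B * M.nu D))
    (d1 : ∀ A, ‖P.h1 A‖ ≤ 2 * W * δ / ε ^ 40 * M.nu A)
    (d2 : ∀ A B, ‖P.h2 A B‖ ≤ 2 * W * δ / ε ^ 40 * (M.nu A * M.nu B))
    (d3 : ∀ A C B, ‖P.h3 A C B‖ ≤ 2 * W * δ / ε ^ 40 * (M.nu A * M.nu C * M.nu B))
    (d4 : ∀ A C B D, ‖P.h4 A C B D‖ ≤ 2 * W * δ / ε ^ 40 * (M.nu A * M.nu C * M.nu B * M.nu D)) :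
    Good (c0 / 8) (4 * (16 * W ^ 2 + 1)) ε φ p (M + P) := by
  have hpow : ∀ {m n : ℕ}, m ≤ n → ε ^ n ≤ ε ^ m := fun hmn => pow_le_pow_of_le_one hε.le hε1 hmn
  have hν : ∀ v, 0 ≤ M.nu v := fun v => nuF_nonneg _ v
  have hKm1 : 1 ≤ 2 * W / ε ^ 30 := by
    rw [le_div_iff₀ (by positivity)]
    have := hpow (show 0 ≤ 30 by norm_num)
    rw [pow_zero] at this; linarith
  have hδt0 : 0 ≤ 2 * W * δ / ε ^ 40 := by positivity
  have herr : 20 * (2 * W / ε ^ 30) ^ 2 * (2 * W * δ / ε ^ 40) ≤ c0 / 2 := by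
    have e : 20 * (2 * W / ε ^ 30) ^ 2 * (2 * W * δ / ε ^ 40) = 160 * W ^ 3 * (δ / ε ^ 100) := by
      field_simp; ring
    have e2 : δ / ε ^ 100 ≤ c0 / (320 * W ^ 3) := by rw [div_le_iff₀ (by positivity)]; exact hδ
    have e3 : 160 * W ^ 3 * (c0 / (320 * W ^ 3)) = c0 / 2 := by field_simp; ring
    rw [e, ← e3]; gcongr
  have a9 : 4 * (2 * W / ε ^ 30) ^ 2 + 1 ≤ (16 * W ^ 2 + 1) / ε ^ 100 := by
    have e : 4 * (2 * W / ε ^ 30) ^ 2 = 16 * W ^ 2 / ε ^ 60 := by field_simp; ring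
    have e1 : 16 * W ^ 2 / ε ^ 60 ≤ 16 * W ^ 2 / ε ^ 100 :=
      div_le_div_of_nonneg_left (by positivity) (by positivity) (hpow (by norm_num))
    have e2 : 1 ≤ 1 / ε ^ 100 := by
      rw [le_div_iff₀ (by positivity), one_mul]; exact pow_le_one₀ hε.le hε1
    rw [e, add_div]; linarith
  generalize 2 * W / ε ^ 30 = Km at *
  generalize 2 * W * δ / ε ^ 40 = δt at *
  have hδt1 : δt ≤ 1 / 2 := by nlinarith [one_le_pow₀ (n := 2) hKm1]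
  obtain ⟨jpos, jh, jn⟩ := Jet.perturb mpos hKm1 hδt0 hδt1 k3 d2 d3 d4
  have mden : ∀ X Y, 0 ≤ M.den X Y := fun X Y => DD_nonneg M.herm (PD.psd mpos) X Y
  have mnu : ∀ v, M.nu v ^ 2 = (M.h2 v v).re := fun v => nuF_sq (PD.psd mpos) v
  refine ⟨fun A => ?_, fun X Y => ?_, fun X Y => ?_, ?_, fun X => ?_⟩
  · have a1 := m2 A
    have a2 := jh A
    rw [mnu, nuI, nuF_sq (psd_IF hp)] at a1
    have a3 : ε ^ 2 * Real.exp (φ p) * ‖A 2 + p 2 * (jetAt φ p).h1 A‖ ^ 2 ≤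
        ε ^ 2 * σ ^ 2 * Real.exp (φ p) * ‖A 2 + p 2 * (jetAt φ p).h1 A‖ ^ 2 := by
      have : ε ^ 2 ≤ ε ^ 2 * σ ^ 2 := le_mul_of_one_le_right (by positivity) (one_le_pow₀ hσ1)
      gcongr
    linarith
  · obtain ⟨a1, -, a3⟩ := jn X Y
    have a4 := mlow X Y
    have a5 := mden X Y
    have hn : 0 ≤ M.num X Y := by
      by_contra hneg
      have : l * M.num X Y < 0 := mul_neg_of_pos_of_neg hl0 (not_le.1 hneg)
      linarith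
    have a6 : c0 * M.den X Y ≤ M.num X Y :=
      calc c0 * M.den X Y ≤ c0 * (l * M.num X Y) := by gcongr
        _ = c0 * l * M.num X Y := by ring
        _ ≤ 1 * M.num X Y := by gcongr
        _ = _ := one_mul _
    have a7 := (abs_le.1 a1).1
    have a8 := mul_le_mul_of_nonneg_right herr a5
    have a10 := mul_le_mul_of_nonneg_left a3 hc0.le
    linarith
  · obtain ⟨a1, a2, -⟩ := jn X Y
    have a4 := (abs_le.1 (Jet.abs_num_le mpos hKm1 k3 k4 X Y)).2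
    have a5 := mden X Y
    have a7 := (abs_le.1 a1).2
    have a8 := mul_le_mul_of_nonneg_right (herr.trans (by linarith : c0 / 2 ≤ 1)) a5
    calc (M + P).num X Y ≤ (4 * Km ^ 2 + 1) * M.den X Y := by linarith
      _ ≤ (16 * W ^ 2 + 1) / ε ^ 100 * (4 * (M + P).den X Y) := by gcongr
      _ = _ := by ring
  · obtain ⟨a1, -, a3⟩ := jn e2 (I • e2)
    have a5 := mden e2 (I • e2)
    have a7 := (abs_le.1 a1).1
    have a8 := mul_le_mul_of_nonneg_right (herr.trans (by linarith : c0 / 2 ≤ 1)) a5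
    have e : ε ^ 2 * M.num e2 (I • e2) = 4 * M.den e2 (I • e2) := by rw [mvert]; field_simp
    have hε2 : ε ^ 2 ≤ 1 := pow_le_one₀ hε.le hε1
    have a9 : M.num e2 (I • e2) - M.den e2 (I • e2) ≤ (M + P).num e2 (I • e2) := by linarith
    have a10 := mul_le_mul_of_nonneg_left a9 (sq_nonneg ε)
    have a11 := mul_le_mul_of_nonneg_right hε2 a5
    linarith
  · have a1 : M.nu X ≤ 2 * (M + P).nu X := by
      refine le_of_sq_le' (by have := nuF_nonneg (M + P).h2 X; unfold Jet.nu; positivity) ?_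
      have a2 := jh X
      have a3 : (M + P).nu X ^ 2 = ((M + P).h2 X X).re := nuF_sq (PD.psd jpos) X
      rw [mnu, mul_pow, a3]
      have := PD.psd jpos X
      linarith
    rw [Jet.add_h1]
    have a4 := norm_add_le (M.h1 X) (P.h1 X)
    have a5 := mgrad X
    have a6 := d1 X
    have a7 := mul_le_mul_of_nonneg_right hδt1 (hν X)
    linarith

/-- the local curvature theorem -/
theorem local_thm {Λ0 : ℝ} (hΛ0 : 0 ≤ Λ0) : ∃ η0 c B es : ℝ, 0 < η0 ∧ 0 < c ∧ 0 ≤ B ∧ 0 < es ∧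
    ∀ (Λ δ ε : ℝ) (Φ0 a ψ : E → ℝ) (p : E), Data Λ δ ε Φ0 a ψ p → δ ≤ η0 * ε ^ 100 → Λ ≤ Λ0 →
      (Λ = 0 ∨ ε ≤ es) → p 2 ≠ 0 → sF (fun z => Φ0 z + ψ z) p < 1 →
      Good c B ε (fun z => Φ0 z + ψ z) p (jetAt (Phil Φ0 a fun z => Φ0 z + ψ z) p) := by
  obtain ⟨Cf, hCf, hfib⟩ := fibre_bd
  obtain ⟨K, hK⟩ : ∃ K : ℝ, K = 6145 + Λ0 := ⟨_, rfl⟩
  obtain ⟨L0, hL0⟩ : ∃ L0 : ℝ, L0 = 9 * (Λ0 + 1) := ⟨_, rfl⟩
  obtain ⟨c0, hc0⟩ : ∃ c0 : ℝ, c0 = 1 / (6000 * (1 + L0) ^ 2) := ⟨_, rfl⟩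
  obtain ⟨W, hW⟩ : ∃ W : ℝ, W = Cf * K ^ 32 := ⟨_, rfl⟩
  have hK1 : 1 ≤ K := by linarith
  have hW1 : 1 ≤ W := hW ▸ one_le_mul_of_one_le_of_one_le hCf (one_le_pow₀ hK1)
  have hL09 : 9 ≤ L0 := by linarith
  have hc0p : 0 < c0 := by rw [hc0]; positivity
  have hc01 : c0 ≤ 1 := by
    rw [hc0, div_le_one (by positivity)]; nlinarith
  refine ⟨c0 / (320 * W ^ 3), c0 / 8, 4 * (16 * W ^ 2 + 1),
    min (1 / (1 + L0) ^ 2) (1 / (10 ^ 5 * (2 * L0 + 20 * L0 ^ 2) ^ 3)), by positivity,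
    by positivity, by positivity, by positivity, ?_⟩
  intro Λ δ ε Φ0 a ψ p h hδ hΛ hcase hw hs
  obtain ⟨η, hη⟩ : ∃ η : ℝ, η = c0 / (320 * W ^ 3) := ⟨_, rfl⟩
  have hp := h.rho_pos
  have hε := h.eps_pos
  have hε1 := h.eps_le
  have hΛ' := h.lam
  have hη0 : 0 ≤ η := by rw [hη]; positivity
  have hη1 : η ≤ 1 / 320 := by
    have hW3 : 1 ≤ W ^ 3 := one_le_pow₀ hW1
    rw [hη]; exact div_le_div₀ (by norm_num) hc01 (by norm_num) (by linarith)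
  have hδ1 : δ ≤ η * ε := hδ.trans (by
    have := pow_le_pow_of_le_one hε.le hε1 (show 1 ≤ 100 by norm_num)
    rw [pow_one] at this; rw [← hη]; gcongr)
  have hδ2 : δ ≤ 1 := hδ1.trans (mul_le_one₀ (by linarith) hε.le hε1)
  obtain ⟨c1, c2⟩ := side_conditions hΛ' hΛ hη0 hη1 hε hε1 hL0 hcase
  obtain ⟨σ, hσ⟩ : ∃ σ, σ = 1 / (1 - sF (fun z => Φ0 z + ψ z) p) := ⟨_, rfl⟩
  obtain ⟨M, hM⟩ : ∃ M, M = jetAt
    (fun z => ε * phi0 z + ε ^ 2 * -Real.log (1 - sF (fun z => Φ0 z + ψ z) z)) p := ⟨_, rfl⟩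
  obtain ⟨hσ1, mpos, mlow, mvert, m1, m2, mgrad⟩ :=
    h.model_props hw hs hη0 (by linarith) hδ1 hσ c1 c2 M hM
  have hν : ∀ v, 0 ≤ M.nu v := fun v => nuF_nonneg _ v
  have hνI : ∀ v, M.nu (I • v) = M.nu v := fun v => nuF_I _ v
  obtain ⟨b1, b2⟩ := h.crude hCf hfib hs hσ (K := K) (by linarith) hν m1 m2
  have sf := contDiffAt_logsF h.smφ hs
  have sM : ContDiffAt ℝ ∞
      (fun z => ε * phi0 z + ε ^ 2 * -Real.log (1 - sF (fun z => Φ0 z + ψ z) z)) p :=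
    (contDiffAt_const.mul (contDiffAt_phi0 hp)).add (contDiffAt_const.mul sf)
  have sP : ContDiffAt ℝ ∞ (fun z => (Φ0 z - ε * phi0 z) +
      (a z - a p) * -Real.log (1 - sF (fun z => Φ0 z + ψ z) z)) p :=
    h.smX0.add ((h.sma.sub contDiffAt_const).mul sf)
  obtain ⟨-, -, -, k3, k4⟩ := b1.jet hνI sM
  obtain ⟨d1, -, d2, d3, d4⟩ := b2.jet hνI sP
  rw [← hM] at k3 k4
  obtain ⟨P, hP⟩ : ∃ P, P = jetAt (fun z => (Φ0 z - ε * phi0 z) +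
    (a z - a p) * -Real.log (1 - sF (fun z => Φ0 z + ψ z) z)) p := ⟨_, rfl⟩
  rw [← hP] at d1 d2 d3 d4
  have hJ : jetAt (Phil Φ0 a fun z => Φ0 z + ψ z) p = M + P := by
    rw [hM, hP, ← jetAt_add sM sP]
    congr 1; funext z; rw [Phil, h.a_eq]; ring
  rw [hJ]
  have eW : 2 * Cf * K ^ 32 = 2 * W := by rw [hW]; ring
  rw [eW] at k3 k4 d1 d2 d3 d4
  refine good_of_model hp hε hε1 hσ1 hW1 hc01 h.del hδ ?_ (by positivity) hc0p mpos mlow mvert m2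
    mgrad k3 k4 d1 d2 d3 d4
  rw [hc0, one_div, inv_mul_le_iff₀ (by positivity), mul_one]
  have hL : 9 * (Λ + η) ≤ L0 := by rw [hL0]; linarith
  gcongr

end Crest.Agent.R245
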