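import Crest.Agent.R245.CalabiIneq
import Crest.Agent.R245.Chain
import Crest.Agent.R245.BaseBd
import Crest.Agent.R245.FibreBd

/-!
# R245 Local1: the jets of the model potential at a point with `w ≠ 0`
-/

set_option autoImplicit false
open scoped ComplexConjugate ContDiff Topology
open Complex (I)
open Filter

namespace Crest.Agent.R245

/-- the hypotheses on the base data at a point -/
structure Data (Λ δ ε : ℝ) (Φ0 a ψ : E → ℝ) (p : E) : Prop where
  rho_pos : 0 < rho p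
  sm0 : ContDiffAt ℝ ∞ Φ0 p
  sma : ContDiffAt ℝ ∞ a p
  smψ : ContDiffAt ℝ ∞ ψ p
  eps_pos : 0 < ε
  eps_le : ε ≤ 1
  lam : 0 ≤ Λ
  del : 0 ≤ δ
  a_eq : a p = ε ^ 2
  P0 : Bd1 (nuI p) p 3 (cx fun z => Φ0 z - ε * phi0 z) δ
  aB : Bd1 (nuI p) p 3 (cx a) δ
  psiB : Bd1 (nuI p) p 3 (cx ψ) (ε * Λ)
  psh : ∀ A, 0 ≤ ((jetAt ψ p).h2 A A).re

theorem nuI_SI_le {p : E} (hp : 0 < rho p) (A C : E) :
    nuI p (SI p A C) ≤ 2 * (nuI p A * nuI p C) := by
  have h := nuF_add_le (herm_IF p) (psd_IF hp) ((ip C p / rho p) • A) ((ip A p / rho p) • C)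
  rw [nuF_smul, nuF_smul] at h
  have e : ∀ D : E, ‖ip D p / (rho p : ℂ)‖ ≤ nuI p D := fun D => by
    rw [norm_div, Complex.norm_real, Real.norm_of_nonneg hp.le, div_le_iff₀ hp, mul_comm]
    exact norm_ip_le_nuI hp D
  have h1 := mul_le_mul_of_nonneg_right (e C) (nuI_nonneg p A)
  have h2 := mul_le_mul_of_nonneg_right (e A) (nuI_nonneg p C)
  rw [SI_apply]
  unfold nuI at *
  nlinarith

theorem nuI_add_smul_e2 {p : E} (hp : 0 < rho p) (v : E) (c : ℂ) : nuI p (v + c • e2) ≤ nuI p v := by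
  have h := nuF_add_le (herm_IF p) (psd_IF hp) v (c • e2)
  rw [nuF_smul] at h
  have h0 : nuF (IF p) e2 = 0 := nuI_e2 p
  rw [h0, mul_zero, add_zero] at h
  exact h

/-- the connection adapted to the ball metric and to `T` -/
noncomputable def SS (p : E) (T : Jet) : E →ₗ[ℂ] E →ₗ[ℂ] E :=
  LinearMap.mk₂ ℂ (fun A C => SI p A C + (p 2 * (T.h20 A C - T.h1 (SI p A C))) • e2)
    (by intros; simp only [map_add, LinearMap.add_apply]; module)
    (by intros; simp only [map_smul, LinearMap.smul_apply, smul_eq_mul]; module)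
    (by intros; simp only [map_add]; module)
    (by intros; simp only [map_smul, smul_eq_mul]; module)

theorem SS_apply (p : E) (T : Jet) (A C : E) :
    SS p T A C = SI p A C + (p 2 * (T.h20 A C - T.h1 (SI p A C))) • e2 := rfl

theorem SS_symm (p : E) (T : Jet) (A C : E) : SS p T A C = SS p T C A := by
  rw [SS_apply, SS_apply, SI_symm, T.h20_symm]

theorem ip_SS (p : E) (T : Jet) (A C B : E) : ip (SS p T A C) B = ip (SI p A C) B := by
  rw [SS_apply, ip_add_left, ip_smul_left]; simp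

theorem nuI_SS_le {p : E} (hp : 0 < rho p) (T : Jet) (A C : E) :
    nuI p (SS p T A C) ≤ 2 * (nuI p A * nuI p C) :=
  (nuI_add_smul_e2 hp _ _).trans (nuI_SI_le hp A C)

/-- shifted jets of a function with bounded jets -/
theorem shift_bound {p : E} (hp : 0 < rho p) (T X : Jet) {K : ℝ} (hK : 0 ≤ K)
    (h2 : ∀ A B, ‖X.h2 A B‖ ≤ K * (nuI p A * nuI p B))
    (h3 : ∀ A C B, ‖X.h3 A C B‖ ≤ K * (nuI p A * nuI p C * nuI p B))
    (h4 : ∀ A C B D, ‖X.h4 A C B D‖ ≤ K * (nuI p A * nuI p C * nuI p B * nuI p D)) :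
    (∀ A C B, ‖(X.shift (SS p T) (SS_symm p T)).h3 A C B‖ ≤
      9 * K * (nuI p A * nuI p C * nuI p B)) ∧
    ∀ A C B D, ‖(X.shift (SS p T) (SS_symm p T)).h4 A C B D‖ ≤
      9 * K * (nuI p A * nuI p C * nuI p B * nuI p D) := by
  have hn := nuI_nonneg p
  have hS := nuI_SS_le hp T
  constructor
  · intro A C B
    rw [Jet.shift_h3]
    refine (norm_sub_le _ _).trans ?_
    have a1 := h3 A C B
    have a2 : ‖X.h2 (SS p T A C) B‖ ≤ K * (2 * (nuI p A * nuI p C) * nuI p B) :=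
      (h2 _ _).trans (by gcongr; exacts [hn _, hS _ _])
    have a0 : 0 ≤ K * (nuI p A * nuI p C * nuI p B) := by
      have := hn A; have := hn B; have := hn C; positivity
    nlinarith
  · intro A C B D
    rw [Jet.shift_h4]
    have a1 := h4 A C B D
    have hA := hn A; have hB := hn B; have hC := hn C; have hD := hn D
    have a2 : ‖X.h3 A C (SS p T B D)‖ ≤ K * (nuI p A * nuI p C * (2 * (nuI p B * nuI p D))) :=
      (h3 _ _ _).trans (by gcongr; exact hS _ _)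
    have a3 : ‖X.h3 B D (SS p T A C)‖ ≤ K * (nuI p B * nuI p D * (2 * (nuI p A * nuI p C))) :=
      (h3 _ _ _).trans (by gcongr; exact hS _ _)
    have a4 : ‖X.h2 (SS p T A C) (SS p T B D)‖ ≤
        K * (2 * (nuI p A * nuI p C) * (2 * (nuI p B * nuI p D))) :=
      (h2 _ _).trans (by gcongr; exacts [hn _, hS _ _, hS _ _])
    have t := norm_add_le (X.h4 A C B D - X.h3 A C (SS p T B D) - conj (X.h3 B D (SS p T A C)))
      (X.h2 (SS p T A C) (SS p T B D))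
    have t1 := norm_sub_le (X.h4 A C B D - X.h3 A C (SS p T B D)) (conj (X.h3 B D (SS p T A C)))
    have t2 := norm_sub_le (X.h4 A C B D) (X.h3 A C (SS p T B D))
    rw [Complex.norm_conj] at t1
    nlinarith

/-- the function `log |w|² + φ` -/
noncomputable def TT (φ : E → ℝ) (z : E) : ℝ := Real.log (‖z 2‖ ^ 2) + φ z

theorem exp_TT (φ : E → ℝ) {z : E} (hz : z 2 ≠ 0) : Real.exp (TT φ z) = sF φ z := by
  rw [TT, Real.exp_add, Real.exp_log (by positivity), sF]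

namespace Data
variable {Λ δ ε : ℝ} {Φ0 a ψ : E → ℝ} {p : E}

theorem smX0 (h : Data Λ δ ε Φ0 a ψ p) : ContDiffAt ℝ ∞ (fun z => Φ0 z - ε * phi0 z) p :=
  h.sm0.sub (contDiffAt_const.mul (contDiffAt_phi0 h.rho_pos))

theorem smφ (h : Data Λ δ ε Φ0 a ψ p) : ContDiffAt ℝ ∞ (fun z => Φ0 z + ψ z) p := h.sm0.add h.smψ

theorem X_bd (h : Data Λ δ ε Φ0 a ψ p) :
    Bd1 (nuI p) p 3 (cx fun z => (Φ0 z - ε * phi0 z) + ψ z) (δ + ε * Λ) := by
  have := h.P0.add (sm_cx h.smX0) (sm_cx h.smψ) h.psiB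
  refine this.congr (Eventually.of_forall fun z => ?_)
  simp [cx]

theorem phi_bd (h : Data Λ δ ε Φ0 a ψ p) :
    Bd1 (nuI p) p 3 (cx fun z => Φ0 z + ψ z) (6144 + δ + Λ) := by
  have h1 := (phi0_bd h.rho_pos).const_mul (sm_cx (contDiffAt_phi0 h.rho_pos)) (ε : ℂ)
  have h2 := h1.add (contDiffAt_const.mul (sm_cx (contDiffAt_phi0 h.rho_pos)))
    (sm_cx (h.smX0.add h.smψ)) h.X_bd
  refine (h2.congr (Eventually.of_forall fun z => ?_)).mono (nuI_nonneg p) ?_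
  · simp only [cx]; push_cast; ring
  · rw [Complex.norm_real, Real.norm_of_nonneg h.eps_pos.le]
    nlinarith [h.eps_le, h.lam]

theorem jet_phi (h : Data Λ δ ε Φ0 a ψ p) :
    jetAt (fun z => Φ0 z + ψ z) p =
      ε • jetAt phi0 p + jetAt (fun z => (Φ0 z - ε * phi0 z) + ψ z) p := by
  rw [← jetAt_smul (contDiffAt_phi0 h.rho_pos),
    ← jetAt_add (contDiffAt_const.mul (contDiffAt_phi0 h.rho_pos)) (h.smX0.add h.smψ)]
  congr 1; funext z; ring

theorem smT (h : Data Λ δ ε Φ0 a ψ p) (hw : p 2 ≠ 0) :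
    ContDiffAt ℝ ∞ (TT fun z => Φ0 z + ψ z) p := (jet_logw hw).1.add h.smφ

theorem jet_T (h : Data Λ δ ε Φ0 a ψ p) (hw : p 2 ≠ 0) :
    jetAt (TT fun z => Φ0 z + ψ z) p =
      jetAt (fun z : E => Real.log (‖z 2‖ ^ 2)) p + jetAt (fun z => Φ0 z + ψ z) p :=
  jetAt_add (jet_logw hw).1 h.smφ

theorem T_h1 (h : Data Λ δ ε Φ0 a ψ p) (hw : p 2 ≠ 0) (A : E) :
    (jetAt (TT fun z => Φ0 z + ψ z) p).h1 A = A 2 / p 2 + (jetAt (fun z => Φ0 z + ψ z) p).h1 A := by
  rw [h.jet_T hw, Jet.add_h1, (jet_logw hw).2.1]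

theorem T_h1_e2 (h : Data Λ δ ε Φ0 a ψ p) (hw : p 2 ≠ 0) :
    (jetAt (TT fun z => Φ0 z + ψ z) p).h1 e2 = 1 / p 2 := by
  have h1 := (h.phi_bd.jet (nuI_I p) h.smφ).1 e2
  rw [nuI_e2, mul_zero, norm_le_zero_iff] at h1
  rw [h.T_h1 hw, h1, e2_two, add_zero]

theorem calHyp (h : Data Λ δ ε Φ0 a ψ p) (hw : p 2 ≠ 0) {η σ : ℝ} (hη0 : 0 ≤ η) (hη : η ≤ 1 / 2)
    (hδ : δ ≤ η * ε) (hσ : 1 < σ) :
    CalHyp ((jetAt phi0 p).shift (SS p (jetAt (TT fun z => Φ0 z + ψ z) p)) (SS_symm _ _))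
      ((jetAt (TT fun z => Φ0 z + ψ z) p).shift (SS p (jetAt (TT fun z => Φ0 z + ψ z) p))
        (SS_symm _ _)) e2 ε (9 * (Λ + η)) σ := by
  set T := jetAt (TT fun z => Φ0 z + ψ z) p with hT
  set X := jetAt (fun z => (Φ0 z - ε * phi0 z) + ψ z) p with hX
  have hp := h.rho_pos
  obtain ⟨b1, b2, b3, b4⟩ := jet_phi0 hp (SS p T) (SS_symm _ _) (ip_SS p T)
  obtain ⟨-, -, l2, l3, l4⟩ := jet_logw hw
  obtain ⟨-, -, x2, x3, x4⟩ := h.X_bd.jet (nuI_I p) (h.smX0.add h.smψ)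
  have hK : 0 ≤ δ + ε * Λ := by have := h.del; have := h.eps_pos; have := h.lam; positivity
  obtain ⟨s3, s4⟩ := shift_bound hp T X hK x2 x3 x4
  have hTe : T = jetAt (fun z : E => Real.log (‖z 2‖ ^ 2)) p + (ε • jetAt phi0 p + X) := by
    rw [hT, h.jet_T hw, h.jet_phi]
  have hB2 : ∀ A B, ((jetAt phi0 p).shift (SS p T) (SS_symm _ _)).h2 A B = IF p A B :=
    fun A B => by rw [Jet.shift_h2, b2]
  have hnu : ∀ A, ((jetAt phi0 p).shift (SS p T) (SS_symm _ _)).nu A = nuI p A := fun A => by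
    simp only [Jet.nu, nuI, nuF, hB2]
  have hT2 : ∀ A B, (T.shift (SS p T) (SS_symm _ _)).h2 A B = ε * IF p A B + X.h2 A B :=
    fun A B => by
      rw [Jet.shift_h2]; conv_lhs => rw [hTe]
      rw [Jet.add_h2, Jet.add_h2, Jet.smul_h2, l2, b2, zero_add]
  have hT3 : ∀ A C B, (T.shift (SS p T) (SS_symm _ _)).h3 A C B =
      (X.shift (SS p T) (SS_symm _ _)).h3 A C B := fun A C B => by
    have e := congrArg (fun J : Jet => (J.shift (SS p T) (SS_symm _ _)).h3 A C B) hTe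
    simp only [Jet.shift_add, Jet.shift_smul, Jet.add_h3, Jet.smul_h3, b3] at e
    rw [e, Jet.shift_h3, l3, l2]; ring
  have hT4 : ∀ A C B D, (T.shift (SS p T) (SS_symm _ _)).h4 A C B D =
      ε * ((jetAt phi0 p).shift (SS p T) (SS_symm _ _)).h4 A C B D +
        (X.shift (SS p T) (SS_symm _ _)).h4 A C B D := fun A C B D => by
    have e := congrArg (fun J : Jet => (J.shift (SS p T) (SS_symm _ _)).h4 A C B D) hTe
    simp only [Jet.shift_add, Jet.shift_smul, Jet.add_h4, Jet.smul_h4] at e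
    rw [e, Jet.shift_h4 (jetAt (fun z : E => Real.log (‖z 2‖ ^ 2)) p), l4, l3, l3, l2]; simp
  have hX2 : ∀ A, X.h2 A A = (jetAt (fun z => Φ0 z - ε * phi0 z) p).h2 A A + (jetAt ψ p).h2 A A :=
    fun A => by rw [hX, jetAt_add h.smX0 h.smψ, Jet.add_h2]
  have hI : ∀ A, (IF p A A).re = nuI p A * nuI p A := fun A => by
    rw [← sq]; exact (nuF_sq (psd_IF hp) A).symm
  have h9 : 9 * (δ + ε * Λ) ≤ ε * (9 * (Λ + η)) := by nlinarith
  have hε := h.eps_pos
  refine ⟨fun A => by rw [hB2]; exact psd_IF hp A, fun A => by rw [hB2, IF_e2], fun A hA => ?_, b3,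
    fun A C A' C' => by rw [b4, hB2, hB2, hB2, hB2], fun A C => ?_, ?_, hε, h.eps_le,
    by have := h.lam; positivity, hσ, fun A => ?_, fun A => ?_, fun A C D => ?_,
    fun A C A' C' => ?_⟩
  · rw [hB2] at hA
    have h1 := nsq_le_nuI hp A
    rw [sq, ← hI, hA, mul_zero] at h1
    unfold nsq at h1
    have h0 : ‖A 0‖ = 0 := by nlinarith [sq_nonneg ‖A 0‖, sq_nonneg ‖A 1‖]
    have h1' : ‖A 1‖ = 0 := by nlinarith [sq_nonneg ‖A 0‖, sq_nonneg ‖A 1‖]
    refine ⟨A 2, ?_⟩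
    funext i
    fin_cases i <;> simp [e2, norm_eq_zero.1 h0, norm_eq_zero.1 h1']
  · rw [Jet.shift_h20, SS_apply, map_add, map_smul, hT, h.T_h1_e2 hw, smul_eq_mul]
    field_simp; ring
  · rw [Jet.shift_h1, hT, h.T_h1_e2 hw]; simpa using hw
  · rw [hB2, hT2, hX2, hI]
    have a1 := (h.P0.jet (nuI_I p) h.smX0).2.2.1 A A
    have a2 := (Complex.abs_re_le_norm _).trans a1
    have a3 := h.psh A
    have a4 := (abs_le.1 a2).1
    have a5 : 0 ≤ nuI p A * nuI p A := mul_self_nonneg _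
    have a6 : δ ≤ ε / 2 := by nlinarith
    simp only [Complex.add_re, Complex.re_ofReal_mul, hI]
    nlinarith
  · rw [hB2, hT2, hI]
    have a2 := (Complex.re_le_norm _).trans (x2 A A)
    have a5 : 0 ≤ nuI p A * nuI p A := mul_self_nonneg _
    simp only [Complex.add_re, Complex.re_ofReal_mul, hI]
    nlinarith
  · rw [hT3, hnu, hnu, hnu]
    refine (s3 A C D).trans ?_
    have := nuI_nonneg p A; have := nuI_nonneg p C; have := nuI_nonneg p D
    gcongr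
  · rw [hT4, add_sub_cancel_left, hnu, hnu, hnu, hnu]
    refine (s4 A C A' C').trans ?_
    have := nuI_nonneg p A; have := nuI_nonneg p C; have := nuI_nonneg p A'
    have := nuI_nonneg p C'
    gcongr

/-- the jet of the model potential -/
theorem jet_model (h : Data Λ δ ε Φ0 a ψ p) (hw : p 2 ≠ 0)
    (hs : sF (fun z => Φ0 z + ψ z) p < 1) {σ : ℝ} (hσ : σ = 1 / (1 - sF (fun z => Φ0 z + ψ z) p)) :
    jetAt (fun z => ε * phi0 z + ε ^ 2 * -Real.log (1 - sF (fun z => Φ0 z + ψ z) z)) p =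
      model (jetAt phi0 p) (jetAt (TT fun z => Φ0 z + ψ z) p) ε σ := by
  set φ : E → ℝ := fun z => Φ0 z + ψ z with hφ
  have hT0 : TT φ p < 0 := by
    rw [← Real.exp_lt_one_iff, exp_TT φ hw]; exact hs
  obtain ⟨c0, c1, c2, c3, c4⟩ := iteratedDeriv_calabi (ε ^ 2) hT0 σ (by rw [exp_TT φ hw, hσ])
  have hc := jetAt_comp (h.smT hw) c0
  rw [c1, c2, c3, c4] at hc
  have hne : ∀ᶠ z : E in 𝓝 p, z 2 ≠ 0 := (continuous_apply 2).continuousAt.eventually_ne hw
  have he : (fun z => ε ^ 2 * -Real.log (1 - sF φ z)) =ᶠ[𝓝 p]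
      fun z => -ε ^ 2 * Real.log (1 - Real.exp (TT φ z)) := by
    filter_upwards [hne] with z hz
    rw [exp_TT φ hz]; ring
  rw [jetAt_add (contDiffAt_const.mul (contDiffAt_phi0 h.rho_pos))
    (contDiffAt_const.mul (contDiffAt_logsF h.smφ hs)), jetAt_smul (contDiffAt_phi0 h.rho_pos),
    jetAt_congr he, hc, model]

end Data

theorem model_shift (B T : Jet) (ε σ : ℝ) (S : E →ₗ[ℂ] E →ₗ[ℂ] E) (hS : ∀ A C, S A C = S C A) :
    (model B T ε σ).shift S hS = model (B.shift S hS) (T.shift S hS) ε σ := by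
  rw [model, model, Jet.shift_add, Jet.shift_smul, Jet.shift_compose]

end Crest.Agent.R245
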