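import Crest.Agent.R245.Basic

/-!
# R245 SCV: a little several complex variables (TASK)
-/

set_option autoImplicit false
open scoped ComplexConjugate ContDiff Topology
open Complex (I)
open Filter

namespace Crest.Agent.R245

namespace SCVAux
open Metric MeasureTheory

theorem hasDerivAt_line {f : E → ℂ} {z v : E} {ζ : ℂ} (hf : DifferentiableAt ℂ f (z + ζ • v)) :
    HasDerivAt (fun ζ : ℂ => f (z + ζ • v)) (fderiv ℂ f (z + ζ • v) v) ζ := by
  have h1 : HasDerivAt (fun ζ : ℂ => z + ζ • v) v ζ := by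
    simpa using ((hasDerivAt_id ζ).smul_const v).const_add z
  exact hf.hasFDerivAt.comp_hasDerivAt ζ h1

theorem isOpen_line {U : Set E} (hU : IsOpen U) (z v : E) : IsOpen {ζ : ℂ | z + ζ • v ∈ U} :=
  hU.preimage (by fun_prop)

theorem diffOn_line {U : Set E} (hU : IsOpen U) {f : E → ℂ} (hf : DifferentiableOn ℂ f U)
    (z v : E) : DifferentiableOn ℂ (fun ζ : ℂ => f (z + ζ • v)) {ζ : ℂ | z + ζ • v ∈ U} :=
  fun _ hζ => (hasDerivAt_line (hf.differentiableAt (hU.mem_nhds hζ))).differentiableAt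
    |>.differentiableWithinAt

theorem line_mem {z v : E} {R r : ℝ} (hR : R * ‖v‖ ≤ r) {ζ : ℂ} (hζ : ζ ∈ closedBall (0 : ℂ) R) :
    z + ζ • v ∈ closedBall z r := by
  rw [mem_closedBall, dist_zero_right] at hζ
  rw [mem_closedBall, dist_eq_norm, add_sub_cancel_left, norm_smul]
  exact (mul_le_mul_of_nonneg_right hζ (norm_nonneg v)).trans hR

/-- Cauchy estimate for the Fréchet derivative -/
theorem norm_fderiv_le {U : Set E} (hU : IsOpen U) {f : E → ℂ} (hf : DifferentiableOn ℂ f U)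
    {z : E} {r M : ℝ} (hr : 0 < r) (hz : closedBall z r ⊆ U)
    (hM : ∀ w ∈ closedBall z r, ‖f w‖ ≤ M) : ‖fderiv ℂ f z‖ ≤ M / r := by
  have hM0 : 0 ≤ M := (norm_nonneg _).trans (hM z (mem_closedBall_self hr.le))
  refine ContinuousLinearMap.opNorm_le_bound _ (by positivity) fun v => ?_
  rcases eq_or_ne v 0 with rfl | hv
  · simp
  have hv' : 0 < ‖v‖ := norm_pos_iff.2 hv
  have hR : r / ‖v‖ * ‖v‖ ≤ r := le_of_eq (by field_simp)
  have hd : DiffContOnCl ℂ (fun ζ : ℂ => f (z + ζ • v)) (ball 0 (r / ‖v‖)) := by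
    refine DifferentiableOn.diffContOnCl ((diffOn_line hU hf z v).mono ?_)
    exact closure_ball_subset_closedBall.trans fun ζ hζ => hz (line_mem hR hζ)
  have h1 := Complex.norm_deriv_le_of_forall_mem_sphere_norm_le (by positivity) hd
    (fun ζ hζ => hM _ (line_mem hR (sphere_subset_closedBall hζ)))
  have h2 : DifferentiableAt ℂ f (z + (0 : ℂ) • v) := by
    simpa using hf.differentiableAt (hU.mem_nhds (hz (mem_closedBall_self hr.le)))
  rw [(hasDerivAt_line h2).deriv, zero_smul, add_zero] at h1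
  refine h1.trans (le_of_eq ?_)
  field_simp

end SCVAux

open SCVAux Metric MeasureTheory in
/-- Near `p ∈ U` (`closedBall p (3r) ⊆ U`, `‖f‖ ≤ M` there, `R ‖v‖ ≤ r`),
`fderiv ℂ f z v = (2πI)⁻¹ ∮_{|ζ| = R} ζ⁻² f (z + ζ • v)` (Cauchy formula for the derivative at `0` of
`ζ ↦ f (z + ζ • v)`). The integral is complex differentiable in `z` by
`hasFDerivAt_integral_of_dominated_of_fderiv_le` (or the interval integral version): `fderiv ℂ f` is
measurable (`measurable_fderiv`) and bounded by `M / r`-type constants on `ball p (2r)` by the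
Cauchy estimate along lines (`Complex.norm_deriv_le_of_forall_mem_sphere_norm_le`). -/
theorem differentiableOn_fderiv_apply {U : Set E} (hU : IsOpen U) {f : E → ℂ}
    (hf : DifferentiableOn ℂ f U) (v : E) : DifferentiableOn ℂ (fun z => fderiv ℂ f z v) U := by
  intro p hp
  obtain ⟨r', hr', hsub'⟩ := Metric.isOpen_iff.1 hU p hp
  obtain ⟨r, hr, hsub⟩ : ∃ r > 0, closedBall p (3 * r) ⊆ U :=
    ⟨r' / 4, by positivity, (closedBall_subset_ball (by linarith)).trans hsub'⟩
  obtain ⟨M, hM⟩ := (isCompact_closedBall p (3 * r)).exists_bound_of_continuousOn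
    (hf.continuousOn.mono hsub)
  obtain ⟨R, hR, hRv⟩ : ∃ R > 0, R * ‖v‖ ≤ r := by
    refine ⟨r / (‖v‖ + 1), by positivity, ?_⟩
    rw [div_mul_eq_mul_div, div_le_iff₀ (by positivity)]
    nlinarith
  have hm : ∀ z ∈ ball p r, ∀ ζ ∈ closedBall (0 : ℂ) R, closedBall (z + ζ • v) r ⊆
      closedBall p (3 * r) := fun z hz ζ hζ => by
    refine closedBall_subset_closedBall' ?_
    have h1 := mem_closedBall.1 (line_mem (z := z) hRv hζ)
    have h2 := mem_ball.1 hz
    linarith [dist_triangle (z + ζ • v) z p]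
  have hmU : ∀ z ∈ ball p r, ∀ ζ ∈ closedBall (0 : ℂ) R, z + ζ • v ∈ U := fun z hz ζ hζ =>
    hsub (hm z hz ζ hζ (mem_closedBall_self hr.le))
  have hc : ∀ θ : ℝ, circleMap 0 R θ ∈ closedBall (0 : ℂ) R := fun θ =>
    circleMap_mem_closedBall 0 hR.le θ
  set c : ℝ → ℂ := fun θ => deriv (circleMap 0 R) θ * ((circleMap 0 R θ - 0) ^ 2)⁻¹ with hcdef
  have hcc : Continuous c := by
    simp only [hcdef, deriv_circleMap]
    refine Continuous.mul (by fun_prop) (Continuous.inv₀ (by fun_prop) fun θ => ?_)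
    exact pow_ne_zero _ (sub_ne_zero.2 (circleMap_ne_center hR.ne'))
  obtain ⟨C, hC⟩ : ∃ C, ∀ θ, ‖c θ‖ ≤ C := ⟨R * (R ^ 2)⁻¹, fun θ => by
    simp [hcdef, deriv_circleMap, abs_of_pos hR]⟩
  have hcont : ∀ z ∈ ball p r, Continuous fun θ : ℝ => c θ • f (z + circleMap 0 R θ • v) :=
    fun z hz => hcc.smul (hf.continuousOn.comp_continuous (by fun_prop) fun θ => hmU z hz _ (hc θ))
  have key : HasFDerivAt
      (fun z => ∫ θ in (0 : ℝ)..2 * Real.pi, c θ • f (z + circleMap 0 R θ • v))
      (∫ θ in (0 : ℝ)..2 * Real.pi, c θ • fderiv ℂ f (p + circleMap 0 R θ • v)) p := by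
    refine intervalIntegral.hasFDerivAt_integral_of_dominated_of_fderiv_le
      (F := fun z θ => c θ • f (z + circleMap 0 R θ • v))
      (F' := fun z θ => c θ • fderiv ℂ f (z + circleMap 0 R θ • v)) (bound := fun _ => C * (M / r))
      (ball_mem_nhds p hr) ?_ ((hcont p (mem_ball_self hr)).intervalIntegrable _ _) ?_ ?_
      intervalIntegrable_const ?_
    · filter_upwards [ball_mem_nhds p hr] with z hz using (hcont z hz).aestronglyMeasurable
    · refine hcc.aestronglyMeasurable.smul (Measurable.aestronglyMeasurable ?_)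
      exact (measurable_fderiv ℂ f).comp (Continuous.measurable (by fun_prop))
    · refine Eventually.of_forall fun θ _ z hz => ?_
      rw [norm_smul]
      exact mul_le_mul (hC θ) (norm_fderiv_le hU hf hr ((hm z hz _ (hc θ)).trans hsub)
        fun w hw => hM w (hm z hz _ (hc θ) hw)) (norm_nonneg _) ((norm_nonneg _).trans (hC θ))
    · refine Eventually.of_forall fun θ _ z hz => ?_
      have h1 := (hf.differentiableAt (hU.mem_nhds (hmU z hz _ (hc θ)))).hasFDerivAt
      exact ((hasFDerivAt_comp_add_right _).2 h1).const_smul (c θ)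
  refine DifferentiableAt.differentiableWithinAt ?_
  refine (key.differentiableAt.const_smul (2 * Real.pi * I : ℂ)⁻¹).congr_of_eventuallyEq ?_
  filter_upwards [ball_mem_nhds p hr] with z hz
  have h1 := Complex.two_pi_I_inv_smul_circleIntegral_sub_sq_inv_smul_of_differentiable
    (isOpen_line hU z v) (c := 0) (w₀ := 0) (R := R) (fun ζ hζ => hmU z hz ζ hζ)
    (diffOn_line hU hf z v) (mem_ball_self hR)
  have h2 : DifferentiableAt ℂ f (z + (0 : ℂ) • v) :=
    hf.differentiableAt (hU.mem_nhds (hmU z hz 0 (mem_closedBall_self hR.le)))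
  rw [(hasDerivAt_line h2).deriv, zero_smul, add_zero] at h1
  rw [← h1, circleIntegral]
  simp only [hcdef, smul_smul, Pi.smul_apply]

open SCVAux Metric in
/-- Identity theorem. If `ball z r ⊆ U` and `f = 0` near some `z' ∈ ball z r`, then `f = 0` on the
ball: for `z''` in the ball, `ζ ↦ f (z' + ζ • (z'' - z'))` is holomorphic on the convex open set
of `ζ` mapped into the ball, which contains `0` and `1`. So `{z | f = 0 near z}` is open and
relatively closed in `U` (`IsPreconnected.subset_of_closure_inter_subset`). -/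
theorem eqOn_zero_of_eventually {U : Set E} (hU : IsOpen U) (hc : IsPreconnected U) {f : E → ℂ}
    (hf : DifferentiableOn ℂ f U) {p : E} (hp : p ∈ U) (h0 : ∀ᶠ z in 𝓝 p, f z = 0) :
    ∀ z ∈ U, f z = 0 := by
  have ball0 : ∀ z r z', ball z r ⊆ U → z' ∈ ball z r → (∀ᶠ w in 𝓝 z', f w = 0) →
      ∀ z'' ∈ ball z r, f z'' = 0 := fun z r z' hsub hz' h z'' hz'' => by
    have hV : IsOpen {ζ : ℂ | z' + ζ • (z'' - z') ∈ ball z r} := isOpen_line isOpen_ball _ _
    have hconv : Convex ℝ {ζ : ℂ | z' + ζ • (z'' - z') ∈ ball z r} := by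
      intro a ha b hb s t hs ht hst
      have := convex_ball z r ha hb hs ht hst
      have e : s • (z' + a • (z'' - z')) + t • (z' + b • (z'' - z')) =
          z' + (s • a + t • b) • (z'' - z') := by
        rw [smul_add, smul_add, add_add_add_comm, ← add_smul, hst, one_smul, add_smul, smul_assoc,
          smul_assoc]
      rwa [e] at this
    have han := (diffOn_line isOpen_ball (hf.mono hsub) z' (z'' - z')).analyticOnNhd hV
    have h00 : (0 : ℂ) ∈ {ζ : ℂ | z' + ζ • (z'' - z') ∈ ball z r} := by simpa using hz'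
    have h01 : (1 : ℂ) ∈ {ζ : ℂ | z' + ζ • (z'' - z') ∈ ball z r} := by simpa using hz''
    have hev : (fun ζ : ℂ => f (z' + ζ • (z'' - z'))) =ᶠ[𝓝 0] 0 := by
      have ht : Tendsto (fun ζ : ℂ => z' + ζ • (z'' - z')) (𝓝 0) (𝓝 z') :=
        Continuous.tendsto' (by fun_prop) _ _ (by simp)
      exact ht.eventually h
    simpa using han.eqOn_zero_of_preconnected_of_eventuallyEq_zero hconv.isPreconnected h00 hev h01
  have hS : IsOpen {z : E | ∀ᶠ w in 𝓝 z, f w = 0} := isOpen_setOfPred_eventually_nhds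
  have := hc.subset_of_closure_inter_subset hS ⟨p, hp, h0⟩ (by
    rintro z ⟨hz, hzU⟩
    obtain ⟨r, hr, hsub⟩ := Metric.isOpen_iff.1 hU z hzU
    obtain ⟨z', hz', hz''⟩ := Metric.mem_closure_iff.1 hz r hr
    filter_upwards [ball_mem_nhds z hr] with w hw
    exact ball0 z r z' hsub (mem_ball'.2 hz'') hz' w hw)
  exact fun z hz => (this hz).self_of_nhds

namespace SCVAux

/-- iterated derivative in the direction `v` -/
noncomputable def itD (v : E) (k : ℕ) (f : E → ℂ) : E → ℂ :=
  (fun (F : E → ℂ) (z : E) => fderiv ℂ F z v)^[k] f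

theorem itD_succ (v : E) (k : ℕ) (f : E → ℂ) :
    itD v (k + 1) f = fun z => fderiv ℂ (itD v k f) z v := Function.iterate_succ_apply' _ _ _

theorem itD_succ' (v : E) (k : ℕ) (f : E → ℂ) :
    itD v (k + 1) f = itD v k (itD v 1 f) := Function.iterate_succ_apply _ _ _

theorem diffOn_itD {W : Set E} (hW : IsOpen W) {f : E → ℂ} (hf : DifferentiableOn ℂ f W) (v : E)
    (k : ℕ) : DifferentiableOn ℂ (itD v k f) W := by
  induction k with
  | zero => exact hf
  | succ k ih => rw [itD_succ]; exact differentiableOn_fderiv_apply hW ih v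

theorem iteratedDeriv_line {W : Set E} (hW : IsOpen W) {f : E → ℂ} (hf : DifferentiableOn ℂ f W)
    (z v : E) (k : ℕ) : ∀ ζ : ℂ, z + ζ • v ∈ W →
      iteratedDeriv k (fun ζ : ℂ => f (z + ζ • v)) ζ = itD v k f (z + ζ • v) := by
  induction k with
  | zero => intro ζ _; rfl
  | succ k ih =>
    intro ζ hζ
    have e : iteratedDeriv k (fun ζ : ℂ => f (z + ζ • v)) =ᶠ[𝓝 ζ]
        fun ζ : ℂ => itD v k f (z + ζ • v) := by
      filter_upwards [(isOpen_line hW z v).mem_nhds hζ] with ζ' hζ' using ih ζ' hζ'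
    rw [iteratedDeriv_succ, e.deriv_eq, itD_succ,
      (hasDerivAt_line ((diffOn_itD hW hf v k).differentiableAt (hW.mem_nhds hζ))).deriv]

theorem update_eq (z : E) (w : ℂ) : Function.update z 2 0 + w • e2 = Function.update z 2 w := by
  ext i
  fin_cases i <;> simp [e2]

theorem update_mem_Cyl {z : E} (hz : z ∈ Cyl) (w : ℂ) : Function.update z 2 w ∈ Cyl := by
  simpa [Cyl, xx, rho, nsq] using hz

theorem differentiable_update : Differentiable ℂ fun z : E => Function.update z 2 (0 : ℂ) := by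
  refine differentiable_pi.2 fun i => ?_
  fin_cases i <;> simp <;> fun_prop

theorem sF_lt_one_iff (φ : E → ℝ) (z : E) : sF φ z < 1 ↔ ‖z 2‖ < Real.exp (-φ z / 2) := by
  rw [← sq_lt_sq₀ (norm_nonneg _) (Real.exp_pos _).le, ← Real.exp_nat_mul, sF,
    ← lt_div_iff₀ (Real.exp_pos _), one_div, ← Real.exp_neg]
  congr! 2
  push_cast
  ring

end SCVAux

open SCVAux Metric in
/-- Fibre coefficients. `D k = (fun F z => fderiv ℂ F z e2)^[k] f` is holomorphic on `W`;
`g k z = D k (update z 2 0)` (`update z 2 0 ∈ Cyl`, `sF φ = 0` there). For `z ∈ Cyl` the function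
`h w = f (update z 2 w)` is holomorphic and bounded by `B` on the disc `‖w‖ < exp (-φ z / 2)`, and
`iteratedDeriv k h w = D k (update z 2 w)` there (`update z 2 w = update z 2 0 + w • e2`). Cauchy
estimate on the circle of radius `exp (-φ z / 2) / 2`
(`Complex.norm_iteratedDeriv_le_of_forall_mem_sphere_norm_le`): `B' = k! * 2^k * B`. If all
`g k z = 0`, `k ≥ 1`, then `deriv h` is analytic on the disc with all derivatives zero at `0`, so it
vanishes near `0` (Taylor series, `Complex.taylorSeries_eq_on_ball`) and on the disc. -/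
theorem fibre_coeff {W : Set E} (hW : IsOpen W) {φ : E → ℝ}
    (hφ : ∀ z w, φ (Function.update z 2 w) = φ z) (hsub : ∀ z ∈ Cyl, sF φ z < 1 → z ∈ W)
    {f : E → ℂ} (hf : DifferentiableOn ℂ f W) {B : ℝ} (hB : ∀ z ∈ W, ‖f z‖ ≤ B) :
    ∃ g : ℕ → E → ℂ, (∀ k, DifferentiableOn ℂ (g k) Cyl) ∧
      (∀ k : ℕ, ∃ B' : ℝ, ∀ z ∈ Cyl, ‖g k z‖ ≤ B' * Real.exp (k * φ z / 2)) ∧
      (∀ z ∈ Cyl, z 2 = 0 → g 1 z = fderiv ℂ f z e2) ∧
      ∀ z ∈ Cyl, sF φ z < 1 → (∀ k, 1 ≤ k → g k z = 0) → fderiv ℂ f z e2 = 0 := by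
  have hmem : ∀ z ∈ Cyl, ∀ w ∈ ball (0 : ℂ) (Real.exp (-φ z / 2)),
      Function.update z 2 0 + w • e2 ∈ W := fun z hz w hw => by
    rw [update_eq]
    refine hsub _ (update_mem_Cyl hz w) ?_
    rw [sF_lt_one_iff, hφ]
    simpa using hw
  have hmem0 : ∀ z ∈ Cyl, Function.update z 2 0 ∈ W := fun z hz => by
    simpa using hmem z hz 0 (mem_ball_self (Real.exp_pos _))
  refine ⟨fun k z => itD e2 k f (Function.update z 2 0), fun k => ?_, fun k => ?_,
    fun z _ hz => ?_, fun z hz hs hg => ?_⟩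
  · exact (diffOn_itD hW hf e2 k).comp differentiable_update.differentiableOn hmem0
  · refine ⟨k.factorial * B * 2 ^ k, fun z hz => ?_⟩
    have hρ := Real.exp_pos (-φ z / 2)
    have hsub2 : closedBall (0 : ℂ) (Real.exp (-φ z / 2) / 2) ⊆ ball 0 (Real.exp (-φ z / 2)) :=
      closedBall_subset_ball (half_lt_self hρ)
    have hd : DiffContOnCl ℂ (fun ζ : ℂ => f (Function.update z 2 0 + ζ • e2))
        (ball 0 (Real.exp (-φ z / 2) / 2)) := by
      refine DifferentiableOn.diffContOnCl ((diffOn_line hW hf _ e2).mono ?_)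
      exact closure_ball_subset_closedBall.trans fun ζ hζ => hmem z hz ζ (hsub2 hζ)
    have h1 := Complex.norm_iteratedDeriv_le_of_forall_mem_sphere_norm_le k (half_pos hρ) hd
      (fun ζ hζ => hB _ (hmem z hz ζ (hsub2 (sphere_subset_closedBall hζ))))
    rw [iteratedDeriv_line hW hf _ e2 k 0 (hmem z hz 0 (mem_ball_self hρ)), zero_smul,
      add_zero] at h1
    refine h1.trans (le_of_eq ?_)
    have e : Real.exp (k * φ z / 2) = (Real.exp (-φ z / 2) ^ k)⁻¹ := by
      rw [← Real.exp_nat_mul, ← Real.exp_neg]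
      congr 1
      ring
    rw [e, div_pow]
    field_simp
  · show itD e2 1 f (Function.update z 2 0) = _
    rw [← hz, Function.update_eq_self]
    rfl
  · have hz2 : z 2 ∈ ball (0 : ℂ) (Real.exp (-φ z / 2)) := by
      simpa using (sF_lt_one_iff φ z).1 hs
    have hd : DifferentiableOn ℂ (fun ζ : ℂ => itD e2 1 f (Function.update z 2 0 + ζ • e2))
        (ball 0 (Real.exp (-φ z / 2))) :=
      (diffOn_line hW (diffOn_itD hW hf e2 1) _ e2).mono fun ζ hζ => hmem z hz ζ hζ
    have h1 := Complex.taylorSeries_eq_on_ball hd hz2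
    have h2 : ∀ k, iteratedDeriv k
        (fun ζ : ℂ => itD e2 1 f (Function.update z 2 0 + ζ • e2)) 0 = 0 := fun k => by
      rw [iteratedDeriv_line hW (diffOn_itD hW hf e2 1) _ e2 k 0
        (hmem z hz 0 (mem_ball_self (Real.exp_pos _))), zero_smul, add_zero, ← itD_succ']
      exact hg (k + 1) (Nat.le_add_left 1 k)
    simp only [h2, smul_zero, tsum_zero] at h1
    rw [update_eq, Function.update_eq_self] at h1
    exact h1.symm

end Crest.Agent.R245
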