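import Crest.Agent.R245.Cyl
import Crest.Agent.R245.Global2
import Crest.Agent.R245.Complete
import Crest.Agent.R245.Kill
import Crest.Agent.R245.SCV

/-!
# R245 Main: the two theorems
-/

set_option autoImplicit false
open scoped ComplexConjugate ContDiff Topology
open Complex (I)
open Filter

namespace Crest.Agent.R245
open Crest.GeometryTopology

/-- the metric `c · i∂∂̄Φ` on `UU` -/
theorem exists_good_metric {Φ0 a φ : E → ℝ} (hb : BaseOK Φ0 a φ) {c B : ℝ} (hc : 0 < c)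
    {up : Prop} (h : ∀ p ∈ UU φ, Fine c B up (jetAt (PhiG Φ0 a φ) p)) :
    ∃ g : HermitianMetricOn 3 (UU φ), g.IsKahler ∧ g.IsComplete ∧
      ∀ p ∈ UU φ, ∀ X Y,
        g.riem p X X * g.riem p Y Y - g.riem p X Y ^ 2 = c ^ 2 * (jetAt (PhiG Φ0 a φ) p).den X Y ∧
        g.sectional p X Y =
          -(jetAt (PhiG Φ0 a φ) p).num X Y / (c * (jetAt (PhiG Φ0 a φ) p).den X Y) := by
  have hU := isOpen_UU hb
  have hj : ∀ p ∈ UU φ, jetAt (fun z => c * PhiG Φ0 a φ z) p = c • jetAt (PhiG Φ0 a φ) p :=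
    fun p hp => jetAt_smul (contDiffAt_PhiG hb hp) c
  obtain ⟨g, hK, hr, hn⟩ := exists_metric hU (F := fun z => c * PhiG Φ0 a φ z)
    (fun p hp => contDiffAt_const.mul (contDiffAt_PhiG hb hp))
    (fun p hp => by rw [hj p hp]; exact Jet.pos_smul (h p hp).pos hc)
  obtain ⟨Θ, Ψ, h1, h2, h3, h4⟩ := exists_diffeo hb
  have hd : ∀ p ∈ UU φ, ∀ X Y, g.riem p X X * g.riem p Y Y - g.riem p X Y ^ 2 =
      c ^ 2 * (jetAt (PhiG Φ0 a φ) p).den X Y := fun p hp X Y => by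
    rw [hr p hp, hr p hp, hr p hp, ← Jet.den_smul, ← hj p hp]; rfl
  refine ⟨g, hK, isComplete_of hU g (fun p hp => contDiffAt_PhiG hb hp)
    (C := 10 / Real.sqrt c) (by positivity) (fun p hp X => ?_) (isCompact_sublevel hb)
    (of_diffeo h1 h2 h3 h4).2.2, fun p hp X Y => ⟨hd p hp X Y, ?_⟩⟩
  · rw [fderiv_eq_h1 (contDiffAt_PhiG hb hp), hr p hp, hj p hp, Jet.smul_h2, Complex.re_ofReal_mul,
      Real.sqrt_mul hc.le, abs_mul, abs_two]
    have a1 := (Complex.abs_re_le_norm _).trans ((h p hp).grad X)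
    have a2 : 0 < Real.sqrt c := Real.sqrt_pos.2 hc
    have e : 10 / Real.sqrt c * (Real.sqrt c * Real.sqrt ((jetAt (PhiG Φ0 a φ) p).h2 X X).re) =
        10 * (jetAt (PhiG Φ0 a φ) p).nu X := by
      unfold Jet.nu nuF; field_simp
    rw [e]; linarith
  · rw [HermitianMetricOn.sectional, hd p hp, hn p hp, hj p hp, Jet.num_smul (h p hp).pos hc]
    by_cases h0 : (jetAt (PhiG Φ0 a φ) p).den X Y = 0
    · simp [h0]
    · field_simp

/-- the base point used for the vanishing statements -/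
noncomputable def z0 : E := ![99999 / 100000, 0, 0]

theorem z0_two : z0 2 = 0 := rfl

theorem rho_z0 : rho z0 = 199999 / 10 ^ 10 := by
  simp only [rho, nsq, z0, Matrix.cons_val_zero, Matrix.cons_val_one]
  norm_num

theorem z0_re : (z0 0).re = 99999 / 100000 := by
  simp only [z0, Matrix.cons_val_zero]; norm_num

theorem mem_Cyl_of {z : E} (h1 : 19 / 20 < (z 0).re) (h2 : 0 < rho z) : z ∈ Cyl :=
  ⟨by unfold xx; linarith, h2⟩

theorem z0_mem_Cyl : z0 ∈ Cyl := mem_Cyl_of (by rw [z0_re]; norm_num) (by rw [rho_z0]; norm_num)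

theorem sF_z0 (φ : E → ℝ) : sF φ z0 < 1 := by simp [sF, z0_two]

theorem bound_of_isBounded {U : Set E} {f : E → ℂ} (h : Bornology.IsBounded (f '' U)) :
    ∃ B, ∀ z ∈ U, ‖f z‖ ≤ B := by
  obtain ⟨B, hB⟩ := h.exists_norm_le
  exact ⟨B, fun z hz => hB _ ⟨z, hz, rfl⟩⟩

section
variable {P : Par} {η e C0 L CG : ℝ}

theorem deriv_z0 (h : P.OK η e C0 L CG) (hsm : ∀ᶠ j in atTop, (1 : ℕ) * P.mu j * L ≤ 2)
    {f : E → ℂ} (hf : DifferentiableOn ℂ f (UU P.phi)) {B : ℝ} (hB : ∀ z ∈ UU P.phi, ‖f z‖ ≤ B) :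
    fderiv ℂ f z0 e2 = 0 := by
  obtain ⟨g, g1, g2, g3, -⟩ := fibre_coeff (isOpen_UU h.baseOK) P.phi_update
    (fun z hz hs => (mem_UU_of_Cyl hz).2 hs) hf hB
  obtain ⟨B', hB'⟩ := g2 1
  rw [← g3 z0 z0_mem_Cyl z0_two]
  exact h.kill le_rfl hsm (g1 1) hB' (by rw [z0_re]; norm_num) (by rw [rho_z0]; norm_num)
    (by rw [rho_z0]; norm_num)

theorem det_zero (h : P.OK η e C0 L CG) (hsm : ∀ᶠ j in atTop, (1 : ℕ) * P.mu j * L ≤ 2)
    (F : E → E) (hF : DifferentiableOn ℂ F (UU P.phi)) (hb : Bornology.IsBounded (F '' UU P.phi)) :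
    ∃ p ∈ UU P.phi, (fderiv ℂ F p).det = 0 := by
  have hz : z0 ∈ UU P.phi := (mem_UU_of_Cyl z0_mem_Cyl).2 (sF_z0 _)
  refine ⟨z0, hz, ?_⟩
  obtain ⟨B, hB⟩ := hb.exists_norm_le
  have hd : DifferentiableAt ℂ F z0 := hF.differentiableAt ((isOpen_UU h.baseOK).mem_nhds hz)
  have h0 : fderiv ℂ F z0 e2 = 0 := by
    funext i
    have h1 := deriv_z0 h hsm (f := fun z => F z i) (differentiableOn_pi.1 hF i) (B := B)
      fun z hz => (norm_le_pi_norm _ i).trans (hB _ ⟨z, hz, rfl⟩)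
    rw [fderiv_apply hd] at h1
    exact h1
  rw [ContinuousLinearMap.det, LinearMap.det_eq_zero_iff_ker_ne_bot, Submodule.ne_bot_iff]
  refine ⟨e2, h0, fun h => ?_⟩
  have := congrFun h 2
  simp at this

theorem deriv_e2_zero (h : P.OK η e C0 L CG) (hsm : ∀ k : ℕ, ∀ᶠ j in atTop, k * P.mu j * L ≤ 2)
    (hc : IsPreconnected (UU P.phi)) {f : E → ℂ} (hf : DifferentiableOn ℂ f (UU P.phi)) {B : ℝ}
    (hB : ∀ z ∈ UU P.phi, ‖f z‖ ≤ B) : ∀ z ∈ UU P.phi, fderiv ℂ f z e2 = 0 := by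
  have hU := isOpen_UU h.baseOK
  obtain ⟨g, g1, g2, -, g4⟩ := fibre_coeff hU P.phi_update
    (fun z hz hs => (mem_UU_of_Cyl hz).2 hs) hf hB
  have hz : z0 ∈ UU P.phi := (mem_UU_of_Cyl z0_mem_Cyl).2 (sF_z0 _)
  refine eqOn_zero_of_eventually hU hc (differentiableOn_fderiv_apply hU hf e2) hz ?_
  have c1 : Continuous fun z : E => (z 0).re := by fun_prop
  filter_upwards [hU.mem_nhds hz,
    c1.continuousAt.eventually_const_lt (show 19 / 20 < (z0 0).re by rw [z0_re]; norm_num),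
    continuous_rho.continuousAt.eventually_const_lt (show 0 < rho z0 by rw [rho_z0]; norm_num),
    continuous_rho.continuousAt.eventually_lt_const
      (show rho z0 < 1 / 10 ^ 4 by rw [rho_z0]; norm_num)] with z h0 h1 h2 h3
  have hzC := mem_Cyl_of h1 h2
  refine g4 z hzC ((mem_UU_of_Cyl hzC).1 h0) fun k hk => ?_
  obtain ⟨B', hB'⟩ := g2 k
  exact h.kill hk (hsm k) (g1 k) hB' h1 h2 h3

theorem liouville (h : P.OK η e C0 L CG) (hsm : ∀ k : ℕ, ∀ᶠ j in atTop, k * P.mu j * L ≤ 2)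
    (hc : IsPreconnected (UU P.phi)) (f : E → ℂ) (hf : DifferentiableOn ℂ f (UU P.phi))
    (hb : Bornology.IsBounded (f '' UU P.phi)) : ∀ p ∈ UU P.phi, ∀ q ∈ UU P.phi, f p = f q := by
  have hU := isOpen_UU h.baseOK
  obtain ⟨B, hB⟩ := bound_of_isBounded hb
  have key : ∀ L : E ≃L[ℂ] E, (∀ z ∈ UU P.phi, L z ∈ UU P.phi) → ∀ z ∈ UU P.phi,
      fderiv ℂ f (L z) (L e2) = 0 := by
    intro L hL z hz
    have h1 := deriv_e2_zero h hsm hc (f := f ∘ L) (hf.comp L.differentiableOn hL) (B := B)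
      (fun z hz => hB _ (hL z hz)) z hz
    rwa [L.comp_right_fderiv] at h1
  have hr : ∀ z ∈ UU P.phi, rot z ∈ UU P.phi := fun z hz => rot_mem_UU.2 hz
  have h0 : ∀ z ∈ UU P.phi, fderiv ℂ f z = 0 := by
    intro z hz
    have k2 := deriv_e2_zero h hsm hc hf hB z hz
    have k1 := key rot hr _ (hr _ (hr _ hz))
    have k0 := key (rot.trans rot) (fun z hz => hr _ (hr _ hz)) _ (hr _ hz)
    simp only [ContinuousLinearEquiv.trans_apply, rot_rot_rot] at k0 k1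
    ext v
    have hv : v = v 0 • rot (rot e2) + v 1 • rot e2 + v 2 • e2 := by
      funext i; fin_cases i <;> simp [e2]
    rw [hv]; simp [k0, k1, k2]
  intro p hp q hq
  exact hU.is_const_of_fderiv_eq_zero hc hf h0 hp hq

theorem exists_vertical (h : P.OK η 0 C0 L CG) {δ : ℝ} (hδ : 0 < δ) :
    ∃ p ∈ Cyl, p ∈ Dom P.phi ∧ p 2 ≠ 0 ∧ P.epsF p < δ := by
  obtain ⟨z, hz, hε⟩ := Par.exists_epsF_lt h.eps hδ
  have e0 : ∀ w, xx (Function.update z 2 w) = xx z := fun w => by simp [xx]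
  have e1 : ∀ w, rho (Function.update z 2 w) = rho z := fun w => by simp [rho, nsq]
  refine ⟨Function.update z 2 ((Real.exp (-P.phi z / 2) / 2 : ℝ) : ℂ),
    ⟨by rw [e0]; exact hz.1, by rw [e1]; exact hz.2⟩, ⟨by rw [e1]; exact hz.2, ?_⟩, ?_, ?_⟩
  · rw [sF, P.phi_update, Function.update_self, Complex.norm_real,
      Real.norm_of_nonneg (by positivity), div_pow, ← Real.exp_nat_mul, div_mul_eq_mul_div,
      ← Real.exp_add]
    have : ((2 : ℕ) : ℝ) * (-P.phi z / 2) + P.phi z = 0 := by push_cast; ring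
    rw [this]; norm_num
  · rw [Function.update_self]
    exact Complex.ofReal_ne_zero.2 (by positivity)
  · simpa only [Par.epsF, tt, e0, e1] using hε

end

theorem den_e2 (J : Jet) : J.den e2 (I • e2) = (J.h2 e2 e2).re ^ 2 := by
  have h := J.herm.im_self e2
  simp [Jet.den, DD, h]; ring

theorem main : ∃ e0 : ℝ, 0 < e0 ∧ ∀ e, 0 ≤ e → e ≤ e0 → ∃ U : Set E, IsOpen U ∧
    (∃ Θ Ψ : E → E, ContDiff ℝ ∞ Θ ∧ ContDiffOn ℝ ∞ Ψ U ∧ Set.range Θ = U ∧ ∀ x, Ψ (Θ x) = x) ∧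
    ∃ g : HermitianMetricOn 3 U, g.IsKahler ∧ g.IsComplete ∧
      (∀ p ∈ U, ∀ X Y, g.riem p X X * g.riem p Y Y - g.riem p X Y ^ 2 ≠ 0 →
        g.sectional p X Y ≤ -1) ∧
      (0 < e → ∃ B : ℝ, ∀ p ∈ U, ∀ X Y, g.riem p X X * g.riem p Y Y - g.riem p X Y ^ 2 ≠ 0 →
        -B ≤ g.sectional p X Y) ∧
      (e = 0 → ∀ B : ℝ, ∃ p ∈ U, ∃ X Y, g.riem p X X * g.riem p Y Y - g.riem p X Y ^ 2 ≠ 0 ∧
        g.sectional p X Y < B) ∧
      (∀ F : E → E, DifferentiableOn ℂ F U → Bornology.IsBounded (F '' U) →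
        ∃ p ∈ U, (fderiv ℂ F p).det = 0) ∧
      (e = 0 → ∀ f : E → ℂ, DifferentiableOn ℂ f U → Bornology.IsBounded (f '' U) →
        ∀ p ∈ U, ∀ q ∈ U, f p = f q) := by
  obtain ⟨c, B, e0, hc, hB, he0, H⟩ := exists_par
  refine ⟨e0, he0, fun e h0 h1 => ?_⟩
  obtain ⟨P, η, C0, L, CG, hP, hφe, hgood, k1, k2⟩ := H e h0 h1
  have hb := hP.baseOK
  have hf0 := fine_of_good hb hB (fun p hp => (Par.contDiffAt_epsF hP.eps hp).continuousAt)
    (Par.epsF_pos hP.eps) (Par.le_epsF hP.eps) hφe hgood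
  have hf := fine_global hb hf0
  obtain ⟨g, g1, g2, g3⟩ := exists_good_metric hb hc hf
  obtain ⟨Θ, Ψ, d1, d2, d3, d4⟩ := exists_diffeo hb
  have hden : ∀ p ∈ UU P.phi, ∀ X Y, g.riem p X X * g.riem p Y Y - g.riem p X Y ^ 2 ≠ 0 →
      0 < (jetAt (PhiG P.Phi0 P.aF P.phi) p).den X Y := fun p hp X Y h => by
    rw [(g3 p hp X Y).1] at h
    exact lt_of_le_of_ne (DD_nonneg (Jet.herm _) (PD.psd (hf p hp).pos) X Y)
      (right_ne_zero_of_mul h).symm
  refine ⟨UU P.phi, isOpen_UU hb, ⟨Θ, Ψ, d1, d2, d3, d4⟩, g, g1, g2, fun p hp X Y h => ?_,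
    fun he => ⟨B / e ^ 100 / c, fun p hp X Y h => ?_⟩, fun he B' => ?_, det_zero hP k1,
    fun he => liouville hP (k2 he) (of_diffeo d1 d2 d3 d4).1.isPreconnected⟩
  · have hd := hden p hp X Y h
    rw [(g3 p hp X Y).2, div_le_iff₀ (by positivity)]
    linarith [(hf p hp).lower X Y]
  · have hd := hden p hp X Y h
    rw [(g3 p hp X Y).2, le_div_iff₀ (by positivity)]
    have e1 : -(B / e ^ 100 / c) * (c * (jetAt (PhiG P.Phi0 P.aF P.phi) p).den X Y) =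
        -(B / e ^ 100 * (jetAt (PhiG P.Phi0 P.aF P.phi) p).den X Y) := by field_simp
    rw [e1]
    linarith [(hf p hp).upper he X Y]
  · subst he
    obtain ⟨p, hpC, hpD, hw, hε⟩ :=
      exists_vertical hP (δ := 1 / (2 * c * (|B'| + 1))) (by positivity)
    have hp : p ∈ UU P.phi := (mem_UU_of_Cyl hpC).2 hpD.2
    have hJ : jetAt (PhiG P.Phi0 P.aF P.phi) p = jetAt (Phil P.Phi0 P.aF P.phi) p :=
      jetAt_congr (PhiG_eq_of_Cyl hpC)
    have hv := (hgood p hpD hw).vert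
    rw [← hJ] at hv
    have hd : 0 < (jetAt (PhiG P.Phi0 P.aF P.phi) p).den e2 (I • e2) := by
      rw [den_e2]
      exact pow_pos ((hf p hp).pos e2 fun h => by simpa using congrFun h 2) 2
    refine ⟨p, hp, e2, I • e2, by rw [(g3 p hp _ _).1]; positivity, ?_⟩
    rw [(g3 p hp _ _).2, div_lt_iff₀ (by positivity)]
    have hl := (hf p hp).lower e2 (I • e2)
    generalize (jetAt (PhiG P.Phi0 P.aF P.phi) p).den e2 (I • e2) = D at *
    generalize (jetAt (PhiG P.Phi0 P.aF P.phi) p).num e2 (I • e2) = N at *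
    have hε0 := Par.epsF_pos hP.eps p
    have hε1 := Par.epsF_le_one hP.eps p
    generalize P.epsF p = ε at *
    have hN : 0 < N := lt_of_lt_of_le (by positivity) hl
    rw [lt_div_iff₀ (by positivity)] at hε
    have a1 : D ≤ 2 * ε * N := hv.trans (by nlinarith [mul_pos hε0 hN])
    have a2 : c * (|B'| + 1) * D ≤ c * (|B'| + 1) * (2 * ε * N) := by gcongr
    have a3 : c * (|B'| + 1) * (2 * ε * N) < N := by nlinarith
    have a4 : -|B'| * (c * D) ≤ B' * (c * D) := by gcongr; exact neg_abs_le B'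
    nlinarith [mul_pos hc hd]

end Crest.Agent.R245
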