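import Crest.Agent.R245.Basic

/-!
# R245 ParDef: the parameters and the functions `Φ₀, a, ψ, φ` on the base; the global domain
-/

set_option autoImplicit false
open scoped ComplexConjugate ContDiff Topology
open Complex (I)
open Filter

namespace Crest.Agent.R245

/-- the slowly decreasing function `ε` and its primitive `E` -/
structure EpsOK (eps Ef : ℝ → ℝ) (t0 η e : ℝ) : Prop where
  smooth : ContDiff ℝ ∞ eps
  deriv_E : ∀ t, HasDerivAt Ef (eps t) t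
  t0_nonneg : 0 ≤ t0
  eta_pos : 0 < η
  one : ∀ t, t ≤ t0 → eps t = 1
  E_id : ∀ t, t ≤ t0 → Ef t = t
  anti : Antitone eps
  pos : ∀ t, 0 < eps t
  lower : ∀ t, e ≤ eps t
  lim : Tendsto eps atTop (𝓝 e)
  E_top : Tendsto Ef atTop atTop
  der : ∀ k, 1 ≤ k → k ≤ 4 → ∀ t, |iteratedDeriv k eps t| ≤ η * eps t ^ 100
  expo : ∀ t, t0 ≤ t → Real.exp (-t / 2) ≤ η * eps t ^ 100

/-- the subharmonic profile with wells of depth `L` at `-99 + 2πi k` -/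
structure GOK (G : ℂ → ℝ) (C0 L CG : ℝ) : Prop where
  smooth : ContDiff ℝ ∞ G
  zero : ∀ s : ℂ, s.re ≤ -100 → G s = 0
  C0_nonneg : 0 ≤ C0
  le : ∀ s : ℂ, s.re ≤ 0 → G s ≤ C0
  well : ∀ k : ℤ, G (-99 + 2 * Real.pi * k * I) ≤ -L
  subh : ∀ s : ℂ, 0 ≤ iteratedFDeriv ℝ 2 G s ![1, 1] + iteratedFDeriv ℝ 2 G s ![I, I]
  CG_ge : 1 ≤ CG
  der : ∀ j, 1 ≤ j → j ≤ 4 → ∀ s : ℂ, s.re ≤ 0 → ‖iteratedFDeriv ℝ j G s‖ ≤ CG

/-- the data of the construction -/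
structure Par where
  eps : ℝ → ℝ
  Ef : ℝ → ℝ
  t0 : ℝ
  G : ℂ → ℝ
  nu : ℕ
  j0 : ℕ

namespace Par
variable (P : Par)

/-- `√N_j = ν ^ j` -/
noncomputable def hh (j : ℕ) : ℝ := (P.nu : ℝ) ^ j
/-- `N_j = ν ^ (2 j)` -/
noncomputable def NN (j : ℕ) : ℝ := P.hh j ^ 2
/-- `log λ`, `λ = ν²` -/
noncomputable def lg : ℝ := 2 * Real.log P.nu
noncomputable def ee (j : ℕ) : ℝ := P.eps ((j + 1) * P.lg)
noncomputable def mu (j : ℕ) : ℝ := 8 * P.lg * P.ee j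
/-- lattice points of mesh `ν ^ (-j)` in the base -/
noncomputable def xi (j : ℕ) (m : Fin 4 → ℤ) : E :=
  ![(m 0 + m 1 * I) / P.hh j, (m 2 + m 3 * I) / P.hh j, 0]
/-- the finite set of lattice points used at level `j`: coordinates in `[-2, 2]`, `re ξ₀ > 17/20` -/
noncomputable def Lam (j : ℕ) : Finset (Fin 4 → ℤ) :=
  (Fintype.piFinset fun _ => Finset.Icc (-(2 * (P.nu : ℤ) ^ j)) (2 * (P.nu : ℤ) ^ j)).filter
    fun m => 17 * (P.nu : ℤ) ^ j < 20 * m 0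
/-- the complex affine function `N (2 ⟨z, ξ⟩ - |ξ|² - 1)` -/
noncomputable def ell (j : ℕ) (m : Fin 4 → ℤ) (z : E) : ℂ :=
  P.NN j * (2 * ip z (P.xi j m) - nsq (P.xi j m) - 1)
noncomputable def psiL (j : ℕ) (z : E) : ℝ := ∑ m ∈ P.Lam j, P.G (P.ell j m z)
noncomputable def psi (z : E) : ℝ := ∑' j, if P.j0 ≤ j then P.mu j * P.psiL j z else 0
noncomputable def epsF (z : E) : ℝ := if 0 < xx z then P.eps (tt z) else 1
noncomputable def Phi0 (z : E) : ℝ :=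
  if 0 < xx z then P.Ef (tt z) - 2 * Real.log (xx z) else phi0 z
noncomputable def aF (z : E) : ℝ := P.epsF z ^ 2
noncomputable def phi (z : E) : ℝ := P.Phi0 z + P.psi z

/-- the compatibility of the constants -/
structure OK (η e C0 L CG : ℝ) : Prop where
  eps : EpsOK P.eps P.Ef P.t0 η e
  G : GOK P.G C0 L CG
  nu_ge : 1000 ≤ P.nu
  nu_CG : (10 ^ 11 * CG) ^ 2 ≤ P.nu
  eta_nu : 100 * P.nu * η ≤ 1
  j0_pos : 1 ≤ P.j0
  j0_t0 : P.t0 + 12 ≤ P.j0 * P.lg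
  L_ge : 6 * (3 + 21 ^ 4 * C0) ≤ L

end Par

/-- what the global construction needs to know about `Φ₀, a, φ` -/
structure BaseOK (Φ0 a φ : E → ℝ) : Prop where
  sm0 : ∀ p, 0 < rho p → ContDiffAt ℝ ∞ Φ0 p
  sma : ∀ p, 0 < rho p → ContDiffAt ℝ ∞ a p
  smφ : ∀ p, 0 < rho p → ContDiffAt ℝ ∞ φ p
  base : ∀ z w, φ (Function.update z 2 w) = φ z
  quiet : ∀ p, 0 < rho p → xx p ≤ 0 →
    ∀ᶠ z in 𝓝 p, Φ0 z = phi0 z ∧ a z = 1 ∧ φ z = phi0 z
  apos : ∀ p, 0 < rho p → 0 < a p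
  nonneg : ∀ p, 0 < rho p → 0 ≤ Φ0 p
  proper : ∀ R : ℝ, ∃ r, 0 < r ∧ ∀ z, 0 < rho z → Φ0 z ≤ R → r ≤ rho z ∧ r ≤ a z

/-- the cyclic permutation of coordinates `(z₀, z₁, z₂) ↦ (z₁, z₂, z₀)` -/
noncomputable def rot : E ≃L[ℂ] E :=
  (LinearEquiv.funCongrLeft ℂ ℂ (Equiv.addRight (1 : Fin 3))).toContinuousLinearEquiv

theorem rot_apply (z : E) (i : Fin 3) : rot z i = z (i + 1) := rfl
@[simp] theorem rot_zero (z : E) : rot z 0 = z 1 := rfl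
@[simp] theorem rot_one (z : E) : rot z 1 = z 2 := rfl
@[simp] theorem rot_two (z : E) : rot z 2 = z 0 := rfl
@[simp] theorem rot_rot_rot (z : E) : rot (rot (rot z)) = z := by
  funext i; fin_cases i <;> rfl

open Classical in
/-- `φ - φ₀` on the patch, `0` elsewhere -/
noncomputable def chi (φ : E → ℝ) (z : E) : ℝ := if z ∈ Cyl then φ z - phi0 z else 0

/-- the domain: the unit ball of `ℂ³` with three Hartogs pieces -/
def UU (φ : E → ℝ) : Set E :=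
  {z | ‖z 2‖ ^ 2 * Real.exp (chi φ z) + ‖z 0‖ ^ 2 * Real.exp (chi φ (rot z)) +
    ‖z 1‖ ^ 2 * Real.exp (chi φ (rot (rot z))) < 1}

open Classical in
/-- the global Kähler potential -/
noncomputable def PhiG (Φ0 a φ : E → ℝ) (z : E) : ℝ :=
  if rot z ∈ Cyl then Phil Φ0 a φ (rot z)
  else if rot (rot z) ∈ Cyl then Phil Φ0 a φ (rot (rot z)) else Phil Φ0 a φ z

end Crest.Agent.R245
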