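import Crest.Agent.R245.Eps
import Crest.Agent.R245.Chain

/-!
# R245 Psi1: lattice sums: finiteness, smoothness, support, counting, values (TASK)
-/

set_option autoImplicit false
open scoped ComplexConjugate ContDiff Topology
open Complex (I)
open Filter

namespace Crest.Agent.R245

namespace Psi1Aux

theorem nsq_sub (u v : E) : nsq (u - v) = nsq u + nsq v - 2 * (ip u v).re := by
  simp only [nsq, ip, Pi.sub_apply, Complex.sq_norm, Complex.normSq_apply, Complex.add_re,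
    Complex.sub_re, Complex.sub_im, Complex.mul_re, Complex.conj_re, Complex.conj_im]
  ring

theorem continuous_rho : Continuous rho := by unfold rho nsq; fun_prop

theorem continuous_xx : Continuous xx := by unfold xx; fun_prop

/-- the four real coordinates of `hh j • z` -/
noncomputable def cc (P : Par) (j : ℕ) (z : E) : Fin 4 → ℝ :=
  ![P.hh j * (z 0).re, P.hh j * (z 0).im, P.hh j * (z 1).re, P.hh j * (z 1).im]

theorem NN_nsq (P : Par) (j : ℕ) (hh : P.hh j ≠ 0) (m : Fin 4 → ℤ) (z : E) :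
    P.NN j * nsq (z - P.xi j m) = ∑ i, (cc P j z i - m i) ^ 2 := by
  simp only [nsq, Par.NN, Par.xi, cc, Fin.sum_univ_four, Pi.sub_apply, Complex.sq_norm,
    Complex.normSq_apply, Complex.sub_re, Complex.sub_im, Complex.div_ofReal_re,
    Complex.div_ofReal_im, Matrix.cons_val_zero, Matrix.cons_val_one, Matrix.cons_val]
  simp
  field_simp
  ring

theorem sum_cc (P : Par) (j : ℕ) (z : E) : ∑ i, cc P j z i ^ 2 = P.hh j ^ 2 * nsq z := by
  simp only [nsq, cc, Fin.sum_univ_four, Complex.sq_norm, Complex.normSq_apply,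
    Matrix.cons_val_zero, Matrix.cons_val_one, Matrix.cons_val]
  ring

end Psi1Aux

open Psi1Aux

namespace Par
variable {P : Par} {η e C0 L CG : ℝ}

theorem OK.psi1_nu (h : P.OK η e C0 L CG) : (1000 : ℝ) ≤ P.nu := by exact_mod_cast h.nu_ge

theorem OK.psi1_hh (h : P.OK η e C0 L CG) {j : ℕ} (hj : 1 ≤ j) : 1000 ≤ P.hh j :=
  h.psi1_nu.trans (le_self_pow₀ (by linarith [h.psi1_nu]) (by omega))

theorem OK.psi1_NN_mono (h : P.OK η e C0 L CG) {i j : ℕ} (hij : i ≤ j) : P.NN i ≤ P.NN j :=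
  pow_le_pow_left₀ (pow_nonneg (Nat.cast_nonneg _) _)
    (pow_le_pow_right₀ (by linarith [h.psi1_nu]) hij) 2

theorem psi1_NN_nonneg (P : Par) (j : ℕ) : 0 ≤ P.NN j := sq_nonneg _

theorem OK.one_le_hh (h : P.OK η e C0 L CG) (j : ℕ) : 1 ≤ P.hh j := by
  exact one_le_pow₀ (by linarith [h.psi1_nu])

theorem OK.lg_ge (h : P.OK η e C0 L CG) : 2 ≤ P.lg := by
  have : 1 ≤ Real.log P.nu := by
    rw [Real.le_log_iff_exp_le (by linarith [h.psi1_nu])]
    linarith [Real.exp_one_lt_d9, h.psi1_nu]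
  unfold lg; linarith

theorem OK.mu_pos (h : P.OK η e C0 L CG) (j : ℕ) : 0 < P.mu j := by
  exact mul_pos (by linarith [h.lg_ge]) (h.eps.pos _)

/-- `η ≤ 1 / (100 ν) ≤ 10⁻⁵` -/
theorem OK.eta_le (h : P.OK η e C0 L CG) : η ≤ 1 / 10 ^ 5 := by
  nlinarith [h.eta_nu, h.psi1_nu, h.eps.eta_pos]

/-- `nsq (z - ξ) = nsq z + nsq ξ - 2 re ⟨z, ξ⟩` -/
theorem re_ell (P : Par) (j : ℕ) (m : Fin 4 → ℤ) (z : E) :
    (P.ell j m z).re = -(P.NN j * (rho z + nsq (z - P.xi j m))) := by
  rw [ell, Complex.re_ofReal_mul, nsq_sub, rho]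
  simp
  ring

theorem ell_sub (P : Par) (j : ℕ) (m : Fin 4 → ℤ) (z z' : E) :
    P.ell j m z - P.ell j m z' = 2 * P.NN j * ip (z - z') (P.xi j m) := by
  simp only [ell, ip_sub_left]; ring

theorem contDiff_ell (P : Par) (j : ℕ) (m : Fin 4 → ℤ) : ContDiff ℝ ∞ (P.ell j m) := by
  unfold ell ip; fun_prop

theorem OK.contDiff_psiL (h : P.OK η e C0 L CG) (j : ℕ) : ContDiff ℝ ∞ (P.psiL j) := by
  exact ContDiff.sum fun m _ => h.G.smooth.comp (contDiff_ell P j m)

theorem OK.psiL_eq_zero (h : P.OK η e C0 L CG) {j : ℕ} {z : E} (hz : 100 ≤ P.NN j * rho z) :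
    P.psiL j z = 0 := by
  refine Finset.sum_eq_zero fun m _ => h.G.zero _ ?_
  rw [re_ell]
  nlinarith [mul_nonneg (P.psi1_NN_nonneg j) (nsq_nonneg (z - P.xi j m))]

/-- `tsum_eq_sum`; `NN` is monotone and `rho z > 0` -/
theorem OK.psi_eq_sum (h : P.OK η e C0 L CG) {J : ℕ} {z : E} (hz : 100 ≤ P.NN J * rho z) :
    P.psi z = ∑ j ∈ Finset.Ico P.j0 J, P.mu j * P.psiL j z := by
  have hr : 0 < rho z := by
    by_contra hle
    nlinarith [mul_nonneg (P.psi1_NN_nonneg J) (neg_nonneg.2 (not_lt.1 hle))]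
  rw [psi, tsum_eq_sum (s := Finset.Ico P.j0 J)]
  · exact Finset.sum_congr rfl fun j hj => if_pos (Finset.mem_Ico.1 hj).1
  · intro j hj
    split_ifs with h0
    · have hJ : J ≤ j := not_lt.1 fun h' => hj (Finset.mem_Ico.2 ⟨h0, h'⟩)
      rw [h.psiL_eq_zero (hz.trans (mul_le_mul_of_nonneg_right (h.psi1_NN_mono hJ) hr.le)), mul_zero]
    · rfl

/-- pick `J` with `100 < NN J * rho p`, an open condition -/
theorem OK.psi_eventuallyEq (h : P.OK η e C0 L CG) {p : E} (hp : 0 < rho p) :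
    ∃ J, P.psi =ᶠ[𝓝 p] fun z => ∑ j ∈ Finset.Ico P.j0 J, P.mu j * P.psiL j z := by
  obtain ⟨J, hJ⟩ := pow_unbounded_of_one_lt (100 / rho p)
    (show (1 : ℝ) < P.nu by linarith [h.psi1_nu])
  have h1 : 100 < P.NN J * rho p := by
    rw [← div_lt_iff₀ hp]
    exact hJ.trans_le (le_self_pow₀ (h.one_le_hh J) two_ne_zero)
  refine ⟨J, ?_⟩
  filter_upwards [((continuous_const.mul continuous_rho).tendsto p).eventually_const_lt h1]
    with z hz using h.psi_eq_sum hz.le

theorem OK.contDiffAt_psi (h : P.OK η e C0 L CG) {p : E} (hp : 0 < rho p) :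
    ContDiffAt ℝ ∞ P.psi p := by
  obtain ⟨J, hJ⟩ := h.psi_eventuallyEq hp
  exact (ContDiff.sum fun j _ => contDiff_const.mul (h.contDiff_psiL j)).contDiffAt.congr_of_eventuallyEq
    hJ

theorem psi_update (P : Par) (z : E) (w : ℂ) : P.psi (Function.update z 2 w) = P.psi z := by
  simp [psi, psiL, ell, ip]

theorem phi_update (P : Par) (z : E) (w : ℂ) : P.phi (Function.update z 2 w) = P.phi z := by
  rw [phi, phi, psi_update]
  simp [Phi0, xx, tt, phi0, rho, nsq]

/-- Support. If `G (ell j m z) ≠ 0` with `j ≥ j0 ≥ 1`, `m ∈ Lam j`, `rho z > 0`, then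
`NN j * rho z < 100` and `|z 0 - ξ 0| < 10 / hh j ≤ 1/100`, so `xx z > 17/20 - 1/100 - 4/5 = 1/25`.
Hence `psi = 0` on the open set `{0 < rho} ∩ ({xx < 1/25} ∪ {100 < NN j0 * rho})`. A point `p` outside
has `xx p ≥ 1/25`, `rho p ≤ 100 / NN j0`, so
`tt p ≥ j0 * lg - log (625 * 100) ≥ j0 * lg - 12` (`log NN j0 = j0 * lg`, `62500 ≤ e^12`). -/
theorem OK.psi_quiet (h : P.OK η e C0 L CG) {p : E} (hp : 0 < rho p)
    (hq : ¬(0 < xx p ∧ P.j0 * P.lg - 12 ≤ tt p)) : P.psi =ᶠ[𝓝 p] fun _ => 0 := by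
  by_cases hx : xx p < 1 / 25
  · filter_upwards [(continuous_rho.tendsto p).eventually_const_lt hp,
      (continuous_xx.tendsto p).eventually_lt_const hx] with z h1 h2
    have : ∀ j, (if P.j0 ≤ j then P.mu j * P.psiL j z else 0) = 0 := by
      intro j
      split_ifs with h0
      swap
      · rfl
      refine mul_eq_zero_of_right _ (Finset.sum_eq_zero fun m hm => h.G.zero _ ?_)
      have h3 := h.psi1_hh (h.j0_pos.trans h0)
      have h4 : 17 * P.hh j < 20 * (m 0 : ℝ) := by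
        unfold hh; exact_mod_cast (Finset.mem_filter.1 hm).2
      have h5 : (cc P j z 0 - m 0) ^ 2 ≤ ∑ i, (cc P j z i - m i) ^ 2 :=
        Finset.single_le_sum (f := fun i => (cc P j z i - m i) ^ 2) (fun _ _ => sq_nonneg _)
          (Finset.mem_univ 0)
      have h6 : cc P j z 0 = P.hh j * (z 0).re := rfl
      have h7 : P.hh j * (z 0).re ≤ P.hh j * (21 / 25) :=
        mul_le_mul_of_nonneg_left (by unfold xx at h2; linarith) (by linarith)
      rw [re_ell, mul_add, NN_nsq P j (by linarith)]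
      nlinarith [mul_nonneg (P.psi1_NN_nonneg j) h1.le]
    simp only [psi, this, tsum_zero]
  · have hx' : 1 / 25 ≤ xx p := not_lt.1 hx
    have ht : tt p < P.j0 * P.lg - 12 := not_le.1 fun h' => hq ⟨by linarith, h'⟩
    have hN : 0 < P.NN P.j0 := pow_pos (by linarith [h.one_le_hh P.j0]) 2
    have h1 : 100 < P.NN P.j0 * rho p := by
      by_contra hle
      have h2 := Real.log_le_log (mul_pos hN hp) (not_lt.1 hle)
      rw [Real.log_mul hN.ne' hp.ne', NN, hh, Real.log_pow, Real.log_pow] at h2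
      have h3 := Real.log_le_log (by norm_num) hx'
      have h4 : Real.log 100 - 2 * Real.log (1 / 25) ≤ 12 := by
        rw [show (2 : ℝ) = (2 : ℕ) by norm_num, ← Real.log_pow, ← Real.log_div (by norm_num)
          (by norm_num), Real.log_le_iff_le_exp (by norm_num), show (12 : ℝ) = (12 : ℕ) * 1 by norm_num,
          Real.exp_nat_mul]
        exact le_trans (by norm_num) (pow_le_pow_left₀ (by norm_num) Real.exp_one_gt_d9.le 12)
      unfold tt lg at ht
      push_cast at h2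
      linarith
    filter_upwards [((continuous_const.mul continuous_rho).tendsto p).eventually_const_lt h1]
      with z hz
    rw [h.psi_eq_sum hz.le]; simp

/-- Counting: each integer coordinate `m i` lies within `r` of the real number `hh j * (re/im z ·)`,
so in `Finset.Icc ⌈c - r⌉ ⌊c + r⌋`, of cardinality `≤ 2 r + 1`; `Fintype.card_piFinset`. -/
theorem OK.card_near (h : P.OK η e C0 L CG) (j r : ℕ) (z : E) :
    (((P.Lam j).filter fun m => P.NN j * nsq (z - P.xi j m) ≤ (r : ℝ) ^ 2).card : ℝ) ≤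
      (2 * r + 1) ^ 4 := by
  have hh0 : P.hh j ≠ 0 := by linarith [h.one_le_hh j]
  have hsub : ((P.Lam j).filter fun m => P.NN j * nsq (z - P.xi j m) ≤ (r : ℝ) ^ 2) ⊆
      Fintype.piFinset fun i => Finset.Icc ⌈cc P j z i - r⌉ ⌊cc P j z i + r⌋ := by
    intro m hm
    have h1 := (Finset.mem_filter.1 hm).2
    rw [NN_nsq P j hh0] at h1
    refine Fintype.mem_piFinset.2 fun i => ?_
    have h2 := abs_le.1 (abs_le_of_sq_le_sq ((Finset.single_le_sum
      (f := fun i => (cc P j z i - m i) ^ 2) (fun _ _ => sq_nonneg _) (Finset.mem_univ i)).trans h1)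
      (Nat.cast_nonneg r))
    exact Finset.mem_Icc.2 ⟨Int.ceil_le.2 (by linarith), Int.le_floor.2 (by linarith)⟩
  have h3 := Finset.card_le_card hsub
  rw [Fintype.card_piFinset] at h3
  have h4 : ∏ i : Fin 4, (Finset.Icc ⌈cc P j z i - r⌉ ⌊cc P j z i + r⌋).card ≤ (2 * r + 1) ^ 4 := by
    refine (Finset.prod_le_pow_card _ _ (2 * r + 1) fun i _ => ?_).trans (by simp)
    rw [Int.card_Icc, Int.toNat_le]
    have h5 := Int.floor_le (cc P j z i + r)
    have h6 := Int.le_ceil (cc P j z i - r)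
    have h7 : ((⌊cc P j z i + r⌋ + 1 - ⌈cc P j z i - r⌉ : ℤ) : ℝ) ≤ ((2 * r + 1 : ℕ) : ℤ) := by
      push_cast; linarith
    exact_mod_cast h7
  exact_mod_cast h3.trans h4

theorem OK.psi1_sum_le (h : P.OK η e C0 L CG) (j : ℕ) {z : E} (hz : 0 ≤ rho z)
    {s : Finset (Fin 4 → ℤ)} (hs : s ⊆ P.Lam j) : ∑ m ∈ s, P.G (P.ell j m z) ≤ 21 ^ 4 * C0 := by
  have hN := P.psi1_NN_nonneg j
  rw [← Finset.sum_filter_of_ne (p := fun m => P.NN j * nsq (z - P.xi j m) ≤ ((10 : ℕ) : ℝ) ^ 2)]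
  · refine (Finset.sum_le_card_nsmul _ _ C0 fun m _ => h.G.le _ ?_).trans ?_
    · rw [re_ell]
      exact neg_nonpos.2 (mul_nonneg hN (add_nonneg hz (nsq_nonneg _)))
    · rw [nsmul_eq_mul]
      refine mul_le_mul_of_nonneg_right (le_trans ?_ ((h.card_near j 10 z).trans (by norm_num)))
        h.G.C0_nonneg
      exact_mod_cast Finset.card_le_card (Finset.filter_subset_filter _ hs)
  · intro m _ hm
    by_contra hlt
    refine hm (h.G.zero _ ?_)
    rw [re_ell]
    push_cast at hlt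
    nlinarith [mul_nonneg hN hz]

/-- only the `≤ 21⁴` terms with `NN j * nsq (z - ξ) ≤ 100` can be nonzero, each is `≤ C0` -/
theorem OK.psiL_le (h : P.OK η e C0 L CG) (j : ℕ) {z : E} (hz : 0 ≤ rho z) :
    P.psiL j z ≤ 21 ^ 4 * C0 := by
  exact h.psi1_sum_le j hz subset_rfl

/-- on a well hyperplane one term is `≤ -L`, the others sum to `≤ 21⁴ C0` -/
theorem OK.psiL_le_well (h : P.OK η e C0 L CG) {j : ℕ} {z : E} (hz : 0 ≤ rho z)
    {m : Fin 4 → ℤ} (hm : m ∈ P.Lam j) {k : ℤ} (hk : P.ell j m z = -99 + 2 * Real.pi * k * I) :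
    P.psiL j z ≤ 21 ^ 4 * C0 - L := by
  have h1 := h.psi1_sum_le j hz (Finset.erase_subset m (P.Lam j))
  have h2 := h.G.well k
  rw [psiL, ← Finset.add_sum_erase _ _ hm, hk]
  linarith

/-- round the four real coordinates of `hh j • z` (`round`, `abs_sub_round`) -/
theorem OK.exists_near (h : P.OK η e C0 L CG) {j : ℕ} (hj : 1 ≤ j) {z : E} (hz : 0 ≤ rho z)
    (hre : 9 / 10 ≤ (z 0).re) : ∃ m ∈ P.Lam j, P.NN j * nsq (z - P.xi j m) ≤ 1 := by
  have h1 := h.psi1_hh hj
  have hr : ∀ i, |cc P j z i - round (cc P j z i)| ≤ 1 / 2 := fun i => abs_sub_round _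
  have hc : ∀ i, |cc P j z i| ≤ P.hh j := fun i => by
    refine abs_le_of_sq_le_sq ((Finset.single_le_sum (f := fun i => cc P j z i ^ 2)
      (fun _ _ => sq_nonneg _) (Finset.mem_univ i)).trans ?_) (by linarith)
    rw [sum_cc]
    exact mul_le_of_le_one_right (sq_nonneg _) (by unfold rho at hz; linarith)
  refine ⟨fun i => round (cc P j z i), Finset.mem_filter.2 ⟨Fintype.mem_piFinset.2 fun i => ?_, ?_⟩,
    ?_⟩
  · have h2 := abs_le.1 (hr i)
    have h3 := abs_le.1 (hc i)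
    have h4 : -(2 * P.hh j) ≤ round (cc P j z i) := by linarith
    have h5 : round (cc P j z i) ≤ 2 * P.hh j := by linarith
    unfold hh at h4 h5
    exact Finset.mem_Icc.2 ⟨by exact_mod_cast h4, by exact_mod_cast h5⟩
  · have h2 := abs_le.1 (hr 0)
    have h3 : P.hh j * (9 / 10) ≤ cc P j z 0 := mul_le_mul_of_nonneg_left hre (by linarith)
    have h4 : 17 * P.hh j < 20 * round (cc P j z 0) := by linarith
    unfold hh at h4
    exact_mod_cast h4
  · rw [NN_nsq P j (by linarith)]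
    refine (Finset.sum_le_card_nsmul _ _ ((1 / 2) ^ 2) fun i _ => sq_le_sq' (abs_le.1 (hr i)).1
      (abs_le.1 (hr i)).2).trans ?_
    simp only [Finset.card_univ, Fintype.card_fin, nsmul_eq_mul]
    norm_num

/-- `EpsOK.slow` -/
theorem OK.mu_le (h : P.OK η e C0 L CG) {i j : ℕ} (hij : i ≤ j) :
    P.mu i ≤ P.mu j * Real.sqrt P.nu ^ (j - i) := by
  have hl := h.lg_ge
  have h1 := h.eps.slow (s := (i + 1) * P.lg) (t := (j + 1) * P.lg)
    (mul_le_mul_of_nonneg_right (by exact_mod_cast Nat.succ_le_succ hij) (by linarith))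
  have h2 : Real.exp (η * P.lg) ≤ Real.sqrt P.nu := by
    refine Real.le_sqrt_of_sq_le ?_
    rw [← Real.exp_nat_mul, ← Real.le_log_iff_exp_le (by linarith [h.psi1_nu])]
    have := h.eta_le
    unfold lg at hl ⊢
    push_cast
    nlinarith
  have h3 : Real.exp (η * ((j + 1) * P.lg - (i + 1) * P.lg)) ≤ Real.sqrt P.nu ^ (j - i) := by
    refine le_trans (le_of_eq ?_) (pow_le_pow_left₀ (Real.exp_pos _).le h2 _)
    rw [← Real.exp_nat_mul, Nat.cast_sub hij]
    congr 1; ring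
  unfold mu ee
  rw [mul_assoc (8 * P.lg)]
  exact mul_le_mul_of_nonneg_left (h1.trans (mul_le_mul_of_nonneg_left h3 (h.eps.pos _).le))
    (by linarith)

end Par

end Crest.Agent.R245
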