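import Crest.Agent.R245.Psi1

/-!
# R245 Psi3: variation of `φ` from one level to the next (TASK)
-/

set_option autoImplicit false
open scoped ComplexConjugate ContDiff Topology
open Complex (I)
open Filter

namespace Crest.Agent.R245

namespace Par
variable {P : Par} {η e C0 L CG : ℝ}

/-- `G` is `CG`-Lipschitz on the convex set `re s ≤ 0`
(`Convex.norm_image_sub_le_of_norm_fderiv_le`, `norm_iteratedFDeriv_one`-type lemma) -/
theorem _root_.Crest.Agent.R245.GOK.lipschitz {G : ℂ → ℝ} (h : GOK G C0 L CG) {s s' : ℂ}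
    (hs : s.re ≤ 0) (hs' : s'.re ≤ 0) : |G s - G s'| ≤ CG * ‖s - s'‖ := by
  have hd : Differentiable ℝ G := h.smooth.differentiable (by simp)
  refine (convex_halfSpace_re_le 0).norm_image_sub_le_of_norm_fderiv_le (𝕜 := ℝ) (f := G)
    (fun x _ => hd x) (fun x hx => ?_) hs' hs
  have h1 := h.der 1 le_rfl (by norm_num) x hx
  rwa [← norm_iteratedFDeriv_fderiv, norm_iteratedFDeriv_zero] at h1

theorem _root_.Crest.Agent.R245.Psi3Aux.norm_ip_le {u v : E} {N a b : ℝ} (hN : 0 ≤ N) (ha : 0 ≤ a)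
    (hb : 0 ≤ b) (hu : N * nsq u ≤ a ^ 2) (hv : N * nsq v ≤ b ^ 2) : N * ‖ip u v‖ ≤ a * b := by
  refine abs_le_of_sq_le_sq' ?_ (by positivity) |>.2
  calc (N * ‖ip u v‖) ^ 2 = N ^ 2 * ‖ip u v‖ ^ 2 := by ring
    _ ≤ N ^ 2 * (nsq u * nsq v) := by gcongr; exact norm_ip_sq_le u v
    _ = (N * nsq u) * (N * nsq v) := by ring
    _ ≤ a ^ 2 * b ^ 2 :=
        mul_le_mul hu hv (mul_nonneg hN (nsq_nonneg v)) (sq_nonneg a)
    _ = (a * b) ^ 2 := by ring

theorem _root_.Crest.Agent.R245.Psi3Aux.geom (j : ℕ) :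
    ∀ n ≤ j, ∑ i ∈ Finset.range n, ((1 : ℝ) / 2) ^ (j - i) ≤ (1 / 2) ^ (j - n) := by
  intro n
  induction n with
  | zero => intro _; simp
  | succ n ih =>
    intro hn
    have h1 := ih (by omega)
    have h2 : ((1 : ℝ) / 2) ^ (j - n) = (1 / 2) ^ (j - (n + 1)) * (1 / 2) := by
      rw [← pow_succ]
      congr 1
      omega
    rw [Finset.sum_range_succ]
    linarith

/-- variation of one old level -/
theorem OK.psiL_sub_le (h : P.OK η e C0 L CG) {i j : ℕ} (hij : i ≤ j) {p q : E} (hp : 0 ≤ rho p)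
    (hq : 0 ≤ rho q) (h1 : P.NN j * nsq (q - p) ≤ 256) (h2 : P.NN j * ‖ip (q - p) p‖ ≤ 42) :
    P.psiL i q - P.psiL i p ≤ 53 ^ 4 * (CG * (916 / (P.nu : ℝ) ^ (j - i))) := by
  have hν : (1 : ℝ) ≤ P.nu := by exact_mod_cast le_trans (by norm_num) h.nu_ge
  set w : ℝ := (P.nu : ℝ) ^ (j - i) with hw
  have hw1 : 1 ≤ w := one_le_pow₀ hν
  have hw0 : 0 < w := by linarith
  have hN : 0 < P.NN i := by have := h.one_le_hh i; unfold NN; positivity
  have hNN : P.NN j = P.NN i * w ^ 2 := by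
    unfold NN hh
    rw [hw, ← mul_pow, ← pow_add, Nat.add_sub_cancel' hij]
  have hCG := h.G.CG_ge
  have h3 : P.NN i * nsq (q - p) ≤ (16 / w) ^ 2 := by
    rw [div_pow, le_div_iff₀ (by positivity)]
    rw [hNN] at h1
    linarith
  have h4 : P.NN i * ‖ip (q - p) p‖ ≤ 42 / w := by
    rw [le_div_iff₀ hw0]
    rw [hNN] at h2
    have h5 : 0 ≤ P.NN i * ‖ip (q - p) p‖ * w := by positivity
    nlinarith
  have hre : ∀ (m : Fin 4 → ℤ) (z : E), 0 ≤ rho z →
      (P.ell i m z).re ≤ -(P.NN i * nsq (z - P.xi i m)) := by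
    intro m z hz
    rw [re_ell]
    have := mul_nonneg hN.le hz
    linarith
  have hre0 : ∀ (m : Fin 4 → ℤ) (z : E), 0 ≤ rho z → (P.ell i m z).re ≤ 0 := fun m z hz =>
    (hre m z hz).trans (neg_nonpos.2 (mul_nonneg hN.le (nsq_nonneg _)))
  have key : ∀ m : Fin 4 → ℤ, P.G (P.ell i m q) - P.G (P.ell i m p) ≤
      if P.NN i * nsq (p - P.xi i m) ≤ ((26 : ℕ) : ℝ) ^ 2 then CG * (916 / w) else 0 := by
    intro m
    split_ifs with hm
    · refine (le_abs_self _).trans ((h.G.lipschitz (hre0 m q hq) (hre0 m p hp)).trans ?_)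
      refine mul_le_mul_of_nonneg_left ?_ (by linarith)
      have h5 : ip (q - p) (P.xi i m) = ip (q - p) p - ip (q - p) (p - P.xi i m) := by
        rw [ip_sub_right]; ring
      have h6 := Psi3Aux.norm_ip_le hN.le (by positivity) (by positivity) h3 hm
      have h7 := norm_sub_le (ip (q - p) p) (ip (q - p) (p - P.xi i m))
      rw [ell_sub, h5, norm_mul, norm_mul, Complex.norm_real, Real.norm_eq_abs, abs_of_pos hN,
        Complex.norm_ofNat]
      have h8 := mul_le_mul_of_nonneg_left h7 hN.le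
      have h9 : 916 / w = 2 * (42 / w + 16 / w * ((26 : ℕ) : ℝ)) := by push_cast; ring
      rw [h9]
      nlinarith
    · push_cast at hm
      rw [not_le] at hm
      have h5 : 100 ≤ P.NN i * nsq (q - P.xi i m) := by
        by_contra h5
        rw [not_le] at h5
        have h6 : P.NN i * nsq (q - p) ≤ 16 ^ 2 := by
          refine h3.trans ?_
          gcongr
          exact div_le_self (by norm_num) hw1
        have h7 := Psi3Aux.norm_ip_le (u := q - P.xi i m) (v := q - p) (a := 10) (b := 16) hN.le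
          (by norm_num) (by norm_num) (by linarith) h6
        have h8 : p - P.xi i m = (q - P.xi i m) + (-1 : ℂ) • (q - p) := by
          rw [neg_one_smul]; abel
        have h9 : nsq (p - P.xi i m) ≤
            nsq (q - P.xi i m) + nsq (q - p) + 2 * ‖ip (q - P.xi i m) (q - p)‖ := by
          rw [h8, nsq_add, nsq_smul, ip_smul_right]
          have := Complex.re_le_norm (conj (-1 : ℂ) * ip (q - P.xi i m) (q - p))
          rw [norm_mul] at this
          simp only [map_neg, map_one, norm_neg, norm_one, one_mul, one_pow] at this ⊢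
          linarith
        have h10 := mul_le_mul_of_nonneg_left h9 hN.le
        nlinarith
      rw [h.G.zero _ ((hre m q hq).trans (by linarith)),
        h.G.zero _ ((hre m p hp).trans (by linarith)), sub_zero]
  unfold psiL
  rw [← Finset.sum_sub_distrib]
  refine (Finset.sum_le_sum fun m _ => key m).trans ?_
  rw [← Finset.sum_filter, Finset.sum_const, nsmul_eq_mul]
  refine mul_le_mul_of_nonneg_right ((h.card_near i 26 p).trans (le_of_eq ?_)) (by positivity)
  norm_num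

/-- Old levels. For `i < j` a term `m` can be nonzero at `p` or `q` only if
`NN i * nsq (p - ξ) ≤ 26²` (`√nsq` is a seminorm: `10 / hh i + 16 / hh j ≤ 26 / hh i`); at most
`53⁴` such `m` (`card_near`). For those, `ell_sub` and `⟨q-p, ξ⟩ = ⟨q-p, p⟩ - ⟨q-p, p-ξ⟩` give
`‖ell q - ell p‖ ≤ 2 NN i (42 / NN j + 16 * 26 / (hh i * hh j)) ≤ 916 / ν^(j-i)`. With `mu_le`:
the sum is `≤ mu j * 916 * 53⁴ * CG * ∑_{k ≥ 1} (√ν)^(-k) ≤ mu j * 1.5 * 10^10 * CG / √ν ≤ mu j`
(`nu_CG`). -/
theorem OK.old_terms (h : P.OK η e C0 L CG) {j : ℕ} {p q : E} (hp : 0 ≤ rho p) (hq : 0 ≤ rho q)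
    (h1 : P.NN j * nsq (q - p) ≤ 256) (h2 : P.NN j * ‖ip (q - p) p‖ ≤ 42) :
    ∑ i ∈ Finset.Ico P.j0 j, P.mu i * P.psiL i q ≤
      ∑ i ∈ Finset.Ico P.j0 j, P.mu i * P.psiL i p + P.mu j := by
  have hCG := h.G.CG_ge
  have hμ := h.mu_pos j
  set r := Real.sqrt P.nu with hr
  have hr1 : 10 ^ 11 * CG ≤ r := Real.le_sqrt_of_sq_le h.nu_CG
  have hr2 : 2 ≤ r := by linarith
  have hrr : (P.nu : ℝ) = r * r := (Real.mul_self_sqrt (Nat.cast_nonneg _)).symm
  have key : ∀ i ∈ Finset.Ico P.j0 j,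
      P.mu i * P.psiL i q - P.mu i * P.psiL i p ≤ P.mu j * (1 / 2) ^ (j - i) := by
    intro i hi
    have hij := (Finset.mem_Ico.1 hi).2
    obtain ⟨k, hk⟩ : ∃ k, j - i = k + 1 := ⟨j - i - 1, by omega⟩
    have h3 := h.psiL_sub_le hij.le hp hq h1 h2
    have h4 := h.mu_le hij.le
    rw [← hr] at h4
    rw [hk] at h3 h4 ⊢
    have hν : (0 : ℝ) < (P.nu : ℝ) ^ (k + 1) := by rw [hrr]; positivity
    have h5 : (2 : ℝ) ^ k ≤ r ^ k := pow_le_pow_left₀ (by norm_num) hr2 k
    have h6 : 53 ^ 4 * (CG * 916) * 2 ^ (k + 1) ≤ r ^ (k + 1) := by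
      rw [pow_succ 2 k, pow_succ r k]
      have h7 : 53 ^ 4 * (CG * 916) * 2 ≤ r := by linarith
      calc 53 ^ 4 * (CG * 916) * (2 ^ k * 2) = 2 ^ k * (53 ^ 4 * (CG * 916) * 2) := by ring
        _ ≤ r ^ k * r := by gcongr
    calc P.mu i * P.psiL i q - P.mu i * P.psiL i p = P.mu i * (P.psiL i q - P.psiL i p) := by ring
      _ ≤ P.mu i * (53 ^ 4 * (CG * (916 / (P.nu : ℝ) ^ (k + 1)))) :=
          mul_le_mul_of_nonneg_left h3 (h.mu_pos i).le
      _ ≤ P.mu j * r ^ (k + 1) * (53 ^ 4 * (CG * (916 / (P.nu : ℝ) ^ (k + 1)))) :=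
          mul_le_mul_of_nonneg_right h4 (by positivity)
      _ = P.mu j * (53 ^ 4 * (CG * 916) / r ^ (k + 1)) := by
          rw [hrr, mul_pow]
          field_simp
      _ ≤ P.mu j * (1 / 2) ^ (k + 1) := by
          refine mul_le_mul_of_nonneg_left ?_ hμ.le
          rw [one_div, inv_pow, inv_eq_one_div, div_le_div_iff₀ (by positivity) (by positivity),
            one_mul]
          exact h6
  have h3 := Finset.sum_le_sum key
  rw [Finset.sum_sub_distrib, ← Finset.mul_sum] at h3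
  have h4 : ∑ i ∈ Finset.Ico P.j0 j, ((1 : ℝ) / 2) ^ (j - i) ≤ 1 := by
    refine le_trans (Finset.sum_le_sum_of_subset_of_nonneg (fun i hi => ?_)
      fun _ _ _ => by positivity) ((Psi3Aux.geom j j le_rfl).trans (by simp))
    exact Finset.mem_range.2 (Finset.mem_Ico.1 hi).2
  have h5 := mul_le_mul_of_nonneg_left h4 hμ.le
  linarith

/-- `1/10 ≤ xx ≤ 1/5` at both points. `concave`: `Ef (tt q) ≤ Ef (tt p) + eps (tt p) (tt q - tt p)`,
`tt q - tt p = 2 log (xx q / xx p) + lg ≤ 2 lg`. `tt p ≥ j lg - log 10⁴ ≥ j lg - 10`, so by `anti`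
and `slow`, `eps (tt p) ≤ ee j * exp (η (lg + 10)) ≤ 2 ee j` (`lg ≤ 2ν`, `100 ν η ≤ 1`). Finally
`2 log (xx p / xx q) ≤ 20 |xx p - xx q| ≤ 320 / hh j`, and `expo` at `t = (j+1) lg ≥ t0` gives
`1 / (ν hh j) ≤ η ee j`, so `320 / hh j ≤ 320 ν η ee j ≤ 4 lg ee j`. -/
theorem OK.Phi0_step (h : P.OK η e C0 L CG) {j : ℕ} (hj : P.j0 ≤ j) {p q : E}
    (hp : P.NN j * rho p = 100) (hq : P.NN (j + 1) * rho q = 100) (hxp : 9 / 10 ≤ (p 0).re)
    (hxq : 9 / 10 ≤ (q 0).re) (h1 : P.NN j * nsq (q - p) ≤ 256) :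
    P.Phi0 q ≤ P.Phi0 p + P.mu j := by
  have hν : (1000 : ℝ) ≤ P.nu := by exact_mod_cast h.nu_ge
  have hν0 : (0 : ℝ) < P.nu := by linarith
  have hlg := h.lg_ge
  have hη := h.eps.eta_pos
  have hην := h.eta_nu
  have hN : ∀ i, 0 < P.NN i := fun i => by have := h.one_le_hh i; unfold NN; positivity
  have hlogN : ∀ i : ℕ, Real.log (P.NN i) = i * P.lg := fun i => by
    unfold NN hh lg
    rw [Real.log_pow, Real.log_pow]
    push_cast
    ring
  have hlogρ : ∀ (i : ℕ) (z : E), P.NN i * rho z = 100 →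
      0 < rho z ∧ Real.log (rho z) = Real.log 100 - i * P.lg := by
    intro i z hz
    have h2 : 0 < rho z := by
      by_contra h2
      have := mul_nonpos_of_nonneg_of_nonpos (hN i).le (not_lt.1 h2)
      linarith
    refine ⟨h2, ?_⟩
    rw [← hz, Real.log_mul (hN i).ne' h2.ne', hlogN]
    ring
  have hx : ∀ z : E, 0 < rho z → xx z ≤ 1 / 5 := by
    intro z hz
    have h2 : ‖z 0‖ ≤ 1 := by
      unfold rho nsq at hz
      nlinarith [sq_nonneg ‖z 1‖, norm_nonneg (z 0)]
    have := Complex.re_le_norm (z 0)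
    unfold xx
    linarith
  obtain ⟨hρp, hlp⟩ := hlogρ j p hp
  obtain ⟨hρq, hlq⟩ := hlogρ (j + 1) q hq
  have hp1 : 1 / 10 ≤ xx p := by unfold xx; linarith
  have hq1 : 1 / 10 ≤ xx q := by unfold xx; linarith
  have hp2 := hx p hρp
  have hq2 := hx q hρq
  have hp0 : 0 < xx p := by linarith
  have hq0 : 0 < xx q := by linarith
  have hee : 0 < P.ee j := h.eps.pos _
  -- the logarithms of `xx`
  have a1 : Real.log (xx q) - Real.log (xx p) ≤ 1 := by
    rw [← Real.log_div hq0.ne' hp0.ne']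
    refine (Real.log_le_sub_one_of_pos (div_pos hq0 hp0)).trans ?_
    rw [sub_le_iff_le_add, div_le_iff₀ hp0]
    linarith
  have hh0 : 0 < P.hh j := lt_of_lt_of_le one_pos (h.one_le_hh j)
  have a2 : P.hh j * (xx p - xx q) ≤ 16 := by
    have b1 : xx p - xx q ≤ ‖(q - p) 0‖ := by
      have := Complex.re_le_norm (-(q - p) 0)
      rw [norm_neg] at this
      simp only [Pi.sub_apply, neg_sub, Complex.sub_re] at this ⊢
      unfold xx
      linarith
    have b2 : P.hh j * ‖(q - p) 0‖ ≤ 16 := by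
      refine abs_le_of_sq_le_sq' ?_ (by norm_num) |>.2
      unfold NN nsq at h1
      have := mul_nonneg (sq_nonneg (P.hh j)) (sq_nonneg ‖(q - p) 1‖)
      rw [mul_pow]
      rw [mul_add] at h1
      linarith
    exact (mul_le_mul_of_nonneg_left b1 hh0.le).trans b2
  have a3 : 100 ≤ P.hh j * P.ee j := by
    have hjl : (P.j0 : ℝ) ≤ j := by exact_mod_cast hj
    have b1 := h.eps.expo (((j : ℝ) + 1) * P.lg) (by
      have c1 := mul_le_mul_of_nonneg_right hjl (le_trans zero_le_two hlg)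
      have c2 := h.j0_t0
      rw [add_mul]
      linarith)
    have b2 : Real.exp (-(((j : ℝ) + 1) * P.lg) / 2) = (P.hh j * P.nu)⁻¹ := by
      have : -(((j : ℝ) + 1) * P.lg) / 2 = -Real.log (P.hh j * P.nu) := by
        unfold hh lg
        rw [← pow_succ, Real.log_pow]
        push_cast
        ring
      rw [this, Real.exp_neg, Real.exp_log (by positivity)]
    have b3 : P.ee j ^ 100 ≤ P.ee j :=
      pow_le_of_le_one hee.le (h.eps.le_one _) (by norm_num)
    have b4 : (P.hh j * P.nu)⁻¹ ≤ η * P.ee j := by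
      rw [← b2]
      exact b1.trans (mul_le_mul_of_nonneg_left b3 hη.le)
    rw [inv_le_iff_one_le_mul₀ (by positivity)] at b4
    have b5 := mul_le_mul_of_nonneg_left hην (mul_pos hh0 hee).le
    have b6 : P.hh j * P.ee j * (100 * P.nu * η) = 100 * (η * P.ee j * (P.hh j * P.nu)) := by ring
    linarith
  have a4 : Real.log (xx p) - Real.log (xx q) ≤ 2 * P.ee j := by
    rw [← Real.log_div hp0.ne' hq0.ne']
    refine (Real.log_le_sub_one_of_pos (div_pos hp0 hq0)).trans ?_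
    rw [sub_le_iff_le_add, div_le_iff₀ hq0]
    have b1 : xx p - xx q ≤ P.ee j / 5 := by
      refine le_of_mul_le_mul_left ?_ hh0
      rw [← mul_div_assoc]
      linarith
    have b2 := mul_le_mul_of_nonneg_left hq1 hee.le
    rw [add_mul, mul_assoc]
    linarith
  -- `eps (tt p)`
  have a5 : P.eps (tt p) ≤ 2 * P.ee j := by
    have b1 : -9 ≤ Real.log (xx p) := by
      have c1 : Real.log (1 / 10) ≤ Real.log (xx p) := Real.log_le_log (by norm_num) hp1
      have c2 := Real.log_le_sub_one_of_pos (show (0 : ℝ) < 10 by norm_num)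
      rw [one_div, Real.log_inv] at c1
      linarith
    have b2 := Real.log_le_sub_one_of_pos (show (0 : ℝ) < 100 by norm_num)
    have b3 : j * P.lg - 117 ≤ tt p := by
      unfold tt
      linarith
    have b4 := h.eps.slow (s := j * P.lg - 117) (t := (j + 1) * P.lg) (by linarith)
    have b5 : P.lg ≤ 2 * P.nu := by
      unfold lg
      linarith [Real.log_le_self hν0.le]
    have b6 : Real.exp (η * ((j + 1) * P.lg - (j * P.lg - 117))) ≤ 2 := by
      rw [← Real.le_log_iff_exp_le (by norm_num)]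
      have := Real.log_two_gt_d9
      have c1 := mul_le_mul_of_nonneg_left b5 hη.le
      have c2 := h.eta_le
      have c3 : η * ((j + 1) * P.lg - (j * P.lg - 117)) = η * P.lg + 117 * η := by ring
      have c4 : η * (2 * P.nu) = 100 * P.nu * η / 50 := by ring
      linarith
    refine (h.eps.anti b3).trans (b4.trans ?_)
    rw [mul_comm]
    exact mul_le_mul_of_nonneg_right b6 hee.le
  have a6 : tt q - tt p ≤ 2 * P.lg := by
    unfold tt
    push_cast at hlq
    linarith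
  have a7 := h.eps.concave (tt p) (tt q)
  have a8 : P.eps (tt p) * (tt q - tt p) ≤ 2 * P.ee j * (2 * P.lg) :=
    (mul_le_mul_of_nonneg_left a6 (h.eps.pos _).le).trans
      (mul_le_mul_of_nonneg_right a5 (by linarith))
  unfold Phi0 mu
  rw [if_pos hp0, if_pos hq0]
  have a9 := mul_le_mul_of_nonneg_left hlg hee.le
  have a10 : 2 * P.ee j * (2 * P.lg) = 4 * (P.ee j * P.lg) := by ring
  have a11 : 8 * P.lg * P.ee j = 8 * (P.ee j * P.lg) := by ring
  linarith

/-- `psi_eq_sum` at `p` with `J = j` and at `q` with `J = j + 1` -/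
theorem OK.phi_step (h : P.OK η e C0 L CG) {j : ℕ} (hj : P.j0 ≤ j) {p q : E}
    (hp : P.NN j * rho p = 100) (hq : P.NN (j + 1) * rho q = 100) (hxp : 9 / 10 ≤ (p 0).re)
    (hxq : 9 / 10 ≤ (q 0).re) (h1 : P.NN j * nsq (q - p) ≤ 256)
    (h2 : P.NN j * ‖ip (q - p) p‖ ≤ 42) :
    P.phi q ≤ P.phi p + P.mu j * (2 + P.psiL j q) := by
  have hρ : ∀ (i : ℕ) (z : E), P.NN i * rho z = 100 → 0 ≤ rho z := by
    intro i z hz
    have hN : 0 ≤ P.NN i := sq_nonneg _
    by_contra h2
    have := mul_nonpos_of_nonneg_of_nonpos hN (not_le.1 h2).le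
    linarith
  have a1 := h.old_terms (hρ _ _ hp) (hρ _ _ hq) h1 h2
  have a2 := h.Phi0_step hj hp hq hxp hxq h1
  unfold phi
  rw [h.psi_eq_sum hp.ge, h.psi_eq_sum hq.ge, Finset.sum_Ico_succ_top hj]
  linarith

end Par

end Crest.Agent.R245
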